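import Vale.Agent.helper4.GWDefs

/-!
The Poisson law and the law concentrated at one point.
-/

namespace Vale.Agent.helper4.GW

lemma poisson_nonneg {d : ℝ} (hd : 0 ≤ d) (k : ℕ) : 0 ≤ poisson d k := by
  unfold poisson
  positivity

lemma hasSum_pow_fact (d : ℝ) : HasSum (fun k : ℕ => d ^ k / (k.factorial : ℝ)) (Real.exp d) := by
  have := NormedSpace.expSeries_div_hasSum_exp (𝔸 := ℝ) d
  rwa [Real.exp_eq_exp_ℝ]

lemma poisson_hasSum (d : ℝ) : HasSum (poisson d) 1 := by
  have h := (hasSum_pow_fact d).mul_left (Real.exp (-d))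
  rw [← Real.exp_add] at h
  simp only [neg_add_cancel, Real.exp_zero] at h
  have e : poisson d = fun k : ℕ => Real.exp (-d) * (d ^ k / (k.factorial : ℝ)) := by
    funext k
    unfold poisson
    ring
  rw [e]
  exact h

lemma poisson_mean (d : ℝ) : HasSum (fun k : ℕ => (k : ℝ) * poisson d k) d := by
  have h := (poisson_hasSum d).mul_left d
  rw [mul_one] at h
  have e : (fun k : ℕ => d * poisson d k) = fun k : ℕ => ((k + 1 : ℕ) : ℝ) * poisson d (k + 1) := by
    funext k
    unfold poisson
    rw [Nat.factorial_succ]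
    have h1 : ((k + 1 : ℕ) : ℝ) ≠ 0 := by positivity
    have h2 : (k.factorial : ℝ) ≠ 0 := by positivity
    push_cast
    push_cast at h1
    field_simp
    ring
  rw [e] at h
  have := (hasSum_nat_add_iff (f := fun k : ℕ => (k : ℝ) * poisson d k) (g := d) 1).mp h
  simpa using this

lemma dirac_nonneg (d k : ℕ) : 0 ≤ dirac d k := by
  unfold dirac
  split_ifs <;> norm_num

lemma dirac_hasSum (d : ℕ) : HasSum (dirac d) 1 := hasSum_ite_eq d 1

lemma dirac_mean (d : ℕ) : HasSum (fun k : ℕ => (k : ℝ) * dirac d k) d := by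
  have e : (fun k : ℕ => (k : ℝ) * dirac d k) = fun k => if k = d then (d : ℝ) else 0 := by
    funext k
    unfold dirac
    split_ifs with h
    · rw [h, mul_one]
    · rw [mul_zero]
  rw [e]
  exact hasSum_ite_eq d _

end Vale.Agent.helper4.GW
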