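import Vale.Agent.helper4.PottsDefs

namespace Vale.Agent.helper4.GW

open Vale.Agent.helper4.Potts (potts)

/-- What the observer sees at depth `n` of a rooted tree with ordered children: at depth `0` the colour
of the root; at depth `n + 1` the number `k` of children of the root together with, for each child, what
is seen at depth `n` in the subtree of that child.  (If the tree dies out before depth `n`, then no colour
at all is recorded.) -/
def Cfg (q : ℕ) : ℕ → Type
  | 0 => Fin q
  | n + 1 => Σ k : ℕ, (Fin k → Cfg q n)

/-- At depth `0` what is seen is just a colour. -/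
def Cfg.colour {q : ℕ} (η : Cfg q 0) : Fin q := η

/-- Joint probability of the tree and the colours at depth `n`, given the colour `i` of the root, when the
numbers of children are independent with law `off` and each edge applies the Potts channel. -/
noncomputable def lik (q : ℕ) (off : ℕ → ℝ) (lam : ℝ) : (n : ℕ) → Fin q → Cfg q n → ℝ
  | 0, i, η => if i = Cfg.colour η then 1 else 0
  | n + 1, i, η =>
      off (η : Σ k : ℕ, (Fin k → Cfg q n)).1 *
        ∏ c : Fin (η : Σ k : ℕ, (Fin k → Cfg q n)).1,
          ∑ j : Fin q, potts q lam i j * lik q off lam n j ((η : Σ k : ℕ, (Fin k → Cfg q n)).2 c)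

/-- Marginal probability of what is seen, the colour of the root being uniform. -/
noncomputable def evidence (q : ℕ) (off : ℕ → ℝ) (lam : ℝ) (n : ℕ) (η : Cfg q n) : ℝ :=
  ∑ i : Fin q, (1 / (q : ℝ)) * lik q off lam n i η

/-- Posterior probability (Bayes) of root colour `i` given what is seen. -/
noncomputable def posterior (q : ℕ) (off : ℕ → ℝ) (lam : ℝ) (n : ℕ) (i : Fin q) (η : Cfg q n) : ℝ :=
  (1 / (q : ℝ)) * lik q off lam n i η / evidence q off lam n η

/-- The quantity `a_n`: the expected total variation distance between the posterior of the root colour and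
the uniform law. -/
noncomputable def advantage (q : ℕ) (off : ℕ → ℝ) (lam : ℝ) (n : ℕ) : ℝ :=
  ∑' η : Cfg q n, evidence q off lam n η *
    ((1 / 2) * ∑ i : Fin q, |posterior q off lam n i η - 1 / (q : ℝ)|)

/-- The Poisson law with mean `d`. -/
noncomputable def poisson (d : ℝ) (k : ℕ) : ℝ := Real.exp (-d) * d ^ k / (k.factorial : ℝ)

/-- The law concentrated at `d`: every vertex has exactly `d` children. -/
noncomputable def dirac (d k : ℕ) : ℝ := if k = d then 1 else 0

end Vale.Agent.helper4.GW
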