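import Vale.Agent.helper4.GWDefs

/-!
Laws of messages with infinite support: multiplying in the children of a vertex one at a time.
-/

open Finset

set_option linter.unusedSectionVars false

namespace Vale.Agent.helper4.GW

variable {q : ℕ} [NeZero q]

/-- Interior of the simplex of messages. -/
def Simp (c : Fin q → ℝ) : Prop := ∑ i, c i = 0 ∧ ∀ i, -1 < c i

/-- Function bounded on the simplex. -/
def Bdd (Φ : (Fin q → ℝ) → ℝ) : Prop := ∃ C, ∀ c, Simp c → |Φ c| ≤ C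

lemma qpos : (0 : ℝ) < q := by
  have : q ≠ 0 := NeZero.ne q
  exact_mod_cast Nat.pos_of_ne_zero this

lemma simp_le {c : Fin q → ℝ} (hc : Simp c) (i : Fin q) : c i ≤ q := by
  have h := hc.1
  have h2 : ∑ j, (1 + c j) = q := by
    rw [Finset.sum_add_distrib, h]
    simp
  have h3 : 1 + c i ≤ ∑ j, (1 + c j) :=
    Finset.single_le_sum (f := fun j => 1 + c j) (fun j _ => by have := hc.2 j; linarith)
      (Finset.mem_univ i)
  linarith

lemma simp_abs_le {c : Fin q → ℝ} (hc : Simp c) (i : Fin q) : |c i| ≤ q := by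
  have h1 := simp_le hc i
  have h2 := hc.2 i
  have h3 : (1 : ℝ) ≤ q := by
    have : q ≠ 0 := NeZero.ne q
    exact_mod_cast Nat.one_le_iff_ne_zero.mpr this
  rw [abs_le]
  constructor <;> linarith

/-- A law of messages. -/
structure MLaw (q : ℕ) (μ : ℝ) (Ω : Type) where
  w : Ω → ℝ
  a : Ω → Fin q → ℝ
  w_nonneg : ∀ ω, 0 ≤ w ω
  w_sum : HasSum w 1
  a_sum : ∀ ω, w ω ≠ 0 → ∑ i, a ω i = 0
  a_lb : ∀ ω i, -μ ≤ a ω i
  mu_lt : μ < 1
  symm : ∀ (g : Equiv.Perm (Fin q)) (Φ : (Fin q → ℝ) → ℝ),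
    ∑' ω, w ω * Φ (a ω ∘ g) = ∑' ω, w ω * Φ (a ω)

variable {μ : ℝ} {Ω : Type} (L : MLaw q μ Ω)

namespace MLaw

lemma a_gt (ω : Ω) (i : Fin q) : -1 < L.a ω i := by
  have := L.a_lb ω i
  have := L.mu_lt
  linarith

lemma a_simp {ω : Ω} (h : L.w ω ≠ 0) : Simp (L.a ω) := ⟨L.a_sum ω h, L.a_gt ω⟩

/-- Expectation under the law of the messages. -/
noncomputable def E (Φ : (Fin q → ℝ) → ℝ) : ℝ := ∑' ω, L.w ω * Φ (L.a ω)

lemma E_summable {Φ : (Fin q → ℝ) → ℝ} (h : Bdd Φ) : Summable fun ω => L.w ω * Φ (L.a ω) := by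
  obtain ⟨C, hC⟩ := h
  refine Summable.of_norm_bounded (g := fun ω => L.w ω * C) (L.w_sum.summable.mul_right C) fun ω => ?_
  rw [Real.norm_eq_abs, abs_mul, abs_of_nonneg (L.w_nonneg ω)]
  by_cases hw : L.w ω = 0
  · simp [hw]
  · exact mul_le_mul_of_nonneg_left (hC _ (L.a_simp hw)) (L.w_nonneg ω)

lemma E_congr {Φ Ψ : (Fin q → ℝ) → ℝ} (h : ∀ c, Simp c → Φ c = Ψ c) : L.E Φ = L.E Ψ := by
  unfold E
  refine tsum_congr fun ω => ?_
  by_cases hw : L.w ω = 0
  · simp [hw]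
  · rw [h _ (L.a_simp hw)]

lemma E_mono {Φ Ψ : (Fin q → ℝ) → ℝ} (hΦ : Bdd Φ) (hΨ : Bdd Ψ) (h : ∀ c, Simp c → Φ c ≤ Ψ c) :
    L.E Φ ≤ L.E Ψ := by
  refine Summable.tsum_le_tsum (fun ω => ?_) (L.E_summable hΦ) (L.E_summable hΨ)
  by_cases hw : L.w ω = 0
  · simp [hw]
  · exact mul_le_mul_of_nonneg_left (h _ (L.a_simp hw)) (L.w_nonneg ω)

lemma E_nonneg {Φ : (Fin q → ℝ) → ℝ} (h : ∀ c, Simp c → 0 ≤ Φ c) : 0 ≤ L.E Φ := by
  refine tsum_nonneg fun ω => ?_
  by_cases hw : L.w ω = 0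
  · simp [hw]
  · exact mul_nonneg (L.w_nonneg ω) (h _ (L.a_simp hw))

lemma E_add {Φ Ψ : (Fin q → ℝ) → ℝ} (hΦ : Bdd Φ) (hΨ : Bdd Ψ) :
    L.E (fun c => Φ c + Ψ c) = L.E Φ + L.E Ψ := by
  unfold E
  rw [← (L.E_summable hΦ).tsum_add (L.E_summable hΨ)]
  exact tsum_congr fun ω => by ring

lemma E_smul (α : ℝ) (Φ : (Fin q → ℝ) → ℝ) : L.E (fun c => α * Φ c) = α * L.E Φ := by
  unfold E
  rw [← tsum_mul_left]
  exact tsum_congr fun ω => by ring

lemma E_one : L.E (fun _ => 1) = 1 := by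
  unfold E
  simpa using L.w_sum.tsum_eq

lemma E_const (α : ℝ) : L.E (fun _ => α) = α := by
  have := L.E_smul α (fun _ => 1)
  simpa [E_one] using this

lemma E_perm (g : Equiv.Perm (Fin q)) (Φ : (Fin q → ℝ) → ℝ) : L.E (fun c => Φ (c ∘ g)) = L.E Φ :=
  L.symm g Φ

end MLaw

lemma bdd_const (α : ℝ) : Bdd (q := q) fun _ => α := ⟨|α|, fun _ _ => le_rfl⟩

lemma bdd_coord (i : Fin q) : Bdd (q := q) fun c => c i := ⟨q, fun _ hc => simp_abs_le hc i⟩

lemma Bdd.add {Φ Ψ : (Fin q → ℝ) → ℝ} (h1 : Bdd Φ) (h2 : Bdd Ψ) : Bdd fun c => Φ c + Ψ c := by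
  obtain ⟨C, hC⟩ := h1
  obtain ⟨D, hD⟩ := h2
  exact ⟨C + D, fun c hc => (abs_add_le _ _).trans (add_le_add (hC c hc) (hD c hc))⟩

lemma Bdd.mul {Φ Ψ : (Fin q → ℝ) → ℝ} (h1 : Bdd Φ) (h2 : Bdd Ψ) : Bdd fun c => Φ c * Ψ c := by
  obtain ⟨C, hC⟩ := h1
  obtain ⟨D, hD⟩ := h2
  refine ⟨C * D, fun c hc => ?_⟩
  rw [abs_mul]
  exact mul_le_mul (hC c hc) (hD c hc) (abs_nonneg _) ((abs_nonneg _).trans (hC c hc))

lemma Bdd.smul {Φ : (Fin q → ℝ) → ℝ} (α : ℝ) (h : Bdd Φ) : Bdd fun c => α * Φ c :=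
  (bdd_const α).mul h

lemma Bdd.neg {Φ : (Fin q → ℝ) → ℝ} (h : Bdd Φ) : Bdd fun c => - Φ c := by
  simpa using h.smul (-1)

lemma Bdd.sub {Φ Ψ : (Fin q → ℝ) → ℝ} (h1 : Bdd Φ) (h2 : Bdd Ψ) : Bdd fun c => Φ c - Ψ c := by
  simpa [sub_eq_add_neg] using h1.add h2.neg

lemma Bdd.sum {ι : Type} (s : Finset ι) {Φ : ι → (Fin q → ℝ) → ℝ} (h : ∀ i ∈ s, Bdd (Φ i)) :
    Bdd fun c => ∑ i ∈ s, Φ i c := by
  classical
  induction s using Finset.induction_on with
  | empty => simpa using bdd_const (q := q) 0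
  | insert a s ha ih =>
    simp only [Finset.sum_insert ha]
    exact (h a (Finset.mem_insert_self a s)).add
      (ih fun i hi => h i (Finset.mem_insert_of_mem hi))

lemma Bdd.pow {Φ : (Fin q → ℝ) → ℝ} (h : Bdd Φ) (k : ℕ) : Bdd fun c => Φ c ^ k := by
  induction k with
  | zero => simpa using bdd_const (q := q) 1
  | succ k ih =>
    simp only [pow_succ]
    exact ih.mul h

namespace MLaw

/-- Coordinates have mean zero. -/
lemma E_coord (i : Fin q) : L.E (fun c => c i) = 0 := by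
  have heq : ∀ j, L.E (fun c => c j) = L.E (fun c => c i) := by
    intro j
    have := L.E_perm (Equiv.swap i j) (fun c => c j)
    simp only [Function.comp, Equiv.swap_apply_right] at this
    exact this.symm
  have hs : L.E (fun c => ∑ j, c j) = ∑ j, L.E (fun c => c j) := by
    unfold E
    rw [← Summable.tsum_finsetSum (fun j _ => L.E_summable (bdd_coord j))]
    refine tsum_congr fun ω => ?_
    rw [Finset.mul_sum]
  have h0 : L.E (fun c => ∑ j, c j) = 0 := by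
    rw [L.E_congr (Ψ := fun _ => 0) (fun c hc => hc.1), L.E_const]
  rw [h0] at hs
  simp only [heq, Finset.sum_const, Finset.card_univ, Fintype.card_fin, nsmul_eq_mul] at hs
  have hq : (q : ℝ) ≠ 0 := (qpos (q := q)).ne'
  exact (mul_eq_zero.mp hs.symm).resolve_left hq

end MLaw

/-- Mean of a vector. -/
noncomputable def NN (P : Fin q → ℝ) : ℝ := (∑ i, P i) / q

/-- The normalised message of a positive vector, minus one. -/
noncomputable def cc (P : Fin q → ℝ) : Fin q → ℝ := fun i => P i / NN P - 1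

/-- Function on positive vectors given by a function of the normalised message. -/
noncomputable def Gf (Φ : (Fin q → ℝ) → ℝ) (P : Fin q → ℝ) : ℝ := NN P * Φ (cc P)

/-- Domination by the mean on positive vectors. -/
def Dom (F : (Fin q → ℝ) → ℝ) : Prop := ∃ C, ∀ P, (∀ i, 0 < P i) → |F P| ≤ C * NN P

lemma NN_pos {P : Fin q → ℝ} (hP : ∀ i, 0 < P i) : 0 < NN P := by
  have hi : (Finset.univ : Finset (Fin q)).Nonempty := ⟨0, Finset.mem_univ _⟩
  exact div_pos (Finset.sum_pos (fun i _ => hP i) hi) qpos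

lemma cc_simp {P : Fin q → ℝ} (hP : ∀ i, 0 < P i) : Simp (cc P) := by
  have hN := NN_pos hP
  constructor
  · simp only [cc, Finset.sum_sub_distrib, ← Finset.sum_div]
    have : (∑ i, P i) = NN P * q := by
      unfold NN
      have := (qpos (q := q)).ne'
      field_simp
    rw [this]
    simp only [Finset.sum_const, Finset.card_univ, Fintype.card_fin, nsmul_eq_mul, mul_one]
    field_simp
    ring
  · intro i
    have : 0 < P i / NN P := div_pos (hP i) hN
    simp only [cc]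
    linarith

lemma P_eq {P : Fin q → ℝ} (hP : ∀ i, 0 < P i) (i : Fin q) : P i = NN P * (1 + cc P i) := by
  have hN := NN_pos hP
  simp only [cc]
  field_simp
  ring

lemma NN_one : NN (q := q) (fun _ => 1) = 1 := by
  have := (qpos (q := q)).ne'
  simp [NN, this]

lemma cc_one : cc (q := q) (fun _ => 1) = 0 := by
  funext i
  simp [cc, NN_one]

lemma Gf_dom {Φ : (Fin q → ℝ) → ℝ} (h : Bdd Φ) : Dom (Gf Φ) := by
  obtain ⟨C, hC⟩ := h
  refine ⟨C, fun P hP => ?_⟩
  rw [Gf, abs_mul, abs_of_pos (NN_pos hP), mul_comm]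
  exact mul_le_mul_of_nonneg_right (hC _ (cc_simp hP)) (NN_pos hP).le

lemma Dom.add {F G : (Fin q → ℝ) → ℝ} (h1 : Dom F) (h2 : Dom G) : Dom fun P => F P + G P := by
  obtain ⟨C, hC⟩ := h1
  obtain ⟨D, hD⟩ := h2
  refine ⟨C + D, fun P hP => (abs_add_le _ _).trans ?_⟩
  rw [add_mul]
  exact add_le_add (hC P hP) (hD P hP)

lemma Dom.smul {F : (Fin q → ℝ) → ℝ} (α : ℝ) (h1 : Dom F) : Dom fun P => α * F P := by
  obtain ⟨C, hC⟩ := h1
  refine ⟨|α| * C, fun P hP => ?_⟩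
  rw [abs_mul, mul_assoc]
  exact mul_le_mul_of_nonneg_left (hC P hP) (abs_nonneg _)

namespace MLaw

/-- Positivity of a vector times a message. -/
lemma mul_pos' {P : Fin q → ℝ} (hP : ∀ i, 0 < P i) (ω : Ω) (i : Fin q) :
    0 < P i * (1 + L.a ω i) := by
  have := L.a_gt ω i
  exact mul_pos (hP i) (by linarith)

/-- Multiply in one child. -/
noncomputable def stp (F : (Fin q → ℝ) → ℝ) (P : Fin q → ℝ) : ℝ :=
  ∑' ω, L.w ω * F (fun i => P i * (1 + L.a ω i))

lemma NN_mul_le {P : Fin q → ℝ} (hP : ∀ i, 0 < P i) {ω : Ω} (h : L.w ω ≠ 0) :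
    NN (fun i => P i * (1 + L.a ω i)) ≤ q * NN P := by
  have hs := L.a_simp h
  unfold NN
  have hq := qpos (q := q)
  have : ∑ i, P i * (1 + L.a ω i) ≤ ∑ i, P i * q := by
    refine Finset.sum_le_sum fun i _ => mul_le_mul_of_nonneg_left ?_ (hP i).le
    have h1 : 1 + L.a ω i ≤ ∑ j, (1 + L.a ω j) :=
      Finset.single_le_sum (f := fun j => 1 + L.a ω j)
        (fun j _ => by have := L.a_gt ω j; linarith) (Finset.mem_univ i)
    have h2 : ∑ j, (1 + L.a ω j) = q := by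
      rw [Finset.sum_add_distrib, hs.1]
      simp
    linarith
  rw [← Finset.sum_mul] at this
  rw [mul_div_assoc', div_le_div_iff_of_pos_right hq]
  linarith

lemma stp_summable {F : (Fin q → ℝ) → ℝ} (hF : Dom F) {P : Fin q → ℝ} (hP : ∀ i, 0 < P i) :
    Summable fun ω => L.w ω * F (fun i => P i * (1 + L.a ω i)) := by
  obtain ⟨C, hC⟩ := hF
  refine Summable.of_norm_bounded (g := fun ω => L.w ω * (|C| * (q * NN P)))
    (L.w_sum.summable.mul_right _) fun ω => ?_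
  rw [Real.norm_eq_abs, abs_mul, abs_of_nonneg (L.w_nonneg ω)]
  by_cases hw : L.w ω = 0
  · simp [hw]
  · refine mul_le_mul_of_nonneg_left ?_ (L.w_nonneg ω)
    refine (hC _ (L.mul_pos' hP ω)).trans ?_
    have h1 := L.NN_mul_le hP hw
    have h2 := NN_pos (L.mul_pos' hP ω)
    calc C * NN (fun i => P i * (1 + L.a ω i)) ≤ |C| * NN (fun i => P i * (1 + L.a ω i)) :=
          mul_le_mul_of_nonneg_right (le_abs_self C) h2.le
      _ ≤ |C| * (q * NN P) := mul_le_mul_of_nonneg_left h1 (abs_nonneg C)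


lemma E_sum {ι : Type} (s : Finset ι) {Φ : ι → (Fin q → ℝ) → ℝ} (h : ∀ i ∈ s, Bdd (Φ i)) :
    L.E (fun c => ∑ i ∈ s, Φ i c) = ∑ i ∈ s, L.E (Φ i) := by
  unfold E
  rw [← Summable.tsum_finsetSum (fun j hj => L.E_summable (h j hj))]
  refine tsum_congr fun ω => ?_
  rw [Finset.mul_sum]

/-- The mean is preserved. -/
lemma stp_NN (P : Fin q → ℝ) : L.stp NN P = NN P := by
  have hq := (qpos (q := q)).ne'
  have e : L.stp NN P = L.E (fun c => NN P + ∑ i, (P i / q) * c i) := by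
    unfold stp E
    refine tsum_congr fun ω => ?_
    congr 1
    unfold NN
    simp only [mul_add, mul_one, Finset.sum_add_distrib, add_div]
    congr 1
    rw [Finset.sum_div]
    exact Finset.sum_congr rfl fun i _ => by ring
  have hb : ∀ i ∈ (Finset.univ : Finset (Fin q)), Bdd (fun c : Fin q → ℝ => (P i / q) * c i) :=
    fun i _ => (bdd_coord i).smul _
  rw [e, L.E_add (bdd_const _) (Bdd.sum _ hb), L.E_const, L.E_sum _ hb]
  simp only [L.E_smul, L.E_coord]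
  simp

lemma stp_mono {F G : (Fin q → ℝ) → ℝ} (hF : Dom F) (hG : Dom G)
    (h : ∀ P, (∀ i, 0 < P i) → F P ≤ G P) {P : Fin q → ℝ} (hP : ∀ i, 0 < P i) :
    L.stp F P ≤ L.stp G P :=
  Summable.tsum_le_tsum (fun ω => mul_le_mul_of_nonneg_left (h _ (L.mul_pos' hP ω)) (L.w_nonneg ω))
    (L.stp_summable hF hP) (L.stp_summable hG hP)

lemma stp_add {F G : (Fin q → ℝ) → ℝ} (hF : Dom F) (hG : Dom G) {P : Fin q → ℝ}
    (hP : ∀ i, 0 < P i) : L.stp (fun P => F P + G P) P = L.stp F P + L.stp G P := by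
  unfold stp
  rw [← (L.stp_summable hF hP).tsum_add (L.stp_summable hG hP)]
  exact tsum_congr fun ω => by ring

lemma stp_smul (α : ℝ) (F : (Fin q → ℝ) → ℝ) (P : Fin q → ℝ) :
    L.stp (fun P => α * F P) P = α * L.stp F P := by
  unfold stp
  rw [← tsum_mul_left]
  exact tsum_congr fun ω => by ring

lemma dom_NN : Dom (NN (q := q)) := ⟨1, fun P hP => by rw [one_mul, abs_of_pos (NN_pos hP)]⟩

lemma stp_dom {F : (Fin q → ℝ) → ℝ} (hF : Dom F) : Dom (L.stp F) := by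
  obtain ⟨C, hC⟩ := id hF
  refine ⟨C, fun P hP => ?_⟩
  have hup : Dom fun P => C * NN P := (dom_NN (q := q)).smul C
  have h1 := L.stp_mono hF hup (fun P hP => (abs_le.mp (hC P hP)).2) hP
  have hdn : Dom fun P => - C * NN P := (dom_NN (q := q)).smul (-C)
  have h2 := L.stp_mono hdn hF (fun P hP => by have := (abs_le.mp (hC P hP)).1; linarith) hP
  rw [stp_smul, stp_NN] at h1 h2
  rw [abs_le]
  constructor <;> linarith

/-- Multiply in `k` children, starting from the constant vector. -/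
noncomputable def Ak : ℕ → ((Fin q → ℝ) → ℝ) → ℝ
  | 0, F => F (fun _ => 1)
  | k + 1, F => Ak k (L.stp F)

lemma Ak_congr (k : ℕ) {F G : (Fin q → ℝ) → ℝ} (h : ∀ P, (∀ i, 0 < P i) → F P = G P) :
    L.Ak k F = L.Ak k G := by
  induction k generalizing F G with
  | zero => exact h _ fun _ => one_pos
  | succ k ih =>
    refine ih fun P hP => ?_
    unfold stp
    exact tsum_congr fun ω => by rw [h _ (L.mul_pos' hP ω)]

lemma Ak_mono (k : ℕ) {F G : (Fin q → ℝ) → ℝ} (hF : Dom F) (hG : Dom G)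
    (h : ∀ P, (∀ i, 0 < P i) → F P ≤ G P) : L.Ak k F ≤ L.Ak k G := by
  induction k generalizing F G with
  | zero => exact h _ fun _ => one_pos
  | succ k ih =>
    exact ih (L.stp_dom hF) (L.stp_dom hG) fun P hP => L.stp_mono hF hG h hP

lemma Ak_add (k : ℕ) {F G : (Fin q → ℝ) → ℝ} (hF : Dom F) (hG : Dom G) :
    L.Ak k (fun P => F P + G P) = L.Ak k F + L.Ak k G := by
  induction k generalizing F G with
  | zero => rfl
  | succ k ih =>
    show L.Ak k (L.stp _) = L.Ak k (L.stp F) + L.Ak k (L.stp G)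
    rw [← ih (L.stp_dom hF) (L.stp_dom hG)]
    exact L.Ak_congr k fun P hP => L.stp_add hF hG hP

lemma Ak_smul (k : ℕ) (α : ℝ) (F : (Fin q → ℝ) → ℝ) :
    L.Ak k (fun P => α * F P) = α * L.Ak k F := by
  induction k generalizing F with
  | zero => rfl
  | succ k ih =>
    show L.Ak k (L.stp _) = α * L.Ak k (L.stp F)
    rw [← ih]
    exact L.Ak_congr k fun P _ => L.stp_smul α F P

lemma Ak_NN (k : ℕ) : L.Ak k (NN (q := q)) = 1 := by
  induction k with
  | zero => exact NN_one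
  | succ k ih =>
    show L.Ak k (L.stp NN) = 1
    rw [show L.stp NN = NN from funext L.stp_NN, ih]

lemma Ak_abs_le (k : ℕ) {F : (Fin q → ℝ) → ℝ} {C : ℝ} (h : ∀ P, (∀ i, 0 < P i) → |F P| ≤ C * NN P) :
    |L.Ak k F| ≤ C := by
  have hF : Dom F := ⟨C, h⟩
  have hup : Dom fun P => C * NN (q := q) P := dom_NN.smul C
  have hdn : Dom fun P => - C * NN (q := q) P := dom_NN.smul (-C)
  have h1 := L.Ak_mono k hF hup (fun P hP => (abs_le.mp (h P hP)).2)
  have h2 := L.Ak_mono k hdn hF (fun P hP => by have := (abs_le.mp (h P hP)).1; linarith)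
  rw [Ak_smul, Ak_NN] at h1 h2
  rw [abs_le]
  constructor <;> linarith

/-- The expectation of a function of the normalised message after `k` children. -/
noncomputable def EE (k : ℕ) (Φ : (Fin q → ℝ) → ℝ) : ℝ := L.Ak k (Gf Φ)

lemma EE_zero (Φ : (Fin q → ℝ) → ℝ) : L.EE 0 Φ = Φ 0 := by
  show Gf Φ (fun _ => 1) = Φ 0
  rw [Gf, NN_one, cc_one, one_mul]

lemma EE_mono (k : ℕ) {Φ Ψ : (Fin q → ℝ) → ℝ} (hΦ : Bdd Φ) (hΨ : Bdd Ψ)
    (h : ∀ c, Simp c → Φ c ≤ Ψ c) : L.EE k Φ ≤ L.EE k Ψ :=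
  L.Ak_mono k (Gf_dom hΦ) (Gf_dom hΨ) fun P hP =>
    mul_le_mul_of_nonneg_left (h _ (cc_simp hP)) (NN_pos hP).le

lemma EE_congr (k : ℕ) {Φ Ψ : (Fin q → ℝ) → ℝ} (h : ∀ c, Simp c → Φ c = Ψ c) :
    L.EE k Φ = L.EE k Ψ :=
  L.Ak_congr k fun P hP => by simp only [Gf]; rw [h _ (cc_simp hP)]

lemma EE_add (k : ℕ) {Φ Ψ : (Fin q → ℝ) → ℝ} (hΦ : Bdd Φ) (hΨ : Bdd Ψ) :
    L.EE k (fun c => Φ c + Ψ c) = L.EE k Φ + L.EE k Ψ := by
  have : Gf (fun c => Φ c + Ψ c) = fun P => Gf Φ P + Gf Ψ P := by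
    funext P
    simp only [Gf]
    ring
  rw [EE, this, L.Ak_add k (Gf_dom hΦ) (Gf_dom hΨ)]
  rfl

lemma EE_smul (k : ℕ) (α : ℝ) (Φ : (Fin q → ℝ) → ℝ) :
    L.EE k (fun c => α * Φ c) = α * L.EE k Φ := by
  have : Gf (fun c => α * Φ c) = fun P => α * Gf Φ P := by
    funext P
    simp only [Gf]
    ring
  rw [EE, this, Ak_smul]
  rfl

lemma EE_const (k : ℕ) (α : ℝ) : L.EE k (fun _ => α) = α := by
  have : Gf (q := q) (fun _ => α) = fun P => α * NN P := by
    funext P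
    simp only [Gf]
    ring
  rw [EE, this, Ak_smul, Ak_NN, mul_one]

lemma EE_nonneg (k : ℕ) {Φ : (Fin q → ℝ) → ℝ} (hΦ : Bdd Φ) (h : ∀ c, Simp c → 0 ≤ Φ c) :
    0 ≤ L.EE k Φ := by
  have := L.EE_mono k (bdd_const 0) hΦ h
  rwa [EE_const] at this

lemma EE_abs_le (k : ℕ) {Φ : (Fin q → ℝ) → ℝ} {C : ℝ} (h : ∀ c, Simp c → |Φ c| ≤ C) :
    |L.EE k Φ| ≤ C :=
  L.Ak_abs_le k fun P hP => by
    rw [Gf, abs_mul, abs_of_pos (NN_pos hP), mul_comm]
    exact mul_le_mul_of_nonneg_right (h _ (cc_simp hP)) (NN_pos hP).le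

end MLaw

/-- The normalising factor on merging two messages. -/
noncomputable def ZZ (c a : Fin q → ℝ) : ℝ := (∑ i, (1 + c i) * (1 + a i)) / q

/-- The merged message. -/
noncomputable def uu (c a : Fin q → ℝ) : Fin q → ℝ := fun i => (1 + c i) * (1 + a i) / ZZ c a - 1

lemma ZZ_pos {c a : Fin q → ℝ} (hc : ∀ i, -1 < c i) (ha : ∀ i, -1 < a i) : 0 < ZZ c a := by
  have hi : (Finset.univ : Finset (Fin q)).Nonempty := ⟨0, Finset.mem_univ _⟩
  refine div_pos (Finset.sum_pos (fun i _ => ?_) hi) qpos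
  have := hc i
  have := ha i
  exact mul_pos (by linarith) (by linarith)

lemma uu_simp {c a : Fin q → ℝ} (hc : ∀ i, -1 < c i) (ha : ∀ i, -1 < a i) : Simp (uu c a) := by
  have hZ := ZZ_pos hc ha
  have hq := (qpos (q := q)).ne'
  constructor
  · simp only [uu, Finset.sum_sub_distrib, ← Finset.sum_div]
    have : ∑ i, (1 + c i) * (1 + a i) = ZZ c a * q := by
      unfold ZZ
      field_simp
    rw [this]
    simp only [Finset.sum_const, Finset.card_univ, Fintype.card_fin, nsmul_eq_mul, mul_one]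
    field_simp
    ring
  · intro i
    have h1 := hc i
    have h2 := ha i
    have : 0 < (1 + c i) * (1 + a i) / ZZ c a := div_pos (mul_pos (by linarith) (by linarith)) hZ
    simp only [uu]
    linarith

namespace MLaw

/-- Expectation over one child of the merged function. -/
noncomputable def tau (Φ : (Fin q → ℝ) → ℝ) (c : Fin q → ℝ) : ℝ :=
  L.E (fun a => ZZ c a * Φ (uu c a))

lemma EZ {c : Fin q → ℝ} (hc : Simp c) : L.E (fun a => ZZ c a) = 1 := by
  have hq := (qpos (q := q)).ne'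
  have e : L.E (fun a => ZZ c a) = L.E (fun a => 1 + ∑ i, ((1 + c i) / q) * a i) := by
    refine L.E_congr fun a ha => ?_
    unfold ZZ
    have h1 : ∑ i, (1 + c i) * (1 + a i) = q + ∑ i, (1 + c i) * a i := by
      simp only [mul_add, mul_one, Finset.sum_add_distrib, hc.1]
      simp
    rw [h1, add_div, div_self hq, Finset.sum_div]
    congr 1
    exact Finset.sum_congr rfl fun i _ => by ring
  have hb : ∀ i ∈ (Finset.univ : Finset (Fin q)), Bdd (fun a : Fin q → ℝ => ((1 + c i) / q) * a i) :=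
    fun i _ => (bdd_coord i).smul _
  rw [e, L.E_add (bdd_const _) (Bdd.sum _ hb), L.E_const, L.E_sum _ hb]
  simp only [L.E_smul, L.E_coord]
  simp

lemma bdd_ZZ {c : Fin q → ℝ} (hc : Simp c) : Bdd fun a => ZZ c a := by
  have hb : ∀ i ∈ (Finset.univ : Finset (Fin q)), Bdd (fun a : Fin q → ℝ => ((1 + c i) * (1 + a i)) / q) :=
    fun i _ => by
      have := ((bdd_const (q := q) 1).add (bdd_coord i)).smul ((1 + c i) / q)
      refine this.imp fun C h a ha => ?_
      have e : (1 + c i) * (1 + a i) / q = (1 + c i) / q * (1 + a i) := by ring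
      show |(1 + c i) * (1 + a i) / q| ≤ C
      rw [e]
      exact h a ha
  have := Bdd.sum _ hb
  refine this.imp fun C h a ha => ?_
  have e : ZZ c a = ∑ i, ((1 + c i) * (1 + a i)) / q := by
    unfold ZZ
    rw [Finset.sum_div]
  show |ZZ c a| ≤ C
  rw [e]
  exact h a ha

lemma tau_bound {Φ : (Fin q → ℝ) → ℝ} {C : ℝ} (h : ∀ c, Simp c → |Φ c| ≤ C) {c : Fin q → ℝ}
    (hc : Simp c) : |L.tau Φ c| ≤ C := by
  have hC : 0 ≤ C := by
    have : Simp (0 : Fin q → ℝ) := ⟨by simp, fun _ => by simp⟩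
    exact (abs_nonneg _).trans (h _ this)
  have hb : Bdd fun a => ZZ c a := bdd_ZZ hc
  have hb2 : Bdd fun a => ZZ c a * Φ (uu c a) := by
    obtain ⟨D, hD⟩ := hb
    refine ⟨D * C, fun a ha => ?_⟩
    rw [abs_mul]
    exact mul_le_mul (hD a ha) (h _ (uu_simp hc.2 ha.2)) (abs_nonneg _) ((abs_nonneg _).trans (hD a ha))
  have h1 : L.tau Φ c ≤ L.E (fun a => C * ZZ c a) :=
    L.E_mono hb2 (hb.smul C) fun a ha => by
      have hZ := ZZ_pos hc.2 ha.2
      rw [mul_comm C]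
      exact mul_le_mul_of_nonneg_left (abs_le.mp (h _ (uu_simp hc.2 ha.2))).2 hZ.le
  have h2 : L.E (fun a => (-C) * ZZ c a) ≤ L.tau Φ c :=
    L.E_mono (hb.smul (-C)) hb2 fun a ha => by
      have hZ := ZZ_pos hc.2 ha.2
      have := (abs_le.mp (h _ (uu_simp hc.2 ha.2))).1
      rw [mul_comm (-C)]
      exact mul_le_mul_of_nonneg_left this hZ.le
  rw [L.E_smul, L.EZ hc] at h1 h2
  rw [abs_le]
  constructor <;> linarith

lemma tau_bdd {Φ : (Fin q → ℝ) → ℝ} (h : Bdd Φ) : Bdd (L.tau Φ) := by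
  obtain ⟨C, hC⟩ := h
  exact ⟨C, fun c hc => L.tau_bound hC hc⟩

/-- Multiplying in a child at the level of functions of the normalised message. -/
lemma stp_Gf (Φ : (Fin q → ℝ) → ℝ) {P : Fin q → ℝ} (hP : ∀ i, 0 < P i) :
    L.stp (Gf Φ) P = Gf (L.tau Φ) P := by
  have hN := NN_pos hP
  have hq := (qpos (q := q)).ne'
  have hc := cc_simp hP
  unfold stp Gf tau E
  rw [← tsum_mul_left]
  refine tsum_congr fun ω => ?_
  have hpos := L.mul_pos' hP ω
  have hZ := ZZ_pos hc.2 (L.a_gt ω)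
  have e1 : NN (fun i => P i * (1 + L.a ω i)) = NN P * ZZ (cc P) (L.a ω) := by
    unfold ZZ NN
    rw [mul_div_assoc', Finset.mul_sum, Finset.sum_div]
    rw [Finset.sum_div]
    refine Finset.sum_congr rfl fun i _ => ?_
    have := P_eq hP i
    unfold NN at this
    rw [this]
    ring
  have e2 : cc (fun i => P i * (1 + L.a ω i)) = uu (cc P) (L.a ω) := by
    funext i
    show P i * (1 + L.a ω i) / NN (fun i => P i * (1 + L.a ω i)) - 1
      = (1 + cc P i) * (1 + L.a ω i) / ZZ (cc P) (L.a ω) - 1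
    rw [e1]
    have h3 : 1 + cc P i = P i / NN P := by simp [cc]
    rw [h3]
    have hZ' := hZ.ne'
    have hN' := hN.ne'
    field_simp
  rw [e1, e2]
  ring

lemma EE_succ {Φ : (Fin q → ℝ) → ℝ} (k : ℕ) : L.EE (k + 1) Φ = L.EE k (L.tau Φ) :=
  L.Ak_congr k fun _ hP => L.stp_Gf Φ hP

/-- The product of the messages of a tuple of children. -/
noncomputable def PP {k : ℕ} (η : Fin k → Ω) : Fin q → ℝ := fun i => ∏ c, (1 + L.a (η c) i)

/-- The product of the weights of a tuple of children. -/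
noncomputable def WW {k : ℕ} (η : Fin k → Ω) : ℝ := ∏ c, L.w (η c)

lemma PP_pos {k : ℕ} (η : Fin k → Ω) (i : Fin q) : 0 < L.PP η i :=
  Finset.prod_pos fun c _ => by have := L.a_gt (η c) i; linarith

lemma WW_nonneg {k : ℕ} (η : Fin k → Ω) : 0 ≤ L.WW η :=
  Finset.prod_nonneg fun c _ => L.w_nonneg _

lemma WW_cons {k : ℕ} (ω : Ω) (η : Fin k → Ω) :
    L.WW (Fin.cons ω η : Fin (k + 1) → Ω) = L.w ω * L.WW η := by
  simp only [WW, Fin.prod_univ_succ, Fin.cons_zero, Fin.cons_succ]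

lemma PP_cons {k : ℕ} (ω : Ω) (η : Fin k → Ω) :
    L.PP (Fin.cons ω η : Fin (k + 1) → Ω) = fun i => L.PP η i * (1 + L.a ω i) := by
  funext i
  simp only [PP, Fin.prod_univ_succ, Fin.cons_zero, Fin.cons_succ]
  ring

lemma tuple_g_summable {k : ℕ} (ih : Summable fun η : Fin k → Ω => L.WW η * NN (L.PP η)) :
    Summable fun x : (Fin k → Ω) × Ω => L.WW x.1 * (L.w x.2 * NN fun i => L.PP x.1 i * (1 + L.a x.2 i)) := by
  rw [summable_prod_of_nonneg]
  · constructor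
    · intro η
      show Summable fun ω => L.WW η * (L.w ω * NN fun i => L.PP η i * (1 + L.a ω i))
      exact Summable.mul_left _ (L.stp_summable (dom_NN (q := q)) (L.PP_pos η))
    · have : (fun η : Fin k → Ω => ∑' ω, L.WW η * (L.w ω * NN fun i => L.PP η i * (1 + L.a ω i)))
          = fun η => L.WW η * NN (L.PP η) := by
        funext η
        rw [tsum_mul_left]
        congr 1
        exact L.stp_NN _
      show Summable fun η : Fin k → Ω => ∑' ω, L.WW η * (L.w ω * NN fun i => L.PP η i * (1 + L.a ω i))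
      rw [this]
      exact ih
  · intro x
    exact mul_nonneg (L.WW_nonneg _) (mul_nonneg (L.w_nonneg _) (NN_pos (L.mul_pos' (L.PP_pos x.1) x.2)).le)

lemma tuple_f_summable {k : ℕ} (ih : Summable fun η : Fin k → Ω => L.WW η * NN (L.PP η))
    {F : (Fin q → ℝ) → ℝ} (hF : Dom F) :
    Summable fun x : (Fin k → Ω) × Ω => L.WW x.1 * (L.w x.2 * F fun i => L.PP x.1 i * (1 + L.a x.2 i)) := by
  obtain ⟨C, hC⟩ := hF
  refine Summable.of_norm_bounded (g := fun x => |C| * (L.WW x.1 * (L.w x.2 * NN fun i => L.PP x.1 i * (1 + L.a x.2 i))))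
    ((L.tuple_g_summable ih).mul_left _) fun x => ?_
  have hp := L.mul_pos' (L.PP_pos x.1) x.2
  rw [Real.norm_eq_abs, abs_mul, abs_of_nonneg (L.WW_nonneg _), abs_mul, abs_of_nonneg (L.w_nonneg _)]
  have h1 := hC _ hp
  have h2 : |F (fun i => L.PP x.1 i * (1 + L.a x.2 i))|
      ≤ |C| * NN (fun i => L.PP x.1 i * (1 + L.a x.2 i)) :=
    h1.trans (mul_le_mul_of_nonneg_right (le_abs_self C) (NN_pos hp).le)
  have h3 := mul_le_mul_of_nonneg_left h2 (mul_nonneg (L.WW_nonneg x.1) (L.w_nonneg x.2))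
  calc _ = L.WW x.1 * L.w x.2 * |F (fun i => L.PP x.1 i * (1 + L.a x.2 i))| := by ring
    _ ≤ _ := h3
    _ = _ := by ring

/-- The tuple sums. -/
lemma tuple_hasSum (k : ℕ) : ∀ {F : (Fin q → ℝ) → ℝ}, Dom F →
    HasSum (fun η : Fin k → Ω => L.WW η * F (L.PP η)) (L.Ak k F) := by
  induction k with
  | zero =>
    intro F _
    have e : (fun η : Fin 0 → Ω => L.WW η * F (L.PP η)) = fun _ => F (fun _ => 1) := by
      funext η
      have : L.PP η = fun _ => 1 := by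
        funext i
        simp [PP]
      rw [this]
      simp [WW]
    rw [e]
    exact hasSum_unique _
  | succ k ih =>
    intro F hF
    have ihN := (ih (dom_NN (q := q))).summable
    have hfs := L.tuple_f_summable ihN hF
    have hfib : ∀ η : Fin k → Ω, HasSum (fun ω => L.WW η * (L.w ω * F fun i => L.PP η i * (1 + L.a ω i)))
        (L.WW η * L.stp F (L.PP η)) := fun η =>
      ((L.stp_summable hF (L.PP_pos η)).hasSum).mul_left _
    have h4 := hfs.hasSum.prod_fiberwise hfib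
    have h5 := ih (L.stp_dom hF)
    have h6 := h4.unique h5
    have h7 := hfs.hasSum
    rw [h6] at h7
    let e2 : (Fin k → Ω) × Ω ≃ (Fin (k + 1) → Ω) :=
      (Equiv.prodComm _ _).trans (Fin.consEquiv (fun _ : Fin (k + 1) => Ω))
    rw [← e2.hasSum_iff]
    have e3 : ((fun η : Fin (k + 1) → Ω => L.WW η * F (L.PP η)) ∘ e2)
        = fun x : (Fin k → Ω) × Ω => L.WW x.1 * (L.w x.2 * F fun i => L.PP x.1 i * (1 + L.a x.2 i)) := by
      funext x
      obtain ⟨η, ω⟩ := x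
      show L.WW (Fin.cons ω η : Fin (k + 1) → Ω) * F (L.PP (Fin.cons ω η : Fin (k + 1) → Ω)) = _
      rw [WW_cons, PP_cons]
      ring
    rw [e3]
    exact h7

end MLaw

end Vale.Agent.helper4.GW
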