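import Vale.Agent.helper4.GWTree

/-!
The master theorem: nonreconstruction from a pointwise inequality and an invariant.
-/

open Finset Filter Topology

set_option linter.unusedSectionVars false
set_option linter.unusedVariables false

namespace Vale.Agent.helper4.GW

variable {q : ℕ} [NeZero q]

/-- Second moment of a message. -/
noncomputable def xx (c : Fin q → ℝ) : ℝ := (∑ i, c i ^ 2) / q

/-- Total variation distance from the uniform law of the posterior with message `c`. -/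
noncomputable def TV (c : Fin q → ℝ) : ℝ := (1 / 2) * ∑ i, |c i / q|

lemma xx_nonneg (c : Fin q → ℝ) : 0 ≤ xx c :=
  div_nonneg (Finset.sum_nonneg fun i _ => sq_nonneg _) qpos.le

lemma xx_smul (lam : ℝ) (c : Fin q → ℝ) : xx (fun i => lam * c i) = lam ^ 2 * xx c := by
  unfold xx
  simp only [mul_pow, ← Finset.mul_sum]
  ring

lemma bdd_xx : Bdd (xx (q := q)) := by
  have hb : ∀ i ∈ (Finset.univ : Finset (Fin q)), Bdd (fun c : Fin q → ℝ => (1 / (q : ℝ)) * c i ^ 2) :=
    fun i _ => ((bdd_coord i).pow 2).smul _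
  refine (Bdd.sum _ hb).imp fun C h c hc => ?_
  have := h c hc
  have e : xx c = ∑ i, (1 / (q : ℝ)) * c i ^ 2 := by
    unfold xx
    rw [Finset.sum_div]
    exact Finset.sum_congr rfl fun i _ => by ring
  rw [e]
  exact this

lemma bdd_TV : Bdd (TV (q := q)) := by
  refine ⟨(1 / 2) * ∑ _i : Fin q, (1 : ℝ), fun c hc => ?_⟩
  unfold TV
  rw [abs_of_nonneg (mul_nonneg (by norm_num) (Finset.sum_nonneg fun i _ => abs_nonneg _))]
  refine mul_le_mul_of_nonneg_left (Finset.sum_le_sum fun i _ => ?_) (by norm_num)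
  have hq := qpos (q := q)
  rw [abs_div, abs_of_pos hq, div_le_one hq]
  exact simp_abs_le hc i

lemma TV_nonneg (c : Fin q → ℝ) : 0 ≤ TV c :=
  mul_nonneg (by norm_num) (Finset.sum_nonneg fun i _ => abs_nonneg _)

lemma TV_le {δ : ℝ} (hδ : 0 < δ) (c : Fin q → ℝ) : TV c ≤ δ / 4 + xx c / (4 * δ) := by
  have hq := qpos (q := q)
  have h1 : ∀ i, |c i / q| ≤ δ / (2 * q) + c i ^ 2 / (2 * δ * q) := by
    intro i
    rw [abs_div, abs_of_pos hq]
    have h2 : |c i| ≤ δ / 2 + c i ^ 2 / (2 * δ) := by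
      have h3 : 0 ≤ (δ - |c i|) ^ 2 := sq_nonneg _
      have h4 : |c i| ^ 2 = c i ^ 2 := sq_abs _
      have : δ / 2 + c i ^ 2 / (2 * δ) - |c i| = (δ - |c i|) ^ 2 / (2 * δ) := by
        rw [← h4]
        field_simp
        ring
      have h5 : 0 ≤ (δ - |c i|) ^ 2 / (2 * δ) := by positivity
      linarith
    calc |c i| / q ≤ (δ / 2 + c i ^ 2 / (2 * δ)) / q := div_le_div_of_nonneg_right h2 hq.le
      _ = _ := by field_simp
  have h2 := Finset.sum_le_sum fun i (_ : i ∈ (Finset.univ : Finset (Fin q))) => h1 i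
  rw [Finset.sum_add_distrib] at h2
  have e1 : ∑ _i : Fin q, δ / (2 * q) = δ / 2 := by
    rw [Finset.sum_const, Finset.card_univ, Fintype.card_fin, nsmul_eq_mul]
    field_simp
  have e2 : ∑ i : Fin q, c i ^ 2 / (2 * δ * q) = xx c / (2 * δ) := by
    unfold xx
    rw [Finset.sum_div, Finset.sum_div]
    refine Finset.sum_congr rfl fun i _ => ?_
    field_simp
  rw [e1, e2] at h2
  unfold TV
  have : xx c / (4 * δ) = (xx c / (2 * δ)) / 2 := by
    field_simp
    ring
  rw [this]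
  linarith

lemma simp_comp {a : Fin q → ℝ} (ha : Simp a) (g : Equiv.Perm (Fin q)) : Simp (a ∘ g) :=
  ⟨by simpa using (Equiv.sum_comp g a).trans ha.1, fun i => ha.2 _⟩

lemma simp_smul {lam : ℝ} (h1 : 0 ≤ lam) (h2 : lam ≤ 1) {c : Fin q → ℝ} (hc : Simp c) :
    Simp fun i => lam * c i :=
  ⟨by rw [← Finset.mul_sum, hc.1, mul_zero], fun i => by
    have h3 := hc.2 i
    rcases h1.eq_or_lt with h | h
    · rw [← h]
      simp
    · have := mul_pos h (show 0 < c i + 1 by linarith)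
      show -1 < lam * c i
      nlinarith⟩

lemma bdd_comp_smul {lam : ℝ} (h1 : 0 ≤ lam) (h2 : lam ≤ 1) {Φ : (Fin q → ℝ) → ℝ} (h : Bdd Φ) :
    Bdd fun c => Φ (fun i => lam * c i) :=
  h.imp fun _ hC c hc => hC _ (simp_smul h1 h2 hc)

namespace MLaw

variable {μ : ℝ} {Ω : Type} (L : MLaw q μ Ω)

lemma E_mono' {Φ Ψ : (Fin q → ℝ) → ℝ} (hΦ : Bdd Φ) (hΨ : Bdd Ψ)
    (h : ∀ ω, L.w ω ≠ 0 → Φ (L.a ω) ≤ Ψ (L.a ω)) : L.E Φ ≤ L.E Ψ := by
  refine Summable.tsum_le_tsum (fun ω => ?_) (L.E_summable hΦ) (L.E_summable hΨ)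
  by_cases hw : L.w ω = 0
  · simp [hw]
  · exact mul_le_mul_of_nonneg_left (h ω hw) (L.w_nonneg ω)

lemma bdd_perm {Φ : (Fin q → ℝ) → ℝ} (h : Bdd Φ) (g : Equiv.Perm (Fin q)) :
    Bdd fun a => Φ (a ∘ g) :=
  h.imp fun _ hC c hc => hC _ (simp_comp hc g)

/-- Averaging over a list of colour permutations does not change an expectation. -/
lemma E_avg_list (gs : List (Equiv.Perm (Fin q))) {Φ : (Fin q → ℝ) → ℝ} (hΦ : Bdd Φ) :
    L.E (fun a => (gs.map fun g : Equiv.Perm (Fin q) => Φ (a ∘ g)).sum) = gs.length * L.E Φ := by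
  induction gs with
  | nil => simp [L.E_const]
  | cons g gs ih =>
    simp only [List.map_cons, List.sum_cons, List.length_cons]
    have hb : Bdd fun a => (gs.map fun g : Equiv.Perm (Fin q) => Φ (a ∘ g)).sum := by
      clear ih
      induction gs with
      | nil => simpa using bdd_const (q := q) 0
      | cons g gs ih =>
        simp only [List.map_cons, List.sum_cons]
        exact (bdd_perm hΦ g).add ih
    rw [L.E_add (bdd_perm hΦ g) hb, L.E_perm, ih]
    push_cast
    ring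

lemma bdd_merge {Φ : (Fin q → ℝ) → ℝ} (hΦ : Bdd Φ) {c : Fin q → ℝ} (hc : Simp c) :
    Bdd fun a => ZZ c a * Φ (uu c a) := by
  obtain ⟨C, hC⟩ := hΦ
  obtain ⟨D, hD⟩ := bdd_ZZ hc
  refine ⟨D * C, fun a ha => ?_⟩
  rw [abs_mul]
  exact mul_le_mul (hD a ha) (hC _ (uu_simp hc.2 ha.2)) (abs_nonneg _)
    ((abs_nonneg _).trans (hD a ha))

lemma tau_zero {Φ : (Fin q → ℝ) → ℝ} : L.tau Φ 0 = L.E Φ := by
  refine L.E_congr fun a ha => ?_
  have hq := (qpos (q := q)).ne'
  have e : ZZ (0 : Fin q → ℝ) a = 1 := by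
    unfold ZZ
    simp only [Pi.zero_apply, add_zero, one_mul, Finset.sum_add_distrib, ha.1]
    simp [hq]
  have e2 : uu (0 : Fin q → ℝ) a = a := by
    funext i
    simp [uu, e]
  rw [e, e2, one_mul]

end MLaw

/-- Vertices of the simplex: the message of a known colour. -/
noncomputable def vertex (η i : Fin q) : ℝ := (if i = η then (q : ℝ) else 0) - 1

/-- What has to be proved for a given number of colours and a given eigenvalue. -/
structure Cert (q : ℕ) [NeZero q] (lam : ℝ) where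
  G : (Fin q → ℝ) → ℝ
  f : (Fin q → ℝ) → ℝ
  gs : List (Equiv.Perm (Fin q))
  κ : ℝ
  δ : ℝ
  θ : ℝ
  gs_ne : gs ≠ []
  κ0 : 0 ≤ κ
  δ0 : 0 < δ
  θ0 : 0 ≤ θ
  G_bdd : Bdd G
  f_bdd : Bdd f
  f_nonneg : ∀ c, Simp c → 0 ≤ f c
  P1 : ∀ c a : Fin q → ℝ, Simp c → Simp a → (∀ i, -lam ≤ a i) →
    (gs.map fun g : Equiv.Perm (Fin q) => ZZ c (a ∘ g) * xx (uu c (a ∘ g))).sum / gs.length
      ≤ xx c + xx a - κ * xx a * G c - G a * f c - δ * xx c ^ 2 * xx a ^ 2
  scale : ∀ c, Simp c → θ * G c ≤ G (fun i => lam * c i)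
  base : ∀ η : Fin q, 0 ≤ G (fun i => lam * vertex η i)
  inv : ∀ (Ω : Type) (L : MLaw q lam Ω), 0 ≤ L.E G → ∀ k, 0 ≤ L.EE k G

section chain

variable {lam : ℝ} (C : Cert q lam) {Ω : Type} (L : MLaw q lam Ω)

lemma bdd_xx2 : Bdd fun c : Fin q → ℝ => xx c ^ 2 := bdd_xx.pow 2

/-- The pointwise inequality after taking the expectation over one child. -/
lemma tau_xx_le {c : Fin q → ℝ} (hc : Simp c) :
    L.tau xx c ≤ xx c + L.E xx - C.κ * L.E xx * C.G c - L.E C.G * C.f c
      - C.δ * xx c ^ 2 * L.E (fun a => xx a ^ 2) := by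
  have hlen : (0 : ℝ) < C.gs.length := by
    have := List.length_pos_iff.mpr C.gs_ne
    exact_mod_cast this
  have hm := MLaw.bdd_merge (bdd_xx (q := q)) hc
  have e0 : L.tau xx c = L.E (fun a => (C.gs.map fun g : Equiv.Perm (Fin q) => ZZ c (a ∘ g) * xx (uu c (a ∘ g))).sum / C.gs.length) := by
    have := L.E_avg_list C.gs hm
    have e : (fun a => (C.gs.map fun g : Equiv.Perm (Fin q) => ZZ c (a ∘ g) * xx (uu c (a ∘ g))).sum / (C.gs.length : ℝ))
        = fun a => (1 / (C.gs.length : ℝ)) * (C.gs.map fun g : Equiv.Perm (Fin q) => ZZ c (a ∘ g) * xx (uu c (a ∘ g))).sum := by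
      funext a
      ring
    rw [e, L.E_smul, this]
    unfold MLaw.tau
    field_simp
  have hbl : Bdd fun a => (C.gs.map fun g : Equiv.Perm (Fin q) => ZZ c (a ∘ g) * xx (uu c (a ∘ g))).sum / (C.gs.length : ℝ) := by
    have : Bdd fun a => (C.gs.map fun g : Equiv.Perm (Fin q) => ZZ c (a ∘ g) * xx (uu c (a ∘ g))).sum := by
      induction C.gs with
      | nil => simpa using bdd_const (q := q) 0
      | cons g gs ih =>
        simp only [List.map_cons, List.sum_cons]
        exact (MLaw.bdd_perm hm g).add ih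
    refine (this.smul (1 / (C.gs.length : ℝ))).imp fun D h a ha => ?_
    have := h a ha
    beta_reduce at this ⊢
    rwa [show (1 / (C.gs.length : ℝ)) * (C.gs.map fun g : Equiv.Perm (Fin q) => ZZ c (a ∘ g) * xx (uu c (a ∘ g))).sum
      = (C.gs.map fun g : Equiv.Perm (Fin q) => ZZ c (a ∘ g) * xx (uu c (a ∘ g))).sum / (C.gs.length : ℝ) by ring] at this
  have hb1 : Bdd fun a : Fin q → ℝ => (1 - C.κ * C.G c) * xx a := bdd_xx.smul _
  have hb2 : Bdd fun a : Fin q → ℝ => (- C.f c) * C.G a := C.G_bdd.smul _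
  have hb3 : Bdd fun a : Fin q → ℝ => (- (C.δ * xx c ^ 2)) * xx a ^ 2 := bdd_xx2.smul _
  have hb4 : Bdd fun a : Fin q → ℝ => xx c + ((1 - C.κ * C.G c) * xx a + ((- C.f c) * C.G a + (- (C.δ * xx c ^ 2)) * xx a ^ 2)) :=
    (bdd_const _).add (hb1.add (hb2.add hb3))
  have h1 := L.E_mono' hbl hb4 (fun ω hω => by
    have := C.P1 c (L.a ω) hc (L.a_simp hω) (L.a_lb ω)
    refine this.trans (le_of_eq ?_)
    ring)
  rw [L.E_add (bdd_const _) (hb1.add (hb2.add hb3)), L.E_add hb1 (hb2.add hb3), L.E_add hb2 hb3,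
    L.E_const, L.E_smul, L.E_smul, L.E_smul, ← e0] at h1
  refine h1.trans (le_of_eq ?_)
  ring

variable (hG : ∀ k, 0 ≤ L.EE k C.G) (hG1 : 0 ≤ L.E C.G)

include hG hG1

lemma EE_step (k : ℕ) :
    L.EE (k + 1) xx ≤ L.EE k xx + L.E xx - C.δ * L.E (fun a => xx a ^ 2) * L.EE k (fun c => xx c ^ 2) := by
  rw [L.EE_succ]
  set X := L.E xx with hX
  set X2 := L.E (fun a => xx a ^ 2) with hX2
  set Gb := L.E C.G with hGb
  have hX0 : 0 ≤ X := L.E_nonneg fun c _ => xx_nonneg c
  have hX20 : 0 ≤ X2 := L.E_nonneg fun c _ => sq_nonneg _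
  have hb1 : Bdd fun c : Fin q → ℝ => (- (C.κ * X)) * C.G c := C.G_bdd.smul _
  have hb2 : Bdd fun c : Fin q → ℝ => (- Gb) * C.f c := C.f_bdd.smul _
  have hb3 : Bdd fun c : Fin q → ℝ => (- (C.δ * X2)) * xx c ^ 2 := bdd_xx2.smul _
  have hb4 : Bdd fun c : Fin q → ℝ => xx c + (X + ((- (C.κ * X)) * C.G c + ((- Gb) * C.f c + (- (C.δ * X2)) * xx c ^ 2))) :=
    bdd_xx.add ((bdd_const _).add (hb1.add (hb2.add hb3)))
  have h1 := L.EE_mono k (L.tau_bdd (bdd_xx (q := q))) hb4 (fun c hc => by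
    have := tau_xx_le C L hc
    refine this.trans (le_of_eq ?_)
    ring)
  rw [L.EE_add k bdd_xx ((bdd_const _).add (hb1.add (hb2.add hb3))),
    L.EE_add k (bdd_const _) (hb1.add (hb2.add hb3)), L.EE_add k hb1 (hb2.add hb3),
    L.EE_add k hb2 hb3, L.EE_const, L.EE_smul, L.EE_smul, L.EE_smul] at h1
  have h2 : 0 ≤ L.EE k C.f := L.EE_nonneg k C.f_bdd C.f_nonneg
  have h3 : 0 ≤ C.κ * X * L.EE k C.G := mul_nonneg (mul_nonneg C.κ0 hX0) (hG k)
  have h4 : 0 ≤ Gb * L.EE k C.f := mul_nonneg hG1 h2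
  nlinarith

lemma EE_xx_le (k : ℕ) : L.EE k xx ≤ k * L.E xx := by
  induction k with
  | zero =>
    rw [L.EE_zero]
    simp [xx]
  | succ k ih =>
    have h1 := EE_step C L hG hG1 k
    have h2 : 0 ≤ L.E (fun a => xx a ^ 2) := L.E_nonneg fun c _ => sq_nonneg _
    have h3 : 0 ≤ L.EE k (fun c => xx c ^ 2) := L.EE_nonneg k bdd_xx2 fun c _ => sq_nonneg _
    have h4 := mul_nonneg (mul_nonneg C.δ0.le h2) h3
    push_cast
    linarith

lemma EE_xx_le' {k : ℕ} (hk : 2 ≤ k) :
    L.EE k xx ≤ k * L.E xx - C.δ * L.E (fun a => xx a ^ 2) ^ 2 := by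
  induction k, hk using Nat.le_induction with
  | base =>
    have h1 := EE_step C L hG hG1 1
    have h2 := EE_xx_le C L hG hG1 1
    have e : L.EE 1 (fun c => xx c ^ 2) = L.E (fun a => xx a ^ 2) := by
      rw [L.EE_succ, L.EE_zero, L.tau_zero]
    rw [e] at h1
    push_cast at h1 h2 ⊢
    nlinarith
  | succ k hk ih =>
    have h1 := EE_step C L hG hG1 k
    have h2 : 0 ≤ L.E (fun a => xx a ^ 2) := L.E_nonneg fun c _ => sq_nonneg _
    have h3 : 0 ≤ L.EE k (fun c => xx c ^ 2) := L.EE_nonneg k bdd_xx2 fun c _ => sq_nonneg _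
    have h4 := mul_nonneg (mul_nonneg C.δ0.le h2) h3
    push_cast
    linarith

omit hG hG1 in
lemma sq_le_E2 : L.E xx ^ 2 ≤ L.E (fun a => xx a ^ 2) := by
  have h0 : 0 ≤ L.E (fun a => (xx a - L.E xx) ^ 2) := L.E_nonneg fun c _ => sq_nonneg _
  have e : L.E (fun a => (xx a - L.E xx) ^ 2)
      = L.E (fun a => xx a ^ 2) + ((- (2 * L.E xx)) * L.E xx + L.E xx ^ 2) := by
    have hb1 : Bdd fun a : Fin q → ℝ => (- (2 * L.E xx)) * xx a := bdd_xx.smul _
    rw [← L.E_smul, ← L.E_const (L.E xx ^ 2), ← L.E_add hb1 (bdd_const _),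
      ← L.E_add bdd_xx2 (hb1.add (bdd_const _))]
    refine L.E_congr fun a _ => ?_
    ring
  rw [e] at h0
  nlinarith

end chain

/-- A nonnegative sequence with `y (n + 1) ≤ ρ y n - c y n ^ 4` tends to zero. -/
lemma tendsto_zero_of_rec {y : ℕ → ℝ} {ρ c : ℝ} (hy : ∀ n, 0 ≤ y n) (hρ0 : 0 ≤ ρ) (hρ : ρ ≤ 1) (hc0 : 0 ≤ c)
    (hc : ρ < 1 ∨ 0 < c) (h : ∀ n, y (n + 1) ≤ ρ * y n - c * y n ^ 4) : Tendsto y atTop (𝓝 0) := by
  have hanti : Antitone y := antitone_nat_of_succ_le fun n => by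
    have h1 := h n
    have h2 := mul_nonneg hc0 (pow_nonneg (hy n) 4)
    nlinarith [hy n]
  have hbdd : BddBelow (Set.range y) := ⟨0, by rintro _ ⟨n, rfl⟩; exact hy n⟩
  have hlim := tendsto_atTop_ciInf hanti hbdd
  set L := ⨅ n, y n with hL
  have hL0 : 0 ≤ L := le_ciInf hy
  have h1 : Tendsto (fun n => y (n + 1)) atTop (𝓝 L) := (tendsto_add_atTop_iff_nat 1).mpr hlim
  have h2 : Tendsto (fun n => ρ * y n - c * y n ^ 4) atTop (𝓝 (ρ * L - c * L ^ 4)) :=
    (hlim.const_mul ρ).sub ((hlim.pow 4).const_mul c)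
  have h3 : L ≤ ρ * L - c * L ^ 4 := le_of_tendsto_of_tendsto' h1 h2 h
  have h4 : L = 0 := by
    rcases hc with hc | hc
    · have h5 := mul_nonneg hc0 (pow_nonneg hL0 4)
      nlinarith
    · by_contra hne
      have hpos : 0 < L := lt_of_le_of_ne hL0 (Ne.symm hne)
      have h5 : 0 < c * L ^ 4 := by positivity
      nlinarith
  rwa [h4] at hlim

section master

variable {off : ℕ → ℝ} {lam m : ℝ} (C : Cert q lam) (hoff : ∀ k, 0 ≤ off k) (hsum : HasSum off 1)
  (hmean : HasSum (fun k : ℕ => (k : ℝ) * off k) m) (h1 : 0 ≤ lam) (h2 : lam < 1)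

/-- The law of the messages at height `n`. -/
noncomputable def lawN (hoff : ∀ k, 0 ≤ off k) (hsum : HasSum off 1) (h1 : 0 ≤ lam) (h2 : lam < 1) (n : ℕ) :
    MLaw q lam (Cfg q n) :=
  mkLaw hoff h1 h2 (lawSum hoff hsum h1 h2 n)

include hoff hsum h1 h2 in
/-- Expectations at depth `n + 1` through expectations at depth `n`. -/
lemma depth_hasSum (n : ℕ) {Φ : (Fin q → ℝ) → ℝ} (hΦ : Bdd Φ) :
    HasSum (fun η : Cfg q (n + 1) => evidence q off lam (n + 1) η * Φ (vv off lam (n + 1) η))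
      (∑' k, off k * (lawN hoff hsum h1 h2 n).EE k Φ) := by
  have key := (lawN hoff hsum h1 h2 n).sigma_hasSum hoff hsum (Gf_dom hΦ)
  have e : (fun η : Cfg q (n + 1) => evidence q off lam (n + 1) η * Φ (vv off lam (n + 1) η))
      = fun x : (Σ k : ℕ, (Fin k → Cfg q n)) =>
        off x.1 * ((lawN hoff hsum h1 h2 n).WW x.2 * Gf Φ ((lawN hoff hsum h1 h2 n).PP x.2)) := by
    funext x
    obtain ⟨k, η⟩ := x
    exact term_step hoff h1 h2 (lawSum hoff hsum h1 h2 n) Φ k η
  rw [e]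
  exact key

/-- Second moment at depth `n`. -/
noncomputable def momY (q : ℕ) [NeZero q] (off : ℕ → ℝ) (lam : ℝ) (n : ℕ) : ℝ :=
  ∑' η : Cfg q n, evidence q off lam n η * xx (vv off lam n η)

include hoff hsum h1 h2 in
lemma momY_succ (n : ℕ) :
    momY q off lam (n + 1) = ∑' k, off k * (lawN (q := q) hoff hsum h1 h2 n).EE k xx :=
  (depth_hasSum hoff hsum h1 h2 n (bdd_xx (q := q))).tsum_eq

lemma E_xx_lawN (n : ℕ) :
    (lawN (q := q) hoff hsum h1 h2 n).E xx = lam ^ 2 * momY q off lam n := by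
  unfold MLaw.E momY
  rw [← tsum_mul_left]
  refine tsum_congr fun η => ?_
  show evidence q off lam n η * xx (fun i => lam * vv off lam n η i) = _
  rw [xx_smul]
  ring

/-- The invariant holds at all depths. -/
lemma invariant (n : ℕ) : 0 ≤ (lawN (q := q) hoff hsum h1 h2 n).E C.G := by
  induction n with
  | zero =>
    refine tsum_nonneg fun η => mul_nonneg (evidence_nonneg hoff h1 h2.le 0 η) ?_
    have e : (lawN (q := q) hoff hsum h1 h2 0).a η = fun i => lam * vertex (Cfg.colour η) i := by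
      funext i
      show lam * vv off lam 0 η i = _
      congr 1
      have hq := (qpos (q := q)).ne'
      simp only [vv, evidence_zero, vertex]
      have e : lik q off lam 0 i η = if i = Cfg.colour η then 1 else 0 := rfl
      rw [e]
      split_ifs <;> field_simp <;> ring
    rw [e]
    exact C.base _
  | succ n ih =>
    have hb : Bdd fun c : Fin q → ℝ => C.G (fun i => lam * c i) := bdd_comp_smul h1 h2.le C.G_bdd
    have h3 := depth_hasSum hoff hsum h1 h2 n hb
    have e : (lawN (q := q) hoff hsum h1 h2 (n + 1)).E C.G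
        = ∑' η : Cfg q (n + 1), evidence q off lam (n + 1) η * (fun c : Fin q → ℝ => C.G (fun i => lam * c i)) (vv off lam (n + 1) η) := rfl
    rw [e, h3.tsum_eq]
    refine tsum_nonneg fun k => mul_nonneg (hoff k) ?_
    have h4 := C.inv _ (lawN (q := q) hoff hsum h1 h2 n) ih k
    have h5 := (lawN (q := q) hoff hsum h1 h2 n).EE_mono k (C.G_bdd.smul C.θ) hb C.scale
    rw [MLaw.EE_smul] at h5
    exact (mul_nonneg C.θ0 h4).trans h5

include hoff h1 h2 in
lemma momY_nonneg (n : ℕ) : 0 ≤ momY q off lam n :=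
  tsum_nonneg fun η => mul_nonneg (evidence_nonneg hoff h1 h2.le n η) (xx_nonneg _)

include C hoff hsum hmean h1 h2 in
lemma momY_rec (n : ℕ) :
    momY q off lam (n + 1) ≤ m * (lam ^ 2 * momY q off lam n) := by
  set L := lawN (q := q) hoff hsum h1 h2 n with hL
  have hG1 := invariant C hoff hsum h1 h2 n
  have hG := C.inv _ L hG1
  rw [momY_succ hoff hsum h1 h2, ← E_xx_lawN hoff hsum h1 h2]
  have hs1 : Summable fun k => off k * L.EE k xx := by
    obtain ⟨D, hD⟩ := bdd_xx (q := q)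
    refine Summable.of_norm_bounded (g := fun k => off k * D) (hsum.summable.mul_right D) fun k => ?_
    rw [Real.norm_eq_abs, abs_mul, abs_of_nonneg (hoff k)]
    exact mul_le_mul_of_nonneg_left (L.EE_abs_le k hD) (hoff k)
  have h3 : HasSum (fun k : ℕ => (k : ℝ) * off k * L.E xx) (m * L.E xx) := hmean.mul_right _
  rw [← h3.tsum_eq]
  refine Summable.tsum_le_tsum (fun k => ?_) hs1 h3.summable
  have h4 := EE_xx_le C L hG hG1 k
  have := mul_le_mul_of_nonneg_left h4 (hoff k)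
  linarith

include hoff hsum hmean h1 h2 in
lemma momY_rec' (n : ℕ) {k₀ : ℕ} (hk₀ : 2 ≤ k₀) :
    momY q off lam (n + 1)
      ≤ m * (lam ^ 2 * momY q off lam n) - off k₀ * C.δ * (lam ^ 2 * momY q off lam n) ^ 4 := by
  set L := lawN (q := q) hoff hsum h1 h2 n with hL
  have hG1 := invariant C hoff hsum h1 h2 n
  have hG := C.inv _ L hG1
  rw [momY_succ hoff hsum h1 h2, ← E_xx_lawN hoff hsum h1 h2]
  have hs1 : Summable fun k => off k * L.EE k xx := by
    obtain ⟨D, hD⟩ := bdd_xx (q := q)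
    refine Summable.of_norm_bounded (g := fun k => off k * D) (hsum.summable.mul_right D) fun k => ?_
    rw [Real.norm_eq_abs, abs_mul, abs_of_nonneg (hoff k)]
    exact mul_le_mul_of_nonneg_left (L.EE_abs_le k hD) (hoff k)
  have h3 : HasSum (fun k : ℕ => (k : ℝ) * off k * L.E xx) (m * L.E xx) := hmean.mul_right _
  have h4 : HasSum (fun k : ℕ => if k = k₀ then off k₀ * C.δ * L.E xx ^ 4 else 0)
      (off k₀ * C.δ * L.E xx ^ 4) := hasSum_ite_eq k₀ _
  have h5 := h3.sub h4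
  rw [← h5.tsum_eq]
  refine Summable.tsum_le_tsum (fun k => ?_) hs1 h5.summable
  have h6 := EE_xx_le C L hG hG1 k
  by_cases hk : k = k₀
  · subst hk
    simp only [if_true]
    have h7 := EE_xx_le' C L hG hG1 hk₀
    have h8 := sq_le_E2 L
    have hX0 : 0 ≤ L.E xx := L.E_nonneg fun c _ => xx_nonneg c
    have h9 : L.E xx ^ 4 ≤ L.E (fun a => xx a ^ 2) ^ 2 := by
      have := pow_le_pow_left₀ (sq_nonneg (L.E xx)) h8 2
      calc L.E xx ^ 4 = (L.E xx ^ 2) ^ 2 := by ring
        _ ≤ _ := this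
    have h10 : L.EE k xx ≤ k * L.E xx - C.δ * L.E xx ^ 4 := by
      have := mul_le_mul_of_nonneg_left h9 C.δ0.le
      linarith
    have := mul_le_mul_of_nonneg_left h10 (hoff k)
    linarith
  · simp only [hk, if_false]
    have := mul_le_mul_of_nonneg_left h6 (hoff k)
    linarith

include C hoff hsum hmean h1 h2 in
/-- The second moment tends to zero. -/
lemma momY_tendsto (hcrit : m * lam ^ 2 ≤ 1) :
    Tendsto (fun n => momY q off lam (n + 1)) atTop (𝓝 0) := by
  have hm0 : 0 ≤ m := hmean.nonneg fun k => mul_nonneg (Nat.cast_nonneg k) (hoff k)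
  have hρ0 : 0 ≤ m * lam ^ 2 := mul_nonneg hm0 (sq_nonneg _)
  have hy := fun n => momY_nonneg (q := q) hoff h1 h2 (n + 1)
  rcases hcrit.lt_or_eq with hlt | heq
  · refine tendsto_zero_of_rec (ρ := m * lam ^ 2) (c := 0) hy hρ0 hcrit le_rfl (Or.inl hlt) fun n => ?_
    have := momY_rec C hoff hsum hmean h1 h2 (n + 1)
    calc _ ≤ _ := this
      _ = _ := by ring
  · have hlam : 0 < lam := by
      rcases h1.eq_or_lt with h | h
      · rw [← h] at heq
        norm_num at heq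
      · exact h
    have hmgt : 1 < m := by
      have h3 : lam ^ 2 < 1 := by nlinarith
      have h4 : 0 < lam ^ 2 := by positivity
      nlinarith
    obtain ⟨k₀, hk₀, hpos⟩ : ∃ k₀, 2 ≤ k₀ ∧ off k₀ ≠ 0 := by
      by_contra hno
      push Not at hno
      have e : (fun k : ℕ => (k : ℝ) * off k) = fun k => if k = 1 then off 1 else 0 := by
        funext k
        by_cases hk : k = 1
        · subst hk
          simp
        · rw [if_neg hk]
          rcases Nat.lt_or_ge k 2 with h | h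
          · have : k = 0 := by omega
            subst this
            simp
          · rw [hno k h, mul_zero]
      rw [e] at hmean
      have h3 := hmean.unique (hasSum_ite_eq 1 (off 1))
      have h4 : off 1 ≤ 1 := le_hasSum hsum 1 fun j _ => hoff j
      linarith
    have hpos' : 0 < off k₀ := lt_of_le_of_ne (hoff k₀) (Ne.symm hpos)
    refine tendsto_zero_of_rec (ρ := m * lam ^ 2) (c := off k₀ * C.δ * (lam ^ 2) ^ 4) hy hρ0 hcrit
      (by have := C.δ0; positivity) (Or.inr (by have := C.δ0; positivity)) fun n => ?_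
    have := momY_rec' C hoff hsum hmean h1 h2 (n + 1) hk₀
    calc _ ≤ _ := this
      _ = _ := by ring

lemma term_eq (n : ℕ) (η : Cfg q n) :
    evidence q off lam n η * ((1 / 2) * ∑ i : Fin q, |posterior q off lam n i η - 1 / (q : ℝ)|)
      = evidence q off lam n η * TV (vv off lam n η) := by
  congr 1
  unfold TV
  congr 1
  refine Finset.sum_congr rfl fun i _ => ?_
  congr 1
  simp only [posterior, vv]
  have hq := (qpos (q := q)).ne'
  ring

include hoff hsum h1 h2 in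
/-- Summability of the terms of the advantage. -/
lemma adv_summable (n : ℕ) :
    Summable fun η : Cfg q n => evidence q off lam n η *
      ((1 / 2) * ∑ i : Fin q, |posterior q off lam n i η - 1 / (q : ℝ)|) := by
  simp only [term_eq]
  cases n with
  | zero => exact (hasSum_fintype _).summable
  | succ n => exact (depth_hasSum hoff hsum h1 h2 n (bdd_TV (q := q))).summable

include hoff hsum h1 h2 in
lemma adv_le (n : ℕ) {δ : ℝ} (hδ : 0 < δ) :
    advantage q off lam (n + 1) ≤ δ / 4 + momY q off lam (n + 1) / (4 * δ) := by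
  unfold advantage
  simp only [term_eq]
  have h3 := (depth_hasSum hoff hsum h1 h2 n (bdd_TV (q := q))).summable
  have h4 := (depth_hasSum hoff hsum h1 h2 n (bdd_xx (q := q))).summable
  have h5 := lawSum (q := q) hoff hsum h1 h2 (n + 1)
  have h6 := (h5.mul_right (δ / 4)).add (h4.hasSum.mul_right (1 / (4 * δ)))
  have h7 := Summable.tsum_le_tsum (fun η => ?_) h3 h6.summable
  · rw [h6.tsum_eq] at h7
    refine h7.trans (le_of_eq ?_)
    unfold momY
    field_simp
  · have h8 := TV_le hδ (vv off lam (n + 1) η)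
    have h9 := mul_le_mul_of_nonneg_left h8 (evidence_nonneg hoff h1 h2.le (n + 1) η)
    refine h9.trans (le_of_eq ?_)
    field_simp

include hoff h1 h2 in
lemma adv_nonneg (n : ℕ) : 0 ≤ advantage q off lam n := by
  refine tsum_nonneg fun η => mul_nonneg (evidence_nonneg hoff h1 h2.le n η) ?_
  exact mul_nonneg (by norm_num) (Finset.sum_nonneg fun i _ => abs_nonneg _)

include C hoff hsum hmean h1 h2 in
/-- Master theorem. -/
theorem master (hcrit : m * lam ^ 2 ≤ 1) :
    (∀ n, HasSum (evidence q off lam n) 1) ∧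
    (∀ n, Summable fun η : Cfg q n => evidence q off lam n η *
      ((1 / 2) * ∑ i : Fin q, |posterior q off lam n i η - 1 / (q : ℝ)|)) ∧
    Tendsto (advantage q off lam) atTop (𝓝 0) := by
  refine ⟨lawSum hoff hsum h1 h2, adv_summable hoff hsum h1 h2, ?_⟩
  have hY := momY_tendsto (q := q) C hoff hsum hmean h1 h2 hcrit
  rw [← tendsto_add_atTop_iff_nat 1]
  rw [Metric.tendsto_atTop]
  intro ε hε
  have hY2 := (Metric.tendsto_atTop.mp hY) (ε ^ 2) (by positivity)
  obtain ⟨N, hN⟩ := hY2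
  refine ⟨N, fun n hn => ?_⟩
  have h3 := hN n hn
  rw [Real.dist_eq, sub_zero] at h3 ⊢
  have h4 := (abs_lt.mp h3).2
  rw [abs_of_nonneg (adv_nonneg (q := q) hoff h1 h2 _)]
  have h5 := adv_le (q := q) hoff hsum h1 h2 n (show 0 < 2 * ε by positivity)
  have h6 : momY q off lam (n + 1) / (4 * (2 * ε)) < ε := by
    rw [div_lt_iff₀ (by positivity)]
    nlinarith
  have hh : 2 * ε / 4 = ε / 2 := by ring
  have h7 : momY q off lam (n + 1) / (4 * (2 * ε)) < ε / 2 := by
    rw [div_lt_iff₀ (by positivity)]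
    nlinarith
  linarith

end master

end Vale.Agent.helper4.GW
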