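import Vale.Agent.helper4.PottsTree

/-!
Nonreconstruction for the 3-state Potts channel on the binary tree whenever `2 lam^2 ≤ 1`.
-/

open Finset Filter Topology

namespace Vale.Agent.helper4.Potts

open Vale.Agent.helper4.PottsPair

lemma comp_g1 (v : Fin 3 → ℝ) : (v ∘ g1) 0 = v 1 ∧ (v ∘ g1) 1 = v 2 ∧ (v ∘ g1) 2 = v 0 := by
  refine ⟨?_, ?_, ?_⟩ <;> simp only [Function.comp] <;> congr 1
lemma comp_g2 (v : Fin 3 → ℝ) : (v ∘ g2) 0 = v 2 ∧ (v ∘ g2) 1 = v 0 ∧ (v ∘ g2) 2 = v 1 := by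
  refine ⟨?_, ?_, ?_⟩ <;> simp only [Function.comp] <;> congr 1
lemma comp_g3 (v : Fin 3 → ℝ) : (v ∘ g3) 0 = v 0 ∧ (v ∘ g3) 1 = v 2 ∧ (v ∘ g3) 2 = v 1 := by
  refine ⟨?_, ?_, ?_⟩ <;> simp only [Function.comp] <;> congr 1
lemma comp_g4 (v : Fin 3 → ℝ) : (v ∘ g4) 0 = v 2 ∧ (v ∘ g4) 1 = v 1 ∧ (v ∘ g4) 2 = v 0 := by
  refine ⟨?_, ?_, ?_⟩ <;> simp only [Function.comp] <;> congr 1
lemma comp_g5 (v : Fin 3 → ℝ) : (v ∘ g5) 0 = v 1 ∧ (v ∘ g5) 1 = v 0 ∧ (v ∘ g5) 2 = v 2 := by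
  refine ⟨?_, ?_, ?_⟩ <;> simp only [Function.comp] <;> congr 1

lemma xI_scale (lam u0 u1 u2 : ℝ) : xI (lam * u0) (lam * u1) (lam * u2) = lam^2 * xI u0 u1 u2 := by
  simp only [xI]; ring

lemma yI_scale (lam u0 u1 u2 : ℝ) : yI (lam * u0) (lam * u1) (lam * u2) = lam^3 * yI u0 u1 u2 := by
  simp only [yI]; ring

/-- The symmetrised six-term average of `tauX` in explicit form. -/
lemma avg_tauX (lam : ℝ) (u v : Fin 3 → ℝ) :
    (tauX lam u v + tauX lam u (v ∘ g1) + tauX lam u (v ∘ g2) + tauX lam u (v ∘ g3)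
        + tauX lam u (v ∘ g4) + tauX lam u (v ∘ g5)) / 6
      = (tau1 (lam * u 0) (lam * u 1) (lam * u 2) (lam * v 0) (lam * v 1) (lam * v 2)
        + tau1 (lam * u 0) (lam * u 1) (lam * u 2) (lam * v 1) (lam * v 2) (lam * v 0)
        + tau1 (lam * u 0) (lam * u 1) (lam * u 2) (lam * v 2) (lam * v 0) (lam * v 1)
        + tau1 (lam * u 0) (lam * u 1) (lam * u 2) (lam * v 0) (lam * v 2) (lam * v 1)
        + tau1 (lam * u 0) (lam * u 1) (lam * u 2) (lam * v 2) (lam * v 1) (lam * v 0)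
        + tau1 (lam * u 0) (lam * u 1) (lam * u 2) (lam * v 1) (lam * v 0) (lam * v 2)) / 6 := by
  obtain ⟨a1, a2, a3⟩ := comp_g1 v
  obtain ⟨b1, b2, b3⟩ := comp_g2 v
  obtain ⟨c1, c2, c3⟩ := comp_g3 v
  obtain ⟨d1, d2, d3⟩ := comp_g4 v
  obtain ⟨e1, e2, e3⟩ := comp_g5 v
  simp only [tauX, a1, a2, a3, b1, b2, b3, c1, c2, c3, d1, d2, d3, e1, e2, e3]

lemma avg_tauY (lam : ℝ) (u v : Fin 3 → ℝ) :
    (tauY lam u v + tauY lam u (v ∘ g1) + tauY lam u (v ∘ g2) + tauY lam u (v ∘ g3)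
        + tauY lam u (v ∘ g4) + tauY lam u (v ∘ g5)) / 6
      = (tau3 (lam * u 0) (lam * u 1) (lam * u 2) (lam * v 0) (lam * v 1) (lam * v 2)
        + tau3 (lam * u 0) (lam * u 1) (lam * u 2) (lam * v 1) (lam * v 2) (lam * v 0)
        + tau3 (lam * u 0) (lam * u 1) (lam * u 2) (lam * v 2) (lam * v 0) (lam * v 1)
        + tau3 (lam * u 0) (lam * u 1) (lam * u 2) (lam * v 0) (lam * v 2) (lam * v 1)
        + tau3 (lam * u 0) (lam * u 1) (lam * u 2) (lam * v 2) (lam * v 1) (lam * v 0)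
        + tau3 (lam * u 0) (lam * u 1) (lam * u 2) (lam * v 1) (lam * v 0) (lam * v 2)) / 6 := by
  obtain ⟨a1, a2, a3⟩ := comp_g1 v
  obtain ⟨b1, b2, b3⟩ := comp_g2 v
  obtain ⟨c1, c2, c3⟩ := comp_g3 v
  obtain ⟨d1, d2, d3⟩ := comp_g4 v
  obtain ⟨e1, e2, e3⟩ := comp_g5 v
  simp only [tauY, a1, a2, a3, b1, b2, b3, c1, c2, c3, d1, d2, d3, e1, e2, e3]

lemma SS_add (lam : ℝ) (n : ℕ) (F G : (Fin 3 → ℝ) → (Fin 3 → ℝ) → ℝ) :
    SS lam n (fun u v => F u v + G u v) = SS lam n F + SS lam n G := by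
  simp only [SS, mul_add, Finset.sum_add_distrib]

lemma SS_sub (lam : ℝ) (n : ℕ) (F G : (Fin 3 → ℝ) → (Fin 3 → ℝ) → ℝ) :
    SS lam n (fun u v => F u v - G u v) = SS lam n F - SS lam n G := by
  simp only [SS, mul_sub, Finset.sum_sub_distrib]

/-- The weight multiplying the third moment in the bound for the second moment. -/
noncomputable def fF (lam : ℝ) (u : Fin 3 → ℝ) : ℝ := 2 / 3 * (lam^2 * xU u) - 2 / 5 * (lam^3 * yU u)

/-- The weight multiplying the third moment in the bound for the third moment. -/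
noncomputable def hH (lam : ℝ) (u : Fin 3 → ℝ) : ℝ := 1 - lam^2 * xU u

/-- One step of the recursion for the second moment, positive channel. -/
lemma step_x {lam : ℝ} (h0 : 0 ≤ lam) (h2 : 2 * lam^2 ≤ 1) (n : ℕ) :
    En 2 lam (n + 1) xU ≤ lam^2 * En 2 lam n xU + lam^2 * En 2 lam n xU
      - 1 / 20 * (lam^2 * En 2 lam n xU * (lam^2 * En 2 lam n xU))
      - En 2 lam n (fF lam) * (lam^3 * En 2 lam n yU) - En 2 lam n (fF lam) * (lam^3 * En 2 lam n yU) := by
  have hl1 : lam ≤ 1 := by nlinarith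
  have hl2 : -1 / 2 ≤ lam := by linarith
  rw [En_succ_x hl2 hl1, SS_sym]
  have bound := SS_le hl2 hl1 n
    (fun u v => (tauX lam u v + tauX lam u (v ∘ g1) + tauX lam u (v ∘ g2) + tauX lam u (v ∘ g3)
        + tauX lam u (v ∘ g4) + tauX lam u (v ∘ g5)) / 6)
    (fun u v => (lam^2 * xU u) * 1 + 1 * (lam^2 * xU v) - 1 / 20 * ((lam^2 * xU u) * (lam^2 * xU v))
      - fF lam u * (lam^3 * yU v) - (lam^3 * yU u) * fF lam v) ?_
  · refine le_trans bound (le_of_eq ?_)
    have e1 := SS_sub lam n (fun u v => (lam^2 * xU u) * 1 + 1 * (lam^2 * xU v)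
        - 1 / 20 * ((lam^2 * xU u) * (lam^2 * xU v)) - fF lam u * (lam^3 * yU v))
        (fun u v => (lam^3 * yU u) * fF lam v)
    have e2 := SS_sub lam n (fun u v => (lam^2 * xU u) * 1 + 1 * (lam^2 * xU v)
        - 1 / 20 * ((lam^2 * xU u) * (lam^2 * xU v)))
        (fun u v => fF lam u * (lam^3 * yU v))
    have e3 := SS_sub lam n (fun u v => (lam^2 * xU u) * 1 + 1 * (lam^2 * xU v))
        (fun u v => 1 / 20 * ((lam^2 * xU u) * (lam^2 * xU v)))
    have e4 := SS_add lam n (fun u v => (lam^2 * xU u) * 1) (fun u v => 1 * (lam^2 * xU v))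
    have p1 := SS_prod lam n (fun u => lam^2 * xU u) (fun _ => 1)
    have p2 := SS_prod lam n (fun _ => 1) (fun v => lam^2 * xU v)
    have p3 := SS_prod lam n (fun u => 1 / 20 * (lam^2 * xU u)) (fun v => lam^2 * xU v)
    have p4 := SS_prod lam n (fun u => fF lam u) (fun v => lam^3 * yU v)
    have p5 := SS_prod lam n (fun u => lam^3 * yU u) (fun v => fF lam v)
    have one := En_one (d := 2) hl2 hl1 n
    have l1 : En 2 lam n (fun u => lam^2 * xU u) = lam^2 * En 2 lam n xU := by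
      simp only [En, Finset.mul_sum]
      exact Finset.sum_congr rfl fun _ _ => by ring
    have l2 : En 2 lam n (fun u => 1 / 20 * (lam^2 * xU u)) = 1 / 20 * (lam^2 * En 2 lam n xU) := by
      simp only [En, Finset.mul_sum]
      exact Finset.sum_congr rfl fun _ _ => by ring
    have l3 : En 2 lam n (fun u => lam^3 * yU u) = lam^3 * En 2 lam n yU := by
      simp only [En, Finset.mul_sum]
      exact Finset.sum_congr rfl fun _ _ => by ring
    have e5 : SS lam n (fun u v => 1 / 20 * ((lam^2 * xU u) * (lam^2 * xU v)))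
        = SS lam n (fun u v => (1 / 20 * (lam^2 * xU u)) * (lam^2 * xU v)) := by
      congr 1
      funext u v
      ring
    rw [e1, e2, e3, e4, e5, p1, p2, p3, p4, p5, one, l1, l2, l3]
    ring
  · intro η₀ η₁ w0 w1
    show (tauX lam _ _ + tauX lam _ (_ ∘ g1) + tauX lam _ (_ ∘ g2) + tauX lam _ (_ ∘ g3)
        + tauX lam _ (_ ∘ g4) + tauX lam _ (_ ∘ g5)) / 6 ≤ _
    rw [avg_tauX]
    set u := vv 2 lam n η₀ with hu
    set v := vv 2 lam n η₁ with hv
    have su : u 0 + u 1 + u 2 = 0 := vv_sum w0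
    have sv : v 0 + v 1 + v 2 = 0 := vv_sum w1
    have gu : ∀ i, -lam ≤ lam * u i := fun i => by
      have := mul_le_mul_of_nonneg_left (vv_ge (n := n) (η := η₀) hl2 hl1 i) h0
      linarith
    have gv : ∀ i, -lam ≤ lam * v i := fun i => by
      have := mul_le_mul_of_nonneg_left (vv_ge (n := n) (η := η₁) hl2 hl1 i) h0
      linarith
    have key := T1_upper h0 h2 (a0 := lam * u 0) (a1 := lam * u 1) (a2 := lam * u 2)
      (b0 := lam * v 0) (b1 := lam * v 1) (b2 := lam * v 2)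
      (by linear_combination lam * su) (by linear_combination lam * sv)
      (gu 0) (gu 1) (gu 2) (gv 0) (gv 1) (gv 2)
    refine le_trans key (le_of_eq ?_)
    simp only [xI_scale, yI_scale, fF, xU, yU]
    ring

/-- One step of the recursion for the third moment, positive channel. -/
lemma step_y {lam : ℝ} (h0 : 0 ≤ lam) (h2 : 2 * lam^2 ≤ 1) (n : ℕ) :
    En 2 lam n (hH lam) * (lam^3 * En 2 lam n yU) + En 2 lam n (hH lam) * (lam^3 * En 2 lam n yU)
      ≤ En 2 lam (n + 1) yU := by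
  have hl1 : lam ≤ 1 := by nlinarith
  have hl2 : -1 / 2 ≤ lam := by linarith
  rw [En_succ_y hl2 hl1, SS_sym]
  have bound := SS_le hl2 hl1 n
    (fun u v => hH lam u * (lam^3 * yU v) + (lam^3 * yU u) * hH lam v)
    (fun u v => (tauY lam u v + tauY lam u (v ∘ g1) + tauY lam u (v ∘ g2) + tauY lam u (v ∘ g3)
        + tauY lam u (v ∘ g4) + tauY lam u (v ∘ g5)) / 6) ?_
  · refine le_trans (le_of_eq ?_) bound
    have e4 := SS_add lam n (fun u v => hH lam u * (lam^3 * yU v)) (fun u v => (lam^3 * yU u) * hH lam v)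
    have p1 := SS_prod lam n (fun u => hH lam u) (fun v => lam^3 * yU v)
    have p2 := SS_prod lam n (fun u => lam^3 * yU u) (fun v => hH lam v)
    have l3 : En 2 lam n (fun u => lam^3 * yU u) = lam^3 * En 2 lam n yU := by
      simp only [En, Finset.mul_sum]
      exact Finset.sum_congr rfl fun _ _ => by ring
    rw [e4, p1, p2, l3]
    ring
  · intro η₀ η₁ w0 w1
    show _ ≤ (tauY lam _ _ + tauY lam _ (_ ∘ g1) + tauY lam _ (_ ∘ g2) + tauY lam _ (_ ∘ g3)
        + tauY lam _ (_ ∘ g4) + tauY lam _ (_ ∘ g5)) / 6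
    rw [avg_tauY]
    set u := vv 2 lam n η₀ with hu
    set v := vv 2 lam n η₁ with hv
    have su : u 0 + u 1 + u 2 = 0 := vv_sum w0
    have sv : v 0 + v 1 + v 2 = 0 := vv_sum w1
    have gu : ∀ i, -lam ≤ lam * u i := fun i => by
      have := mul_le_mul_of_nonneg_left (vv_ge (n := n) (η := η₀) hl2 hl1 i) h0
      linarith
    have gv : ∀ i, -lam ≤ lam * v i := fun i => by
      have := mul_le_mul_of_nonneg_left (vv_ge (n := n) (η := η₁) hl2 hl1 i) h0
      linarith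
    have key := T3_lower h0 h2 (a0 := lam * u 0) (a1 := lam * u 1) (a2 := lam * u 2)
      (b0 := lam * v 0) (b1 := lam * v 1) (b2 := lam * v 2)
      (by linear_combination lam * su) (by linear_combination lam * sv)
      (gu 0) (gu 1) (gu 2) (gv 0) (gv 1) (gv 2)
    refine le_trans (le_of_eq ?_) key
    simp only [xI_scale, yI_scale, hH, xU, yU]
    ring

lemma fF_nonneg {lam : ℝ} (h0 : 0 ≤ lam) (h2 : 2 * lam^2 ≤ 1) (n : ℕ) :
    0 ≤ En 2 lam n (fF lam) := by
  have hl1 : lam ≤ 1 := by nlinarith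
  have hl2 : -1 / 2 ≤ lam := by linarith
  refine En_nonneg hl2 hl1 n _ fun η w => ?_
  set u := vv 2 lam n η with hu
  have su : u 0 + u 1 + u 2 = 0 := vv_sum w
  have gu : ∀ i, -lam ≤ lam * u i := fun i => by
    have := mul_le_mul_of_nonneg_left (vv_ge (n := n) (η := η) hl2 hl1 i) h0
    linarith
  have key := f_nonneg h0 h2 (a0 := lam * u 0) (a1 := lam * u 1) (a2 := lam * u 2)
    (by linear_combination lam * su) (gu 0) (gu 1) (gu 2)
  simp only [xI_scale, yI_scale] at key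
  exact key

lemma hH_nonneg {lam : ℝ} (h0 : 0 ≤ lam) (h2 : 2 * lam^2 ≤ 1) (n : ℕ) :
    0 ≤ En 2 lam n (hH lam) := by
  have hl1 : lam ≤ 1 := by nlinarith
  have hl2 : -1 / 2 ≤ lam := by linarith
  refine En_nonneg hl2 hl1 n _ fun η w => ?_
  set u := vv 2 lam n η with hu
  have su : u 0 + u 1 + u 2 = 0 := vv_sum w
  have gu : ∀ i, -lam ≤ lam * u i := fun i => by
    have := mul_le_mul_of_nonneg_left (vv_ge (n := n) (η := η) hl2 hl1 i) h0
    linarith
  have key := one_sub_x_nonneg h0 h2 (a0 := lam * u 0) (a1 := lam * u 1) (a2 := lam * u 2)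
    (by linear_combination lam * su) (gu 0) (gu 1) (gu 2)
  simp only [xI_scale] at key
  exact key

lemma X_nonneg {lam : ℝ} (hl2 : -1 / 2 ≤ lam) (hl1 : lam ≤ 1) (n : ℕ) : 0 ≤ En 2 lam n xU := by
  refine En_nonneg hl2 hl1 n _ fun η _ => ?_
  simp only [xU, xI]
  positivity

/-- The base case: at depth `0` the third moment is `2`. -/
lemma Y_zero {lam : ℝ} (hl2 : -1 / 2 ≤ lam) (hl1 : lam ≤ 1) : 0 ≤ En 2 lam 0 yU := by
  refine En_nonneg hl2 hl1 0 _ fun η _ => ?_
  have e : ∀ i : Fin 3, lik 3 2 lam 0 i η = if i = LeafCfg.colour η then 1 else 0 := fun _ => rfl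
  have w : wt 2 lam 0 η = 1 / 3 := by
    rw [wt_eq, e, e, e]
    generalize LeafCfg.colour η = c
    fin_cases c <;> simp
  simp only [yU, yI, vv, w, e]
  generalize LeafCfg.colour η = c
  fin_cases c <;> simp (decide := true) <;> norm_num

lemma Y_nonneg {lam : ℝ} (h0 : 0 ≤ lam) (h2 : 2 * lam^2 ≤ 1) (n : ℕ) : 0 ≤ En 2 lam n yU := by
  have hl1 : lam ≤ 1 := by nlinarith
  have hl2 : -1 / 2 ≤ lam := by linarith
  induction n with
  | zero => exact Y_zero hl2 hl1
  | succ n ih =>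
    have := step_y h0 h2 n
    have h3 := hH_nonneg h0 h2 n
    have h4 : 0 ≤ En 2 lam n (hH lam) * (lam^3 * En 2 lam n yU) :=
      mul_nonneg h3 (mul_nonneg (pow_nonneg h0 3) ih)
    linarith

lemma X_step_pos {lam : ℝ} (h0 : 0 ≤ lam) (h2 : 2 * lam^2 ≤ 1) (n : ℕ) :
    En 2 lam (n + 1) xU ≤ En 2 lam n xU - 1 / 20 * lam^4 * (En 2 lam n xU)^2 := by
  have hl1 : lam ≤ 1 := by nlinarith
  have hl2 : -1 / 2 ≤ lam := by linarith
  have key := step_x h0 h2 n
  have h3 := fF_nonneg h0 h2 n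
  have h4 : 0 ≤ En 2 lam n (fF lam) * (lam^3 * En 2 lam n yU) :=
    mul_nonneg h3 (mul_nonneg (pow_nonneg h0 3) (Y_nonneg h0 h2 n))
  have h5 := X_nonneg hl2 hl1 n
  have h6 : lam^2 * En 2 lam n xU + lam^2 * En 2 lam n xU ≤ En 2 lam n xU := by nlinarith
  nlinarith

/-- One step of the recursion for the second moment, negative channel. -/
lemma X_step_neg {lam : ℝ} (h0 : lam ≤ 0) (h1 : -1 / 2 ≤ lam) (n : ℕ) :
    En 2 lam (n + 1) xU ≤ 3 / 4 * En 2 lam n xU := by
  have hl1 : lam ≤ 1 := by linarith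
  rw [En_succ_x h1 hl1, SS_sym]
  have bound := SS_le h1 hl1 n
    (fun u v => (tauX lam u v + tauX lam u (v ∘ g1) + tauX lam u (v ∘ g2) + tauX lam u (v ∘ g3)
        + tauX lam u (v ∘ g4) + tauX lam u (v ∘ g5)) / 6)
    (fun u v => (3 / 2 * (lam^2 * xU u)) * 1 + 1 * (3 / 2 * (lam^2 * xU v))) ?_
  · refine le_trans bound ?_
    have e4 := SS_add lam n (fun u v => (3 / 2 * (lam^2 * xU u)) * 1) (fun u v => 1 * (3 / 2 * (lam^2 * xU v)))
    have p1 := SS_prod lam n (fun u => 3 / 2 * (lam^2 * xU u)) (fun _ => 1)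
    have p2 := SS_prod lam n (fun _ => 1) (fun v => 3 / 2 * (lam^2 * xU v))
    have one := En_one (d := 2) h1 hl1 n
    have l1 : En 2 lam n (fun u => 3 / 2 * (lam^2 * xU u)) = 3 / 2 * (lam^2 * En 2 lam n xU) := by
      simp only [En, Finset.mul_sum]
      exact Finset.sum_congr rfl fun _ _ => by ring
    rw [e4, p1, p2, one, l1]
    have h5 := X_nonneg h1 hl1 n
    have : lam^2 ≤ 1 / 4 := by nlinarith
    nlinarith
  · intro η₀ η₁ w0 w1
    show (tauX lam _ _ + tauX lam _ (_ ∘ g1) + tauX lam _ (_ ∘ g2) + tauX lam _ (_ ∘ g3)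
        + tauX lam _ (_ ∘ g4) + tauX lam _ (_ ∘ g5)) / 6 ≤ _
    rw [avg_tauX]
    set u := vv 2 lam n η₀ with hu
    set v := vv 2 lam n η₁ with hv
    have su : u 0 + u 1 + u 2 = 0 := vv_sum w0
    have sv : v 0 + v 1 + v 2 = 0 := vv_sum w1
    have bu : ∀ i, lam * u i ≤ -lam ∧ -(2 * -lam) ≤ lam * u i := fun i => by
      have g := vv_ge (n := n) (η := η₀) h1 hl1 i
      have l := vv_le (n := n) (η := η₀) h1 hl1 w0 i
      constructor <;> nlinarith
    have bv : ∀ i, lam * v i ≤ -lam ∧ -(2 * -lam) ≤ lam * v i := fun i => by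
      have g := vv_ge (n := n) (η := η₁) h1 hl1 i
      have l := vv_le (n := n) (η := η₁) h1 hl1 w1 i
      constructor <;> nlinarith
    have key := T1_neg (nu := -lam) (a0 := lam * u 0) (a1 := lam * u 1) (a2 := lam * u 2)
      (b0 := lam * v 0) (b1 := lam * v 1) (b2 := lam * v 2) (by linarith) (by linarith)
      (by linear_combination lam * su) (by linear_combination lam * sv)
      (bu 0).1 (bu 1).1 (bu 2).1 (bv 0).1 (bv 1).1 (bv 2).1
      (bu 0).2 (bu 1).2 (bu 2).2 (bv 0).2 (bv 1).2 (bv 2).2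
    refine le_trans key (le_of_eq ?_)
    simp only [xI_scale, xU]
    ring

/-- A nonnegative sequence with `u (n+1) ≤ u n - κ (u n)^2` tends to zero. -/
lemma tendsto_zero_of_quad {u : ℕ → ℝ} {κ : ℝ} (hκ : 0 < κ) (h0 : ∀ n, 0 ≤ u n)
    (hs : ∀ n, u (n + 1) ≤ u n - κ * (u n)^2) : Tendsto u atTop (𝓝 0) := by
  have hanti : Antitone u := antitone_nat_of_succ_le fun n => by
    have := hs n
    nlinarith [sq_nonneg (u n)]
  have hbdd : BddBelow (Set.range u) := ⟨0, by rintro _ ⟨n, rfl⟩; exact h0 n⟩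
  have hL := tendsto_atTop_ciInf hanti hbdd
  set L := ⨅ n, u n with hLdef
  have hL0 : 0 ≤ L := le_ciInf h0
  have h1 : Tendsto (fun n => u (n + 1)) atTop (𝓝 L) := (tendsto_add_atTop_iff_nat 1).2 hL
  have h2 : Tendsto (fun n => u n - κ * (u n)^2) atTop (𝓝 (L - κ * L^2)) :=
    hL.sub ((hL.pow 2).const_mul κ)
  have h3 : L ≤ L - κ * L^2 := le_of_tendsto_of_tendsto' h1 h2 hs
  have h4 : L^2 ≤ 0 := by
    by_contra hlt
    have : 0 < L^2 := not_le.mp hlt
    nlinarith [mul_pos hκ this]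
  have h5 : L = 0 := by
    have : L^2 = 0 := le_antisymm h4 (sq_nonneg L)
    exact pow_eq_zero_iff two_ne_zero |>.mp this
  rw [h5] at hL
  exact hL

lemma tendsto_zero_of_geom {u : ℕ → ℝ} (h0 : ∀ n, 0 ≤ u n)
    (hs : ∀ n, u (n + 1) ≤ 3 / 4 * u n) : Tendsto u atTop (𝓝 0) := by
  have hb : ∀ n, u n ≤ u 0 * (3 / 4)^n := by
    intro n
    induction n with
    | zero => simp
    | succ n ih =>
      have := hs n
      rw [pow_succ]
      nlinarith
  have hlim : Tendsto (fun n : ℕ => u 0 * ((3:ℝ) / 4)^n) atTop (𝓝 (u 0 * 0)) :=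
    (tendsto_pow_atTop_nhds_zero_of_lt_one (by norm_num) (by norm_num)).const_mul _
  rw [mul_zero] at hlim
  exact squeeze_zero h0 hb hlim

/-- The second moment tends to zero. -/
lemma X_tendsto {lam : ℝ} (h1 : -1 / 2 ≤ lam) (h2 : 2 * lam^2 ≤ 1) :
    Tendsto (fun n => En 2 lam n xU) atTop (𝓝 0) := by
  have hl1 : lam ≤ 1 := by nlinarith
  rcases le_or_gt lam 0 with h | h
  · exact tendsto_zero_of_geom (X_nonneg h1 hl1) (X_step_neg h h1)
  · refine tendsto_zero_of_quad (κ := 1 / 20 * lam^4) (by positivity) (X_nonneg h1 hl1) ?_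
    exact X_step_pos h.le h2

/-- The advantage in terms of the message. -/
lemma adv_le {lam δ : ℝ} (h1 : -1 / 2 ≤ lam) (hl1 : lam ≤ 1) (hδ : 0 < δ) (n : ℕ) :
    advantage 3 2 lam n ≤ (δ + En 2 lam n xU / δ) / 4 := by
  have one := En_one (d := 2) h1 hl1 n
  have e : (δ + En 2 lam n xU / δ) / 4 = En 2 lam n (fun u => (δ + xU u / δ) / 4) := by
    have : En 2 lam n (fun u => (δ + xU u / δ) / 4)
        = δ / 4 * En 2 lam n (fun _ => 1) + En 2 lam n xU / (4 * δ) := by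
      simp only [En, Finset.mul_sum, Finset.sum_div, ← Finset.sum_add_distrib]
      exact Finset.sum_congr rfl fun _ _ => by field_simp
    rw [this, one]
    field_simp
  rw [e]
  refine Finset.sum_le_sum fun η _ => ?_
  by_cases w : wt 2 lam n η = 0
  · have w' : evidence 3 2 lam n η = 0 := w
    rw [w']
    simp
    rw [w]
    simp
  · refine mul_le_mul_of_nonneg_left ?_ (wt_nonneg h1 hl1 n η)
    have key : ∀ i : Fin 3, |posterior 3 2 lam n i η - 1 / ((3 : ℕ) : ℝ)| = |vv 2 lam n η i| / 3 := by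
      intro i
      have : posterior 3 2 lam n i η - 1 / ((3 : ℕ) : ℝ) = vv 2 lam n η i / 3 := by
        have w' : evidence 3 2 lam n η ≠ 0 := w
        simp only [posterior, vv, wt]
        field_simp
        push_cast
        ring
      rw [this, abs_div]
      norm_num
    have amgm : ∀ t : ℝ, |t| ≤ (δ + t^2 / δ) / 2 := by
      intro t
      have h3 : 0 ≤ (|t| - δ)^2 / δ := by positivity
      have h4 : (|t| - δ)^2 / δ = t^2 / δ - 2 * |t| + δ := by
        rw [sub_sq, sq_abs]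
        field_simp
      linarith
    simp only [key, Fin.sum_univ_three, xU, xI]
    have a0 := amgm (vv 2 lam n η 0)
    have a1 := amgm (vv 2 lam n η 1)
    have a2 := amgm (vv 2 lam n η 2)
    have e2 : (δ + ((vv 2 lam n η 0)^2 + (vv 2 lam n η 1)^2 + (vv 2 lam n η 2)^2) / 3 / δ) / 4
        = (((δ + (vv 2 lam n η 0)^2 / δ) / 2) + ((δ + (vv 2 lam n η 1)^2 / δ) / 2)
          + ((δ + (vv 2 lam n η 2)^2 / δ) / 2)) / 6 := by
      field_simp
      ring
    rw [e2]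
    linarith

lemma adv_nonneg {lam : ℝ} (h1 : -1 / 2 ≤ lam) (hl1 : lam ≤ 1) (n : ℕ) :
    0 ≤ advantage 3 2 lam n := by
  refine Finset.sum_nonneg fun η _ => mul_nonneg (wt_nonneg h1 hl1 n η) ?_
  positivity

/-- **Nonreconstruction** for the 3-state Potts channel on the binary tree at and below the
Kesten-Stigum bound. -/
theorem nonreconstruction {lam : ℝ} (h1 : -1 / 2 ≤ lam) (h2 : 2 * lam^2 ≤ 1) :
    Tendsto (advantage 3 2 lam) atTop (𝓝 0) := by
  have hl1 : lam ≤ 1 := by nlinarith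
  have hX := X_tendsto h1 h2
  rw [Metric.tendsto_atTop]
  intro ε hε
  have hε2 : 0 < ε^2 := by positivity
  rw [Metric.tendsto_atTop] at hX
  obtain ⟨N, hN⟩ := hX (ε^2) hε2
  refine ⟨N, fun n hn => ?_⟩
  have h3 := hN n hn
  rw [Real.dist_eq, sub_zero, abs_of_nonneg (X_nonneg h1 hl1 n)] at h3
  rw [Real.dist_eq, sub_zero, abs_of_nonneg (adv_nonneg h1 hl1 n)]
  have h4 := adv_le h1 hl1 hε n
  have h5 : En 2 lam n xU / ε < ε := by
    rw [div_lt_iff₀ hε]
    nlinarith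
  linarith

end Vale.Agent.helper4.Potts
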