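import Vale.Agent.helper4.KEngine

/-!
Polynomial certificates for the bounds on the averages of `tau1` and `tau3`.
-/

namespace Vale.Agent.helper4.PottsFullCerts

open Vale.Agent.helper4.KEngine
open PE

noncomputable def a00 (t T : ℝ) : ℝ :=
  (567 / 2000) + (61 / 500) * T^1 + (281 / 500) * t^1 + (-64 / 125) * t^1 * T^1

noncomputable def a01 (t T : ℝ) : ℝ :=
  (-1 / 2) + (-1 / 2) * t^1 + (1 / 2) * t^1 * T^1

noncomputable def a10 (t T : ℝ) : ℝ :=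
  (-61 / 200) * T^1 + (-51 / 125) * t^1 + (1 / 2) * t^1 * T^1

noncomputable def a11 (t T : ℝ) : ℝ :=
  (2299 / 8000) + (1317 / 2000) * T^1 + (657 / 2000) * t^1 + (-1897 / 4000) * t^1 * T^1 + (-439 / 1000) * t^1 * T^2 + (-219 / 1000) * t^2 * T^1 + (61 / 250) * t^2 * T^2

noncomputable def a21 (t T : ℝ) : ℝ :=
  (-3 / 8) + (-117 / 800) * T^1 + (153 / 500) * t^1 + (1 / 4) * t^1 * T^1 + (39 / 400) * t^1 * T^2 + (-51 / 250) * t^2 * T^1

noncomputable def g00 (t T : ℝ) : ℝ :=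
  (3 / 2) + (-5 / 2) * T^1 + (-2) * t^1 + (113 / 50) * t^1 * T^1

noncomputable def g01 (t T : ℝ) : ℝ :=
  (63 / 100) + (63 / 100) * t^1 + (-27 / 100) * t^1 * T^1

noncomputable def g10 (t T : ℝ) : ℝ :=
  (63 / 100) + (63 / 100) * T^1 + (-27 / 100) * t^1 * T^1

noncomputable def g11 (t T : ℝ) : ℝ :=
  (-9 / 100) + (-81 / 200) * T^1 + (-81 / 200) * t^1 + (-27 / 200) * t^1 * T^1

noncomputable def qlo0 (t T : ℝ) : ℝ := a00 t T + 2 * T^2 * a01 t T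
noncomputable def qlo1 (t T : ℝ) : ℝ := a10 t T + 2 * T^2 * a11 t T
noncomputable def qlo2 (t T : ℝ) : ℝ := 2 * T^2 * a21 t T
noncomputable def qhi0 (t T : ℝ) : ℝ := (87 / 100 - T) * a00 t T + (58 / 100)^3 * a01 t T
noncomputable def qhi1 (t T : ℝ) : ℝ := (87 / 100 - T) * a10 t T + (58 / 100)^3 * a11 t T
noncomputable def qhi2 (t T : ℝ) : ℝ := (58 / 100)^3 * a21 t T
noncomputable def rlo0 (t T : ℝ) : ℝ := g00 t T + 2 * T^2 * g01 t T
noncomputable def rlo1 (t T : ℝ) : ℝ := g10 t T + 2 * T^2 * g11 t T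
noncomputable def rhi0 (t T : ℝ) : ℝ := (87 / 100 - T) * g00 t T + (58 / 100)^3 * g01 t T
noncomputable def rhi1 (t T : ℝ) : ℝ := (87 / 100 - T) * g10 t T + (58 / 100)^3 * g11 t T

noncomputable def BAlo0 (t T : ℝ) : ℝ := qlo0 t T + qlo1 t T * (2 * t^2) + qlo2 t T * (2 * t^2)^2
noncomputable def BAlo1 (t T : ℝ) : ℝ :=
  qlo0 t T * (3 / 2 - t) * 2 + qlo1 t T * (2 * t^2 * (3 / 2 - t) + 1) + qlo2 t T * (2 * t^2) * 2
noncomputable def BAlo2 (t T : ℝ) : ℝ := qlo0 t T * (3 / 2 - t)^2 + qlo1 t T * (3 / 2 - t) + qlo2 t T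
noncomputable def BAhi0 (t T : ℝ) : ℝ := qhi0 t T + qhi1 t T * (2 * t^2) + qhi2 t T * (2 * t^2)^2
noncomputable def BAhi1 (t T : ℝ) : ℝ :=
  qhi0 t T * (3 / 2 - t) * 2 + qhi1 t T * (2 * t^2 * (3 / 2 - t) + 1) + qhi2 t T * (2 * t^2) * 2
noncomputable def BAhi2 (t T : ℝ) : ℝ := qhi0 t T * (3 / 2 - t)^2 + qhi1 t T * (3 / 2 - t) + qhi2 t T
noncomputable def BBlo0 (t T : ℝ) : ℝ := rlo0 t T + rlo1 t T * (2 * t^2)
noncomputable def BBlo1 (t T : ℝ) : ℝ := rlo0 t T * (3 / 2 - t) + rlo1 t T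
noncomputable def BBhi0 (t T : ℝ) : ℝ := rhi0 t T + rhi1 t T * (2 * t^2)
noncomputable def BBhi1 (t T : ℝ) : ℝ := rhi0 t T * (3 / 2 - t) + rhi1 t T

def EpAlo0 : PE :=
  add (add (add (add (add (add (add (add (add (add (add (add (add (add (add (add (add (add (mul (c 15108010569) (mul (pow (v 1) 6) (pow (v 3) 4))) (mul (c 342830038572) (mul (pow (v 1) 6) (mul (pow (v 2) 1) (pow (v 3) 3))))) (mul (c 117386720289) (mul (pow (v 1) 6) (pow (v 2) 4)))) (mul (c 87179721120) (mul (pow (v 0) 1) (mul (pow (v 1) 5) (mul (pow (v 2) 1) (pow (v 3) 3)))))) (mul (c 1155864185010) (mul (pow (v 0) 1) (mul (pow (v 1) 5) (mul (pow (v 2) 2) (pow (v 3) 2)))))) (mul (c 559701209880) (mul (pow (v 0) 1) (mul (pow (v 1) 5) (mul (pow (v 2) 3) (pow (v 3) 1)))))) (mul (c 2146683998034) (mul (pow (v 0) 2) (mul (pow (v 1) 4) (pow (v 3) 4))))) (mul (c 3191512325292) (mul (pow (v 0) 2) (mul (pow (v 1) 4) (mul (pow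 (v 2) 1) (pow (v 3) 3)))))) (mul (c 3220486624854) (mul (pow (v 0) 2) (mul (pow (v 1) 4) (pow (v 2) 4))))) (mul (c 5594770645416) (mul (pow (v 0) 3) (mul (pow (v 1) 3) (mul (pow (v 2) 2) (pow (v 3) 2)))))) (mul (c 23672231971668) (mul (pow (v 0) 3) (mul (pow (v 1) 3) (mul (pow (v 2) 3) (pow (v 3) 1)))))) (mul (c 7268408790984) (mul (pow (v 0) 4) (mul (pow (v 1) 2) (mul (pow (v 2) 1) (pow (v 3) 3)))))) (mul (c 5649429982122) (mul (pow (v 0) 4) (mul (pow (v 1) 2) (mul (pow (v 2) 2) (pow (v 3) 2)))))) (mul (c 262482815385) (mul (pow (v 0) 5) (mul (pow (v 1) 1) (pow (v 3) 4))))) (mul (c 1289215810980) (mul (pow (v 0) 5) (mul (pow (v 1) 1) (mul (pow (v 2) 1) (pow (v 3) 3)))))) (mul (c 23967230779620) (mul (pow (v 0) 5) (mul (pow (v 1) 1) (mul (pow (v 2) 3) (pow (v 3) 1)))))) (mul (c 2714675324985) (mul (pow (v 0) 5) (mul (pow (v 1) 1) (pow (v 2) 4))))) (mul (c 362703452400) (mul (pow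 (v 0) 6) (pow (v 3) 4)))) (mul (c 9792993214800) (mul (pow (v 0) 6) (mul (pow (v 2) 2) (pow (v 3) 2))))

def EmAlo0 : PE :=
  add (add (add (add (add (add (add (add (add (add (add (add (add (add (mul (c 404497547874) (mul (pow (v 1) 6) (mul (pow (v 2) 2) (pow (v 3) 2)))) (mul (c 61822895652) (mul (pow (v 1) 6) (mul (pow (v 2) 3) (pow (v 3) 1))))) (mul (c 224968025835) (mul (pow (v 0) 1) (mul (pow (v 1) 5) (pow (v 3) 4))))) (mul (c 1073323672335) (mul (pow (v 0) 1) (mul (pow (v 1) 5) (pow (v 2) 4))))) (mul (c 7352530051464) (mul (pow (v 0) 2) (mul (pow (v 1) 4) (mul (pow (v 2) 2) (pow (v 3) 2)))))) (mul (c 6213584261772) (mul (pow (v 0) 2) (mul (pow (v 1) 4) (mul (pow (v 2) 3) (pow (v 3) 1)))))) (mul (c 711775552446) (mul (pow (v 0) 3) (mul (pow (v 1) 3) (pow (v 3) 4))))) (mul (c 8868729488148) (mul (pow (v 0) 3) (mul (pow (v 1) 3) (mul (pow (v 2) 1) (pow (v 3) 3)))))) (mul (c 2719315795626)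 (mul (pow (v 0) 3) (mul (pow (v 1) 3) (pow (v 2) 4))))) (mul (c 1833740138907) (mul (pow (v 0) 4) (mul (pow (v 1) 2) (pow (v 3) 4))))) (mul (c 32099682247344) (mul (pow (v 0) 4) (mul (pow (v 1) 2) (mul (pow (v 2) 3) (pow (v 3) 1)))))) (mul (c 2259909202167) (mul (pow (v 0) 4) (mul (pow (v 1) 2) (pow (v 2) 4))))) (mul (c 14520700289610) (mul (pow (v 0) 5) (mul (pow (v 1) 1) (mul (pow (v 2) 2) (pow (v 3) 2)))))) (mul (c 3264331071600) (mul (pow (v 0) 6) (mul (pow (v 2) 1) (pow (v 3) 3))))) (mul (c 9792993214800) (mul (pow (v 0) 6) (mul (pow (v 2) 3) (pow (v 3) 1))))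

theorem checkAlo0 : cover EpAlo0 EmAlo0 (c 0) (c 1) 7 5 6 true 0 1 0 1 1 = true := by
  decide +kernel

lemma certAlo0 {t T : ℝ} (h1 : -1 / 2 < t) (h2 : t ≤ 1) (h3 : -29 / 100 < T) (h4 : T ≤ 58 / 100) :
    0 ≤ BAlo0 t T := by
  obtain ⟨P₀, U₀, g1, g2, g3⟩ := box_nonneg checkAlo0 (p := (t + 1 / 2) * (2 / 3))
    (q := (T + 29 / 100) * (100 / 87)) (by linarith) (by linarith) (by linarith) (by linarith)
  have e : EpAlo0.ev (renv ((t + 1 / 2) * (2 / 3)) P₀ ((T + 29 / 100) * (100 / 87)) U₀)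
      - EmAlo0.ev (renv ((t + 1 / 2) * (2 / 3)) P₀ ((T + 29 / 100) * (100 / 87)) U₀)
      = 800000000000 * P₀^6 * U₀^4 * BAlo0 t T := by
    simp only [EpAlo0, EmAlo0, PE.ev, renv, BAlo0, a00, a01, a10, a11, a21, g00, g01, g10, g11, qlo0, qlo1, qlo2, qhi0, qhi1, qhi2, rlo0, rlo1, rhi0, rhi1]
    push_cast
    ring
  have h5 : 0 < (800000000000 : ℝ) * P₀^6 * U₀^4 := by positivity
  have h6 : 0 ≤ (800000000000 : ℝ) * P₀^6 * U₀^4 * BAlo0 t T := by linarith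
  exact nonneg_of_mul_nonneg_right h6 h5

def EpAlo2 : PE :=
  add (add (add (add (add (add (add (add (add (mul (c 15108010569) (mul (pow (v 1) 3) (pow (v 3) 4))) (mul (c 342830038572) (mul (pow (v 1) 3) (mul (pow (v 2) 1) (pow (v 3) 3))))) (mul (c 117386720289) (mul (pow (v 1) 3) (pow (v 2) 4)))) (mul (c 494413070211) (mul (pow (v 0) 1) (mul (pow (v 1) 2) (pow (v 3) 4))))) (mul (c 1540685640537) (mul (pow (v 0) 1) (mul (pow (v 1) 2) (mul (pow (v 2) 3) (pow (v 3) 1)))))) (mul (c 2933534882511) (mul (pow (v 0) 2) (mul (pow (v 1) 1) (mul (pow (v 2) 2) (pow (v 3) 2)))))) (mul (c 603776791179) (mul (pow (v 0) 2) (mul (pow (v 1) 1) (pow (v 2) 4))))) (mul (c 396803533536) (mul (pow (v 0) 3) (pow (v 3) 4)))) (mul (c 280949049018) (mul (pow (v 0) 3) (mul (pow (v 2) 1) (pow (v 3) 3))))) (mul (c 890792567262) (mul (pow (v 0) 3) (mul (pow (v 2) 3) (pow (v 3) 1))))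

def EmAlo2 : PE :=
  add (add (add (add (add (add (add (add (add (mul (c 404497547874) (mul (pow (v 1) 3) (mul (pow (v 2) 2) (pow (v 3) 2)))) (mul (c 61822895652) (mul (pow (v 1) 3) (mul (pow (v 2) 3) (pow (v 3) 1))))) (mul (c 119026945557) (mul (pow (v 0) 1) (mul (pow (v 1) 2) (mul (pow (v 2) 1) (pow (v 3) 3)))))) (mul (c 1258437448881) (mul (pow (v 0) 1) (mul (pow (v 1) 2) (mul (pow (v 2) 2) (pow (v 3) 2)))))) (mul (c 532451038734) (mul (pow (v 0) 1) (mul (pow (v 1) 2) (pow (v 2) 4))))) (mul (c 905293704366) (mul (pow (v 0) 2) (mul (pow (v 1) 1) (pow (v 3) 4))))) (mul (c 501871759083) (mul (pow (v 0) 2) (mul (pow (v 1) 1) (mul (pow (v 2) 1) (pow (v 3) 3)))))) (mul (c 2367712728297) (mul (pow (v 0) 2) (mul (pow (v 1) 1) (mul (pow (v 2) 3) (pow (v 3) 1)))))) (mul (c 1275891752106) (mul (pow (v 0) 3) (mul (pow (v 2) 2) (pow (v 3) 2))))) (mul (c 188712472734) (mul (pow (v 0) 3) (pow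 (v 2) 4)))

theorem checkAlo2 : cover EpAlo2 EmAlo2 (c 0) (c 1) 4 5 6 true 0 1 0 1 1 = true := by
  decide +kernel

lemma certAlo2 {t T : ℝ} (h1 : -1 / 2 < t) (h2 : t ≤ 1) (h3 : -29 / 100 < T) (h4 : T ≤ 58 / 100) :
    0 ≤ BAlo2 t T := by
  obtain ⟨P₀, U₀, g1, g2, g3⟩ := box_nonneg checkAlo2 (p := (t + 1 / 2) * (2 / 3))
    (q := (T + 29 / 100) * (100 / 87)) (by linarith) (by linarith) (by linarith) (by linarith)
  have e : EpAlo2.ev (renv ((t + 1 / 2) * (2 / 3)) P₀ ((T + 29 / 100) * (100 / 87)) U₀)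
      - EmAlo2.ev (renv ((t + 1 / 2) * (2 / 3)) P₀ ((T + 29 / 100) * (100 / 87)) U₀)
      = 200000000000 * P₀^3 * U₀^4 * BAlo2 t T := by
    simp only [EpAlo2, EmAlo2, PE.ev, renv, BAlo2, a00, a01, a10, a11, a21, g00, g01, g10, g11, qlo0, qlo1, qlo2, qhi0, qhi1, qhi2, rlo0, rlo1, rhi0, rhi1]
    push_cast
    ring
  have h5 : 0 < (200000000000 : ℝ) * P₀^3 * U₀^4 := by positivity
  have h6 : 0 ≤ (200000000000 : ℝ) * P₀^3 * U₀^4 * BAlo2 t T := by linarith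
  exact nonneg_of_mul_nonneg_right h6 h5

def EpAlo1 : PE :=
  add (add (add (add (add (add (add (add (add (add (add (add (add (mul (c 30216021138) (mul (pow (v 1) 5) (pow (v 3) 4))) (mul (c 685660077144) (mul (pow (v 1) 5) (mul (pow (v 2) 1) (pow (v 3) 3))))) (mul (c 234773440578) (mul (pow (v 1) 5) (pow (v 2) 4)))) (mul (c 269445044376) (mul (pow (v 0) 1) (mul (pow (v 1) 4) (pow (v 3) 4))))) (mul (c 2100386850417) (mul (pow (v 0) 1) (mul (pow (v 1) 4) (mul (pow (v 2) 3) (pow (v 3) 1)))))) (mul (c 2461749072876) (mul (pow (v 0) 2) (mul (pow (v 1) 3) (pow (v 3) 4))))) (mul (c 4804949544831) (mul (pow (v 0) 2) (mul (pow (v 1) 3) (pow (v 2) 4))))) (mul (c 2279235468123) (mul (pow (v 0) 3) (mul (pow (v 1) 2) (mul (pow (v 2) 1) (pow (v 3) 3)))))) (mul (c 11787808864257) (mul (pow (v 0) 3) (mul (pow (v 1) 2) (mul (pow (v 2) 3) (pow (v 3) 1)))))) (mul (c 2256904368090) (mul (pow (v 0)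 4) (mul (pow (v 1) 1) (pow (v 3) 4))))) (mul (c 6682617987435) (mul (pow (v 0) 4) (mul (pow (v 1) 1) (mul (pow (v 2) 2) (pow (v 3) 2)))))) (mul (c 6566265957015) (mul (pow (v 0) 4) (mul (pow (v 1) 1) (pow (v 2) 4))))) (mul (c 835675866162) (mul (pow (v 0) 5) (mul (pow (v 2) 1) (pow (v 3) 3))))) (mul (c 4016727380358) (mul (pow (v 0) 5) (mul (pow (v 2) 3) (pow (v 3) 1))))

def EmAlo1 : PE :=
  add (add (add (add (add (add (add (add (add (add (add (add (add (add (add (mul (c 808995095748) (mul (pow (v 1) 5) (mul (pow (v 2) 2) (pow (v 3) 2)))) (mul (c 123645791304) (mul (pow (v 1) 5) (mul (pow (v 2) 3) (pow (v 3) 1))))) (mul (c 31847224437) (mul (pow (v 0) 1) (mul (pow (v 1) 4) (mul (pow (v 2) 1) (pow (v 3) 3)))))) (mul (c 102573263871) (mul (pow (v 0) 1) (mul (pow (v 1) 4) (mul (pow (v 2) 2) (pow (v 3) 2)))))) (mul (c 1605774711069) (mul (pow (v 0) 1) (mul (pow (v 1) 4) (pow (v 2)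 4))))) (mul (c 914114320137) (mul (pow (v 0) 2) (mul (pow (v 1) 3) (mul (pow (v 2) 1) (pow (v 3) 3)))))) (mul (c 2701811764071) (mul (pow (v 0) 2) (mul (pow (v 1) 3) (mul (pow (v 2) 2) (pow (v 3) 2)))))) (mul (c 4691610642483) (mul (pow (v 0) 2) (mul (pow (v 1) 3) (mul (pow (v 2) 3) (pow (v 3) 1)))))) (mul (c 4924203703704) (mul (pow (v 0) 3) (mul (pow (v 1) 2) (pow (v 3) 4))))) (mul (c 227120250591) (mul (pow (v 0) 3) (mul (pow (v 1) 2) (mul (pow (v 2) 2) (pow (v 3) 2)))))) (mul (c 8301801976749) (mul (pow (v 0) 3) (mul (pow (v 1) 2) (pow (v 2) 4))))) (mul (c 2831566803255) (mul (pow (v 0) 4) (mul (pow (v 1) 1) (mul (pow (v 2) 1) (pow (v 3) 3)))))) (mul (c 13074125990445) (mul (pow (v 0) 4) (mul (pow (v 1) 1) (mul (pow (v 2) 3) (pow (v 3) 1)))))) (mul (c 85863523176) (mul (pow (v 0) 5) (pow (v 3) 4)))) (mul (c 2884452543954) (mul (pow (v 0) 5) (mul (pow (v 2) 2) (pow (v 3) 2)))))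 (mul (c 1698412254606) (mul (pow (v 0) 5) (pow (v 2) 4)))

theorem checkAlo1 : cover EpAlo1 EmAlo1 (c 0) (c 1) 6 5 6 true 0 1 0 1 1 = true := by
  decide +kernel

lemma certAlo1 {t T : ℝ} (h1 : -1 / 2 < t) (h2 : t ≤ 1) (h3 : -29 / 100 < T) (h4 : T ≤ 58 / 100) :
    0 ≤ BAlo1 t T := by
  obtain ⟨P₀, U₀, g1, g2, g3⟩ := box_nonneg checkAlo1 (p := (t + 1 / 2) * (2 / 3))
    (q := (T + 29 / 100) * (100 / 87)) (by linarith) (by linarith) (by linarith) (by linarith)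
  have e : EpAlo1.ev (renv ((t + 1 / 2) * (2 / 3)) P₀ ((T + 29 / 100) * (100 / 87)) U₀)
      - EmAlo1.ev (renv ((t + 1 / 2) * (2 / 3)) P₀ ((T + 29 / 100) * (100 / 87)) U₀)
      = 400000000000 * P₀^5 * U₀^4 * BAlo1 t T := by
    simp only [EpAlo1, EmAlo1, PE.ev, renv, BAlo1, a00, a01, a10, a11, a21, g00, g01, g10, g11, qlo0, qlo1, qlo2, qhi0, qhi1, qhi2, rlo0, rlo1, rhi0, rhi1]
    push_cast
    ring
  have h5 : 0 < (400000000000 : ℝ) * P₀^5 * U₀^4 := by positivity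
  have h6 : 0 ≤ (400000000000 : ℝ) * P₀^5 * U₀^4 * BAlo1 t T := by linarith
  exact nonneg_of_mul_nonneg_right h6 h5

def EpAhi0 : PE :=
  add (add (add (add (add (add (add (add (add (mul (c 438132306501) (mul (pow (v 1) 6) (pow (v 3) 2))) (mul (c 770271957594) (mul (pow (v 1) 6) (mul (pow (v 2) 1) (pow (v 3) 1))))) (mul (c 32895383417190) (mul (pow (v 0) 1) (mul (pow (v 1) 5) (mul (pow (v 2) 1) (pow (v 3) 1)))))) (mul (c 62253835942986) (mul (pow (v 0) 2) (mul (pow (v 1) 4) (pow (v 3) 2))))) (mul (c 82244778568974) (mul (pow (v 0) 2) (mul (pow (v 1) 4) (pow (v 2) 2))))) (mul (c 203506548718104) (mul (pow (v 0) 3) (mul (pow (v 1) 3) (mul (pow (v 2) 1) (pow (v 3) 1)))))) (mul (c 7612001646165) (mul (pow (v 0) 5) (mul (pow (v 1) 1) (pow (v 3) 2))))) (mul (c 83059268395410) (mul (pow (v 0) 5) (mul (pow (v 1) 1) (mul (pow (v 2) 1) (pow (v 3) 1)))))) (mul (c 8747287158285) (mul (pow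 (v 0) 5) (mul (pow (v 1) 1) (pow (v 2) 2))))) (mul (c 10518400119600) (mul (pow (v 0) 6) (pow (v 3) 2)))

def EmAhi0 : PE :=
  add (add (add (add (add (add (add (add (add (mul (c 1143122901291) (mul (pow (v 1) 6) (pow (v 2) 2))) (mul (c 6524072749215) (mul (pow (v 0) 1) (mul (pow (v 1) 5) (pow (v 3) 2))))) (mul (c 22714023388635) (mul (pow (v 0) 1) (mul (pow (v 1) 5) (pow (v 2) 2))))) (mul (c 180802491908616) (mul (pow (v 0) 2) (mul (pow (v 1) 4) (mul (pow (v 2) 1) (pow (v 3) 1)))))) (mul (c 20641491020934) (mul (pow (v 0) 3) (mul (pow (v 1) 3) (pow (v 3) 2))))) (mul (c 59852989785906) (mul (pow (v 0) 3) (mul (pow (v 1) 3) (pow (v 2) 2))))) (mul (c 53178464028303) (mul (pow (v 0) 4) (mul (pow (v 1) 2) (pow (v 3) 2))))) (mul (c 108286929231282) (mul (pow (v 0) 4) (mul (pow (v 1) 2) (mul (pow (v 2) 1) (pow (v 3) 1)))))) (mul (c 7281929651427) (mul (pow (v 0) 4) (mul (pow (v 1) 2)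 (pow (v 2) 2))))) (mul (c 31555200358800) (mul (pow (v 0) 6) (mul (pow (v 2) 1) (pow (v 3) 1))))

theorem checkAhi0 : cover EpAhi0 EmAhi0 (c 0) (c 1) 7 3 6 true 0 1 0 1 1 = true := by
  decide +kernel

lemma certAhi0 {t T : ℝ} (h1 : -1 / 2 < t) (h2 : t ≤ 1) (h3 : -29 / 100 < T) (h4 : T ≤ 58 / 100) :
    0 ≤ BAhi0 t T := by
  obtain ⟨P₀, U₀, g1, g2, g3⟩ := box_nonneg checkAhi0 (p := (t + 1 / 2) * (2 / 3))
    (q := (T + 29 / 100) * (100 / 87)) (by linarith) (by linarith) (by linarith) (by linarith)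
  have e : EpAhi0.ev (renv ((t + 1 / 2) * (2 / 3)) P₀ ((T + 29 / 100) * (100 / 87)) U₀)
      - EmAhi0.ev (renv ((t + 1 / 2) * (2 / 3)) P₀ ((T + 29 / 100) * (100 / 87)) U₀)
      = 20000000000000 * P₀^6 * U₀^2 * BAhi0 t T := by
    simp only [EpAhi0, EmAhi0, PE.ev, renv, BAhi0, a00, a01, a10, a11, a21, g00, g01, g10, g11, qlo0, qlo1, qlo2, qhi0, qhi1, qhi2, rlo0, rlo1, rhi0, rhi1]
    push_cast
    ring
  have h5 : 0 < (20000000000000 : ℝ) * P₀^6 * U₀^2 := by positivity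
  have h6 : 0 ≤ (20000000000000 : ℝ) * P₀^6 * U₀^2 * BAhi0 t T := by linarith
  exact nonneg_of_mul_nonneg_right h6 h5

def EpAhi2 : PE :=
  add (add (add (add (add (add (mul (c 438132306501) (mul (pow (v 1) 3) (pow (v 3) 2))) (mul (c 770271957594) (mul (pow (v 1) 3) (mul (pow (v 2) 1) (pow (v 3) 1))))) (mul (c 14337979036119) (mul (pow (v 0) 1) (mul (pow (v 1) 2) (pow (v 3) 2))))) (mul (c 9666208180746) (mul (pow (v 0) 1) (mul (pow (v 1) 2) (pow (v 2) 2))))) (mul (c 38985787926909) (mul (pow (v 0) 2) (mul (pow (v 1) 1) (mul (pow (v 2) 1) (pow (v 3) 1)))))) (mul (c 11507302472544) (mul (pow (v 0) 3) (pow (v 3) 2)))) (mul (c 5931542476746) (mul (pow (v 0) 3) (pow (v 2) 2)))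

def EmAhi2 : PE :=
  add (add (add (add (mul (c 1143122901291) (mul (pow (v 1) 3) (pow (v 2) 2))) (mul (c 23096608454439) (mul (pow (v 0) 1) (mul (pow (v 1) 2) (mul (pow (v 2) 1) (pow (v 3) 1)))))) (mul (c 26253517426614) (mul (pow (v 0) 2) (mul (pow (v 1) 1) (pow (v 3) 2))))) (mul (c 14454627756201) (mul (pow (v 0) 2) (mul (pow (v 1) 1) (pow (v 2) 2))))) (mul (c 16685273243214) (mul (pow (v 0) 3) (mul (pow (v 2) 1) (pow (v 3) 1))))

theorem checkAhi2 : cover EpAhi2 EmAhi2 (c 0) (c 1) 4 3 6 true 0 1 0 1 1 = true := by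
  decide +kernel

lemma certAhi2 {t T : ℝ} (h1 : -1 / 2 < t) (h2 : t ≤ 1) (h3 : -29 / 100 < T) (h4 : T ≤ 58 / 100) :
    0 ≤ BAhi2 t T := by
  obtain ⟨P₀, U₀, g1, g2, g3⟩ := box_nonneg checkAhi2 (p := (t + 1 / 2) * (2 / 3))
    (q := (T + 29 / 100) * (100 / 87)) (by linarith) (by linarith) (by linarith) (by linarith)
  have e : EpAhi2.ev (renv ((t + 1 / 2) * (2 / 3)) P₀ ((T + 29 / 100) * (100 / 87)) U₀)
      - EmAhi2.ev (renv ((t + 1 / 2) * (2 / 3)) P₀ ((T + 29 / 100) * (100 / 87)) U₀)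
      = 5000000000000 * P₀^3 * U₀^2 * BAhi2 t T := by
    simp only [EpAhi2, EmAhi2, PE.ev, renv, BAhi2, a00, a01, a10, a11, a21, g00, g01, g10, g11, qlo0, qlo1, qlo2, qhi0, qhi1, qhi2, rlo0, rlo1, rhi0, rhi1]
    push_cast
    ring
  have h5 : 0 < (5000000000000 : ℝ) * P₀^3 * U₀^2 := by positivity
  have h6 : 0 ≤ (5000000000000 : ℝ) * P₀^3 * U₀^2 * BAhi2 t T := by linarith
  exact nonneg_of_mul_nonneg_right h6 h5

def EpAhi1 : PE :=
  add (add (add (add (add (add (add (add (add (mul (c 876264613002) (mul (pow (v 1) 5) (pow (v 3) 2))) (mul (c 1540543915188) (mul (pow (v 1) 5) (mul (pow (v 2) 1) (pow (v 3) 1))))) (mul (c 7813906286904) (mul (pow (v 0) 1) (mul (pow (v 1) 4) (pow (v 3) 2))))) (mul (c 9798774962751) (mul (pow (v 0) 1) (mul (pow (v 1) 4) (mul (pow (v 2) 1) (pow (v 3) 1)))))) (mul (c 71390723113404) (mul (pow (v 0) 2) (mul (pow (v 1) 3) (pow (v 3) 2))))) (mul (c 93072434200011)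 (mul (pow (v 0) 2) (mul (pow (v 1) 3) (pow (v 2) 2))))) (mul (c 278994557881071) (mul (pow (v 0) 3) (mul (pow (v 1) 2) (mul (pow (v 2) 1) (pow (v 3) 1)))))) (mul (c 65450226674610) (mul (pow (v 0) 4) (mul (pow (v 1) 1) (pow (v 3) 2))))) (mul (c 59476030583715) (mul (pow (v 0) 4) (mul (pow (v 1) 1) (pow (v 2) 2))))) (mul (c 9294347086074) (mul (pow (v 0) 5) (mul (pow (v 2) 1) (pow (v 3) 1))))

def EmAhi1 : PE :=
  add (add (add (add (add (add (add (mul (c 2286245802582) (mul (pow (v 1) 5) (pow (v 2) 2))) (mul (c 13047815207889) (mul (pow (v 0) 1) (mul (pow (v 1) 4) (pow (v 2) 2))))) (mul (c 172009233603549) (mul (pow (v 0) 2) (mul (pow (v 1) 3) (mul (pow (v 2) 1) (pow (v 3) 1)))))) (mul (c 142801907407416) (mul (pow (v 0) 3) (mul (pow (v 1) 2) (pow (v 3) 2))))) (mul (c 131741742063969) (mul (pow (v 0) 3) (mul (pow (v 1) 2) (pow (v 2) 2))))) (mul (c 127825564746735) (mul (pow (v 0)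 4) (mul (pow (v 1) 1) (mul (pow (v 2) 1) (pow (v 3) 1)))))) (mul (c 2490042172104) (mul (pow (v 0) 5) (pow (v 3) 2)))) (mul (c 5472661709286) (mul (pow (v 0) 5) (pow (v 2) 2)))

theorem checkAhi1 : cover EpAhi1 EmAhi1 (c 0) (c 1) 6 3 6 true 0 1 0 1 1 = true := by
  decide +kernel

lemma certAhi1 {t T : ℝ} (h1 : -1 / 2 < t) (h2 : t ≤ 1) (h3 : -29 / 100 < T) (h4 : T ≤ 58 / 100) :
    0 ≤ BAhi1 t T := by
  obtain ⟨P₀, U₀, g1, g2, g3⟩ := box_nonneg checkAhi1 (p := (t + 1 / 2) * (2 / 3))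
    (q := (T + 29 / 100) * (100 / 87)) (by linarith) (by linarith) (by linarith) (by linarith)
  have e : EpAhi1.ev (renv ((t + 1 / 2) * (2 / 3)) P₀ ((T + 29 / 100) * (100 / 87)) U₀)
      - EmAhi1.ev (renv ((t + 1 / 2) * (2 / 3)) P₀ ((T + 29 / 100) * (100 / 87)) U₀)
      = 10000000000000 * P₀^5 * U₀^2 * BAhi1 t T := by
    simp only [EpAhi1, EmAhi1, PE.ev, renv, BAhi1, a00, a01, a10, a11, a21, g00, g01, g10, g11, qlo0, qlo1, qlo2, qhi0, qhi1, qhi2, rlo0, rlo1, rhi0, rhi1]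
    push_cast
    ring
  have h5 : 0 < (10000000000000 : ℝ) * P₀^5 * U₀^2 := by positivity
  have h6 : 0 ≤ (10000000000000 : ℝ) * P₀^5 * U₀^2 * BAhi1 t T := by linarith
  exact nonneg_of_mul_nonneg_right h6 h5

def EpBlo0 : PE :=
  add (add (add (add (add (add (add (add (mul (c 1528346203) (mul (pow (v 1) 3) (pow (v 3) 3))) (mul (c 242578881) (mul (pow (v 1) 3) (mul (pow (v 2) 2) (pow (v 3) 1))))) (mul (c 276870105) (mul (pow (v 0) 1) (mul (pow (v 1) 2) (mul (pow (v 2) 1) (pow (v 3) 2)))))) (mul (c 266693715) (mul (pow (v 0) 1) (mul (pow (v 1) 2) (pow (v 2) 3))))) (mul (c 768187881) (mul (pow (v 0) 2) (mul (pow (v 1) 1) (pow (v 3) 3))))) (mul (c 520723971) (mul (pow (v 0) 2) (mul (pow (v 1) 1) (mul (pow (v 2) 1) (pow (v 3) 2)))))) (mul (c 1890153387) (mul (pow (v 0) 2) (mul (pow (v 1) 1) (mul (pow (v 2) 2) (pow (v 3) 1)))))) (mul (c 45262881) (mul (pow (v 0) 3) (pow (v 3) 3))))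 (mul (c 309313971) (mul (pow (v 0) 3) (mul (pow (v 2) 1) (pow (v 3) 2))))

def EmBlo0 : PE :=
  add (add (add (add (add (add (mul (c 1285922727) (mul (pow (v 1) 3) (mul (pow (v 2) 1) (pow (v 3) 2)))) (mul (c 17779581) (mul (pow (v 1) 3) (pow (v 2) 3)))) (mul (c 2048971245) (mul (pow (v 0) 1) (mul (pow (v 1) 2) (pow (v 3) 3))))) (mul (c 82767015) (mul (pow (v 0) 1) (mul (pow (v 1) 2) (mul (pow (v 2) 2) (pow (v 3) 1)))))) (mul (c 480048687) (mul (pow (v 0) 2) (mul (pow (v 1) 1) (pow (v 2) 3))))) (mul (c 1175291613) (mul (pow (v 0) 3) (mul (pow (v 2) 2) (pow (v 3) 1))))) (mul (c 480048687) (mul (pow (v 0) 3) (pow (v 2) 3)))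

theorem checkBlo0 : cover EpBlo0 EmBlo0 (c 0) (c 1) 4 4 6 true 0 1 0 1 1 = true := by
  decide +kernel

lemma certBlo0 {t T : ℝ} (h1 : -1 / 2 < t) (h2 : t ≤ 1) (h3 : -29 / 100 < T) (h4 : T ≤ 58 / 100) :
    0 ≤ BBlo0 t T := by
  obtain ⟨P₀, U₀, g1, g2, g3⟩ := box_nonneg checkBlo0 (p := (t + 1 / 2) * (2 / 3))
    (q := (T + 29 / 100) * (100 / 87)) (by linarith) (by linarith) (by linarith) (by linarith)
  have e : EpBlo0.ev (renv ((t + 1 / 2) * (2 / 3)) P₀ ((T + 29 / 100) * (100 / 87)) U₀)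
      - EmBlo0.ev (renv ((t + 1 / 2) * (2 / 3)) P₀ ((T + 29 / 100) * (100 / 87)) U₀)
      = 400000000 * P₀^3 * U₀^3 * BBlo0 t T := by
    simp only [EpBlo0, EmBlo0, PE.ev, renv, BBlo0, a00, a01, a10, a11, a21, g00, g01, g10, g11, qlo0, qlo1, qlo2, qhi0, qhi1, qhi2, rlo0, rlo1, rhi0, rhi1]
    push_cast
    ring
  have h5 : 0 < (400000000 : ℝ) * P₀^3 * U₀^3 := by positivity
  have h6 : 0 ≤ (400000000 : ℝ) * P₀^3 * U₀^3 * BBlo0 t T := by linarith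
  exact nonneg_of_mul_nonneg_right h6 h5

def EpBlo1 : PE :=
  add (add (add (add (add (mul (c 1528346203) (mul (pow (v 1) 2) (pow (v 3) 3))) (mul (c 242578881) (mul (pow (v 1) 2) (mul (pow (v 2) 2) (pow (v 3) 1))))) (mul (c 1786512114) (mul (pow (v 0) 1) (mul (pow (v 1) 1) (mul (pow (v 2) 1) (pow (v 3) 2)))))) (mul (c 565268058) (mul (pow (v 0) 1) (mul (pow (v 1) 1) (mul (pow (v 2) 2) (pow (v 3) 1)))))) (mul (c 1141318773) (mul (pow (v 0) 2) (pow (v 3) 3)))) (mul (c 160016229) (mul (pow (v 0) 2) (pow (v 2) 3)))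

def EmBlo1 : PE :=
  add (add (add (add (add (mul (c 1285922727) (mul (pow (v 1) 2) (mul (pow (v 2) 1) (pow (v 3) 2)))) (mul (c 17779581) (mul (pow (v 1) 2) (pow (v 2) 3)))) (mul (c 2596458546) (mul (pow (v 0) 1) (mul (pow (v 1) 1) (pow (v 3) 3))))) (mul (c 320032458) (mul (pow (v 0) 1) (mul (pow (v 1) 1) (pow (v 2) 3))))) (mul (c 545343057) (mul (pow (v 0) 2) (mul (pow (v 2) 1) (pow (v 3) 2))))) (mul (c 589178529) (mul (pow (v 0) 2) (mul (pow (v 2) 2) (pow (v 3) 1))))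

theorem checkBlo1 : cover EpBlo1 EmBlo1 (c 0) (c 1) 3 4 6 true 0 1 0 1 1 = true := by
  decide +kernel

lemma certBlo1 {t T : ℝ} (h1 : -1 / 2 < t) (h2 : t ≤ 1) (h3 : -29 / 100 < T) (h4 : T ≤ 58 / 100) :
    0 ≤ BBlo1 t T := by
  obtain ⟨P₀, U₀, g1, g2, g3⟩ := box_nonneg checkBlo1 (p := (t + 1 / 2) * (2 / 3))
    (q := (T + 29 / 100) * (100 / 87)) (by linarith) (by linarith) (by linarith) (by linarith)
  have e : EpBlo1.ev (renv ((t + 1 / 2) * (2 / 3)) P₀ ((T + 29 / 100) * (100 / 87)) U₀)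
      - EmBlo1.ev (renv ((t + 1 / 2) * (2 / 3)) P₀ ((T + 29 / 100) * (100 / 87)) U₀)
      = 200000000 * P₀^2 * U₀^3 * BBlo1 t T := by
    simp only [EpBlo1, EmBlo1, PE.ev, renv, BBlo1, a00, a01, a10, a11, a21, g00, g01, g10, g11, qlo0, qlo1, qlo2, qhi0, qhi1, qhi2, rlo0, rlo1, rhi0, rhi1]
    push_cast
    ring
  have h5 : 0 < (200000000 : ℝ) * P₀^2 * U₀^3 := by positivity
  have h6 : 0 ≤ (200000000 : ℝ) * P₀^2 * U₀^3 * BBlo1 t T := by linarith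
  exact nonneg_of_mul_nonneg_right h6 h5

def EpBhi0 : PE :=
  add (add (add (add (add (add (mul (c 44322039887) (mul (pow (v 1) 3) (pow (v 3) 2))) (mul (c 24580327500) (mul (pow (v 1) 3) (pow (v 2) 2)))) (mul (c 54661233915) (mul (pow (v 0) 1) (mul (pow (v 1) 2) (mul (pow (v 2) 1) (pow (v 3) 1)))))) (mul (c 22277448549) (mul (pow (v 0) 2) (mul (pow (v 1) 1) (pow (v 3) 2))))) (mul (c 32543038953) (mul (pow (v 0) 2) (mul (pow (v 1) 1) (mul (pow (v 2) 1) (pow (v 3) 1)))))) (mul (c 1312623549) (mul (pow (v 0) 3) (pow (v 3) 2)))) (mul (c 13794502500) (mul (pow (v 0) 3) (pow (v 2) 2)))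

def EmBhi0 : PE :=
  add (add (add (add (mul (c 65515002261) (mul (pow (v 1) 3) (mul (pow (v 2) 1) (pow (v 3) 1)))) (mul (c 59420166105) (mul (pow (v 0) 1) (mul (pow (v 1) 2) (pow (v 3) 2))))) (mul (c 6755332500) (mul (pow (v 0) 1) (mul (pow (v 1) 2) (pow (v 2) 2))))) (mul (c 35252617500) (mul (pow (v 0) 2) (mul (pow (v 1) 1) (pow (v 2) 2))))) (mul (c 24537661047) (mul (pow (v 0) 3) (mul (pow (v 2) 1) (pow (v 3) 1))))

theorem checkBhi0 : cover EpBhi0 EmBhi0 (c 0) (c 1) 4 3 6 true 0 1 0 1 1 = true := by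
  decide +kernel

lemma certBhi0 {t T : ℝ} (h1 : -1 / 2 < t) (h2 : t ≤ 1) (h3 : -29 / 100 < T) (h4 : T ≤ 58 / 100) :
    0 ≤ BBhi0 t T := by
  obtain ⟨P₀, U₀, g1, g2, g3⟩ := box_nonneg checkBhi0 (p := (t + 1 / 2) * (2 / 3))
    (q := (T + 29 / 100) * (100 / 87)) (by linarith) (by linarith) (by linarith) (by linarith)
  have e : EpBhi0.ev (renv ((t + 1 / 2) * (2 / 3)) P₀ ((T + 29 / 100) * (100 / 87)) U₀)
      - EmBhi0.ev (renv ((t + 1 / 2) * (2 / 3)) P₀ ((T + 29 / 100) * (100 / 87)) U₀)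
      = 10000000000 * P₀^3 * U₀^2 * BBhi0 t T := by
    simp only [EpBhi0, EmBhi0, PE.ev, renv, BBhi0, a00, a01, a10, a11, a21, g00, g01, g10, g11, qlo0, qlo1, qlo2, qhi0, qhi1, qhi2, rlo0, rlo1, rhi0, rhi1]
    push_cast
    ring
  have h5 : 0 < (10000000000 : ℝ) * P₀^3 * U₀^2 := by positivity
  have h6 : 0 ≤ (10000000000 : ℝ) * P₀^3 * U₀^2 * BBhi0 t T := by linarith
  exact nonneg_of_mul_nonneg_right h6 h5

def EpBhi1 : PE :=
  add (add (add (add (mul (c 44322039887) (mul (pow (v 1) 2) (pow (v 3) 2))) (mul (c 24580327500) (mul (pow (v 1) 2) (pow (v 2) 2)))) (mul (c 115935934302) (mul (pow (v 0) 1) (mul (pow (v 1) 1) (mul (pow (v 2) 1) (pow (v 3) 1)))))) (mul (c 33098244417) (mul (pow (v 0) 2) (pow (v 3) 2)))) (mul (c 19244182500) (mul (pow (v 0) 2) (pow (v 2) 2)))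

def EmBhi1 : PE :=
  add (add (add (mul (c 65515002261) (mul (pow (v 1) 2) (mul (pow (v 2) 1) (pow (v 3) 1)))) (mul (c 75297297834) (mul (pow (v 0) 1) (mul (pow (v 1) 1) (pow (v 3) 2))))) (mul (c 44732790000) (mul (pow (v 0) 1) (mul (pow (v 1) 1) (pow (v 2) 2))))) (mul (c 51133029651) (mul (pow (v 0) 2) (mul (pow (v 2) 1) (pow (v 3) 1))))

theorem checkBhi1 : cover EpBhi1 EmBhi1 (c 0) (c 1) 3 3 6 true 0 1 0 1 1 = true := by
  decide +kernel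

lemma certBhi1 {t T : ℝ} (h1 : -1 / 2 < t) (h2 : t ≤ 1) (h3 : -29 / 100 < T) (h4 : T ≤ 58 / 100) :
    0 ≤ BBhi1 t T := by
  obtain ⟨P₀, U₀, g1, g2, g3⟩ := box_nonneg checkBhi1 (p := (t + 1 / 2) * (2 / 3))
    (q := (T + 29 / 100) * (100 / 87)) (by linarith) (by linarith) (by linarith) (by linarith)
  have e : EpBhi1.ev (renv ((t + 1 / 2) * (2 / 3)) P₀ ((T + 29 / 100) * (100 / 87)) U₀)
      - EmBhi1.ev (renv ((t + 1 / 2) * (2 / 3)) P₀ ((T + 29 / 100) * (100 / 87)) U₀)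
      = 5000000000 * P₀^2 * U₀^2 * BBhi1 t T := by
    simp only [EpBhi1, EmBhi1, PE.ev, renv, BBhi1, a00, a01, a10, a11, a21, g00, g01, g10, g11, qlo0, qlo1, qlo2, qhi0, qhi1, qhi2, rlo0, rlo1, rhi0, rhi1]
    push_cast
    ring
  have h5 : 0 < (5000000000 : ℝ) * P₀^2 * U₀^2 := by positivity
  have h6 : 0 ≤ (5000000000 : ℝ) * P₀^2 * U₀^2 * BBhi1 t T := by linarith
  exact nonneg_of_mul_nonneg_right h6 h5

end Vale.Agent.helper4.PottsFullCerts
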