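import Vale.Agent.helper4.PottsPair
import Vale.Agent.helper4.PottsFullCerts

/-!
Bounds for one step of the chain: a general message `c` (with `c_i > -1`) is multiplied by a message
`a` with `a_i > -58/100`, averaged over the six rearrangements of `a`.
-/

namespace Vale.Agent.helper4.PottsFull

open Vale.Agent.helper4.PottsPair Vale.Agent.helper4.PottsFullCerts

/-- The quantity multiplying `X / 2` in the bound for the second moment. -/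
noncomputable def Ups (x y : ℝ) : ℝ := 433 / 1000 * x + 876 / 1000 * y - x^2 + 816 / 1000 * x * y

/-- The weight of the third moment in the bound for the second moment. -/
noncomputable def ff (x y : ℝ) : ℝ := 878 / 1000 * x - 488 / 1000 * y - 195 / 1000 * x^2

/-- The target for the averaged `tau1`. -/
noncomputable def RA (x y X Y : ℝ) : ℝ := 2 - x - X + 1 / 2 * X * Ups x y + Y * ff x y

/-- Polynomial lower bound for the averaged `tau3`. -/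
noncomputable def Lf2 (x y X Y : ℝ) : ℝ :=
  (1 - 3 / 2 * x + y) * (1 - 3 / 2 * X + Y) - 1
    + 3 / 2 * ((x + X + x * X / 2) - (x * X + x * Y + X * y)
      + 21 / 25 * (y * Y + y * X^2 / 2 + x * X^2 / 2 + x^2 * Y / 2 + x^2 * X / 2 + x^2 * X^2 / 4)
      - 9 / 25 * (y * Y * (x + X) / 2 + x * X * y * Y / 4
          + 3 / 4 * (x * X * (y * X + x * Y + x * X))))

lemma region {μ a0 a1 a2 : ℝ} (ha : a0 + a1 + a2 = 0)
    (h0 : -μ < a0) (h1 : -μ < a1) (h2 : -μ < a2) :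
    0 ≤ xI a0 a1 a2 ∧ xI a0 a1 a2 ≤ 2 * μ^2 ∧ 2 * (yI a0 a1 a2)^2 ≤ (xI a0 a1 a2)^3 ∧
      0 < μ^3 - 3 / 2 * μ * xI a0 a1 a2 + yI a0 a1 a2 := by
  refine ⟨?_, ?_, ?_, ?_⟩
  · unfold xI; positivity
  · have h3 : a0 ≤ 2 * μ := by linarith
    have h4 : a1 ≤ 2 * μ := by linarith
    have h5 : a2 ≤ 2 * μ := by linarith
    have e0 := mul_nonneg (sub_nonneg.2 h0.le) (sub_nonneg.2 h3)
    have e1 := mul_nonneg (sub_nonneg.2 h1.le) (sub_nonneg.2 h4)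
    have e2 := mul_nonneg (sub_nonneg.2 h2.le) (sub_nonneg.2 h5)
    unfold xI
    nlinarith
  · have key : (xI a0 a1 a2)^3 - 2 * (yI a0 a1 a2)^2
        = 2 / 27 * ((a0 - a1) * (a1 - a2) * (a2 - a0))^2 := by
      obtain rfl : a2 = - a0 - a1 := by linarith
      simp only [xI, yI]
      ring
    have : 0 ≤ 2 / 27 * ((a0 - a1) * (a1 - a2) * (a2 - a0))^2 := by positivity
    linarith
  · have key : μ^3 - 3 / 2 * μ * xI a0 a1 a2 + yI a0 a1 a2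
        = (μ + a0) * (μ + a1) * (μ + a2) := by
      obtain rfl : a2 = - a0 - a1 := by linarith
      simp only [xI, yI]
      ring
    rw [key]
    have h3 : 0 < μ + a0 := by linarith
    have h4 : 0 < μ + a1 := by linarith
    have h5 : 0 < μ + a2 := by linarith
    positivity

/-- Range of `t = y / x`. -/
lemma t_region {μ x t : ℝ} (hμ : 0 < μ) (hx : 0 < x) (hx1 : x ≤ 2 * μ^2)
    (hy : 2 * (t * x)^2 ≤ x^3) (he : 0 < μ^3 - 3 / 2 * μ * x + t * x) :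
    -μ / 2 < t ∧ t ≤ μ ∧ 2 * t^2 ≤ x ∧ (3 / 2 * μ - t) * x ≤ μ^3 := by
  have h1 : 2 * t^2 ≤ x := by
    have h2 : 0 ≤ x^2 * (x - 2 * t^2) := by nlinarith
    have h3 : 0 < x^2 := by positivity
    have := nonneg_of_mul_nonneg_right h2 h3
    linarith
  have h4 : t ≤ μ := by
    have h5 : t^2 ≤ μ^2 := by nlinarith
    exact abs_le_of_sq_le_sq' h5 hμ.le |>.2
  have h5 : (3 / 2 * μ - t) * x ≤ μ^3 := by nlinarith
  have hlt : (3 / 2 * μ - t) * x < μ^3 := by nlinarith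
  refine ⟨?_, h4, h1, h5⟩
  have hD : 0 < 3 / 2 * μ - t := by linarith
  have h6 : (3 / 2 * μ - t) * (2 * t^2) < μ^3 :=
    lt_of_le_of_lt (mul_le_mul_of_nonneg_left h1 hD.le) hlt
  have h7 : 0 < (t - μ)^2 * (2 * t + μ) := by nlinarith
  have h8 : 0 ≤ (t - μ)^2 := sq_nonneg _
  have h9 : 0 < 2 * t + μ := by
    by_contra hn
    have := mul_nonpos_of_nonneg_of_nonpos h8 (not_lt.mp hn)
    linarith
  linarith

lemma t_region' {μ x y : ℝ} (hμ : 0 < μ) (hx : 0 < x) (hx1 : x ≤ 2 * μ^2)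
    (hy : 2 * y^2 ≤ x^3) (he : 0 < μ^3 - 3 / 2 * μ * x + y) :
    -μ / 2 < y / x ∧ y / x ≤ μ ∧ 2 * (y / x)^2 ≤ x ∧ (3 / 2 * μ - y / x) * x ≤ μ^3 := by
  have hyt : y / x * x = y := div_mul_cancel₀ y hx.ne'
  exact t_region hμ hx hx1 (by rw [hyt]; exact hy) (by rw [hyt]; exact he)

/-- A quadratic is nonnegative on `[lo, 1/D]` as soon as its three Bernstein coefficients are. -/
lemma quad_nonneg (q0 q1 q2 lo D x : ℝ) (hD : 0 < D) (hx : lo ≤ x) (hDx : D * x ≤ 1)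
    (b0 : 0 ≤ q0 + q1 * lo + q2 * lo^2)
    (b1 : 0 ≤ q0 * D * 2 + q1 * (lo * D + 1) + q2 * lo * 2)
    (b2 : 0 ≤ q0 * D^2 + q1 * D + q2) :
    0 ≤ q0 + q1 * x + q2 * x^2 := by
  have hu : 0 ≤ x - lo := by linarith
  have hv : 0 ≤ 1 - D * x := by linarith
  have hr : 1 - D * lo = D * (x - lo) + (1 - D * x) := by ring
  have hr0 : 0 ≤ 1 - D * lo := by
    rw [hr]
    positivity
  rcases hr0.eq_or_lt with h | h
  · have h1 : D * (x - lo) = 0 := by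
      have h2 : 0 ≤ D * (x - lo) := by positivity
      linarith
    have h3 : x - lo = 0 := by
      rcases mul_eq_zero.mp h1 with h4 | h4
      · exact absurd h4 hD.ne'
      · exact h4
    have h4 : x = lo := by linarith
    rw [h4]
    exact b0
  · have key : (1 - D * lo)^2 * (q0 + q1 * x + q2 * x^2)
        = (q0 + q1 * lo + q2 * lo^2) * (1 - D * x)^2
          + (q0 * D * 2 + q1 * (lo * D + 1) + q2 * lo * 2) * ((x - lo) * (1 - D * x))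
          + (q0 * D^2 + q1 * D + q2) * (x - lo)^2 := by
      ring
    have h1 : 0 ≤ (1 - D * lo)^2 * (q0 + q1 * x + q2 * x^2) := by
      rw [key]
      positivity
    exact nonneg_of_mul_nonneg_right h1 (by positivity)

lemma GA_nonneg {t T x X : ℝ} (h1 : -1 / 2 < t) (h2 : t ≤ 1) (h3 : -29 / 100 < T) (h4 : T ≤ 58 / 100)
    (hx : 2 * t^2 ≤ x) (hxD : (3 / 2 - t) * x ≤ 1)
    (hX : 2 * T^2 ≤ X) (hXD : (87 / 100 - T) * X ≤ (58 / 100)^3) :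
    0 ≤ a00 t T + X * a01 t T + x * a10 t T + x * X * a11 t T + x^2 * X * a21 t T := by
  have hD : 0 < 3 / 2 - t := by linarith
  have hD' : 0 < 87 / 100 - T := by linarith
  have lo := quad_nonneg (qlo0 t T) (qlo1 t T) (qlo2 t T) (2 * t^2) (3 / 2 - t) x hD hx hxD
    (certAlo0 h1 h2 h3 h4)
    (by
      have := certAlo1 h1 h2 h3 h4
      simp only [BAlo1] at this
      linarith)
    (certAlo2 h1 h2 h3 h4)
  have hi := quad_nonneg (qhi0 t T) (qhi1 t T) (qhi2 t T) (2 * t^2) (3 / 2 - t) x hD hx hxD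
    (certAhi0 h1 h2 h3 h4)
    (by
      have := certAhi1 h1 h2 h3 h4
      simp only [BAhi1] at this
      linarith)
    (certAhi2 h1 h2 h3 h4)
  have key := aff_nonneg (a00 t T + x * a10 t T) (a01 t T + x * a11 t T + x^2 * a21 t T)
    (2 * T^2) (87 / 100 - T) ((58 / 100)^3) X hX hD' hXD
    (by
      simp only [qlo0, qlo1, qlo2] at lo
      linarith)
    (by
      simp only [qhi0, qhi1, qhi2] at hi
      linarith)
  linarith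

lemma GB_nonneg {t T x X : ℝ} (h1 : -1 / 2 < t) (h2 : t ≤ 1) (h3 : -29 / 100 < T) (h4 : T ≤ 58 / 100)
    (hx : 2 * t^2 ≤ x) (hxD : (3 / 2 - t) * x ≤ 1)
    (hX : 2 * T^2 ≤ X) (hXD : (87 / 100 - T) * X ≤ (58 / 100)^3) :
    0 ≤ g00 t T + X * g01 t T + x * g10 t T + x * X * g11 t T := by
  have hD : 0 < 3 / 2 - t := by linarith
  have hD' : 0 < 87 / 100 - T := by linarith
  have lo := aff_nonneg (rlo0 t T) (rlo1 t T) (2 * t^2) (3 / 2 - t) 1 x hx hD hxD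
    (certBlo0 h1 h2 h3 h4)
    (by
      have := certBlo1 h1 h2 h3 h4
      simp only [BBlo1] at this
      linarith)
  have hi := aff_nonneg (rhi0 t T) (rhi1 t T) (2 * t^2) (3 / 2 - t) 1 x hx hD hxD
    (certBhi0 h1 h2 h3 h4)
    (by
      have := certBhi1 h1 h2 h3 h4
      simp only [BBhi1] at this
      linarith)
  have key := aff_nonneg (g00 t T + x * g10 t T) (g01 t T + x * g11 t T)
    (2 * T^2) (87 / 100 - T) ((58 / 100)^3) X hX hD' hXD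
    (by
      simp only [rlo0, rlo1] at lo
      linarith)
    (by
      simp only [rhi0, rhi1] at hi
      linarith)
  linarith

lemma y_zero_of_x_zero {y : ℝ} (h : 2 * y^2 ≤ (0:ℝ)^3) : y = 0 := by
  have : y^2 ≤ 0 := by nlinarith
  have h3 : y^2 = 0 := le_antisymm this (sq_nonneg y)
  exact pow_eq_zero_iff (two_ne_zero) |>.mp h3

/-- The polynomial inequality behind the bound on the average of `tau1`. -/
lemma psiA {x y X Y : ℝ} (hx : 0 ≤ x) (hx1 : x ≤ 2 * 1^2) (hy : 2 * y^2 ≤ x^3)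
    (he : 0 < 1^3 - 3 / 2 * 1 * x + y)
    (hX : 0 ≤ X) (hX1 : X ≤ 2 * (58 / 100)^2) (hY : 2 * Y^2 ≤ X^3)
    (hE : 0 < (58 / 100)^3 - 3 / 2 * (58 / 100) * X + Y) :
    Mf x y X Y * RA x y X Y ≤ Cf x y X Y := by
  rcases hx.eq_or_lt with rfl | hx0
  · have := y_zero_of_x_zero hy
    subst this
    simp only [Mf, RA, Cf, Ups, ff]
    apply le_of_eq
    ring
  rcases hX.eq_or_lt with rfl | hX0
  · have := y_zero_of_x_zero hY
    subst this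
    simp only [Mf, RA, Cf, Ups, ff]
    apply le_of_eq
    ring
  obtain ⟨t1, t2, t3, t4⟩ := t_region' (μ := 1) one_pos hx0 hx1 hy he
  obtain ⟨s1, s2, s3, s4⟩ := t_region' (μ := 58 / 100) (by norm_num) hX0 hX1 hY hE
  set t := y / x with ht
  set T := Y / X with hs
  have hyt : y = t * x := by rw [ht]; field_simp
  have hYs : Y = T * X := by rw [hs]; field_simp
  have main := GA_nonneg (t := t) (T := T) (x := x) (X := X) (by linarith) t2 (by linarith) s2 t3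
    (by linarith) s3 (by nlinarith)
  have id : Cf x y X Y - Mf x y X Y * RA x y X Y
      = x * X * (a00 t T + X * a01 t T + x * a10 t T + x * X * a11 t T + x^2 * X * a21 t T) := by
    rw [hyt, hYs]
    simp only [Mf, RA, Cf, Ups, ff, a00, a01, a10, a11, a21]
    ring
  have : 0 ≤ x * X * (a00 t T + X * a01 t T + x * a10 t T + x * X * a11 t T + x^2 * X * a21 t T) :=
    mul_nonneg (mul_nonneg hx hX) main
  linarith

/-- The polynomial inequality behind the bound on the average of `tau3`. -/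
lemma psiB {x y X Y : ℝ} (hx : 0 ≤ x) (hx1 : x ≤ 2 * 1^2) (hy : 2 * y^2 ≤ x^3)
    (he : 0 < 1^3 - 3 / 2 * 1 * x + y)
    (hX : 0 ≤ X) (hX1 : X ≤ 2 * (58 / 100)^2) (hY : 2 * Y^2 ≤ X^3)
    (hE : 0 < (58 / 100)^3 - 3 / 2 * (58 / 100) * X + Y) :
    (1 - X) * y + (1 - x / 2) * Y ≤ Lf2 x y X Y := by
  rcases hx.eq_or_lt with rfl | hx0
  · have := y_zero_of_x_zero hy
    subst this
    simp only [Lf2]
    apply le_of_eq
    ring
  rcases hX.eq_or_lt with rfl | hX0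
  · have := y_zero_of_x_zero hY
    subst this
    simp only [Lf2]
    apply le_of_eq
    ring
  obtain ⟨t1, t2, t3, t4⟩ := t_region' (μ := 1) one_pos hx0 hx1 hy he
  obtain ⟨s1, s2, s3, s4⟩ := t_region' (μ := 58 / 100) (by norm_num) hX0 hX1 hY hE
  set t := y / x with ht
  set T := Y / X with hs
  have hyt : y = t * x := by rw [ht]; field_simp
  have hYs : Y = T * X := by rw [hs]; field_simp
  have main := GB_nonneg (t := t) (T := T) (x := x) (X := X) (by linarith) t2 (by linarith) s2 t3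
    (by linarith) s3 (by nlinarith)
  have id : Lf2 x y X Y - ((1 - X) * y + (1 - x / 2) * Y)
      = x * X * (g00 t T + X * g01 t T + x * g10 t T + x * X * g11 t T) := by
    rw [hyt, hYs]
    simp only [Lf2, g00, g01, g10, g11]
    ring
  have : 0 ≤ x * X * (g00 t T + X * g01 t T + x * g10 t T + x * X * g11 t T) :=
    mul_nonneg (mul_nonneg hx hX) main
  linarith

/-- Nonnegativity of `ff` on the whole simplex. -/
lemma ff_nonneg {x y : ℝ} (hx : 0 ≤ x) (hx1 : x ≤ 2 * 1^2) (hy : 2 * y^2 ≤ x^3)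
    (he : 0 < 1^3 - 3 / 2 * 1 * x + y) : 0 ≤ ff x y := by
  rcases hx.eq_or_lt with rfl | hx0
  · have := y_zero_of_x_zero hy
    subst this
    simp [ff]
  obtain ⟨t1, t2, t3, t4⟩ := t_region' (μ := 1) one_pos hx0 hx1 hy he
  set t := y / x with ht
  have hyt : y = t * x := by rw [ht]; field_simp
  have hD : 0 < 3 / 2 - t := by linarith
  have h1 : (3 / 2 - t) * x ≤ 1 := by linarith
  have h2 : 0 ≤ (878 / 1000 - 488 / 1000 * t) * (3 / 2 - t) - 195 / 1000 := by nlinarith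
  have h3 : 0 ≤ (3 / 2 - t) * (878 / 1000 - 488 / 1000 * t - 195 / 1000 * x) := by
    nlinarith
  have h4 := nonneg_of_mul_nonneg_right h3 hD
  have e : ff x y = x * (878 / 1000 - 488 / 1000 * t - 195 / 1000 * x) := by
    rw [hyt]
    simp only [ff]
    ring
  rw [e]
  exact mul_nonneg hx h4

/-- General average of `tau1` as soon as the polynomial inequality holds. -/
theorem T1_of_poly {a0 a1 a2 b0 b1 b2 R : ℝ}
    (ha : a0 + a1 + a2 = 0) (hb : b0 + b1 + b2 = 0)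
    (pa0 : 0 < 1 + a0) (pa1 : 0 < 1 + a1) (pa2 : 0 < 1 + a2)
    (pb0 : 0 < 1 + b0) (pb1 : 0 < 1 + b1) (pb2 : 0 < 1 + b2)
    (Psi : Mf (xI a0 a1 a2) (yI a0 a1 a2) (xI b0 b1 b2) (yI b0 b1 b2) * R
      ≤ Cf (xI a0 a1 a2) (yI a0 a1 a2) (xI b0 b1 b2) (yI b0 b1 b2)) :
    (tau1 a0 a1 a2 b0 b1 b2 + tau1 a0 a1 a2 b1 b2 b0 + tau1 a0 a1 a2 b2 b0 b1
      + tau1 a0 a1 a2 b0 b2 b1 + tau1 a0 a1 a2 b2 b1 b0 + tau1 a0 a1 a2 b1 b0 b2) / 6
    ≤ 2 - R := by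
  have Zpos : ∀ c0 c1 c2 : ℝ, 0 < 1 + c0 → 0 < 1 + c1 → 0 < 1 + c2 → 0 < Zr a0 a1 a2 c0 c1 c2 := by
    intro c0 c1 c2 h0 h1 h2
    unfold Zr
    positivity
  have Wle : ∀ c0 c1 c2 : ℝ, 0 < 1 + c0 → 0 < 1 + c1 → 0 < 1 + c2 →
      Wr a0 a1 a2 c0 c1 c2 / Zr a0 a1 a2 c0 c1 c2 ≤ 2 * Zr a0 a1 a2 c0 c1 c2 := by
    intro c0 c1 c2 h0 h1 h2
    have hZ := Zpos c0 c1 c2 h0 h1 h2
    rw [div_le_iff₀ hZ]
    have p0 : 0 ≤ (1 + a0) * (1 + c0) := by positivity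
    have p1 : 0 ≤ (1 + a1) * (1 + c1) := by positivity
    have p2 : 0 ≤ (1 + a2) * (1 + c2) := by positivity
    have e : 2 * Zr a0 a1 a2 c0 c1 c2 * Zr a0 a1 a2 c0 c1 c2 - Wr a0 a1 a2 c0 c1 c2
        = 2 / 3 * (((1 + a0) * (1 + c0)) * ((1 + a1) * (1 + c1))
          + ((1 + a0) * (1 + c0)) * ((1 + a2) * (1 + c2))
          + ((1 + a1) * (1 + c1)) * ((1 + a2) * (1 + c2))) := by
      simp only [Wr, Zr]
      ring
    have : 0 ≤ 2 / 3 * (((1 + a0) * (1 + c0)) * ((1 + a1) * (1 + c1))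
          + ((1 + a0) * (1 + c0)) * ((1 + a2) * (1 + c2))
          + ((1 + a1) * (1 + c1)) * ((1 + a2) * (1 + c2))) := by positivity
    linarith
  have Z0 := Zpos b0 b1 b2 pb0 pb1 pb2
  have Z1 := Zpos b1 b2 b0 pb1 pb2 pb0
  have Z2 := Zpos b2 b0 b1 pb2 pb0 pb1
  have Z3 := Zpos b0 b2 b1 pb0 pb2 pb1
  have Z4 := Zpos b2 b1 b0 pb2 pb1 pb0
  have Z5 := Zpos b1 b0 b2 pb1 pb0 pb2
  rw [tau1_eq _ _ _ _ _ _ Z0.ne', tau1_eq _ _ _ _ _ _ Z1.ne', tau1_eq _ _ _ _ _ _ Z2.ne',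
    tau1_eq _ _ _ _ _ _ Z3.ne', tau1_eq _ _ _ _ _ _ Z4.ne', tau1_eq _ _ _ _ _ _ Z5.ne']
  have hb' : b0 + b2 + b1 = 0 := by linarith
  have cid1 := coset_id a0 a1 a2 b0 b1 b2 ha hb
  have cid2 := coset_id a0 a1 a2 b0 b2 b1 ha hb'
  rw [xI_swap b0 b1 b2, yI_swap b0 b1 b2] at cid2
  set x := xI a0 a1 a2
  set y := yI a0 a1 a2
  set X := xI b0 b1 b2
  set Y := yI b0 b1 b2
  have avg1 := coset_avg _ _ _ _ _ _ _ Z0 Z1 Z2 cid1
  have avg2 := coset_avg _ _ _ _ _ _ _ Z3 Z4 Z5 cid2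
  have P1 : 0 < Zr a0 a1 a2 b0 b1 b2 * Zr a0 a1 a2 b1 b2 b0 * Zr a0 a1 a2 b2 b0 b1 := by positivity
  have P2 : 0 < Zr a0 a1 a2 b0 b2 b1 * Zr a0 a1 a2 b2 b1 b0 * Zr a0 a1 a2 b1 b0 b2 := by positivity
  have sum1 := coset_sum a0 a1 a2 b0 b1 b2 ha hb
  have C0 : 0 ≤ Cf x y X Y := by
    have l0 := Wle b0 b1 b2 pb0 pb1 pb2
    have l1 := Wle b1 b2 b0 pb1 pb2 pb0
    have l2 := Wle b2 b0 b1 pb2 pb0 pb1
    have : 0 ≤ Cf x y X Y / (Zr a0 a1 a2 b0 b1 b2 * Zr a0 a1 a2 b1 b2 b0 * Zr a0 a1 a2 b2 b0 b1) := by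
      linarith
    exact nonneg_of_mul_nonneg_left (by
      rw [div_eq_mul_inv] at this
      exact this) (inv_pos.mpr P1)
  have Mid := Mf_id a0 a1 a2 b0 b1 b2 ha hb
  change _ = 2 * Mf x y X Y at Mid
  have Mpos : 0 < Mf x y X Y := by linarith
  set P₁ := Zr a0 a1 a2 b0 b1 b2 * Zr a0 a1 a2 b1 b2 b0 * Zr a0 a1 a2 b2 b0 b1 with hP₁
  set P₂ := Zr a0 a1 a2 b0 b2 b1 * Zr a0 a1 a2 b2 b1 b0 * Zr a0 a1 a2 b1 b0 b2 with hP₂
  have amhm : 1 / Mf x y X Y ≤ (1 / P₁ + 1 / P₂) / 2 := by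
    have hM : Mf x y X Y = (P₁ + P₂) / 2 := by linarith
    rw [hM]
    have : (1 / P₁ + 1 / P₂) / 2 - 1 / ((P₁ + P₂) / 2) = (P₁ - P₂)^2 / (2 * P₁ * P₂ * (P₁ + P₂)) := by
      field_simp
      ring
    have h3 : 0 ≤ (P₁ - P₂)^2 / (2 * P₁ * P₂ * (P₁ + P₂)) := by positivity
    linarith
  have step : R ≤ Cf x y X Y / Mf x y X Y := by
    rw [le_div_iff₀ Mpos]
    linarith
  have step2 : Cf x y X Y / Mf x y X Y ≤ Cf x y X Y * ((1 / P₁ + 1 / P₂) / 2) := by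
    have := mul_le_mul_of_nonneg_left amhm C0
    calc Cf x y X Y / Mf x y X Y = Cf x y X Y * (1 / Mf x y X Y) := by ring
      _ ≤ _ := this
  have e1 : Cf x y X Y * ((1 / P₁ + 1 / P₂) / 2) = (Cf x y X Y / P₁ + Cf x y X Y / P₂) / 2 := by
    ring
  have final : (Wr a0 a1 a2 b0 b1 b2 / Zr a0 a1 a2 b0 b1 b2
      + Wr a0 a1 a2 b1 b2 b0 / Zr a0 a1 a2 b1 b2 b0
      + Wr a0 a1 a2 b2 b0 b1 / Zr a0 a1 a2 b2 b0 b1
      + Wr a0 a1 a2 b0 b2 b1 / Zr a0 a1 a2 b0 b2 b1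
      + Wr a0 a1 a2 b2 b1 b0 / Zr a0 a1 a2 b2 b1 b0
      + Wr a0 a1 a2 b1 b0 b2 / Zr a0 a1 a2 b1 b0 b2) / 6 = 2 - (Cf x y X Y / P₁ + Cf x y X Y / P₂) / 2 := by
    linarith
  rw [final]
  linarith

/-- The bound on the averaged `tau1`. -/
theorem T1_full {a0 a1 a2 b0 b1 b2 : ℝ}
    (ha : a0 + a1 + a2 = 0) (hb : b0 + b1 + b2 = 0)
    (pa0 : -1 < a0) (pa1 : -1 < a1) (pa2 : -1 < a2)
    (pb0 : -(58 / 100) < b0) (pb1 : -(58 / 100) < b1) (pb2 : -(58 / 100) < b2) :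
    (tau1 a0 a1 a2 b0 b1 b2 + tau1 a0 a1 a2 b1 b2 b0 + tau1 a0 a1 a2 b2 b0 b1
      + tau1 a0 a1 a2 b0 b2 b1 + tau1 a0 a1 a2 b2 b1 b0 + tau1 a0 a1 a2 b1 b0 b2) / 6
    ≤ 2 - RA (xI a0 a1 a2) (yI a0 a1 a2) (xI b0 b1 b2) (yI b0 b1 b2) := by
  obtain ⟨x0, x1, x2, x3⟩ := region (μ := 1) ha pa0 pa1 pa2
  obtain ⟨y0, y1, y2, y3⟩ := region (μ := 58 / 100) hb pb0 pb1 pb2
  exact T1_of_poly ha hb (by linarith) (by linarith) (by linarith) (by linarith) (by linarith)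
    (by linarith) (psiA x0 x1 x2 x3 y0 y1 y2 y3)

/-- One term of the lower bound for `tau3`. -/
lemma tau3_term2 {E E' Z W : ℝ} (hE : 0 ≤ E) (hE' : 0 ≤ E') (hZ : 0 < Z) (hW : 0 ≤ W) :
    E * E' * (1 - 2 * (Z - 1)) - Z
        + 3 / 2 * (W * (1 - (Z - 1) + 21 / 25 * (Z - 1)^2 - 9 / 25 * (Z - 1)^3))
      ≤ E * E' / Z^2 - Z + 3 / 2 * (W / Z) := by
  have h1 : 1 - 2 * (Z - 1) ≤ 1 / Z^2 := by
    rw [le_div_iff₀ (by positivity)]
    nlinarith [mul_nonneg (sq_nonneg (1 - Z)) (by linarith : (0:ℝ) ≤ 1 + 2 * Z)]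
  have h2 : 1 - (Z - 1) + 21 / 25 * (Z - 1)^2 - 9 / 25 * (Z - 1)^3 ≤ 1 / Z := by
    have key : 1 / Z - (1 - (Z - 1) + 21 / 25 * (Z - 1)^2 - 9 / 25 * (Z - 1)^3)
        = (1 - (1 - 3 / 5 * (Z - 1)) * Z)^2 / Z := by
      field_simp
      ring
    have : 0 ≤ (1 - (1 - 3 / 5 * (Z - 1)) * Z)^2 / Z := by positivity
    linarith
  have h3 := mul_le_mul_of_nonneg_left h1 (mul_nonneg hE hE')
  have h4 := mul_le_mul_of_nonneg_left h2 hW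
  have e1 : E * E' / Z^2 = E * E' * (1 / Z^2) := by ring
  have e2 : W / Z = W * (1 / Z) := by ring
  rw [e1, e2]
  linarith

lemma Lf2_id (a0 a1 a2 b0 b1 b2 : ℝ) (ha : a0 + a1 + a2 = 0) (hb : b0 + b1 + b2 = 0) :
    (((1 + a0) * (1 + a1) * (1 + a2)) * ((1 + b0) * (1 + b1) * (1 + b2)) * (1 - 2 * (Zr a0 a1 a2 b0 b1 b2 - 1)) - Zr a0 a1 a2 b0 b1 b2
        + 3 / 2 * (Wr a0 a1 a2 b0 b1 b2 * (1 - (Zr a0 a1 a2 b0 b1 b2 - 1) + 21 / 25 * (Zr a0 a1 a2 b0 b1 b2 - 1)^2 - 9 / 25 * (Zr a0 a1 a2 b0 b1 b2 - 1)^3)))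
    + (((1 + a0) * (1 + a1) * (1 + a2)) * ((1 + b1) * (1 + b2) * (1 + b0)) * (1 - 2 * (Zr a0 a1 a2 b1 b2 b0 - 1)) - Zr a0 a1 a2 b1 b2 b0
        + 3 / 2 * (Wr a0 a1 a2 b1 b2 b0 * (1 - (Zr a0 a1 a2 b1 b2 b0 - 1) + 21 / 25 * (Zr a0 a1 a2 b1 b2 b0 - 1)^2 - 9 / 25 * (Zr a0 a1 a2 b1 b2 b0 - 1)^3)))
    + (((1 + a0) * (1 + a1) * (1 + a2)) * ((1 + b2) * (1 + b0) * (1 + b1)) * (1 - 2 * (Zr a0 a1 a2 b2 b0 b1 - 1)) - Zr a0 a1 a2 b2 b0 b1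
        + 3 / 2 * (Wr a0 a1 a2 b2 b0 b1 * (1 - (Zr a0 a1 a2 b2 b0 b1 - 1) + 21 / 25 * (Zr a0 a1 a2 b2 b0 b1 - 1)^2 - 9 / 25 * (Zr a0 a1 a2 b2 b0 b1 - 1)^3)))
    + (((1 + a0) * (1 + a1) * (1 + a2)) * ((1 + b0) * (1 + b2) * (1 + b1)) * (1 - 2 * (Zr a0 a1 a2 b0 b2 b1 - 1)) - Zr a0 a1 a2 b0 b2 b1
        + 3 / 2 * (Wr a0 a1 a2 b0 b2 b1 * (1 - (Zr a0 a1 a2 b0 b2 b1 - 1) + 21 / 25 * (Zr a0 a1 a2 b0 b2 b1 - 1)^2 - 9 / 25 * (Zr a0 a1 a2 b0 b2 b1 - 1)^3)))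
    + (((1 + a0) * (1 + a1) * (1 + a2)) * ((1 + b2) * (1 + b1) * (1 + b0)) * (1 - 2 * (Zr a0 a1 a2 b2 b1 b0 - 1)) - Zr a0 a1 a2 b2 b1 b0
        + 3 / 2 * (Wr a0 a1 a2 b2 b1 b0 * (1 - (Zr a0 a1 a2 b2 b1 b0 - 1) + 21 / 25 * (Zr a0 a1 a2 b2 b1 b0 - 1)^2 - 9 / 25 * (Zr a0 a1 a2 b2 b1 b0 - 1)^3)))
    + (((1 + a0) * (1 + a1) * (1 + a2)) * ((1 + b1) * (1 + b0) * (1 + b2)) * (1 - 2 * (Zr a0 a1 a2 b1 b0 b2 - 1)) - Zr a0 a1 a2 b1 b0 b2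
        + 3 / 2 * (Wr a0 a1 a2 b1 b0 b2 * (1 - (Zr a0 a1 a2 b1 b0 b2 - 1) + 21 / 25 * (Zr a0 a1 a2 b1 b0 b2 - 1)^2 - 9 / 25 * (Zr a0 a1 a2 b1 b0 b2 - 1)^3)))
    = 6 * Lf2 (xI a0 a1 a2) (yI a0 a1 a2) (xI b0 b1 b2) (yI b0 b1 b2) := by
  obtain rfl : a2 = - a0 - a1 := by linarith
  obtain rfl : b2 = - b0 - b1 := by linarith
  simp only [Wr, Zr, Lf2, xI, yI]
  ring

/-- The bound on the averaged `tau3`. -/
theorem T3_full {a0 a1 a2 b0 b1 b2 : ℝ}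
    (ha : a0 + a1 + a2 = 0) (hb : b0 + b1 + b2 = 0)
    (pa0 : -1 < a0) (pa1 : -1 < a1) (pa2 : -1 < a2)
    (pb0 : -(58 / 100) < b0) (pb1 : -(58 / 100) < b1) (pb2 : -(58 / 100) < b2) :
    (1 - xI b0 b1 b2) * yI a0 a1 a2 + (1 - xI a0 a1 a2 / 2) * yI b0 b1 b2
    ≤ (tau3 a0 a1 a2 b0 b1 b2 + tau3 a0 a1 a2 b1 b2 b0 + tau3 a0 a1 a2 b2 b0 b1
      + tau3 a0 a1 a2 b0 b2 b1 + tau3 a0 a1 a2 b2 b1 b0 + tau3 a0 a1 a2 b1 b0 b2) / 6 := by
  obtain ⟨x0, x1, x2, x3⟩ := region (μ := 1) ha pa0 pa1 pa2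
  obtain ⟨y0, y1, y2, y3⟩ := region (μ := 58 / 100) hb pb0 pb1 pb2
  have qa0 : 0 < 1 + a0 := by linarith
  have qa1 : 0 < 1 + a1 := by linarith
  have qa2 : 0 < 1 + a2 := by linarith
  have hE : 0 ≤ (1 + a0) * (1 + a1) * (1 + a2) := by positivity
  have term : ∀ c0 c1 c2 : ℝ, -(58 / 100) < c0 → -(58 / 100) < c1 → -(58 / 100) < c2 →
      ((1 + a0) * (1 + a1) * (1 + a2)) * ((1 + c0) * (1 + c1) * (1 + c2)) * (1 - 2 * (Zr a0 a1 a2 c0 c1 c2 - 1)) - Zr a0 a1 a2 c0 c1 c2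
        + 3 / 2 * (Wr a0 a1 a2 c0 c1 c2 * (1 - (Zr a0 a1 a2 c0 c1 c2 - 1) + 21 / 25 * (Zr a0 a1 a2 c0 c1 c2 - 1)^2 - 9 / 25 * (Zr a0 a1 a2 c0 c1 c2 - 1)^3))
      ≤ tau3 a0 a1 a2 c0 c1 c2 := by
    intro c0 c1 c2 h_0 h_1 h_2
    have p0 : 0 < 1 + c0 := by linarith
    have p1 : 0 < 1 + c1 := by linarith
    have p2 : 0 < 1 + c2 := by linarith
    have hZ : 0 < Zr a0 a1 a2 c0 c1 c2 := by
      unfold Zr
      positivity
    have hW : 0 ≤ Wr a0 a1 a2 c0 c1 c2 := by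
      have : Wr a0 a1 a2 c0 c1 c2 = (((1 + a0) * (1 + c0) - (1 + a1) * (1 + c1))^2
          + ((1 + a0) * (1 + c0) - (1 + a2) * (1 + c2))^2
          + ((1 + a1) * (1 + c1) - (1 + a2) * (1 + c2))^2) / 9 := by
        simp only [Wr, Zr]
        ring
      rw [this]
      positivity
    rw [tau3_eq _ _ _ _ _ _ hZ.ne']
    exact tau3_term2 hE (by positivity) hZ hW
  have t0 := term b0 b1 b2 pb0 pb1 pb2
  have t1 := term b1 b2 b0 pb1 pb2 pb0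
  have t2 := term b2 b0 b1 pb2 pb0 pb1
  have t3 := term b0 b2 b1 pb0 pb2 pb1
  have t4 := term b2 b1 b0 pb2 pb1 pb0
  have t5 := term b1 b0 b2 pb1 pb0 pb2
  have id := Lf2_id a0 a1 a2 b0 b1 b2 ha hb
  have K := psiB x0 x1 x2 x3 y0 y1 y2 y3
  linarith

end Vale.Agent.helper4.PottsFull
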