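import Vale.Agent.helper4.KEngine

/-!
Inequalities for the symmetrised monomials with exponents `(7,5,0)/12` and `(8,2,2)/12`, checked by the
certified evaluation of `KEngine`.
-/

namespace Vale.Agent.helper4.Q3Mono

open Vale.Agent.helper4.KEngine
open PE

/-- Symmetrised monomial `(7,5,0)` in the twelfth roots. -/
noncomputable def eP3 (w0 w1 w2 : ℝ) : ℝ :=
  (w0^7*w1^5 + w0^7*w2^5 + w1^7*w0^5 + w1^7*w2^5 + w2^7*w0^5 + w2^7*w1^5) / 6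

/-- Symmetrised monomial `(8,2,2)` in the twelfth roots. -/
noncomputable def eM3 (w0 w1 w2 : ℝ) : ℝ :=
  (w0^8*(w1^2*w2^2) + w1^8*(w0^2*w2^2) + w2^8*(w0^2*w1^2)) / 3

lemma eP3_scale (r w0 w1 w2 : ℝ) : eP3 (r * w0) (r * w1) (r * w2) = r^12 * eP3 w0 w1 w2 := by
  simp only [eP3]; ring

lemma eM3_scale (r w0 w1 w2 : ℝ) : eM3 (r * w0) (r * w1) (r * w2) = r^12 * eM3 w0 w1 w2 := by
  simp only [eM3]; ring

lemma eP3_perm1 (w0 w1 w2 : ℝ) : eP3 w1 w0 w2 = eP3 w0 w1 w2 := by simp only [eP3]; ring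
lemma eP3_perm2 (w0 w1 w2 : ℝ) : eP3 w0 w2 w1 = eP3 w0 w1 w2 := by simp only [eP3]; ring
lemma eM3_perm1 (w0 w1 w2 : ℝ) : eM3 w1 w0 w2 = eM3 w0 w1 w2 := by simp only [eM3]; ring
lemma eM3_perm2 (w0 w1 w2 : ℝ) : eM3 w0 w2 w1 = eM3 w0 w1 w2 := by simp only [eM3]; ring

def W0 : PE := v 0
def W1 : PE := v 1
def W2 : PE := v 2
def s0E : PE := pow W0 12
def s1E : PE := pow W1 12
def s2E : PE := pow W2 12
def SE : PE := add (add s0E s1E) s2E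
def m2E : PE := add (add (pow s0E 2) (pow s1E 2)) (pow s2E 2)
def m3E : PE := add (add (pow s0E 3) (pow s1E 3)) (pow s2E 3)
def N2p : PE := mul (c 3) m2E
def N2m : PE := pow SE 2
def N3p : PE := add (mul (c 9) m3E) (mul (c 2) (pow SE 3))
def N3m : PE := mul (c 9) (mul m2E SE)
def epE : PE := add (mul (pow W0 7) (pow W1 5)) (add (mul (pow W0 7) (pow W2 5)) (add (mul (pow W0 5) (pow W1 7)) (add (mul (pow W1 7) (pow W2 5)) (add (mul (pow W0 5) (pow W2 7)) (mul (pow W1 5) (pow W2 7))))))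
def emE : PE := add (mul (pow W0 8) (mul (pow W1 2) (pow W2 2))) (add (mul (pow W0 2) (mul (pow W1 8) (pow W2 2))) (mul (pow W0 2) (mul (pow W1 2) (pow W2 8))))

/-! ### The bound on the whole simplex -/

def Dp : PE :=
  add (add (add (add
    (mul (c 185) (mul N2p (pow SE 3)))
    (mul (c 810) (mul N3p (pow SE 2))))
    (mul (c 2060) (mul N2p (mul N2m SE))))
    (mul (c 980) (add (mul N2p N3p) (mul N2m N3m))))
    (mul (c 8750) (mul epE (pow SE 4)))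

def Dm : PE :=
  add (add (add (add (add
    (mul (c 185) (mul N2m (pow SE 3)))
    (mul (c 810) (mul N3m (pow SE 2))))
    (mul (c 1030) (mul (add (pow N2p 2) (pow N2m 2)) SE)))
    (mul (c 980) (add (mul N2p N3m) (mul N2m N3p))))
    (mul (c 700) (pow SE 5)))
    (mul (c 16800) (mul emE (pow SE 4)))

theorem check_D : cover (Dp.subst sig) (Dm.subst sig) (c 0) (c 1) 61 61 8 true 0 1 0 1 1 = true := by
  decide +kernel

/-- The homogeneous form of the bound on the simplex. -/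
noncomputable def DD (s0 s1 s2 e1 e2 : ℝ) : ℝ :=
  let S := (s0 + s1 + s2) / 3
  let N2 := (s0^2 + s1^2 + s2^2) / 3 - S^2
  let N3 := (s0^3 + s1^3 + s2^3) / 3 - 3 * ((s0^2 + s1^2 + s2^2) / 3) * S + 2 * S^3
  185 / 1000 * N2 * S^3 + 81 / 100 * N3 * S^2 - 103 / 100 * N2^2 * S + 98 / 100 * N2 * N3
    - S^4 * (7 / 10 * S - 35 / 2 * e1 + 84 / 5 * e2)

lemma Dp_sub_Dm (w0 w1 w2 : ℝ) :
    Dp.ev (wenv w0 w1 w2) - Dm.ev (wenv w0 w1 w2)
      = 243000 * DD (w0^12) (w1^12) (w2^12) (eP3 w0 w1 w2) (eM3 w0 w1 w2) := by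
  simp only [Dp, Dm, SE, s0E, s1E, s2E, m2E, m3E, N2p, N2m, N3p, N3m, epE, emE, W0, W1, W2, PE.ev,
    wenv, DD, eP3, eM3]
  push_cast
  ring

lemma DD_scale (r s0 s1 s2 e1 e2 : ℝ) :
    DD (r * s0) (r * s1) (r * s2) (r * e1) (r * e2) = r^5 * DD s0 s1 s2 e1 e2 := by
  simp only [DD]; ring

lemma DD_perm1 (s0 s1 s2 e1 e2 : ℝ) : DD s1 s0 s2 e1 e2 = DD s0 s1 s2 e1 e2 := by
  simp only [DD]; ring

lemma DD_perm2 (s0 s1 s2 e1 e2 : ℝ) : DD s0 s2 s1 e1 e2 = DD s0 s1 s2 e1 e2 := by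
  simp only [DD]; ring

lemma DD_sorted {w0 w1 w2 : ℝ} (h0 : w1 ≤ w0) (h1 : w2 ≤ w1) (h2 : 0 < w2) :
    0 ≤ DD (w0^12) (w1^12) (w2^12) (eP3 w0 w1 w2) (eM3 w0 w1 w2) := by
  obtain ⟨r, hr, hh⟩ := sorted_point (E₃ := c 0) (E₄ := c 1) check_D h0 h1 h2
  rcases hh with hh | hh
  · have e := Dp_sub_Dm (r * w0) (r * w1) (r * w2)
    have e1 : DD ((r * w0)^12) ((r * w1)^12) ((r * w2)^12) (eP3 (r * w0) (r * w1) (r * w2))
        (eM3 (r * w0) (r * w1) (r * w2))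
        = (r^12)^5 * DD (w0^12) (w1^12) (w2^12) (eP3 w0 w1 w2) (eM3 w0 w1 w2) := by
      rw [eP3_scale, eM3_scale, ← DD_scale, mul_pow, mul_pow, mul_pow]
    rw [e1] at e
    have h3 : 0 ≤ 243000 * ((r^12)^5 * DD (w0^12) (w1^12) (w2^12) (eP3 w0 w1 w2) (eM3 w0 w1 w2)) := by
      linarith
    have h4 : 0 < 243000 * (r^12)^5 := by positivity
    have h5 : 0 ≤ (243000 * (r^12)^5) * DD (w0^12) (w1^12) (w2^12) (eP3 w0 w1 w2) (eM3 w0 w1 w2) := by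
      linarith [h3]
    exact nonneg_of_mul_nonneg_right h5 h4
  · exfalso
    simp only [PE.ev] at hh
    norm_num at hh

/-- Reduction of a symmetric statement to sorted triples. -/
lemma sort3 (Pr : ℝ → ℝ → ℝ → Prop) (s1 : ∀ a b c, Pr a b c → Pr b a c)
    (s2 : ∀ a b c, Pr a b c → Pr a c b)
    (h : ∀ a b c, b ≤ a → c ≤ b → 0 < c → Pr a b c) {w0 w1 w2 : ℝ} (h0 : 0 < w0) (h1 : 0 < w1)
    (h2 : 0 < w2) : Pr w0 w1 w2 := by
  rcases le_total w0 w1 with a | a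
  · rcases le_total w1 w2 with b | b
    · exact s1 _ _ _ (s2 _ _ _ (s1 _ _ _ (h w2 w1 w0 b a h0)))
    · rcases le_total w0 w2 with c | c
      · exact s1 _ _ _ (s2 _ _ _ (h w1 w2 w0 b c h0))
      · exact s1 _ _ _ (h w1 w0 w2 a c h2)
  · rcases le_total w1 w2 with b | b
    · rcases le_total w0 w2 with c | c
      · exact s2 _ _ _ (s1 _ _ _ (h w2 w0 w1 c a h1))
      · exact s2 _ _ _ (h w0 w2 w1 c b h1)
    · exact h w0 w1 w2 a b h2

theorem DD_nonneg {w0 w1 w2 : ℝ} (h0 : 0 < w0) (h1 : 0 < w1) (h2 : 0 < w2) :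
    0 ≤ DD (w0^12) (w1^12) (w2^12) (eP3 w0 w1 w2) (eM3 w0 w1 w2) :=
  sort3 (fun a b c => 0 ≤ DD (a^12) (b^12) (c^12) (eP3 a b c) (eM3 a b c))
    (fun a b c hh => by
      show 0 ≤ DD (b^12) (a^12) (c^12) (eP3 b a c) (eM3 b a c)
      rw [DD_perm1, eP3_perm1, eM3_perm1]
      exact hh)
    (fun a b c hh => by
      show 0 ≤ DD (a^12) (c^12) (b^12) (eP3 a c b) (eM3 a c b)
      rw [DD_perm2, eP3_perm2, eM3_perm2]
      exact hh)
    (fun a b c hab hbc hc => DD_sorted hab hbc hc) h0 h1 h2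

lemma DD_norm (s0 s1 s2 e1 e2 : ℝ) (h : s0 + s1 + s2 = 3) :
    DD s0 s1 s2 e1 e2 =
      185 / 1000 * (((s0 - 1)^2 + (s1 - 1)^2 + (s2 - 1)^2) / 3)
      + 81 / 100 * (((s0 - 1)^3 + (s1 - 1)^3 + (s2 - 1)^3) / 3)
      - 103 / 100 * (((s0 - 1)^2 + (s1 - 1)^2 + (s2 - 1)^2) / 3)^2
      + 98 / 100 * (((s0 - 1)^2 + (s1 - 1)^2 + (s2 - 1)^2) / 3) * (((s0 - 1)^3 + (s1 - 1)^3 + (s2 - 1)^3) / 3)
      - (35 / 2 * (1 - e1) - 84 / 5 * (1 - e2)) := by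
  obtain rfl : s2 = 3 - s0 - s1 := by linarith
  simp only [DD]
  ring

/-! ### The scaling inequality -/

def W10E : PE := pow (mul (mul W0 W1) W2) 10

def Kp : PE :=
  add (add (add (add
    (mul (c 2142) (mul W10E SE))
    (mul (c 51408) (mul W10E emE)))
    (mul (c 175) (add (mul (c 21) (mul (mul (pow W0 5) (mul (pow W1 15) (pow W2 10))) (pow W0 12))) (add (mul (c 15) (mul (mul (pow W0 17) (mul (pow W1 3) (pow W2 10))) (pow W1 12))) (add (mul (c 21) (mul (mul (pow W0 5) (mul (pow W1 10) (pow W2 15))) (pow W0 12))) (add (mul (c 15) (mul (mul (pow W0 17) (mul (pow W1 10) (pow W2 3))) (pow W2 12))) (add (mul (c 15) (mul (mul (pow W0 3) (mul (pow W1 17) (pow W2 10))) (pow W0 12))) (add (mul (c 21) (mul (mul (pow W0 15) (mul (pow W1 5) (pow W2 10))) (pow W1 12))) (add (mul (c 21) (mul (mul (pow W0 10) (mul (pow W1 5) (pow W2 15))) (pow W1 12))) (add (mul (c 15) (mul (mul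 (pow W0 10) (mul (pow W1 17) (pow W2 3))) (pow W2 12))) (add (mul (c 15) (mul (mul (pow W0 3) (mul (pow W1 10) (pow W2 17))) (pow W0 12))) (add (mul (c 21) (mul (mul (pow W0 15) (mul (pow W1 10) (pow W2 5))) (pow W2 12))) (add (mul (c 15) (mul (mul (pow W0 10) (mul (pow W1 3) (pow W2 17))) (pow W1 12))) (mul (c 21) (mul (mul (pow W0 10) (mul (pow W1 15) (pow W2 5))) (pow W2 12))))))))))))))))
    (mul (c 336) (add (mul (c 8) (mul (mul (pow W0 6) (mul (pow W1 12) (pow W2 12))) SE)) (add (mul (c 2) (mul (mul (pow W0 18) (pow W2 12)) SE)) (add (mul (c 2) (mul (mul (pow W0 18) (pow W1 12)) SE)) (add (mul (c 2) (mul (mul (pow W1 18) (pow W2 12)) SE)) (add (mul (c 8) (mul (mul (pow W0 12) (mul (pow W1 6) (pow W2 12))) SE)) (add (mul (c 2) (mul (mul (pow W0 12) (pow W1 18)) SE)) (add (mul (c 2) (mul (mul (pow W1 12) (pow W2 18)) SE)) (add (mul (c 2) (mul (mul (pow W0 12) (pow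 W2 18)) SE)) (mul (c 8) (mul (mul (pow W0 12) (mul (pow W1 12) (pow W2 6))) SE))))))))))))
    (c 0)

def Km : PE :=
  add (add
    (mul (c 26775) (mul W10E epE))
    (mul (c 175) (add (mul (c 7) (mul (mul (pow W0 5) (mul (pow W1 15) (pow W2 10))) SE)) (add (mul (c 5) (mul (mul (pow W0 17) (mul (pow W1 3) (pow W2 10))) SE)) (add (mul (c 7) (mul (mul (pow W0 5) (mul (pow W1 10) (pow W2 15))) SE)) (add (mul (c 5) (mul (mul (pow W0 17) (mul (pow W1 10) (pow W2 3))) SE)) (add (mul (c 5) (mul (mul (pow W0 3) (mul (pow W1 17) (pow W2 10))) SE)) (add (mul (c 7) (mul (mul (pow W0 15) (mul (pow W1 5) (pow W2 10))) SE)) (add (mul (c 7) (mul (mul (pow W0 10) (mul (pow W1 5) (pow W2 15))) SE)) (add (mul (c 5) (mul (mul (pow W0 10) (mul (pow W1 17) (pow W2 3))) SE)) (add (mul (c 5) (mul (mul (pow W0 3) (mul (pow W1 10) (pow W2 17))) SE)) (add (mul (c 7) (mul (mul (pow W0 15) (mul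 (pow W1 10) (pow W2 5))) SE)) (add (mul (c 5) (mul (mul (pow W0 10) (mul (pow W1 3) (pow W2 17))) SE)) (mul (c 7) (mul (mul (pow W0 10) (mul (pow W1 15) (pow W2 5))) SE)))))))))))))))
    (mul (c 336) (add (mul (c 24) (mul (mul (pow W0 6) (mul (pow W1 12) (pow W2 12))) (pow W0 12))) (add (mul (c 6) (mul (mul (pow W0 18) (pow W2 12)) (pow W1 12))) (add (mul (c 6) (mul (mul (pow W0 18) (pow W1 12)) (pow W2 12))) (add (mul (c 6) (mul (mul (pow W1 18) (pow W2 12)) (pow W0 12))) (add (mul (c 24) (mul (mul (pow W0 12) (mul (pow W1 6) (pow W2 12))) (pow W1 12))) (add (mul (c 6) (mul (mul (pow W0 12) (pow W1 18)) (pow W2 12))) (add (mul (c 6) (mul (mul (pow W1 12) (pow W2 18)) (pow W0 12))) (add (mul (c 6) (mul (mul (pow W0 12) (pow W2 18)) (pow W1 12))) (mul (c 24) (mul (mul (pow W0 12) (mul (pow W1 12) (pow W2 6))) (pow W2 12))))))))))))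

theorem check_K : cover (Kp.subst sig) (Km.subst sig) (c 0) (c 1) 43 43 8 true 0 1 0 1 1 = true := by
  decide +kernel

/-- The homogeneous form of the scaling inequality. -/
noncomputable def KK (w0 w1 w2 : ℝ) : ℝ :=
  let s0 := w0^12
  let s1 := w1^12
  let s2 := w2^12
  let N := (s0 + s1 + s2) / 3
  (w0 * w1 * w2)^10 * (17 / 4 * (7 / 10 * N - 35 / 2 * eP3 w0 w1 w2 + 84 / 5 * eM3 w0 w1 w2))
    + 35 / 2 * ((7 * (w0^5*w1^15*w2^10) * (s0 - N) + 5 * (w0^17*w1^3*w2^10) * (s1 - N) + 7 * (w0^5*w1^10*w2^15) * (s0 - N) + 5 * (w0^17*w1^10*w2^3) * (s2 - N) + 5 * (w0^3*w1^17*w2^10) * (s0 - N) + 7 * (w0^15*w1^5*w2^10) * (s1 - N) + 7 * (w0^10*w1^5*w2^15) * (s1 - N) + 5 * (w0^10*w1^17*w2^3) * (s2 - N) + 5 * (w0^3*w1^10*w2^17) * (s0 - N) + 7 * (w0^15*w1^10*w2^5) * (s2 - N) + 5 * (w0^10*w1^3*w2^17) * (s1 - N) + 7 * (w0^10*w1^15*w2^5) * (s2 - N)) / 72)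
    - 84 / 5 * ((8 * (w0^6*w1^12*w2^12) * (s0 - N) + 2 * (w0^18*w2^12) * (s1 - N) + 2 * (w0^18*w1^12) * (s2 - N) + 2 * (w1^18*w2^12) * (s0 - N) + 8 * (w0^12*w1^6*w2^12) * (s1 - N) + 2 * (w0^12*w1^18) * (s2 - N) + 2 * (w1^12*w2^18) * (s0 - N) + 2 * (w0^12*w2^18) * (s1 - N) + 8 * (w0^12*w1^12*w2^6) * (s2 - N)) / 36)

lemma Kp_sub_Km (w0 w1 w2 : ℝ) :
    Kp.ev (wenv w0 w1 w2) - Km.ev (wenv w0 w1 w2) = 2160 * KK w0 w1 w2 := by
  simp only [Kp, Km, W10E, SE, s0E, s1E, s2E, epE, emE, W0, W1, W2, PE.ev, wenv, KK, eP3, eM3]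
  push_cast
  ring

lemma KK_scale (r w0 w1 w2 : ℝ) : KK (r * w0) (r * w1) (r * w2) = r^42 * KK w0 w1 w2 := by
  simp only [KK, eP3, eM3]; ring

lemma KK_perm1 (w0 w1 w2 : ℝ) : KK w1 w0 w2 = KK w0 w1 w2 := by
  simp only [KK, eP3, eM3]; ring

lemma KK_perm2 (w0 w1 w2 : ℝ) : KK w0 w2 w1 = KK w0 w1 w2 := by
  simp only [KK, eP3, eM3]; ring

lemma KK_sorted {w0 w1 w2 : ℝ} (h0 : w1 ≤ w0) (h1 : w2 ≤ w1) (h2 : 0 < w2) : 0 ≤ KK w0 w1 w2 := by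
  obtain ⟨r, hr, hh⟩ := sorted_point (E₃ := c 0) (E₄ := c 1) check_K h0 h1 h2
  rcases hh with hh | hh
  · have e := Kp_sub_Km (r * w0) (r * w1) (r * w2)
    rw [KK_scale] at e
    have h3 : 0 ≤ 2160 * (r^42 * KK w0 w1 w2) := by linarith
    have h4 : 0 < 2160 * r^42 := by positivity
    have h5 : 0 ≤ (2160 * r^42) * KK w0 w1 w2 := by linarith [h3]
    exact nonneg_of_mul_nonneg_right h5 h4
  · exfalso
    simp only [PE.ev] at hh
    norm_num at hh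

theorem KK_nonneg {w0 w1 w2 : ℝ} (h0 : 0 < w0) (h1 : 0 < w1) (h2 : 0 < w2) : 0 ≤ KK w0 w1 w2 :=
  sort3 (fun a b c => 0 ≤ KK a b c)
    (fun a b c hh => by
      show 0 ≤ KK b a c
      rw [KK_perm1]
      exact hh)
    (fun a b c hh => by
      show 0 ≤ KK a c b
      rw [KK_perm2]
      exact hh)
    (fun a b c hab hbc hc => KK_sorted hab hbc hc) h0 h1 h2

/-- The derivative of `eP3` along a direction with logarithmic derivatives `d`. -/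
noncomputable def dP (w0 w1 w2 d0 d1 d2 : ℝ) : ℝ := (w0^7*w1^5 * (7 * d0 + 5 * d1) + w0^7*w2^5 * (7 * d0 + 5 * d2) + w0^5*w1^7 * (5 * d0 + 7 * d1) + w1^7*w2^5 * (7 * d1 + 5 * d2) + w0^5*w2^7 * (5 * d0 + 7 * d2) + w1^5*w2^7 * (5 * d1 + 7 * d2)) / 6

/-- The derivative of `eM3` along a direction with logarithmic derivatives `d`. -/
noncomputable def dM (w0 w1 w2 d0 d1 d2 : ℝ) : ℝ := (w0^8*w1^2*w2^2 * (8 * d0 + 2 * d1 + 2 * d2) + w0^2*w1^8*w2^2 * (2 * d0 + 8 * d1 + 2 * d2) + w0^2*w1^2*w2^8 * (2 * d0 + 2 * d1 + 8 * d2)) / 3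

/-- `KK` in terms of the derivatives, on the normalised slice. -/
lemma KK_eq {w0 w1 w2 : ℝ} (h0 : 0 < w0) (h1 : 0 < w1) (h2 : 0 < w2)
    (hN : w0^12 + w1^12 + w2^12 = 3) :
    KK w0 w1 w2 = (w0 * w1 * w2)^10 * (17 / 4 * (7 / 10 - 35 / 2 * eP3 w0 w1 w2 + 84 / 5 * eM3 w0 w1 w2)
      + 35 / 2 * dP w0 w1 w2 ((w0^12 - 1) / (12 * w0^12)) ((w1^12 - 1) / (12 * w1^12)) ((w2^12 - 1) / (12 * w2^12))
      - 84 / 5 * dM w0 w1 w2 ((w0^12 - 1) / (12 * w0^12)) ((w1^12 - 1) / (12 * w1^12)) ((w2^12 - 1) / (12 * w2^12))) := by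
  have hN' : (w0^12 + w1^12 + w2^12) / 3 = 1 := by rw [hN]; norm_num
  simp only [KK, hN', dP, dM]
  field_simp
  ring

/-! ### The edge -/

def Eep : PE :=
  add (add (mul (c 7) (pow (v 1) 12)) (mul (c 168) (mul (pow (v 0) 4) (pow (v 1) 8))))
    (mul (c 336) (mul (pow (v 0) 10) (pow (v 1) 2)))

def Eem : PE :=
  add (add (mul (c 161) (pow (v 0) 12)) (mul (c 175) (mul (pow (v 0) 5) (pow (v 1) 7))))
    (mul (c 175) (mul (pow (v 0) 7) (pow (v 1) 5)))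

theorem check_E : cover Eep Eem (c 0) (c 1) 13 1 4 true 0 1 0 1 1 = true := by
  decide +kernel

/-- The value on the edge, in the ratio of the roots. -/
lemma edge_nonneg {r : ℝ} (h0 : 0 < r) (h1 : r ≤ 1) :
    0 ≤ 7 / 10 * (1 + 2 * r^12) - 35 / 2 * (r^5 + r^7 + r^12) + 84 / 5 * (r^4 + 2 * r^10) := by
  obtain ⟨P₀, U₀, g1, g2, g3⟩ := box_nonneg check_E (p := r) (q := 1) h0 h1 one_pos le_rfl
  have e : Eep.ev (renv r P₀ 1 U₀) - Eem.ev (renv r P₀ 1 U₀)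
      = 10 * P₀^12 * (7 / 10 * (1 + 2 * r^12) - 35 / 2 * (r^5 + r^7 + r^12) + 84 / 5 * (r^4 + 2 * r^10)) := by
    simp only [Eep, Eem, PE.ev, renv]
    push_cast
    ring
  have h5 : 0 < (10 : ℝ) * P₀^12 := by positivity
  have h6 : 0 ≤ (10 : ℝ) * P₀^12 * (7 / 10 * (1 + 2 * r^12) - 35 / 2 * (r^5 + r^7 + r^12) + 84 / 5 * (r^4 + 2 * r^10)) := by
    linarith
  exact nonneg_of_mul_nonneg_right h6 h5

end Vale.Agent.helper4.Q3Mono
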