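import Vale.Agent.helper4.GWMaster
import Vale.Agent.helper4.Q3Mono
import Vale.Agent.helper4.PottsFull
import Vale.Agent.helper4.PottsBinary

/-!
Three colours, all eigenvalues below one: the multiplicative invariant.
-/

open Finset

set_option linter.unusedSectionVars false
set_option linter.unusedVariables false

namespace Vale.Agent.helper4.GW3

open Vale.Agent.helper4.GW Vale.Agent.helper4.Q3Mono
open Vale.Agent.helper4.Potts (g1 g2 g3 g4 g5 comp_g1 comp_g2 comp_g3 comp_g4 comp_g5)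

/-- Twelfth root. -/
noncomputable def r12 (t : ℝ) : ℝ := t ^ ((1 : ℝ) / 12)

lemma r12_pos {t : ℝ} (h : 0 < t) : 0 < r12 t := Real.rpow_pos_of_pos h _

lemma r12_nonneg {t : ℝ} (h : 0 ≤ t) : 0 ≤ r12 t := Real.rpow_nonneg h _

lemma r12_pow {t : ℝ} (h : 0 ≤ t) : (r12 t)^12 = t := by
  unfold r12
  rw [← Real.rpow_natCast, ← Real.rpow_mul h]
  norm_num

lemma r12_mul {s t : ℝ} (hs : 0 ≤ s) (ht : 0 ≤ t) : r12 (s * t) = r12 s * r12 t :=
  Real.mul_rpow hs ht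

lemma r12_one : r12 1 = 1 := Real.one_rpow _

lemma pow12_rpow {a : ℝ} (ha : 0 ≤ a) (k : ℕ) : (a^12) ^ ((k : ℝ) / 12) = a^k := by
  rw [← Real.rpow_natCast a 12, ← Real.rpow_mul ha, ← Real.rpow_natCast a k]
  congr 1
  push_cast
  ring

lemma mono75_le {a b : ℝ} (ha : 0 ≤ a) (hb : 0 ≤ b) : a^7 * b^5 ≤ (7 * a^12 + 5 * b^12) / 12 := by
  have := Real.geom_mean_le_arith_mean2_weighted (w₁ := ((7 : ℕ) : ℝ) / 12) (w₂ := ((5 : ℕ) : ℝ) / 12)
    (p₁ := a^12) (p₂ := b^12) (by positivity) (by positivity) (by positivity) (by positivity)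
    (by norm_num)
  rw [pow12_rpow ha, pow12_rpow hb] at this
  push_cast at this
  linarith

lemma mono822_le {a b c : ℝ} (ha : 0 ≤ a) (hb : 0 ≤ b) (hc : 0 ≤ c) :
    a^8 * (b^2 * c^2) ≤ (8 * a^12 + 2 * b^12 + 2 * c^12) / 12 := by
  have := Real.geom_mean_le_arith_mean3_weighted (w₁ := ((8 : ℕ) : ℝ) / 12) (w₂ := ((2 : ℕ) : ℝ) / 12)
    (w₃ := ((2 : ℕ) : ℝ) / 12)
    (p₁ := a^12) (p₂ := b^12) (p₃ := c^12) (by positivity) (by positivity) (by positivity)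
    (by positivity) (by positivity) (by positivity) (by norm_num)
  rw [pow12_rpow ha, pow12_rpow hb, pow12_rpow hc] at this
  push_cast at this
  linarith

lemma eP3_le {a b c : ℝ} (ha : 0 ≤ a) (hb : 0 ≤ b) (hc : 0 ≤ c) :
    eP3 a b c ≤ (a^12 + b^12 + c^12) / 3 := by
  unfold eP3
  have h1 := mono75_le ha hb
  have h2 := mono75_le ha hc
  have h3 := mono75_le hb ha
  have h4 := mono75_le hb hc
  have h5 := mono75_le hc ha
  have h6 := mono75_le hc hb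
  linarith

lemma eM3_le {a b c : ℝ} (ha : 0 ≤ a) (hb : 0 ≤ b) (hc : 0 ≤ c) :
    eM3 a b c ≤ (a^12 + b^12 + c^12) / 3 := by
  unfold eM3
  have h1 := mono822_le ha hb hc
  have h2 := mono822_le hb ha hc
  have h3 := mono822_le hc ha hb
  linarith

lemma eP3_nonneg {a b c : ℝ} (ha : 0 ≤ a) (hb : 0 ≤ b) (hc : 0 ≤ c) : 0 ≤ eP3 a b c := by
  unfold eP3
  positivity

lemma eM3_nonneg {a b c : ℝ} (ha : 0 ≤ a) (hb : 0 ≤ b) (hc : 0 ≤ c) : 0 ≤ eM3 a b c := by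
  unfold eM3
  positivity

/-- The symmetrised monomials of a positive vector. -/
noncomputable def ePU (P : Fin 3 → ℝ) : ℝ := eP3 (r12 (P 0)) (r12 (P 1)) (r12 (P 2))

/-- The symmetrised monomials of a positive vector. -/
noncomputable def eMU (P : Fin 3 → ℝ) : ℝ := eM3 (r12 (P 0)) (r12 (P 1)) (r12 (P 2))

lemma NN3 (P : Fin 3 → ℝ) : NN P = (P 0 + P 1 + P 2) / 3 := by
  simp [NN, Fin.sum_univ_three]

lemma ePU_bounds {P : Fin 3 → ℝ} (hP : ∀ i, 0 < P i) : 0 ≤ ePU P ∧ ePU P ≤ NN P := by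
  have h0 := r12_nonneg (hP 0).le
  have h1 := r12_nonneg (hP 1).le
  have h2 := r12_nonneg (hP 2).le
  refine ⟨eP3_nonneg h0 h1 h2, ?_⟩
  have := eP3_le h0 h1 h2
  rwa [r12_pow (hP 0).le, r12_pow (hP 1).le, r12_pow (hP 2).le, ← NN3] at this

lemma eMU_bounds {P : Fin 3 → ℝ} (hP : ∀ i, 0 < P i) : 0 ≤ eMU P ∧ eMU P ≤ NN P := by
  have h0 := r12_nonneg (hP 0).le
  have h1 := r12_nonneg (hP 1).le
  have h2 := r12_nonneg (hP 2).le
  refine ⟨eM3_nonneg h0 h1 h2, ?_⟩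
  have := eM3_le h0 h1 h2
  rwa [r12_pow (hP 0).le, r12_pow (hP 1).le, r12_pow (hP 2).le, ← NN3] at this

lemma dom_ePU : Dom ePU := ⟨1, fun P hP => by
  obtain ⟨h1, h2⟩ := ePU_bounds hP
  rw [abs_of_nonneg h1, one_mul]
  exact h2⟩

lemma dom_eMU : Dom eMU := ⟨1, fun P hP => by
  obtain ⟨h1, h2⟩ := eMU_bounds hP
  rw [abs_of_nonneg h1, one_mul]
  exact h2⟩

lemma ePU_smul {r : ℝ} (hr : 0 ≤ r) {P : Fin 3 → ℝ} (hP : ∀ i, 0 < P i) :
    ePU (fun i => r * P i) = r * ePU P := by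
  unfold ePU
  simp only [r12_mul hr (hP _).le]
  rw [eP3_scale, r12_pow hr]

lemma eMU_smul {r : ℝ} (hr : 0 ≤ r) {P : Fin 3 → ℝ} (hP : ∀ i, 0 < P i) :
    eMU (fun i => r * P i) = r * eMU P := by
  unfold eMU
  simp only [r12_mul hr (hP _).le]
  rw [eM3_scale, r12_pow hr]

/-- The invariant. -/
noncomputable def gU (c : Fin 3 → ℝ) : ℝ :=
  35 / 2 * (1 - ePU (fun i => 1 + c i)) - 84 / 5 * (1 - eMU (fun i => 1 + c i))

lemma simp_pos {c : Fin 3 → ℝ} (hc : Simp c) (i : Fin 3) : 0 < 1 + c i := by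
  have := hc.2 i
  linarith

lemma NN_one_add {c : Fin 3 → ℝ} (hc : Simp c) : NN (fun i => 1 + c i) = 1 := by
  have h := hc.1
  rw [Fin.sum_univ_three] at h
  rw [NN3]
  linarith

lemma gU_bdd : Bdd gU := by
  refine ⟨35 / 2 + 84 / 5, fun c hc => ?_⟩
  have hp := simp_pos hc
  obtain ⟨h1, h2⟩ := ePU_bounds hp
  obtain ⟨h3, h4⟩ := eMU_bounds hp
  rw [NN_one_add hc] at h2 h4
  unfold gU
  rw [abs_le]
  constructor <;> linarith

lemma Gf_gU {P : Fin 3 → ℝ} (hP : ∀ i, 0 < P i) :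
    Gf gU P = 35 / 2 * (NN P - ePU P) - 84 / 5 * (NN P - eMU P) := by
  have hN := NN_pos hP
  have e : (fun i => 1 + cc P i) = fun i => (1 / NN P) * P i := by
    funext i
    simp only [cc]
    field_simp
    ring
  unfold Gf gU
  rw [e, ePU_smul (by positivity) hP, eMU_smul (by positivity) hP]
  field_simp

variable {μ : ℝ} {Ω : Type} (L : MLaw 3 μ Ω)

/-- The mean of one monomial. -/
noncomputable def Q75 (c : Fin 3 → ℝ) : ℝ := r12 (1 + c 0)^7 * r12 (1 + c 1)^5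

/-- The mean of one monomial. -/
noncomputable def Q822 (c : Fin 3 → ℝ) : ℝ := r12 (1 + c 0)^8 * (r12 (1 + c 1)^2 * r12 (1 + c 2)^2)

lemma simp_le3 {c : Fin 3 → ℝ} (hc : Simp c) (i : Fin 3) : 1 + c i ≤ 3 := by
  have := simp_le hc i
  have h := hc.1
  rw [Fin.sum_univ_three] at h
  have h0 := hc.2 0
  have h1 := hc.2 1
  have h2 := hc.2 2
  fin_cases i
  · show 1 + c 0 ≤ 3
    linarith
  · show 1 + c 1 ≤ 3
    linarith
  · show 1 + c 2 ≤ 3
    linarith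

lemma Q75_bdd : Bdd Q75 := by
  refine ⟨3, fun c hc => ?_⟩
  have hp := simp_pos hc
  have h0 := r12_nonneg (hp 0).le
  have h1 := r12_nonneg (hp 1).le
  have := mono75_le h0 h1
  rw [r12_pow (hp 0).le, r12_pow (hp 1).le] at this
  have h3 := simp_le3 hc 0
  have h4 := simp_le3 hc 1
  unfold Q75
  rw [abs_of_nonneg (by positivity)]
  linarith

lemma Q822_bdd : Bdd Q822 := by
  refine ⟨3, fun c hc => ?_⟩
  have hp := simp_pos hc
  have h0 := r12_nonneg (hp 0).le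
  have h1 := r12_nonneg (hp 1).le
  have h2 := r12_nonneg (hp 2).le
  have := mono822_le h0 h1 h2
  rw [r12_pow (hp 0).le, r12_pow (hp 1).le, r12_pow (hp 2).le] at this
  have h3 := simp_le3 hc 0
  have h4 := simp_le3 hc 1
  have h5 := simp_le3 hc 2
  unfold Q822
  rw [abs_of_nonneg (by positivity)]
  linarith

/-- The mean of the symmetrised monomial. -/
noncomputable def mP : ℝ := L.E Q75

/-- The mean of the symmetrised monomial. -/
noncomputable def mM : ℝ := L.E Q822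

lemma E_Q75_perm (i j k : Fin 3) (g : Equiv.Perm (Fin 3)) (h0 : g 0 = i) (h1 : g 1 = j) :
    L.E (fun c => r12 (1 + c i)^7 * r12 (1 + c j)^5) = mP L := by
  have := L.E_perm g Q75
  unfold mP
  rw [← this]
  refine tsum_congr fun ω => ?_
  simp only [Q75, Function.comp, h0, h1]

lemma E_Q822_perm (i j k : Fin 3) (g : Equiv.Perm (Fin 3)) (h0 : g 0 = i) (h1 : g 1 = j) (h2 : g 2 = k) :
    L.E (fun c => r12 (1 + c i)^8 * (r12 (1 + c j)^2 * r12 (1 + c k)^2)) = mM L := by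
  have := L.E_perm g Q822
  unfold mM
  rw [← this]
  refine tsum_congr fun ω => ?_
  simp only [Q822, Function.comp, h0, h1, h2]

lemma g1_0 : g1 0 = 1 := rfl
lemma g1_1 : g1 1 = 2 := rfl
lemma g1_2 : g1 2 = 0 := rfl
lemma g2_0 : g2 0 = 2 := rfl
lemma g2_1 : g2 1 = 0 := rfl
lemma g2_2 : g2 2 = 1 := rfl
lemma g3_0 : g3 0 = 0 := rfl
lemma g3_1 : g3 1 = 2 := rfl
lemma g3_2 : g3 2 = 1 := rfl
lemma g4_0 : g4 0 = 2 := rfl
lemma g4_1 : g4 1 = 1 := rfl
lemma g4_2 : g4 2 = 0 := rfl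
lemma g5_0 : g5 0 = 1 := rfl
lemma g5_1 : g5 1 = 0 := rfl
lemma g5_2 : g5 2 = 2 := rfl

lemma Q75_perm_bdd (i j : Fin 3) : Bdd (fun c : Fin 3 → ℝ => r12 (1 + c i)^7 * r12 (1 + c j)^5) := by
  refine ⟨3, fun c hc => ?_⟩
  have hp := simp_pos hc
  have h0 := r12_nonneg (hp i).le
  have h1 := r12_nonneg (hp j).le
  have := mono75_le h0 h1
  rw [r12_pow (hp i).le, r12_pow (hp j).le] at this
  have h3 := simp_le3 hc i
  have h4 := simp_le3 hc j
  rw [abs_of_nonneg (by positivity)]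
  linarith

lemma Q822_perm_bdd (i j k : Fin 3) :
    Bdd (fun c : Fin 3 → ℝ => r12 (1 + c i)^8 * (r12 (1 + c j)^2 * r12 (1 + c k)^2)) := by
  refine ⟨3, fun c hc => ?_⟩
  have hp := simp_pos hc
  have h0 := r12_nonneg (hp i).le
  have h1 := r12_nonneg (hp j).le
  have h2 := r12_nonneg (hp k).le
  have := mono822_le h0 h1 h2
  rw [r12_pow (hp i).le, r12_pow (hp j).le, r12_pow (hp k).le] at this
  have h3 := simp_le3 hc i
  have h4 := simp_le3 hc j
  have h5 := simp_le3 hc k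
  rw [abs_of_nonneg (by positivity)]
  linarith

/-- Multiplying in a child multiplies the symmetrised monomial by its mean. -/
lemma stp_ePU {P : Fin 3 → ℝ} (hP : ∀ i, 0 < P i) : L.stp ePU P = mP L * ePU P := by
  have hm : ∀ ω i, r12 (P i * (1 + L.a ω i)) = r12 (P i) * r12 (1 + L.a ω i) := fun ω i =>
    r12_mul (hP i).le (by have := L.a_gt ω i; linarith)
  set p0 := r12 (P 0)
  set p1 := r12 (P 1)
  set p2 := r12 (P 2)
  have e : L.stp ePU P = L.E (fun c =>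
      (p0^7 * p1^5 / 6) * (r12 (1 + c 0)^7 * r12 (1 + c 1)^5)
      + ((p0^7 * p2^5 / 6) * (r12 (1 + c 0)^7 * r12 (1 + c 2)^5)
      + ((p1^7 * p0^5 / 6) * (r12 (1 + c 1)^7 * r12 (1 + c 0)^5)
      + ((p1^7 * p2^5 / 6) * (r12 (1 + c 1)^7 * r12 (1 + c 2)^5)
      + ((p2^7 * p0^5 / 6) * (r12 (1 + c 2)^7 * r12 (1 + c 0)^5)
      + (p2^7 * p1^5 / 6) * (r12 (1 + c 2)^7 * r12 (1 + c 1)^5)))))) := by
    unfold MLaw.stp MLaw.E
    refine tsum_congr fun ω => ?_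
    congr 1
    simp only [ePU, hm, eP3]
    ring
  have b := fun (i j : Fin 3) (α : ℝ) => (Q75_perm_bdd i j).smul α
  rw [e, L.E_add (b _ _ _) ((b _ _ _).add ((b _ _ _).add ((b _ _ _).add ((b _ _ _).add (b _ _ _))))),
    L.E_add (b _ _ _) ((b _ _ _).add ((b _ _ _).add ((b _ _ _).add (b _ _ _)))),
    L.E_add (b _ _ _) ((b _ _ _).add ((b _ _ _).add (b _ _ _))),
    L.E_add (b _ _ _) ((b _ _ _).add (b _ _ _)),
    L.E_add (b _ _ _) (b _ _ _)]
  simp only [L.E_smul]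
  rw [E_Q75_perm L 0 1 2 1 rfl rfl, E_Q75_perm L 0 2 1 g3 g3_0 g3_1, E_Q75_perm L 1 0 2 g5 g5_0 g5_1,
    E_Q75_perm L 1 2 0 g1 g1_0 g1_1, E_Q75_perm L 2 0 1 g2 g2_0 g2_1, E_Q75_perm L 2 1 0 g4 g4_0 g4_1]
  simp only [ePU, eP3]
  ring

lemma stp_eMU {P : Fin 3 → ℝ} (hP : ∀ i, 0 < P i) : L.stp eMU P = mM L * eMU P := by
  have hm : ∀ ω i, r12 (P i * (1 + L.a ω i)) = r12 (P i) * r12 (1 + L.a ω i) := fun ω i =>
    r12_mul (hP i).le (by have := L.a_gt ω i; linarith)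
  set p0 := r12 (P 0)
  set p1 := r12 (P 1)
  set p2 := r12 (P 2)
  have e : L.stp eMU P = L.E (fun c =>
      (p0^8 * (p1^2 * p2^2) / 3) * (r12 (1 + c 0)^8 * (r12 (1 + c 1)^2 * r12 (1 + c 2)^2))
      + ((p1^8 * (p0^2 * p2^2) / 3) * (r12 (1 + c 1)^8 * (r12 (1 + c 0)^2 * r12 (1 + c 2)^2))
      + (p2^8 * (p0^2 * p1^2) / 3) * (r12 (1 + c 2)^8 * (r12 (1 + c 0)^2 * r12 (1 + c 1)^2)))) := by
    unfold MLaw.stp MLaw.E
    refine tsum_congr fun ω => ?_
    congr 1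
    simp only [eMU, hm, eM3]
    ring
  have b := fun (i j k : Fin 3) (α : ℝ) => (Q822_perm_bdd i j k).smul α
  rw [e, L.E_add (b _ _ _ _) ((b _ _ _ _).add (b _ _ _ _)), L.E_add (b _ _ _ _) (b _ _ _ _)]
  simp only [L.E_smul]
  rw [E_Q822_perm L 0 1 2 1 rfl rfl rfl, E_Q822_perm L 1 0 2 g5 g5_0 g5_1 g5_2,
    E_Q822_perm L 2 0 1 g2 g2_0 g2_1 g2_2]
  simp only [eMU, eM3]
  ring

lemma Ak_ePU (k : ℕ) : L.Ak k ePU = mP L ^ k := by
  induction k with
  | zero =>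
    simp [MLaw.Ak, ePU, r12_one, eP3]
    norm_num
  | succ k ih =>
    show L.Ak k (L.stp ePU) = _
    rw [L.Ak_congr k (G := fun P => mP L * ePU P) fun P hP => stp_ePU L hP, L.Ak_smul, ih]
    ring

lemma Ak_eMU (k : ℕ) : L.Ak k eMU = mM L ^ k := by
  induction k with
  | zero =>
    simp [MLaw.Ak, eMU, r12_one, eM3]
    norm_num
  | succ k ih =>
    show L.Ak k (L.stp eMU) = _
    rw [L.Ak_congr k (G := fun P => mM L * eMU P) fun P hP => stp_eMU L hP, L.Ak_smul, ih]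
    ring

lemma EE_gU (k : ℕ) : L.EE k gU = 35 / 2 * (1 - mP L ^ k) - 84 / 5 * (1 - mM L ^ k) := by
  unfold MLaw.EE
  rw [L.Ak_congr k (G := fun P => (7 / 10) * NN P + ((- (35 / 2)) * ePU P + (84 / 5) * eMU P))
    fun P hP => by
      rw [Gf_gU hP]
      ring]
  rw [L.Ak_add k (MLaw.dom_NN.smul _) ((dom_ePU.smul _).add (dom_eMU.smul _)),
    L.Ak_add k (dom_ePU.smul _) (dom_eMU.smul _), L.Ak_smul, L.Ak_smul, L.Ak_smul, L.Ak_NN, Ak_ePU,
    Ak_eMU]
  ring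

lemma E_gU : L.E gU = 35 / 2 * (1 - mP L) - 84 / 5 * (1 - mM L) := by
  have h := EE_gU L 1
  rw [L.EE_succ, L.EE_zero, L.tau_zero] at h
  simpa using h

lemma ePU_one : ePU (fun _ => 1) = 1 := by
  simp [ePU, r12_one, eP3]
  norm_num

lemma eMU_one : eMU (fun _ => 1) = 1 := by
  simp [eMU, r12_one, eM3]
  norm_num

lemma mP_mem : 0 ≤ mP L ∧ mP L ≤ 1 := by
  constructor
  · refine L.E_nonneg fun c hc => ?_
    have hp := simp_pos hc
    have h0 := r12_nonneg (hp 0).le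
    have h1 := r12_nonneg (hp 1).le
    unfold Q75
    positivity
  · have h1 := stp_ePU L (P := fun _ => 1) (fun _ => one_pos)
    rw [ePU_one, mul_one] at h1
    rw [← h1]
    have h2 := L.stp_mono dom_ePU MLaw.dom_NN (fun P hP => (ePU_bounds hP).2)
      (P := fun _ => (1 : ℝ)) (fun _ => one_pos)
    rw [L.stp_NN, NN_one] at h2
    exact h2

lemma mM_mem : 0 ≤ mM L ∧ mM L ≤ 1 := by
  constructor
  · refine L.E_nonneg fun c hc => ?_
    have hp := simp_pos hc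
    have h0 := r12_nonneg (hp 0).le
    have h1 := r12_nonneg (hp 1).le
    have h2 := r12_nonneg (hp 2).le
    unfold Q822
    positivity
  · have h1 := stp_eMU L (P := fun _ => 1) (fun _ => one_pos)
    rw [eMU_one, mul_one] at h1
    rw [← h1]
    have h2 := L.stp_mono dom_eMU MLaw.dom_NN (fun P hP => (eMU_bounds hP).2)
      (P := fun _ => (1 : ℝ)) (fun _ => one_pos)
    rw [L.stp_NN, NN_one] at h2
    exact h2

/-- The elementary fact behind the invariance. -/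
lemma geom_lemma {A B m n : ℝ} (hAB : B ≤ A) (hB : 0 ≤ B) (hm0 : 0 ≤ m) (hm1 : m ≤ 1) (hn0 : 0 ≤ n)
    (hn1 : n ≤ 1) (h : 0 ≤ A * (1 - m) - B * (1 - n)) (k : ℕ) : 0 ≤ A * (1 - m^k) - B * (1 - n^k) := by
  rcases le_total n m with hnm | hnm
  · have e1 : 1 - m^k = (1 - m) * ∑ i ∈ Finset.range k, m^i := (mul_neg_geom_sum m k).symm
    have e2 : 1 - n^k = (1 - n) * ∑ i ∈ Finset.range k, n^i := (mul_neg_geom_sum n k).symm
    have h1 : ∑ i ∈ Finset.range k, n^i ≤ ∑ i ∈ Finset.range k, m^i :=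
      Finset.sum_le_sum fun i _ => pow_le_pow_left₀ hn0 hnm i
    have h2 : 0 ≤ ∑ i ∈ Finset.range k, m^i := Finset.sum_nonneg fun i _ => pow_nonneg hm0 i
    have h3 : 0 ≤ B * (1 - n) := mul_nonneg hB (by linarith)
    rw [e1, e2]
    have h4 := mul_le_mul_of_nonneg_left h1 h3
    have h5 := mul_nonneg h h2
    nlinarith
  · have h1 : m^k ≤ n^k := pow_le_pow_left₀ hm0 hnm k
    have h2 : n^k ≤ 1 := pow_le_one₀ hn0 hn1
    have h3 : 0 ≤ 1 - n^k := by linarith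
    have hA : 0 ≤ A := hB.trans hAB
    nlinarith

/-- The invariance along the chain. -/
theorem inv_gU (h : 0 ≤ L.E gU) (k : ℕ) : 0 ≤ L.EE k gU := by
  rw [E_gU] at h
  rw [EE_gU]
  exact geom_lemma (by norm_num) (by norm_num) (mP_mem L).1 (mP_mem L).2 (mM_mem L).1 (mM_mem L).2 h k

/-! ### The scaling inequality -/

section scale

variable {c : Fin 3 → ℝ} (hc : Simp c)

include hc

lemma v_pos {s : ℝ} (h0 : 0 < s) (h1 : s ≤ 1) (i : Fin 3) : 0 < 1 + s * c i := by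
  have := hc.2 i
  nlinarith

omit hc in
lemma r12_deriv {s t : ℝ} (ht : 0 < 1 + s * t) :
    HasDerivAt (fun r => r12 (1 + r * t)) (r12 (1 + s * t) * (t / (12 * (1 + s * t)))) s := by
  have h1 : HasDerivAt (fun r : ℝ => 1 + r * t) t s := by
    simpa using ((hasDerivAt_id s).mul_const t).const_add 1
  have h2 := h1.rpow_const (p := (1 : ℝ) / 12) (Or.inl ht.ne')
  refine h2.congr_deriv ?_
  unfold r12
  rw [Real.rpow_sub_one ht.ne']
  field_simp

omit hc in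
lemma eP3_deriv {W0 W1 W2 : ℝ → ℝ} {d0 d1 d2 s : ℝ} (h0 : HasDerivAt W0 (W0 s * d0) s)
    (h1 : HasDerivAt W1 (W1 s * d1) s) (h2 : HasDerivAt W2 (W2 s * d2) s) :
    HasDerivAt (fun r => eP3 (W0 r) (W1 r) (W2 r)) (dP (W0 s) (W1 s) (W2 s) d0 d1 d2) s := by
  unfold eP3 dP
  have := ((((((h0.pow 7).mul (h1.pow 5)).add ((h0.pow 7).mul (h2.pow 5))).add
    ((h1.pow 7).mul (h0.pow 5))).add ((h1.pow 7).mul (h2.pow 5))).add
    ((h2.pow 7).mul (h0.pow 5))).add ((h2.pow 7).mul (h1.pow 5))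
  refine (this.div_const 6).congr_deriv ?_
  simp only [Pi.pow_apply, Pi.mul_apply, Nat.cast_ofNat]
  ring

omit hc in
lemma eM3_deriv {W0 W1 W2 : ℝ → ℝ} {d0 d1 d2 s : ℝ} (h0 : HasDerivAt W0 (W0 s * d0) s)
    (h1 : HasDerivAt W1 (W1 s * d1) s) (h2 : HasDerivAt W2 (W2 s * d2) s) :
    HasDerivAt (fun r => eM3 (W0 r) (W1 r) (W2 r)) (dM (W0 s) (W1 s) (W2 s) d0 d1 d2) s := by
  unfold eM3 dM
  have := (((h0.pow 8).mul ((h1.pow 2).mul (h2.pow 2))).add
    ((h1.pow 8).mul ((h0.pow 2).mul (h2.pow 2)))).add ((h2.pow 8).mul ((h0.pow 2).mul (h1.pow 2)))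
  refine (this.div_const 3).congr_deriv ?_
  simp only [Pi.pow_apply, Pi.mul_apply, Nat.cast_ofNat]
  ring

/-- Derivative of the invariant along a ray. -/
lemma h_deriv {s : ℝ} (h0 : 0 < s) (h1 : s ≤ 1) :
    HasDerivAt (fun r => gU (fun i => r * c i))
      (- (35 / 2) * dP (r12 (1 + s * c 0)) (r12 (1 + s * c 1)) (r12 (1 + s * c 2))
          (c 0 / (12 * (1 + s * c 0))) (c 1 / (12 * (1 + s * c 1))) (c 2 / (12 * (1 + s * c 2)))
        + 84 / 5 * dM (r12 (1 + s * c 0)) (r12 (1 + s * c 1)) (r12 (1 + s * c 2))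
          (c 0 / (12 * (1 + s * c 0))) (c 1 / (12 * (1 + s * c 1))) (c 2 / (12 * (1 + s * c 2)))) s := by
  have d0 := r12_deriv (v_pos hc h0 h1 0)
  have d1 := r12_deriv (v_pos hc h0 h1 1)
  have d2 := r12_deriv (v_pos hc h0 h1 2)
  have e1 := eP3_deriv d0 d1 d2
  have e2 := eM3_deriv d0 d1 d2
  have := ((e1.const_sub 1).const_mul (35 / 2)).sub ((e2.const_sub 1).const_mul (84 / 5))
  unfold gU ePU eMU
  refine this.congr_deriv ?_
  ring

/-- The differential inequality along a ray. -/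
lemma h_ineq {s : ℝ} (h0 : 0 < s) (h1 : s ≤ 1) :
    s * (- (35 / 2) * dP (r12 (1 + s * c 0)) (r12 (1 + s * c 1)) (r12 (1 + s * c 2))
          (c 0 / (12 * (1 + s * c 0))) (c 1 / (12 * (1 + s * c 1))) (c 2 / (12 * (1 + s * c 2)))
        + 84 / 5 * dM (r12 (1 + s * c 0)) (r12 (1 + s * c 1)) (r12 (1 + s * c 2))
          (c 0 / (12 * (1 + s * c 0))) (c 1 / (12 * (1 + s * c 1))) (c 2 / (12 * (1 + s * c 2))))
      ≤ 17 / 4 * gU (fun i => s * c i) := by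
  have v0 := v_pos hc h0 h1 0
  have v1 := v_pos hc h0 h1 1
  have v2 := v_pos hc h0 h1 2
  set w0 := r12 (1 + s * c 0) with hw0
  set w1 := r12 (1 + s * c 1) with hw1
  set w2 := r12 (1 + s * c 2) with hw2
  have p0 : 0 < w0 := r12_pos v0
  have p1 : 0 < w1 := r12_pos v1
  have p2 : 0 < w2 := r12_pos v2
  have s0 : w0^12 = 1 + s * c 0 := r12_pow v0.le
  have s1 : w1^12 = 1 + s * c 1 := r12_pow v1.le
  have s2 : w2^12 = 1 + s * c 2 := r12_pow v2.le
  have hsum := hc.1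
  rw [Fin.sum_univ_three] at hsum
  have hN : w0^12 + w1^12 + w2^12 = 3 := by
    rw [s0, s1, s2]
    linear_combination s * hsum
  have key := KK_nonneg p0 p1 p2
  rw [KK_eq p0 p1 p2 hN] at key
  have hW : 0 < (w0 * w1 * w2)^10 := by positivity
  have key2 := nonneg_of_mul_nonneg_right key hW
  have ed : ∀ i : Fin 3, ((1 + s * c i) - 1) / (12 * (1 + s * c i)) = s * (c i / (12 * (1 + s * c i))) := by
    intro i
    have := v_pos hc h0 h1 i
    field_simp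
    ring
  rw [s0, s1, s2, ed 0, ed 1, ed 2] at key2
  have hP : dP w0 w1 w2 (s * (c 0 / (12 * (1 + s * c 0)))) (s * (c 1 / (12 * (1 + s * c 1))))
      (s * (c 2 / (12 * (1 + s * c 2))))
      = s * dP w0 w1 w2 (c 0 / (12 * (1 + s * c 0))) (c 1 / (12 * (1 + s * c 1))) (c 2 / (12 * (1 + s * c 2))) := by
    simp only [dP]
    ring
  have hM : dM w0 w1 w2 (s * (c 0 / (12 * (1 + s * c 0)))) (s * (c 1 / (12 * (1 + s * c 1))))
      (s * (c 2 / (12 * (1 + s * c 2))))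
      = s * dM w0 w1 w2 (c 0 / (12 * (1 + s * c 0))) (c 1 / (12 * (1 + s * c 1))) (c 2 / (12 * (1 + s * c 2))) := by
    simp only [dM]
    ring
  rw [hP, hM] at key2
  have e : gU (fun i => s * c i) = 7 / 10 - 35 / 2 * eP3 w0 w1 w2 + 84 / 5 * eM3 w0 w1 w2 := by
    unfold gU ePU eMU
    ring
  rw [e]
  linarith

/-- The scaling inequality along a ray. -/
theorem gU_scale {lam : ℝ} (h0 : 0 < lam) (h1 : lam ≤ 1) :
    lam ^ ((17 : ℝ) / 4) * gU c ≤ gU (fun i => lam * c i) := by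
  have hd : ∀ s ∈ Set.Icc lam 1, HasDerivAt (fun r => gU (fun i => r * c i) * r ^ (- ((17 : ℝ) / 4)))
      ((s * (- (35 / 2) * dP (r12 (1 + s * c 0)) (r12 (1 + s * c 1)) (r12 (1 + s * c 2))
          (c 0 / (12 * (1 + s * c 0))) (c 1 / (12 * (1 + s * c 1))) (c 2 / (12 * (1 + s * c 2)))
        + 84 / 5 * dM (r12 (1 + s * c 0)) (r12 (1 + s * c 1)) (r12 (1 + s * c 2))
          (c 0 / (12 * (1 + s * c 0))) (c 1 / (12 * (1 + s * c 1))) (c 2 / (12 * (1 + s * c 2))))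
        - 17 / 4 * gU (fun i => s * c i)) * s ^ (- ((17 : ℝ) / 4) - 1)) s := by
    intro s hs
    have hs0 : 0 < s := lt_of_lt_of_le h0 hs.1
    have d1 := h_deriv hc hs0 hs.2
    have d2 := Real.hasDerivAt_rpow_const (x := s) (p := - ((17 : ℝ) / 4)) (Or.inl hs0.ne')
    refine (d1.mul d2).congr_deriv ?_
    have e : s ^ (- ((17 : ℝ) / 4)) = s * s ^ (- ((17 : ℝ) / 4) - 1) := by
      rw [Real.rpow_sub_one hs0.ne']
      field_simp
    rw [e]
    ring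
  have hanti : AntitoneOn (fun r => gU (fun i => r * c i) * r ^ (- ((17 : ℝ) / 4))) (Set.Icc lam 1) := by
    refine antitoneOn_of_deriv_nonpos (convex_Icc lam 1)
      (fun s hs => (hd s hs).continuousAt.continuousWithinAt)
      (fun s hs => (hd s (interior_subset hs)).differentiableAt.differentiableWithinAt)
      fun s hs => ?_
    have hs' := interior_subset hs
    have hs0 : 0 < s := lt_of_lt_of_le h0 hs'.1
    rw [(hd s hs').deriv]
    have := h_ineq hc hs0 hs'.2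
    exact mul_nonpos_of_nonpos_of_nonneg (by linarith) (Real.rpow_nonneg hs0.le _)
  have h2 := hanti (Set.left_mem_Icc.mpr h1) (Set.right_mem_Icc.mpr h1) h1
  simp only [one_mul, Real.one_rpow, mul_one] at h2
  have hpos : 0 < lam ^ ((17 : ℝ) / 4) := Real.rpow_pos_of_pos h0 _
  have e : lam ^ (- ((17 : ℝ) / 4)) * lam ^ ((17 : ℝ) / 4) = 1 := by
    rw [← Real.rpow_add h0]
    simp
  calc lam ^ ((17 : ℝ) / 4) * gU c ≤ lam ^ ((17 : ℝ) / 4) * (gU (fun i => lam * c i) * lam ^ (- ((17 : ℝ) / 4))) :=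
        mul_le_mul_of_nonneg_left h2 hpos.le
    _ = gU (fun i => lam * c i) * (lam ^ (- ((17 : ℝ) / 4)) * lam ^ ((17 : ℝ) / 4)) := by ring
    _ = _ := by rw [e, mul_one]

end scale

end Vale.Agent.helper4.GW3
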