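import Vale.Agent.helper4.GWQ3a
import Vale.Agent.helper4.Q3Certs

/-!
Three colours, all eigenvalues below one: the pointwise inequality and the main theorem.
-/

open Finset Filter Topology

set_option linter.unusedSectionVars false
set_option linter.unusedVariables false

namespace Vale.Agent.helper4.GW3

open Vale.Agent.helper4.GW Vale.Agent.helper4.Q3Mono Vale.Agent.helper4.Q3Certs
open Vale.Agent.helper4.PottsPair Vale.Agent.helper4.PottsFull
open Vale.Agent.helper4.Potts (g1 g2 g3 g4 g5 comp_g1 comp_g2 comp_g3 comp_g4 comp_g5)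

/-- The upper bound for the invariant. -/
noncomputable def PsiP (x y : ℝ) : ℝ := 185 / 1000 * x + 81 / 100 * y - 103 / 100 * x^2 + 98 / 100 * x * y

/-- The second weight. -/
noncomputable def fP (x y : ℝ) : ℝ := 39 / 100 * x - 69 / 100 * y + 39 / 100 * x^2 - 23 / 100 * x * y

/-- Third moment of a message. -/
noncomputable def yy (c : Fin 3 → ℝ) : ℝ := yI (c 0) (c 1) (c 2)

lemma xx3 (c : Fin 3 → ℝ) : xx c = xI (c 0) (c 1) (c 2) := by
  simp [xx, xI, Fin.sum_univ_three]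

lemma simp_sum {c : Fin 3 → ℝ} (hc : Simp c) : c 0 + c 1 + c 2 = 0 := by
  have h := hc.1
  rwa [Fin.sum_univ_three] at h

lemma regionS {c : Fin 3 → ℝ} (hc : Simp c) :
    0 ≤ xx c ∧ xx c ≤ 2 * 1^2 ∧ 2 * (yy c)^2 ≤ (xx c)^3 ∧ 0 < 1^3 - 3 / 2 * 1 * xx c + yy c := by
  rw [xx3]
  exact region (simp_sum hc) (hc.2 0) (hc.2 1) (hc.2 2)

lemma gU_le_Psi {c : Fin 3 → ℝ} (hc : Simp c) : gU c ≤ PsiP (xx c) (yy c) := by
  have hp := simp_pos hc
  have p0 := r12_pos (hp 0)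
  have p1 := r12_pos (hp 1)
  have p2 := r12_pos (hp 2)
  have key := DD_nonneg p0 p1 p2
  rw [r12_pow (hp 0).le, r12_pow (hp 1).le, r12_pow (hp 2).le, DD_norm _ _ _ _ _ (by
    have := simp_sum hc
    linarith)] at key
  simp only [add_sub_cancel_left] at key
  have e : gU c = 35 / 2 * (1 - eP3 (r12 (1 + c 0)) (r12 (1 + c 1)) (r12 (1 + c 2)))
      - 84 / 5 * (1 - eM3 (r12 (1 + c 0)) (r12 (1 + c 1)) (r12 (1 + c 2))) := rfl
  rw [e, xx3]
  simp only [PsiP, yy, xI, yI]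
  linarith

lemma y_zero_of_x_zero {y : ℝ} (h : 2 * y^2 ≤ (0:ℝ)^3) : y = 0 := by
  have : y^2 ≤ 0 := by nlinarith
  have h3 : y^2 = 0 := le_antisymm this (sq_nonneg y)
  exact pow_eq_zero_iff (two_ne_zero) |>.mp h3

lemma fP_nonneg {x y : ℝ} (hx : 0 ≤ x) (hx1 : x ≤ 2 * 1^2) (hy : 2 * y^2 ≤ x^3)
    (he : 0 < 1^3 - 3 / 2 * 1 * x + y) : 0 ≤ fP x y := by
  rcases hx.eq_or_lt with rfl | hx0
  · have := y_zero_of_x_zero hy
    subst this
    simp [fP]
  obtain ⟨t1, t2, t3, t4⟩ := t_region' (μ := 1) one_pos hx0 hx1 hy he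
  set t := y / x with ht
  have hyt : y = t * x := by rw [ht]; field_simp
  have hD : 0 < 3 / 2 - t := by linarith
  have h1 : (3 / 2 - t) * x ≤ 1 := by linarith
  have t1' : -1 / 2 < t := by linarith
  have t4' : 0 ≤ 1 - t := by linarith
  have t5 : 0 < 1 / 2 + t := by linarith
  -- the affine function of x is nonnegative at both ends
  have hphi : 0 ≤ 39 / 100 - 69 / 100 * t + (39 / 100 - 23 / 100 * t) * x := by
    have hc : 0 ≤ 39 / 100 - 23 / 100 * t := by linarith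
    by_cases hh : 0 ≤ 39 / 100 - 69 / 100 * t
    · positivity
    · have h2 : 0 ≤ (39 / 100 - 69 / 100 * t) + (39 / 100 - 23 / 100 * t) * (2 * t^2) := by
        nlinarith [sq_nonneg (t - 1 / 2), sq_nonneg (t - 3 / 4), mul_nonneg t4' (sq_nonneg (t - 3 / 4))]
      have := mul_le_mul_of_nonneg_left t3 hc
      linarith
  have e : fP x y = x * (39 / 100 - 69 / 100 * t + (39 / 100 - 23 / 100 * t) * x) := by
    rw [hyt]
    simp only [fP]
    ring
  rw [e]
  exact mul_nonneg hx hphi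

/-- The polynomial `R` in the four parameters. -/
noncomputable def R4 (x t X T : ℝ) : ℝ :=
  (a00 t T + a01 t T * X + a02 t T * X^2) + (a10 t T + a11 t T * X + a12 t T * X^2) * x
    + (a20 t T + a21 t T * X + a22 t T * X^2) * x^2

lemma R4_nonneg {t T x X : ℝ} (h1 : -1 / 2 < t) (h2 : t ≤ 1) (h3 : -1 / 2 < T) (h4 : T ≤ 1)
    (hx : 2 * t^2 ≤ x) (hxD : (3 / 2 - t) * x ≤ 1) (hX : 2 * T^2 ≤ X) (hXD : (3 / 2 - T) * X ≤ 1) :
    0 ≤ R4 x t X T := by
  have hD : 0 < 3 / 2 - t := by linarith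
  have hD' : 0 < 3 / 2 - T := by linarith
  have k0 := quad_nonneg _ _ _ (2 * T^2) (3 / 2 - T) X hD' hX hXD (certB00 h1 h2 h3 h4)
    (certB01 h1 h2 h3 h4) (certB02 h1 h2 h3 h4)
  have k1 := quad_nonneg _ _ _ (2 * T^2) (3 / 2 - T) X hD' hX hXD (certB10 h1 h2 h3 h4)
    (certB11 h1 h2 h3 h4) (certB12 h1 h2 h3 h4)
  have k2 := quad_nonneg _ _ _ (2 * T^2) (3 / 2 - T) X hD' hX hXD (certB20 h1 h2 h3 h4)
    (certB21 h1 h2 h3 h4) (certB22 h1 h2 h3 h4)
  have key := quad_nonneg (a00 t T + a01 t T * X + a02 t T * X^2)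
    (a10 t T + a11 t T * X + a12 t T * X^2) (a20 t T + a21 t T * X + a22 t T * X^2)
    (2 * t^2) (3 / 2 - t) x hD hx hxD
    (by
      simp only [b0] at k0
      linarith)
    (by
      simp only [b1] at k1
      linarith)
    (by
      simp only [b2] at k2
      linarith)
  unfold R4
  linarith

/-- The polynomial inequality behind the bound on the average of `tau1`. -/
lemma psiQ {x y X Y : ℝ} (hx : 0 ≤ x) (hx1 : x ≤ 2 * 1^2) (hy : 2 * y^2 ≤ x^3)
    (he : 0 < 1^3 - 3 / 2 * 1 * x + y)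
    (hX : 0 ≤ X) (hX1 : X ≤ 2 * 1^2) (hY : 2 * Y^2 ≤ X^3)
    (hE : 0 < 1^3 - 3 / 2 * 1 * X + Y) :
    Mf x y X Y * (2 - x - X + 1 / 2 * X * PsiP x y + PsiP X Y * fP x y + 3 / 100 * x * X)
      ≤ Cf x y X Y := by
  rcases hx.eq_or_lt with rfl | hx0
  · have := y_zero_of_x_zero hy
    subst this
    simp only [Mf, Cf, PsiP, fP]
    apply le_of_eq
    ring
  rcases hX.eq_or_lt with rfl | hX0
  · have := y_zero_of_x_zero hY
    subst this
    simp only [Mf, Cf, PsiP, fP]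
    apply le_of_eq
    ring
  obtain ⟨t1, t2, t3, t4⟩ := t_region' (μ := 1) one_pos hx0 hx1 hy he
  obtain ⟨s1, s2, s3, s4⟩ := t_region' (μ := 1) one_pos hX0 hX1 hY hE
  set t := y / x with ht
  set T := Y / X with hs
  have hyt : y = t * x := by rw [ht]; field_simp
  have hYs : Y = T * X := by rw [hs]; field_simp
  have main := R4_nonneg (t := t) (T := T) (x := x) (X := X) (by linarith) (by linarith) (by linarith)
    (by linarith) t3 (by linarith) s3 (by linarith)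
  have id : Cf x y X Y - Mf x y X Y * (2 - x - X + 1 / 2 * X * PsiP x y + PsiP X Y * fP x y + 3 / 100 * x * X)
      = x * X * R4 x t X T := by
    rw [hyt, hYs]
    simp only [Mf, Cf, PsiP, fP, R4, a00, a01, a02, a10, a11, a12, a20, a21, a22]
    ring
  have : 0 ≤ x * X * R4 x t X T := mul_nonneg (mul_nonneg hx hX) main
  linarith

/-- The list of all permutations of three colours. -/
def gs3 : List (Equiv.Perm (Fin 3)) := [1, g1, g2, g3, g4, g5]

lemma merge_eq (c a : Fin 3 → ℝ) :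
    ZZ c a * xx (uu c a) = tau1 (c 0) (c 1) (c 2) (a 0) (a 1) (a 2) := by
  have e1 : ZZ c a = Zr (c 0) (c 1) (c 2) (a 0) (a 1) (a 2) := by
    simp [ZZ, Zr, Fin.sum_univ_three]
  simp only [tau1, xx3, uu]
  rw [e1]

lemma P1_avg {c a : Fin 3 → ℝ} (hc : Simp c) (ha : Simp a) :
    (gs3.map fun g : Equiv.Perm (Fin 3) => ZZ c (a ∘ g) * xx (uu c (a ∘ g))).sum / gs3.length
      ≤ xx c + xx a - 1 / 2 * xx a * PsiP (xx c) (yy c) - PsiP (xx a) (yy a) * fP (xx c) (yy c)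
        - 3 / 100 * xx c * xx a := by
  obtain ⟨r1, r2, r3, r4⟩ := regionS hc
  obtain ⟨q1, q2, q3, q4⟩ := regionS ha
  have hp := simp_pos hc
  have hq := simp_pos ha
  have key := T1_of_poly (simp_sum hc) (simp_sum ha) (hp 0) (hp 1) (hp 2) (hq 0) (hq 1) (hq 2)
    (by
      rw [← xx3, ← xx3]
      exact psiQ r1 r2 r3 r4 q1 q2 q3 q4)
  obtain ⟨a1, a2, a3⟩ := comp_g1 a
  obtain ⟨b1, b2, b3⟩ := comp_g2 a
  obtain ⟨c1, c2, c3⟩ := comp_g3 a
  obtain ⟨d1, d2, d3⟩ := comp_g4 a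
  obtain ⟨e1, e2, e3⟩ := comp_g5 a
  have e : (gs3.map fun g : Equiv.Perm (Fin 3) => ZZ c (a ∘ g) * xx (uu c (a ∘ g))).sum / gs3.length
      = (tau1 (c 0) (c 1) (c 2) (a 0) (a 1) (a 2) + tau1 (c 0) (c 1) (c 2) (a 1) (a 2) (a 0)
        + tau1 (c 0) (c 1) (c 2) (a 2) (a 0) (a 1) + tau1 (c 0) (c 1) (c 2) (a 0) (a 2) (a 1)
        + tau1 (c 0) (c 1) (c 2) (a 2) (a 1) (a 0) + tau1 (c 0) (c 1) (c 2) (a 1) (a 0) (a 2)) / 6 := by
    simp only [gs3, List.map_cons, List.map_nil, List.sum_cons, List.sum_nil, List.length_cons,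
      List.length_nil, merge_eq]
    simp only [a1, a2, a3, b1, b2, b3, c1, c2, c3, d1, d2, d3, e1, e2, e3, Equiv.Perm.coe_one,
      Function.comp_id]
    norm_num
    ring
  rw [e]
  refine key.trans (le_of_eq ?_)
  simp only [yy]
  ring

/-- The bound for the second weight. -/
noncomputable def fU (c : Fin 3 → ℝ) : ℝ := fP (xx c) (yy c)

lemma bdd_yy : Bdd yy := by
  have h := (((bdd_coord (q := 3) 0).pow 3).add (((bdd_coord 1).pow 3).add ((bdd_coord 2).pow 3))).smul (1 / 3)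
  refine h.imp fun C hC c hc => ?_
  have := hC c hc
  have e : yy c = 1 / 3 * (c 0 ^ 3 + (c 1 ^ 3 + c 2 ^ 3)) := by
    simp only [yy, yI]
    ring
  show |yy c| ≤ C
  rw [e]
  exact this

lemma bdd_fU : Bdd fU := by
  have h := ((bdd_xx (q := 3)).smul (39 / 100)).add ((bdd_yy.smul (-(69 / 100))).add
    (((bdd_xx (q := 3)).pow 2).smul (39 / 100) |>.add ((bdd_xx (q := 3)).mul bdd_yy |>.smul (-(23 / 100)))))
  refine h.imp fun C hC c hc => ?_
  have := hC c hc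
  have e : fU c = 39 / 100 * xx c + (-(69 / 100) * yy c + (39 / 100 * xx c ^ 2 + -(23 / 100) * (xx c * yy c))) := by
    simp only [fU, fP]
    ring
  show |fU c| ≤ C
  rw [e]
  exact this

lemma edge_g {u v : ℝ} (huv : v ≤ u) (hv : 0 < v) (hN : u + 2 * v = 3) :
    0 ≤ 35 / 2 * (1 - eP3 (r12 u) (r12 v) (r12 v)) - 84 / 5 * (1 - eM3 (r12 u) (r12 v) (r12 v)) := by
  have hu : 0 < u := lt_of_lt_of_le hv huv
  have p0 := r12_pos hu
  have p1 := r12_pos hv
  have s0 := r12_pow hu.le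
  have s1 := r12_pow hv.le
  set w0 := r12 u
  set w1 := r12 v
  have hle : w1 ≤ w0 := Real.rpow_le_rpow hv.le huv (by norm_num)
  have key := edge_nonneg (r := w1 / w0) (by positivity) ((div_le_one p0).2 hle)
  have hp : 0 < w0^12 / 3 := by positivity
  have key2 := mul_nonneg hp.le key
  have hN' : w0^12 + 2 * w1^12 = 3 := by rw [s0, s1]; exact hN
  have e : w0^12 / 3 * (7 / 10 * (1 + 2 * (w1 / w0)^12) - 35 / 2 * ((w1 / w0)^5 + (w1 / w0)^7 + (w1 / w0)^12)
        + 84 / 5 * ((w1 / w0)^4 + 2 * (w1 / w0)^10))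
      = 7 / 10 * ((w0^12 + 2 * w1^12) / 3) - 35 / 2 * eP3 w0 w1 w1 + 84 / 5 * eM3 w0 w1 w1 := by
    simp only [eP3, eM3]
    field_simp
    ring
  rw [e, hN'] at key2
  linarith

lemma gU_zero : gU 0 = 0 := by
  simp [gU, ePU, eMU, r12_one, eP3, eM3]
  norm_num

/-- The message of a known colour, scaled. -/
lemma base_gU {lam : ℝ} (h1 : 0 ≤ lam) (h2 : lam < 1) (η : Fin 3) :
    0 ≤ gU (fun i => lam * vertex η i) := by
  have hv : 0 < 1 - lam := by linarith
  have huv : 1 - lam ≤ 1 + 2 * lam := by linarith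
  have hN : (1 + 2 * lam) + 2 * (1 - lam) = 3 := by ring
  have key := edge_g huv hv hN
  have hu : (1 : ℝ) + lam * (3 - 1) = 1 + 2 * lam := by ring
  have hw : (1 : ℝ) + lam * (0 - 1) = 1 - lam := by ring
  fin_cases η
  · have e : gU (fun i => lam * vertex 0 i) = 35 / 2 * (1 - eP3 (r12 (1 + 2 * lam)) (r12 (1 - lam)) (r12 (1 - lam)))
        - 84 / 5 * (1 - eM3 (r12 (1 + 2 * lam)) (r12 (1 - lam)) (r12 (1 - lam))) := by
      simp [gU, ePU, eMU, vertex, hu, hw]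
      norm_num
      ring_nf
    exact e ▸ key
  · have e : gU (fun i => lam * vertex 1 i) = 35 / 2 * (1 - eP3 (r12 (1 - lam)) (r12 (1 + 2 * lam)) (r12 (1 - lam)))
        - 84 / 5 * (1 - eM3 (r12 (1 - lam)) (r12 (1 + 2 * lam)) (r12 (1 - lam))) := by
      simp [gU, ePU, eMU, vertex, hu, hw]
      norm_num
      ring_nf
    rw [eP3_perm1, eM3_perm1] at e
    exact e ▸ key
  · have e : gU (fun i => lam * vertex 2 i) = 35 / 2 * (1 - eP3 (r12 (1 - lam)) (r12 (1 - lam)) (r12 (1 + 2 * lam)))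
        - 84 / 5 * (1 - eM3 (r12 (1 - lam)) (r12 (1 - lam)) (r12 (1 + 2 * lam))) := by
      simp [gU, ePU, eMU, vertex, hu, hw]
      norm_num
      ring_nf
    rw [eP3_perm2, eM3_perm2, eP3_perm1, eM3_perm1] at e
    exact e ▸ key

/-- The certificate for three colours. -/
noncomputable def cert3 (lam : ℝ) (h1 : 0 ≤ lam) (h2 : lam < 1) : Cert 3 lam where
  G := gU
  f := fU
  gs := gs3
  κ := 1 / 2
  δ := 3 / 400
  θ := lam ^ ((17 : ℝ) / 4)
  gs_ne := by simp [gs3]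
  κ0 := by norm_num
  δ0 := by norm_num
  θ0 := Real.rpow_nonneg h1 _
  G_bdd := gU_bdd
  f_bdd := bdd_fU
  f_nonneg := fun c hc => by
    obtain ⟨r1, r2, r3, r4⟩ := regionS hc
    exact fP_nonneg r1 r2 r3 r4
  P1 := fun c a hc ha _ => by
    refine (P1_avg hc ha).trans ?_
    obtain ⟨r1, r2, r3, r4⟩ := regionS hc
    obtain ⟨q1, q2, q3, q4⟩ := regionS ha
    have hf : 0 ≤ fU c := fP_nonneg r1 r2 r3 r4
    have g1' := gU_le_Psi hc
    have g2' := gU_le_Psi ha
    have h3 : 1 / 2 * xx a * gU c ≤ 1 / 2 * xx a * PsiP (xx c) (yy c) :=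
      mul_le_mul_of_nonneg_left g1' (by positivity)
    have h4 : gU a * fU c ≤ PsiP (xx a) (yy a) * fP (xx c) (yy c) :=
      mul_le_mul_of_nonneg_right g2' hf
    have h5 : xx c ^ 2 * xx a ^ 2 ≤ 4 * (xx c * xx a) := by
      have h6 : 0 ≤ xx c * xx a := mul_nonneg r1 q1
      have h7 : xx c * xx a ≤ 4 := by nlinarith
      nlinarith
    nlinarith
  scale := fun c hc => by
    rcases h1.eq_or_lt with h | h
    · rw [← h]
      have e : ((0 : ℝ)) ^ ((17 : ℝ) / 4) = 0 := Real.zero_rpow (by norm_num)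
      rw [e, zero_mul]
      have : (fun i => (0 : ℝ) * c i) = 0 := by
        funext i
        simp
      rw [this, gU_zero]
    · exact gU_scale hc h h2.le
  base := base_gU h1 h2
  inv := fun Ω L h k => inv_gU L h k

/-- Nonreconstruction for three colours, eigenvalue in `[0, 1)`, for every offspring law with finite
mean `m` such that `m * lam^2 ≤ 1`. -/
theorem nonrec3 {off : ℕ → ℝ} {lam m : ℝ} (hoff : ∀ k, 0 ≤ off k) (hsum : HasSum off 1)
    (hmean : HasSum (fun k : ℕ => (k : ℝ) * off k) m) (h1 : 0 ≤ lam) (h2 : lam < 1)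
    (hcrit : m * lam ^ 2 ≤ 1) :
    (∀ n, HasSum (evidence 3 off lam n) 1) ∧
    (∀ n, Summable fun η : Cfg 3 n => evidence 3 off lam n η *
      ((1 / 2) * ∑ i : Fin 3, |posterior 3 off lam n i η - 1 / ((3 : ℕ) : ℝ)|)) ∧
    Tendsto (advantage 3 off lam) atTop (𝓝 0) :=
  master (cert3 lam h1 h2) hoff hsum hmean h1 h2 hcrit

end Vale.Agent.helper4.GW3
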