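import Vale.Agent.helper4.GWLaw

/-!
The tree recursion for general offspring laws.
-/

open Finset

set_option linter.unusedSectionVars false
set_option linter.unusedVariables false

namespace Vale.Agent.helper4.GW

open Vale.Agent.helper4.Potts (potts)

variable {q : ℕ} [NeZero q]

lemma potts_sum_mul (lam : ℝ) (i : Fin q) (f : Fin q → ℝ) :
    ∑ j : Fin q, potts q lam i j * f j = lam * f i + (1 - lam) * ((∑ j : Fin q, f j) / q) := by
  have : ∀ j : Fin q, potts q lam i j * f j
      = (if i = j then lam * f j else 0) + (1 - lam) / q * f j := by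
    intro j
    unfold potts
    split_ifs <;> ring
  simp only [this, Finset.sum_add_distrib, Finset.sum_ite_eq, Finset.mem_univ, if_true,
    ← Finset.mul_sum]
  ring

lemma potts_nonneg {lam : ℝ} (h1 : 0 ≤ lam) (h2 : lam ≤ 1) (i j : Fin q) :
    0 ≤ potts q lam i j := by
  have hq := qpos (q := q)
  unfold potts
  have : 0 ≤ (1 - lam) / q := div_nonneg (by linarith) hq.le
  split_ifs <;> linarith

lemma potts_perm (g : Equiv.Perm (Fin q)) (lam : ℝ) (i j : Fin q) :
    potts q lam (g i) (g j) = potts q lam i j := by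
  unfold potts
  simp only [g.injective.eq_iff]

section tree

variable {off : ℕ → ℝ} {lam : ℝ}

lemma lik_succ (n : ℕ) (i : Fin q) (k : ℕ) (η : Fin k → Cfg q n) :
    lik q off lam (n + 1) i ⟨k, η⟩
      = off k * ∏ c : Fin k, ∑ j : Fin q, potts q lam i j * lik q off lam n j (η c) := rfl

lemma lik_nonneg (hoff : ∀ k, 0 ≤ off k) (h1 : 0 ≤ lam) (h2 : lam ≤ 1) :
    ∀ (n : ℕ) (i : Fin q) (η : Cfg q n), 0 ≤ lik q off lam n i η := by
  intro n
  induction n with
  | zero =>
    intro i η
    rw [lik]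
    split_ifs <;> norm_num
  | succ n ih =>
    intro i η
    obtain ⟨k, η⟩ := η
    rw [lik_succ]
    exact mul_nonneg (hoff k) (Finset.prod_nonneg fun c _ => Finset.sum_nonneg fun j _ =>
      mul_nonneg (potts_nonneg h1 h2 i j) (ih j _))

/-- Colour permutation acting on what is seen. -/
def act (g : Equiv.Perm (Fin q)) : (n : ℕ) → Cfg q n → Cfg q n
  | 0, η => g (Cfg.colour η)
  | n + 1, η => ⟨(η : Σ k : ℕ, (Fin k → Cfg q n)).1,
      fun c => act g n ((η : Σ k : ℕ, (Fin k → Cfg q n)).2 c)⟩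

lemma act_inv (g : Equiv.Perm (Fin q)) :
    ∀ (n : ℕ) (η : Cfg q n), act g⁻¹ n (act g n η) = η := by
  intro n
  induction n with
  | zero =>
    intro η
    simp only [act]
    exact g.symm_apply_apply _
  | succ n ih =>
    intro η
    obtain ⟨k, η⟩ := η
    simp only [act]
    congr 1
    funext c
    exact ih _

lemma act_inv' (g : Equiv.Perm (Fin q)) :
    ∀ (n : ℕ) (η : Cfg q n), act g n (act g⁻¹ n η) = η := by
  intro n η
  have := act_inv g⁻¹ n η
  simpa using this

/-- The action as an equivalence. -/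
def actEquiv (g : Equiv.Perm (Fin q)) (n : ℕ) : Cfg q n ≃ Cfg q n where
  toFun := act g n
  invFun := act g⁻¹ n
  left_inv := act_inv g n
  right_inv := act_inv' g n

lemma lik_act (g : Equiv.Perm (Fin q)) :
    ∀ (n : ℕ) (i : Fin q) (η : Cfg q n),
      lik q off lam n (g i) (act g n η) = lik q off lam n i η := by
  intro n
  induction n with
  | zero =>
    intro i η
    have e1 : lik q off lam 0 (g i) (act g 0 η)
        = if g i = g (Cfg.colour η) then 1 else 0 := rfl
    have e2 : lik q off lam 0 i η = if i = Cfg.colour η then 1 else 0 := rfl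
    rw [e1, e2]
    simp only [g.injective.eq_iff]
  | succ n ih =>
    intro i η
    obtain ⟨k, η⟩ := η
    show lik q off lam (n + 1) (g i) ⟨k, fun c => act g n (η c)⟩ = _
    rw [lik_succ, lik_succ]
    congr 1
    refine Finset.prod_congr rfl fun c _ => ?_
    rw [← Equiv.sum_comp g]
    refine Finset.sum_congr rfl fun j _ => ?_
    rw [potts_perm, ih]

lemma evidence_eq (n : ℕ) (η : Cfg q n) :
    evidence q off lam n η = NN (fun i => lik q off lam n i η) := by
  unfold evidence NN
  rw [Finset.sum_div]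
  refine Finset.sum_congr rfl fun i _ => ?_
  ring

lemma evidence_nonneg (hoff : ∀ k, 0 ≤ off k) (h1 : 0 ≤ lam) (h2 : lam ≤ 1) (n : ℕ) (η : Cfg q n) :
    0 ≤ evidence q off lam n η := by
  have hq := qpos (q := q)
  refine Finset.sum_nonneg fun i _ => mul_nonneg (by positivity) (lik_nonneg hoff h1 h2 n i η)

lemma evidence_act (g : Equiv.Perm (Fin q)) (n : ℕ) (η : Cfg q n) :
    evidence q off lam n (act g n η) = evidence q off lam n η := by
  unfold evidence
  rw [← Equiv.sum_comp g]
  refine Finset.sum_congr rfl fun i _ => ?_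
  rw [lik_act]

lemma lik_eq_zero (hoff : ∀ k, 0 ≤ off k) (h1 : 0 ≤ lam) (h2 : lam ≤ 1) {n : ℕ} {η : Cfg q n}
    (h : evidence q off lam n η = 0) (i : Fin q) : lik q off lam n i η = 0 := by
  have hq := qpos (q := q)
  unfold evidence at h
  have := (Finset.sum_eq_zero_iff_of_nonneg (fun i _ =>
    mul_nonneg (by positivity) (lik_nonneg hoff h1 h2 n i η))).mp h i (Finset.mem_univ i)
  have hq' : (1 / (q : ℝ)) ≠ 0 := by positivity
  exact (mul_eq_zero.mp this).resolve_left hq'

/-- Normalised message minus one. -/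
noncomputable def vv (off : ℕ → ℝ) (lam : ℝ) (n : ℕ) (η : Cfg q n) (i : Fin q) : ℝ :=
  lik q off lam n i η / evidence q off lam n η - 1

lemma vv_act (g : Equiv.Perm (Fin q)) (n : ℕ) (η : Cfg q n) (i : Fin q) :
    vv off lam n (act g n η) (g i) = vv off lam n η i := by
  simp only [vv]
  rw [lik_act, evidence_act]

lemma vv_sum {n : ℕ} {η : Cfg q n} (h : evidence q off lam n η ≠ 0) :
    ∑ i, vv off lam n η i = 0 := by
  have hq := (qpos (q := q)).ne'
  simp only [vv, Finset.sum_sub_distrib, ← Finset.sum_div]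
  have : ∑ i, lik q off lam n i η = evidence q off lam n η * q := by
    rw [evidence_eq] at h ⊢
    unfold NN
    field_simp
  rw [this]
  simp only [Finset.sum_const, Finset.card_univ, Fintype.card_fin, nsmul_eq_mul, mul_one]
  field_simp
  ring

lemma vv_ge (hoff : ∀ k, 0 ≤ off k) (h1 : 0 ≤ lam) (h2 : lam ≤ 1) (n : ℕ) (η : Cfg q n) (i : Fin q) :
    -1 ≤ vv off lam n η i := by
  simp only [vv]
  have : 0 ≤ lik q off lam n i η / evidence q off lam n η :=
    div_nonneg (lik_nonneg hoff h1 h2 n i η) (evidence_nonneg hoff h1 h2 n η)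
  linarith

/-- The law of the messages sent up by a vertex at height `n`. -/
noncomputable def mkLaw (hoff : ∀ k, 0 ≤ off k) (h1 : 0 ≤ lam) (h2 : lam < 1) {n : ℕ}
    (h : HasSum (evidence q off lam n) 1) : MLaw q lam (Cfg q n) where
  w := evidence q off lam n
  a := fun η i => lam * vv off lam n η i
  w_nonneg := evidence_nonneg hoff h1 h2.le n
  w_sum := h
  a_sum := fun η hη => by
    rw [← Finset.mul_sum, vv_sum hη, mul_zero]
  a_lb := fun η i => by
    have := vv_ge hoff h1 h2.le n η i
    nlinarith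
  mu_lt := h2
  symm := fun g Φ => by
    rw [← (actEquiv g n).tsum_eq]
    refine tsum_congr fun η => ?_
    have e1 : (actEquiv g n) η = act g n η := rfl
    rw [e1, evidence_act]
    congr 2
    funext i
    exact congrArg (fun t => lam * t) (vv_act g n η i)


section step

variable (hoff : ∀ k, 0 ≤ off k) (h1 : 0 ≤ lam) (h2 : lam < 1) {n : ℕ}
  (h : HasSum (evidence q off lam n) 1)

include hoff h1 h2 in
lemma lik_factor (η : Cfg q n) (i : Fin q) :
    ∑ j : Fin q, potts q lam i j * lik q off lam n j η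
      = evidence q off lam n η * (1 + lam * vv off lam n η i) := by
  rw [potts_sum_mul]
  have e := evidence_eq (off := off) (lam := lam) n η
  have e2 : (∑ j : Fin q, lik q off lam n j η) / q = evidence q off lam n η := e.symm
  rw [e2]
  by_cases hw : evidence q off lam n η = 0
  · rw [hw, lik_eq_zero hoff h1 h2.le hw i]
    ring
  · simp only [vv]
    field_simp
    ring

lemma lik_step (k : ℕ) (η : Fin k → Cfg q n) (i : Fin q) :
    lik q off lam (n + 1) i ⟨k, η⟩
      = off k * ((mkLaw hoff h1 h2 h).WW η * (mkLaw hoff h1 h2 h).PP η i) := by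
  rw [lik_succ]
  simp only [lik_factor hoff h1 h2]
  rw [Finset.prod_mul_distrib]
  rfl

lemma NN_smul (α : ℝ) (P : Fin q → ℝ) : NN (fun i => α * P i) = α * NN P := by
  unfold NN
  rw [← Finset.mul_sum, mul_div_assoc]

lemma evid_step (k : ℕ) (η : Fin k → Cfg q n) :
    evidence q off lam (n + 1) ⟨k, η⟩
      = off k * ((mkLaw hoff h1 h2 h).WW η * NN ((mkLaw hoff h1 h2 h).PP η)) := by
  refine (evidence_eq (n + 1) _).trans ?_
  simp only [lik_step hoff h1 h2 h]
  rw [NN_smul, NN_smul]

lemma vv_step (k : ℕ) (η : Fin k → Cfg q n)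
    (hne : evidence q off lam (n + 1) ⟨k, η⟩ ≠ 0) (i : Fin q) :
    vv off lam (n + 1) ⟨k, η⟩ i = cc ((mkLaw hoff h1 h2 h).PP η) i := by
  have e1 := lik_step hoff h1 h2 h k η i
  have e2 := evid_step hoff h1 h2 h k η
  show lik q off lam (n + 1) i ⟨k, η⟩ / evidence q off lam (n + 1) ⟨k, η⟩ - 1 = _ / _ - 1
  rw [e1, e2] 
  rw [e2] at hne
  congr 1
  have hN := NN_pos ((mkLaw hoff h1 h2 h).PP_pos η)
  have hne' : off k * (mkLaw hoff h1 h2 h).WW η ≠ 0 := by
    intro h0
    apply hne
    rw [← mul_assoc, h0, zero_mul]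
  rw [← mul_assoc, ← mul_assoc]
  rw [mul_div_mul_left _ _ hne']

lemma term_step (Φ : (Fin q → ℝ) → ℝ) (k : ℕ) (η : Fin k → Cfg q n) :
    evidence q off lam (n + 1) ⟨k, η⟩ * Φ (vv off lam (n + 1) ⟨k, η⟩)
      = off k * ((mkLaw hoff h1 h2 h).WW η * Gf Φ ((mkLaw hoff h1 h2 h).PP η)) := by
  by_cases hne : evidence q off lam (n + 1) ⟨k, η⟩ = 0
  · rw [hne, zero_mul]
    have e2 := evid_step hoff h1 h2 h k η
    rw [e2] at hne
    have hN := NN_pos ((mkLaw hoff h1 h2 h).PP_pos η)
    have h0 : off k * (mkLaw hoff h1 h2 h).WW η = 0 := by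
      rw [← mul_assoc] at hne
      exact (mul_eq_zero.mp hne).resolve_right hN.ne'
    simp only [Gf]
    rw [← mul_assoc, h0, zero_mul]
  · have e : vv off lam (n + 1) ⟨k, η⟩ = cc ((mkLaw hoff h1 h2 h).PP η) :=
      funext (vv_step hoff h1 h2 h k η hne)
    rw [e]
    have e2 := evid_step hoff h1 h2 h k η
    rw [e2]
    simp only [Gf]
    ring

end step

end tree

namespace MLaw

variable {μ : ℝ} {Ω : Type} (L : MLaw q μ Ω) {off : ℕ → ℝ}

/-- The sum over the number of children and the tuple of children. -/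
lemma sigma_hasSum (hoff : ∀ k, 0 ≤ off k) (hsum : HasSum off 1) {F : (Fin q → ℝ) → ℝ} (hF : Dom F) :
    HasSum (fun x : (Σ k : ℕ, (Fin k → Ω)) => off x.1 * (L.WW x.2 * F (L.PP x.2)))
      (∑' k, off k * L.Ak k F) := by
  have h0 : ∀ x : (Σ k : ℕ, (Fin k → Ω)), 0 ≤ off x.1 * (L.WW x.2 * NN (L.PP x.2)) := fun x =>
    mul_nonneg (hoff _) (mul_nonneg (L.WW_nonneg _) (NN_pos (L.PP_pos _)).le)
  have hs : Summable fun x : (Σ k : ℕ, (Fin k → Ω)) => off x.1 * (L.WW x.2 * NN (L.PP x.2)) := by
    rw [summable_sigma_of_nonneg h0]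
    constructor
    · intro k
      exact ((L.tuple_hasSum k (MLaw.dom_NN (q := q))).mul_left (off k)).summable
    · have : (fun k => ∑' η : Fin k → Ω, off k * (L.WW η * NN (L.PP η))) = off := by
        funext k
        rw [((L.tuple_hasSum k (MLaw.dom_NN (q := q))).mul_left (off k)).tsum_eq, Ak_NN, mul_one]
      show Summable fun k => ∑' η : Fin k → Ω, off k * (L.WW η * NN (L.PP η))
      rw [this]
      exact hsum.summable
  obtain ⟨C, hC⟩ := id hF
  have hs2 : Summable fun x : (Σ k : ℕ, (Fin k → Ω)) => off x.1 * (L.WW x.2 * F (L.PP x.2)) := by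
    refine Summable.of_norm_bounded (g := fun x => |C| * (off x.1 * (L.WW x.2 * NN (L.PP x.2))))
      (hs.mul_left _) fun x => ?_
    have hp := L.PP_pos x.2
    rw [Real.norm_eq_abs, abs_mul, abs_of_nonneg (hoff _), abs_mul, abs_of_nonneg (L.WW_nonneg _)]
    have h2 : |F (L.PP x.2)| ≤ |C| * NN (L.PP x.2) :=
      (hC _ hp).trans (mul_le_mul_of_nonneg_right (le_abs_self C) (NN_pos hp).le)
    have h3 := mul_le_mul_of_nonneg_left h2 (mul_nonneg (hoff x.1) (L.WW_nonneg x.2))
    calc _ = off x.1 * L.WW x.2 * |F (L.PP x.2)| := by ring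
      _ ≤ _ := h3
      _ = _ := by ring
  have hfib : ∀ k, HasSum (fun η : Fin k → Ω => off k * (L.WW η * F (L.PP η))) (off k * L.Ak k F) :=
    fun k => (L.tuple_hasSum k hF).mul_left (off k)
  have hout := hs2.hasSum.sigma hfib
  rw [hout.tsum_eq]
  exact hs2.hasSum

end MLaw

section law

variable {off : ℕ → ℝ} {lam : ℝ} (hoff : ∀ k, 0 ≤ off k) (hsum : HasSum off 1) (h1 : 0 ≤ lam) (h2 : lam < 1)

instance cfgZeroFintype : Fintype (Cfg q 0) := inferInstanceAs (Fintype (Fin q))

lemma evidence_zero (η : Cfg q 0) : evidence q off lam 0 η = 1 / (q : ℝ) := by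
  unfold evidence
  have e : ∀ i, lik q off lam 0 i η = if i = Cfg.colour η then 1 else 0 := fun _ => rfl
  simp only [e]
  simp

include hoff hsum h1 h2 in
/-- The law of what is seen has total mass one. -/
lemma lawSum : ∀ n, HasSum (evidence q off lam n) 1 := by
  intro n
  induction n with
  | zero =>
    have hq := (qpos (q := q)).ne'
    have := hasSum_fintype (evidence q off lam 0)
    have e : ∑ η : Cfg q 0, evidence q off lam 0 η = 1 := by
      simp only [evidence_zero]
      have : (Finset.univ : Finset (Cfg q 0)).card = q := Fintype.card_fin q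
      rw [Finset.sum_const, this]
      simp [hq]
    rwa [e] at this
  | succ n ih =>
    have key := (mkLaw hoff h1 h2 ih).sigma_hasSum hoff hsum (MLaw.dom_NN (q := q))
    simp only [MLaw.Ak_NN, mul_one, hsum.tsum_eq] at key
    have e : evidence q off lam (n + 1) = fun x : (Σ k : ℕ, (Fin k → Cfg q n)) =>
        off x.1 * ((mkLaw hoff h1 h2 ih).WW x.2 * NN ((mkLaw hoff h1 h2 ih).PP x.2)) := by
      funext x
      obtain ⟨k, η⟩ := x
      exact evid_step hoff h1 h2 ih k η
    rw [e]
    exact key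

end law

end Vale.Agent.helper4.GW
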