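import Mathlib

/-!
Certified positivity of polynomial expressions on boxes.  An expression with natural coefficients is
evaluated at huge natural numbers (Kronecker substitution), and the base expansion of the value
certifies that every coefficient of a difference of two such expressions is nonnegative.
-/

open Polynomial

namespace Vale.Agent.helper4.KEngine

/-- Polynomial expressions with natural coefficients. -/
inductive PE : Type
  | c : ℕ → PE
  | v : ℕ → PE
  | add : PE → PE → PE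
  | mul : PE → PE → PE
  | pow : PE → ℕ → PE

/-- Evaluation in a commutative semiring. -/
def PE.ev {R : Type} [CommSemiring R] (env : ℕ → R) : PE → R
  | .c n => (n : R)
  | .v i => env i
  | .add a b => a.ev env + b.ev env
  | .mul a b => a.ev env * b.ev env
  | .pow a k => a.ev env ^ k

/-- Evaluation in the natural numbers with the raw operations. -/
def PE.evN (env : ℕ → ℕ) : PE → ℕ
  | .c n => n
  | .v i => env i
  | .add a b => Nat.add (a.evN env) (b.evN env)
  | .mul a b => Nat.mul (a.evN env) (b.evN env)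
  | .pow a k => Nat.pow (a.evN env) k

lemma PE.evN_eq (env : ℕ → ℕ) (e : PE) : e.evN env = e.ev env := by
  induction e with
  | c n => simp [PE.evN, PE.ev]
  | v i => rfl
  | add a b iha ihb => simp only [PE.evN, PE.ev, iha, ihb]; rfl
  | mul a b iha ihb => simp only [PE.evN, PE.ev, iha, ihb]; rfl
  | pow a k iha => simp only [PE.evN, PE.ev, iha]; rfl

lemma PE.map_ev {R S : Type} [CommSemiring R] [CommSemiring S] (f : R →+* S) (env : ℕ → R) (e : PE) :
    f (e.ev env) = e.ev (fun i => f (env i)) := by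
  induction e with
  | c n => simp [PE.ev]
  | v i => rfl
  | add a b iha ihb => simp only [PE.ev, map_add, iha, ihb]
  | mul a b iha ihb => simp only [PE.ev, map_mul, iha, ihb]
  | pow a k iha => simp only [PE.ev, map_pow, iha]

/-- Substitution of expressions for the variables. -/
def PE.subst (σ : ℕ → PE) : PE → PE
  | .c n => .c n
  | .v i => σ i
  | .add a b => .add (a.subst σ) (b.subst σ)
  | .mul a b => .mul (a.subst σ) (b.subst σ)
  | .pow a k => .pow (a.subst σ) k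

lemma PE.ev_subst {R : Type} [CommSemiring R] (env : ℕ → R) (σ : ℕ → PE) (e : PE) :
    (e.subst σ).ev env = e.ev (fun i => (σ i).ev env) := by
  induction e with
  | c n => rfl
  | v i => rfl
  | add a b iha ihb => simp only [PE.subst, PE.ev, iha, ihb]
  | mul a b iha ihb => simp only [PE.subst, PE.ev, iha, ihb]
  | pow a k iha => simp only [PE.subst, PE.ev, iha]

/-- The values of the four variables on a cell, in terms of two nonnegative parameters. -/
def cenv {R : Type} [CommSemiring R] (a b c d den : ℕ) (t₁ t₂ : R) : ℕ → R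
  | 0 => (b : R) + a * t₁
  | 1 => den * (1 + t₁)
  | 2 => (d : R) + c * t₂
  | 3 => den * (1 + t₂)
  | _ => 0

/-- The same values in the natural numbers, with the raw operations. -/
def cenvN (a b c d den t₁ t₂ : ℕ) : ℕ → ℕ
  | 0 => Nat.add b (Nat.mul a t₁)
  | 1 => Nat.mul den (Nat.add 1 t₁)
  | 2 => Nat.add d (Nat.mul c t₂)
  | 3 => Nat.mul den (Nat.add 1 t₂)
  | _ => 0

lemma cenvN_eq (a b c d den t₁ t₂ : ℕ) (i : ℕ) :
    cenvN a b c d den t₁ t₂ i = cenv a b c d den t₁ t₂ i := by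
  match i with
  | 0 => simp [cenvN, cenv]
  | 1 => simp [cenvN, cenv]
  | 2 => simp [cenvN, cenv]
  | 3 => simp [cenvN, cenv]
  | _ + 4 => simp [cenvN, cenv]

lemma map_cenv {R S : Type} [CommSemiring R] [CommSemiring S] (f : R →+* S) (a b c d den : ℕ)
    (t₁ t₂ : R) (i : ℕ) :
    f (cenv a b c d den t₁ t₂ i) = cenv a b c d den (f t₁) (f t₂) i := by
  match i with
  | 0 => simp [cenv]
  | 1 => simp [cenv]
  | 2 => simp [cenv]
  | 3 => simp [cenv]
  | _ + 4 => simp [cenv]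

/-- All base `X` digits of `n` among the first `k` are below `h`, and nothing remains after them. -/
def chk1 (X h : ℕ) : ℕ → ℕ → Bool
  | 0, n => Nat.beq n 0
  | k + 1, n => Nat.blt (n % X) h && chk1 X h k (n / X)

/-- The two level version of `chk1`. -/
def chk2 (X hx Y hy kx : ℕ) : ℕ → ℕ → Bool
  | 0, n => Nat.beq n 0
  | k + 1, n =>
      Nat.blt (n % Y) hy && chk1 X hx kx (n % Y) && chk2 X hx Y hy kx k (n / Y)

/-- The test on one cell. -/
def cellTest (E₁ E₂ : PE) (a b c d den kx ky : ℕ) : Bool :=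
  let hx := Nat.add (Nat.add (E₁.evN (cenvN a b c d den 1 1)) (E₂.evN (cenvN a b c d den 1 1))) 1
  let X := Nat.mul 2 hx
  let hy := Nat.add (Nat.add (E₁.evN (cenvN a b c d den X 1)) (E₂.evN (cenvN a b c d den X 1))) 1
  let Y := Nat.mul 2 hy
  let N₁ := E₁.evN (cenvN a b c d den X Y)
  let N₂ := E₂.evN (cenvN a b c d den X Y)
  Nat.ble N₂ N₁ && chk2 X hx Y hy kx ky (Nat.sub N₁ N₂)

lemma div_unique {x z u v Y : ℕ} (hu : u < Y) (hv : v < Y) (h : x * Y + u = z * Y + v) :
    x = z ∧ u = v := by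
  have hY : 0 < Y := by omega
  have h1 : (x * Y + u) / Y = x := by
    rw [mul_comm, Nat.mul_add_div hY, Nat.div_eq_of_lt hu]; simp
  have h2 : (z * Y + v) / Y = z := by
    rw [mul_comm, Nat.mul_add_div hY, Nat.div_eq_of_lt hv]; simp
  have h3 : x = z := by rw [← h1, h, h2]
  subst h3
  exact ⟨rfl, by omega⟩

lemma digit_key {S : Type} [CommSemiring S] (φ : S →+* ℕ) (Y h : ℕ) (hY : Y = 2 * h) :
    ∀ (j : ℕ) (A C : S[X]) (n : ℕ),
      (∀ i, φ (A.coeff i) < h) → (∀ i, φ (C.coeff i) < h) →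
      eval₂ φ Y A = eval₂ φ Y C + n →
      (∀ i, (n / Y ^ i) % Y < h) →
      φ (A.coeff j) = φ (C.coeff j) + (n / Y ^ j) % Y := by
  have step : ∀ (A C : S[X]) (n : ℕ),
      (∀ i, φ (A.coeff i) < h) → (∀ i, φ (C.coeff i) < h) →
      eval₂ φ Y A = eval₂ φ Y C + n →
      (∀ i, (n / Y ^ i) % Y < h) →
      φ (A.coeff 0) = φ (C.coeff 0) + n % Y ∧
        eval₂ φ Y A.divX = eval₂ φ Y C.divX + n / Y := by
    intro A C n hA hC he hd
    have hd0 : n % Y < h := by simpa using hd 0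
    have hA0 := hA 0
    have hC0 := hC 0
    have eA : eval₂ φ Y A = eval₂ φ Y A.divX * Y + φ (A.coeff 0) := by
      conv_lhs => rw [← divX_mul_X_add A]
      simp [eval₂_add, eval₂_mul, eval₂_X, eval₂_C]
    have eC : eval₂ φ Y C = eval₂ φ Y C.divX * Y + φ (C.coeff 0) := by
      conv_lhs => rw [← divX_mul_X_add C]
      simp [eval₂_add, eval₂_mul, eval₂_X, eval₂_C]
    have en : n = (n / Y) * Y + n % Y := by
      rw [mul_comm]; exact (Nat.div_add_mod n Y).symm
    have key : eval₂ φ Y A.divX * Y + φ (A.coeff 0)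
        = (eval₂ φ Y C.divX + n / Y) * Y + (φ (C.coeff 0) + n % Y) := by
      rw [← eA, he, eC]
      conv_lhs => rw [en]
      ring
    have := div_unique (by omega) (by omega) key
    exact ⟨this.2, this.1⟩
  intro j
  induction j with
  | zero =>
    intro A C n hA hC he hd
    simpa using (step A C n hA hC he hd).1
  | succ j ih =>
    intro A C n hA hC he hd
    have hs := step A C n hA hC he hd
    have := ih A.divX C.divX (n / Y)
      (fun i => by rw [coeff_divX]; exact hA _) (fun i => by rw [coeff_divX]; exact hC _) hs.2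
      (fun i => by
        rw [Nat.div_div_eq_div_mul, ← pow_succ']
        exact hd _)
    rw [coeff_divX, coeff_divX, Nat.div_div_eq_div_mul, ← pow_succ'] at this
    exact this

lemma chk1_sound {X h : ℕ} (hh : 0 < h) :
    ∀ (k n : ℕ), chk1 X h k n = true → ∀ i, (n / X ^ i) % X < h := by
  intro k
  induction k with
  | zero =>
    intro n hn i
    have : n = 0 := by simpa [chk1] using hn
    subst this
    simpa using hh
  | succ k ih =>
    intro n hn i
    simp only [chk1, Bool.and_eq_true] at hn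
    obtain ⟨h1, h2⟩ := hn
    cases i with
    | zero =>
      have : n % X < h := by simpa [Nat.blt_eq] using h1
      simpa using this
    | succ i =>
      have := ih _ h2 i
      rwa [Nat.div_div_eq_div_mul, ← pow_succ'] at this

lemma chk2_sound {X hx Y hy kx : ℕ} (hhx : 0 < hx) (hhy : 0 < hy) :
    ∀ (k n : ℕ), chk2 X hx Y hy kx k n = true →
      (∀ j, (n / Y ^ j) % Y < hy) ∧ (∀ j i, (((n / Y ^ j) % Y) / X ^ i) % X < hx) := by
  intro k
  induction k with
  | zero =>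
    intro n hn
    have : n = 0 := by simpa [chk2] using hn
    subst this
    constructor
    · intro j; simpa using hhy
    · intro j i; simpa using hhx
  | succ k ih =>
    intro n hn
    simp only [chk2, Bool.and_eq_true] at hn
    obtain ⟨⟨h1, h1'⟩, h2⟩ := hn
    obtain ⟨i1, i2⟩ := ih _ h2
    constructor
    · intro j
      cases j with
      | zero =>
        have : n % Y < hy := by simpa [Nat.blt_eq] using h1
        simpa using this
      | succ j =>
        have := i1 j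
        rwa [Nat.div_div_eq_div_mul, ← pow_succ'] at this
    · intro j i
      cases j with
      | zero =>
        have := chk1_sound hhx _ _ h1' i
        simpa using this
      | succ j =>
        have := i2 j i
        rwa [Nat.div_div_eq_div_mul, ← pow_succ'] at this

lemma coeff_le_eval_one {S : Type} [CommSemiring S] (φ : S →+* ℕ) (A : S[X]) (i : ℕ) :
    φ (A.coeff i) ≤ φ (A.eval 1) := by
  have hn : A.natDegree < max A.natDegree i + 1 := by omega
  rw [eval_eq_sum_range' hn, map_sum]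
  have hi : i ∈ Finset.range (max A.natDegree i + 1) := by
    rw [Finset.mem_range]; omega
  have := Finset.single_le_sum (f := fun k => φ (A.coeff k * 1 ^ k)) (fun _ _ => Nat.zero_le _) hi
  simpa using this

lemma mono_eval₂ {S : Type} [CommSemiring S] (ψ : S →+* ℝ) {τ : ℝ} (hτ : 0 ≤ τ) (A C : S[X])
    (h : ∀ i, ψ (C.coeff i) ≤ ψ (A.coeff i)) : eval₂ ψ τ C ≤ eval₂ ψ τ A := by
  have h1 : A.natDegree < max A.natDegree C.natDegree + 1 := by omega
  have h2 : C.natDegree < max A.natDegree C.natDegree + 1 := by omega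
  rw [eval₂_eq_sum_range' ψ h1, eval₂_eq_sum_range' ψ h2]
  exact Finset.sum_le_sum fun i _ => mul_le_mul_of_nonneg_right (h i) (pow_nonneg hτ i)

/-- Soundness of the test on one cell. -/
theorem cell_sound {E₁ E₂ : PE} {a b c d den kx ky : ℕ}
    (hc : cellTest E₁ E₂ a b c d den kx ky = true) {τ₁ τ₂ : ℝ} (h1 : 0 ≤ τ₁) (h2 : 0 ≤ τ₂) :
    E₂.ev (cenv a b c d den τ₁ τ₂) ≤ E₁.ev (cenv a b c d den τ₁ τ₂) := by
  simp only [cellTest, Bool.and_eq_true] at hc
  obtain ⟨hle, hck⟩ := hc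
  set hx := Nat.add (Nat.add (E₁.evN (cenvN a b c d den 1 1)) (E₂.evN (cenvN a b c d den 1 1))) 1
    with hhx
  set X := Nat.mul 2 hx with hX
  set hy := Nat.add (Nat.add (E₁.evN (cenvN a b c d den X 1)) (E₂.evN (cenvN a b c d den X 1))) 1
    with hhy
  set Y := Nat.mul 2 hy with hY
  set N₁ := E₁.evN (cenvN a b c d den X Y) with hN₁
  set N₂ := E₂.evN (cenvN a b c d den X Y) with hN₂
  have hle' : N₂ ≤ N₁ := Nat.le_of_ble_eq_true hle
  -- the two polynomials
  let T₁ : ℕ[X][X] := Polynomial.C Polynomial.X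
  let T₂ : ℕ[X][X] := Polynomial.X
  let A : ℕ[X][X] := E₁.ev (cenv a b c d den T₁ T₂)
  let B : ℕ[X][X] := E₂.ev (cenv a b c d den T₁ T₂)
  -- evaluation homomorphisms
  let φX : ℕ[X] →+* ℕ := evalRingHom X
  let Φ : ℕ[X][X] →+* ℕ := eval₂RingHom φX Y
  have evΦ : ∀ (E : PE), Φ (E.ev (cenv a b c d den T₁ T₂)) = E.evN (cenvN a b c d den X Y) := by
    intro E
    refine (PE.map_ev (R := ℕ[X][X]) (S := ℕ) Φ _ E).trans ?_
    rw [PE.evN_eq]
    congr 1
    funext i
    refine (map_cenv (R := ℕ[X][X]) (S := ℕ) Φ a b c d den T₁ T₂ i).trans ?_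
    rw [cenvN_eq]
    have e1 : Φ T₁ = X := by simp [Φ, T₁, φX]
    have e2 : Φ T₂ = Y := by simp [Φ, T₂]
    rw [e1, e2]
  have ev11 : ∀ (E : PE), (evalRingHom (1:ℕ)) ((evalRingHom (1 : ℕ[X]))
      (E.ev (cenv a b c d den T₁ T₂))) = E.evN (cenvN a b c d den 1 1) := by
    intro E
    rw [PE.map_ev, PE.map_ev, PE.evN_eq]
    congr 1
    funext i
    rw [map_cenv, map_cenv, cenvN_eq]
    have e1 : (evalRingHom (1:ℕ)) ((evalRingHom (1 : ℕ[X])) T₁) = 1 := by simp [T₁]
    have e2 : (evalRingHom (1:ℕ)) ((evalRingHom (1 : ℕ[X])) T₂) = 1 := by simp [T₂]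
    rw [e1, e2]
  have evX1 : ∀ (E : PE), φX ((evalRingHom (1 : ℕ[X]))
      (E.ev (cenv a b c d den T₁ T₂))) = E.evN (cenvN a b c d den X 1) := by
    intro E
    rw [PE.map_ev, PE.map_ev, PE.evN_eq]
    congr 1
    funext i
    rw [map_cenv, map_cenv, cenvN_eq]
    have e1 : φX ((evalRingHom (1 : ℕ[X])) T₁) = X := by simp [T₁, φX]
    have e2 : φX ((evalRingHom (1 : ℕ[X])) T₂) = 1 := by simp [T₂, φX]
    rw [e1, e2]
  have hhx0 : 0 < hx := by rw [hhx]; exact Nat.succ_pos _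
  have hhy0 : 0 < hy := by rw [hhy]; exact Nat.succ_pos _
  have hXe : X = 2 * hx := rfl
  have hYe : Y = 2 * hy := rfl
  -- bounds on the coefficients
  have bdA : ∀ j, φX (A.coeff j) < hy := by
    intro j
    have h3 := coeff_le_eval_one φX A j
    have h4 : φX (A.eval 1) = E₁.evN (cenvN a b c d den X 1) := evX1 E₁
    have : hy = E₁.evN (cenvN a b c d den X 1) + E₂.evN (cenvN a b c d den X 1) + 1 := rfl
    omega
  have bdB : ∀ j, φX (B.coeff j) < hy := by
    intro j
    have h3 := coeff_le_eval_one φX B j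
    have h4 : φX (B.eval 1) = E₂.evN (cenvN a b c d den X 1) := evX1 E₂
    have : hy = E₁.evN (cenvN a b c d den X 1) + E₂.evN (cenvN a b c d den X 1) + 1 := rfl
    omega
  have hev : ∀ (p : ℕ[X]) (k : ℕ), (RingHom.id ℕ) (p.coeff k) ≤ (evalRingHom (1:ℕ)) p := by
    intro p k
    have := coeff_le_eval_one (RingHom.id ℕ) p k
    simpa using this
  have bdA' : ∀ j i, (RingHom.id ℕ) ((A.coeff j).coeff i) < hx := by
    intro j i
    have h3 := hev (A.coeff j) i
    have h4 := coeff_le_eval_one (evalRingHom (1:ℕ)) A j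
    have h5 : (evalRingHom (1:ℕ)) (A.eval 1) = E₁.evN (cenvN a b c d den 1 1) := ev11 E₁
    have : hx = E₁.evN (cenvN a b c d den 1 1) + E₂.evN (cenvN a b c d den 1 1) + 1 := rfl
    omega
  have bdB' : ∀ j i, (RingHom.id ℕ) ((B.coeff j).coeff i) < hx := by
    intro j i
    have h3 := hev (B.coeff j) i
    have h4 := coeff_le_eval_one (evalRingHom (1:ℕ)) B j
    have h5 : (evalRingHom (1:ℕ)) (B.eval 1) = E₂.evN (cenvN a b c d den 1 1) := ev11 E₂
    have : hx = E₁.evN (cenvN a b c d den 1 1) + E₂.evN (cenvN a b c d den 1 1) + 1 := rfl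
    omega
  obtain ⟨dg1, dg2⟩ := chk2_sound hhx0 hhy0 _ _ hck
  -- the main relation
  have main : eval₂ φX Y A = eval₂ φX Y B + Nat.sub N₁ N₂ := by
    have e1 : eval₂ φX Y A = N₁ := evΦ E₁
    have e2 : eval₂ φX Y B = N₂ := evΦ E₂
    rw [e1, e2]
    show N₁ = N₂ + (N₁ - N₂)
    omega
  have outer := fun j => digit_key φX Y hy hYe j A B _ bdA bdB main dg1
  have inner : ∀ j i, (B.coeff j).coeff i ≤ (A.coeff j).coeff i := by
    intro j i
    have e3 : eval₂ (RingHom.id ℕ) X (A.coeff j)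
        = eval₂ (RingHom.id ℕ) X (B.coeff j) + (Nat.sub N₁ N₂ / Y ^ j) % Y := by
      have := outer j
      simpa [φX, eval₂_id] using this
    have := digit_key (RingHom.id ℕ) X hx hXe i (A.coeff j) (B.coeff j) _ (bdA' j) (bdB' j) e3
      (dg2 j)
    simp only [RingHom.id_apply] at this
    omega
  -- evaluate at the reals
  let Ψ₁ : ℕ[X] →+* ℝ := eval₂RingHom (Nat.castRingHom ℝ) τ₁
  let Ψ : ℕ[X][X] →+* ℝ := eval₂RingHom Ψ₁ τ₂
  have evΨ : ∀ (E : PE), Ψ (E.ev (cenv a b c d den T₁ T₂)) = E.ev (cenv a b c d den τ₁ τ₂) := by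
    intro E
    refine (PE.map_ev (R := ℕ[X][X]) (S := ℝ) Ψ _ E).trans ?_
    congr 1
    funext i
    refine (map_cenv (R := ℕ[X][X]) (S := ℝ) Ψ a b c d den T₁ T₂ i).trans ?_
    have e1 : Ψ T₁ = τ₁ := by simp [Ψ, T₁, Ψ₁]
    have e2 : Ψ T₂ = τ₂ := by simp [Ψ, T₂]
    rw [e1, e2]
  rw [← evΨ E₁, ← evΨ E₂]
  show eval₂ Ψ₁ τ₂ B ≤ eval₂ Ψ₁ τ₂ A
  refine mono_eval₂ Ψ₁ h2 A B fun j => ?_
  show eval₂ (Nat.castRingHom ℝ) τ₁ (B.coeff j) ≤ eval₂ (Nat.castRingHom ℝ) τ₁ (A.coeff j)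
  refine mono_eval₂ (Nat.castRingHom ℝ) h1 _ _ fun i => ?_
  simp only [eq_natCast, Nat.cast_le]
  exact inner j i

/-- Values of the four variables at a real point. -/
noncomputable def renv (p P₀ q U₀ : ℝ) : ℕ → ℝ
  | 0 => p * P₀
  | 1 => P₀
  | 2 => q * U₀
  | 3 => U₀
  | _ => 0

/-- The adaptive check over a box: on each cell one of the two tests passes, otherwise split. -/
def cover (E₁ E₂ E₃ E₄ : PE) (kx ky : ℕ) : ℕ → Bool → ℕ → ℕ → ℕ → ℕ → ℕ → Bool
  | 0, _, a, b, c, d, den =>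
      cellTest E₁ E₂ a b c d den kx ky || cellTest E₃ E₄ a b c d den kx ky
  | k + 1, fl, a, b, c, d, den =>
      cellTest E₁ E₂ a b c d den kx ky || cellTest E₃ E₄ a b c d den kx ky ||
      (if fl then
        cover E₁ E₂ E₃ E₄ kx ky k (!fl) (2 * a) (a + b) (2 * c) (2 * d) (2 * den) &&
        cover E₁ E₂ E₃ E₄ kx ky k (!fl) (a + b) (2 * b) (2 * c) (2 * d) (2 * den)
      else
        cover E₁ E₂ E₃ E₄ kx ky k (!fl) (2 * a) (2 * b) (2 * c) (c + d) (2 * den) &&
        cover E₁ E₂ E₃ E₄ kx ky k (!fl) (2 * a) (2 * b) (c + d) (2 * d) (2 * den))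

/-- The statement established on a cell. -/
def Pt (E₁ E₂ E₃ E₄ : PE) (p q : ℝ) : Prop :=
  ∃ P₀ U₀ : ℝ, 0 < P₀ ∧ 0 < U₀ ∧
    (E₂.ev (renv p P₀ q U₀) ≤ E₁.ev (renv p P₀ q U₀) ∨
      E₄.ev (renv p P₀ q U₀) ≤ E₃.ev (renv p P₀ q U₀))

lemma cell_point {a b c d den : ℕ} (hd : 0 < den) {p q : ℝ}
    (h1 : (a : ℝ) / den < p) (h2 : p ≤ (b : ℝ) / den) (h3 : (c : ℝ) / den < q)
    (h4 : q ≤ (d : ℝ) / den) :
    ∃ τ₁ τ₂ : ℝ, 0 ≤ τ₁ ∧ 0 ≤ τ₂ ∧ 0 < (den : ℝ) * (1 + τ₁) ∧ 0 < (den : ℝ) * (1 + τ₂) ∧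
      cenv a b c d den τ₁ τ₂ = renv p ((den : ℝ) * (1 + τ₁)) q ((den : ℝ) * (1 + τ₂)) := by
  have hd' : (0 : ℝ) < den := by exact_mod_cast hd
  rw [div_lt_iff₀ hd'] at h1 h3
  rw [le_div_iff₀ hd'] at h2 h4
  have g1 : 0 < p * den - (a : ℝ) := by linarith
  have g2 : 0 < q * den - (c : ℝ) := by linarith
  refine ⟨(b - p * den) / (p * den - a), (d - q * den) / (q * den - c),
    div_nonneg (by linarith) g1.le, div_nonneg (by linarith) g2.le, ?_, ?_, ?_⟩
  · have : 0 ≤ (b - p * den) / (p * den - a) := div_nonneg (by linarith) g1.le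
    positivity
  · have : 0 ≤ (d - q * den) / (q * den - c) := div_nonneg (by linarith) g2.le
    positivity
  · funext i
    match i with
    | 0 =>
      simp only [cenv, renv]
      field_simp
      ring
    | 1 => rfl
    | 2 =>
      simp only [cenv, renv]
      field_simp
      ring
    | 3 => rfl
    | _ + 4 => rfl

lemma cell_Pt {E₁ E₂ E₃ E₄ : PE} {kx ky a b c d den : ℕ} (hd : 0 < den)
    (h : (cellTest E₁ E₂ a b c d den kx ky || cellTest E₃ E₄ a b c d den kx ky) = true) {p q : ℝ}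
    (h1 : (a : ℝ) / den < p) (h2 : p ≤ (b : ℝ) / den) (h3 : (c : ℝ) / den < q)
    (h4 : q ≤ (d : ℝ) / den) : Pt E₁ E₂ E₃ E₄ p q := by
  obtain ⟨τ₁, τ₂, t1, t2, g1, g2, e⟩ := cell_point hd h1 h2 h3 h4
  refine ⟨_, _, g1, g2, ?_⟩
  rw [← e]
  rcases Bool.or_eq_true_iff.mp h with h | h
  · exact Or.inl (cell_sound h t1 t2)
  · exact Or.inr (cell_sound h t1 t2)

/-- Soundness of the adaptive check. -/
theorem cover_sound {E₁ E₂ E₃ E₄ : PE} {kx ky : ℕ} :
    ∀ (k : ℕ) (fl : Bool) (a b c d den : ℕ), 0 < den →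
      cover E₁ E₂ E₃ E₄ kx ky k fl a b c d den = true →
      ∀ p q : ℝ, (a : ℝ) / den < p → p ≤ (b : ℝ) / den → (c : ℝ) / den < q → q ≤ (d : ℝ) / den →
        Pt E₁ E₂ E₃ E₄ p q := by
  intro k
  induction k with
  | zero =>
    intro fl a b c d den hd h p q h1 h2 h3 h4
    exact cell_Pt hd h h1 h2 h3 h4
  | succ k ih =>
    intro fl a b c d den hd h p q h1 h2 h3 h4
    simp only [cover, Bool.or_eq_true] at h
    rcases h with h | h
    · rcases h with h | h
      · exact cell_Pt hd (Bool.or_eq_true_iff.mpr (Or.inl h)) h1 h2 h3 h4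
      · exact cell_Pt hd (Bool.or_eq_true_iff.mpr (Or.inr h)) h1 h2 h3 h4
    · have hd' : (0 : ℝ) < den := by exact_mod_cast hd
      have hd2 : 0 < 2 * den := by omega
      have cast2 : ((2 * den : ℕ) : ℝ) = 2 * den := by push_cast; ring
      rw [div_lt_iff₀ hd'] at h1 h3
      rw [le_div_iff₀ hd'] at h2 h4
      cases fl with
      | true =>
        simp only [if_true, Bool.and_eq_true] at h
        obtain ⟨hl, hr⟩ := h
        have c1 : ((2 * c : ℕ) : ℝ) / ((2 * den : ℕ) : ℝ) < q := by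
          rw [cast2, div_lt_iff₀ (by positivity)]; push_cast; nlinarith
        have c2 : q ≤ ((2 * d : ℕ) : ℝ) / ((2 * den : ℕ) : ℝ) := by
          rw [cast2, le_div_iff₀ (by positivity)]; push_cast; nlinarith
        by_cases hm : p * (2 * den) ≤ ((a + b : ℕ) : ℝ)
        · refine ih _ _ _ _ _ _ hd2 hl p q ?_ ?_ c1 c2
          · rw [cast2, div_lt_iff₀ (by positivity)]; push_cast; nlinarith
          · rw [cast2, le_div_iff₀ (by positivity)]; exact hm
        · refine ih _ _ _ _ _ _ hd2 hr p q ?_ ?_ c1 c2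
          · rw [cast2, div_lt_iff₀ (by positivity)]; linarith
          · rw [cast2, le_div_iff₀ (by positivity)]; push_cast; nlinarith
      | false =>
        simp only [Bool.false_eq_true, if_false, Bool.and_eq_true] at h
        obtain ⟨hl, hr⟩ := h
        have c1 : ((2 * a : ℕ) : ℝ) / ((2 * den : ℕ) : ℝ) < p := by
          rw [cast2, div_lt_iff₀ (by positivity)]; push_cast; nlinarith
        have c2 : p ≤ ((2 * b : ℕ) : ℝ) / ((2 * den : ℕ) : ℝ) := by
          rw [cast2, le_div_iff₀ (by positivity)]; push_cast; nlinarith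
        by_cases hm : q * (2 * den) ≤ ((c + d : ℕ) : ℝ)
        · refine ih _ _ _ _ _ _ hd2 hl p q c1 c2 ?_ ?_
          · rw [cast2, div_lt_iff₀ (by positivity)]; push_cast; nlinarith
          · rw [cast2, le_div_iff₀ (by positivity)]; exact hm
        · refine ih _ _ _ _ _ _ hd2 hr p q c1 c2 ?_ ?_
          · rw [cast2, div_lt_iff₀ (by positivity)]; linarith
          · rw [cast2, le_div_iff₀ (by positivity)]; push_cast; nlinarith

/-- The root form of the check: the half open unit square `(0,1] × (0,1]`. -/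
theorem cover_root {E₁ E₂ E₃ E₄ : PE} {kx ky k : ℕ} {fl : Bool}
    (h : cover E₁ E₂ E₃ E₄ kx ky k fl 0 1 0 1 1 = true) {p q : ℝ} (h1 : 0 < p) (h2 : p ≤ 1)
    (h3 : 0 < q) (h4 : q ≤ 1) : Pt E₁ E₂ E₃ E₄ p q := by
  refine cover_sound k fl 0 1 0 1 1 one_pos h p q ?_ ?_ ?_ ?_ <;> simpa

/-- The case with only one test: a nonnegative form on the half open square. -/
theorem box_nonneg {E₁ E₂ : PE} {kx ky k : ℕ} {fl : Bool}
    (h : cover E₁ E₂ (.c 0) (.c 1) kx ky k fl 0 1 0 1 1 = true) {p q : ℝ} (h1 : 0 < p) (h2 : p ≤ 1)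
    (h3 : 0 < q) (h4 : q ≤ 1) :
    ∃ P₀ U₀ : ℝ, 0 < P₀ ∧ 0 < U₀ ∧ E₂.ev (renv p P₀ q U₀) ≤ E₁.ev (renv p P₀ q U₀) := by
  obtain ⟨P₀, U₀, h5, h6, h7⟩ := cover_root h h1 h2 h3 h4
  refine ⟨P₀, U₀, h5, h6, ?_⟩
  rcases h7 with h7 | h7
  · exact h7
  · exfalso
    simp only [PE.ev] at h7
    norm_num at h7

/-- Homogeneous coordinates of a sorted triple: `(V0, V1, V2) = (P₀ U₀, P₁ U₀, P₁ U₁)`. -/
def sig : ℕ → PE
  | 0 => .mul (.v 1) (.v 3)
  | 1 => .mul (.v 0) (.v 3)
  | 2 => .mul (.v 0) (.v 2)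
  | _ => .c 0

/-- Values of three variables. -/
noncomputable def wenv (w0 w1 w2 : ℝ) : ℕ → ℝ
  | 0 => w0
  | 1 => w1
  | 2 => w2
  | _ => 0

lemma sig_values (p P₀ q U₀ : ℝ) :
    (fun i => (sig i).ev (renv p P₀ q U₀)) = wenv (P₀ * U₀) (p * P₀ * U₀) (p * P₀ * (q * U₀)) := by
  funext i
  match i with
  | 0 => rfl
  | 1 => rfl
  | 2 => rfl
  | _ + 3 => simp [sig, wenv, PE.ev]

/-- A sorted positive triple is, up to a positive factor, in the range of the coordinates. -/
theorem sorted_point {E₁ E₂ E₃ E₄ : PE} {kx ky k : ℕ} {fl : Bool}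
    (h : cover (E₁.subst sig) (E₂.subst sig) (E₃.subst sig) (E₄.subst sig) kx ky k fl 0 1 0 1 1 = true)
    {w0 w1 w2 : ℝ} (h0 : w1 ≤ w0) (h1 : w2 ≤ w1) (h2 : 0 < w2) :
    ∃ r : ℝ, 0 < r ∧
      (E₂.ev (wenv (r * w0) (r * w1) (r * w2)) ≤ E₁.ev (wenv (r * w0) (r * w1) (r * w2)) ∨
       E₄.ev (wenv (r * w0) (r * w1) (r * w2)) ≤ E₃.ev (wenv (r * w0) (r * w1) (r * w2))) := by
  have hw1 : 0 < w1 := by linarith
  have hw0 : 0 < w0 := by linarith
  obtain ⟨P₀, U₀, g1, g2, g3⟩ := cover_root h (p := w1 / w0) (q := w2 / w1)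
    (by positivity) ((div_le_one hw0).2 h0) (by positivity) ((div_le_one hw1).2 h1)
  refine ⟨P₀ * U₀ / w0, by positivity, ?_⟩
  simp only [PE.ev_subst, sig_values] at g3
  have e0 : P₀ * U₀ / w0 * w0 = P₀ * U₀ := by field_simp
  have e1 : P₀ * U₀ / w0 * w1 = w1 / w0 * P₀ * U₀ := by field_simp
  have e2 : P₀ * U₀ / w0 * w2 = w1 / w0 * P₀ * (w2 / w1 * U₀) := by field_simp
  rw [e0, e1, e2]
  exact g3

end Vale.Agent.helper4.KEngine
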