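import Mathlib

namespace Vale.Agent.helper4.Potts

/-- The `q`-state Potts channel `P(j | i) = lam * 1_{i = j} + (1 - lam) / q`. -/
noncomputable def potts (q : ℕ) (lam : ℝ) (i j : Fin q) : ℝ :=
  (if i = j then lam else 0) + (1 - lam) / q

/-- Colourings of the leaves (the vertices at distance `n` from the root) of the rooted
`d`-ary tree of depth `n`: a colour if `n = 0`, otherwise one colouring for each child subtree. -/
def LeafCfg (q d : ℕ) : ℕ → Type
  | 0 => Fin q
  | n + 1 => Fin d → LeafCfg q d n

/-- The finite set of leaf colourings. -/
instance leafFintype (q d : ℕ) : (n : ℕ) → Fintype (LeafCfg q d n)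
  | 0 => inferInstanceAs (Fintype (Fin q))
  | n + 1 =>
      letI := leafFintype q d n
      inferInstanceAs (Fintype (Fin d → LeafCfg q d n))

/-- At depth `0` the only leaf is the root and a leaf colouring is just a colour. -/
def LeafCfg.colour {q d : ℕ} (η : LeafCfg q d 0) : Fin q := η

/-- Probability of the leaf colouring given that the root has colour `i`, when each edge of the
`d`-ary tree independently applies the Potts channel. -/
noncomputable def lik (q d : ℕ) (lam : ℝ) : (n : ℕ) → Fin q → LeafCfg q d n → ℝ
  | 0, i, η => if i = LeafCfg.colour η then 1 else 0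
  | n + 1, i, η =>
      ∏ c : Fin d, ∑ j : Fin q, potts q lam i j * lik q d lam n j ((η : Fin d → LeafCfg q d n) c)

/-- Marginal probability of the leaf colouring, the root colour being uniform. -/
noncomputable def evidence (q d : ℕ) (lam : ℝ) (n : ℕ) (η : LeafCfg q d n) : ℝ :=
  ∑ i : Fin q, (1 / (q : ℝ)) * lik q d lam n i η

/-- Posterior probability (Bayes) of root colour `i` given the leaf colouring. -/
noncomputable def posterior (q d : ℕ) (lam : ℝ) (n : ℕ) (i : Fin q) (η : LeafCfg q d n) : ℝ :=
  (1 / (q : ℝ)) * lik q d lam n i η / evidence q d lam n η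

/-- The quantity `a_n`: the expected total variation distance between the posterior of the root
colour given the leaves at depth `n` and the uniform law. -/
noncomputable def advantage (q d : ℕ) (lam : ℝ) (n : ℕ) : ℝ :=
  ∑ η : LeafCfg q d n, evidence q d lam n η *
    ((1 / 2) * ∑ i : Fin q, |posterior q d lam n i η - 1 / (q : ℝ)|)

end Vale.Agent.helper4.Potts
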