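import Mathlib

/-!
Real-variable lemmas behind the nonreconstruction proof for the 3-state Potts channel on the binary
tree.  Everything is about two zero-sum triples `a`, `b` (the channel outputs of the two children).
-/

namespace Vale.Agent.helper4.PottsPair

/-- Second moment invariant of a triple. -/
noncomputable def xI (a0 a1 a2 : ℝ) : ℝ := (a0^2 + a1^2 + a2^2) / 3

/-- Third moment invariant of a triple. -/
noncomputable def yI (a0 a1 a2 : ℝ) : ℝ := (a0^3 + a1^3 + a2^3) / 3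

/-- Normalising factor when two messages are multiplied. -/
noncomputable def Zr (a0 a1 a2 b0 b1 b2 : ℝ) : ℝ :=
  ((1 + a0) * (1 + b0) + (1 + a1) * (1 + b1) + (1 + a2) * (1 + b2)) / 3

/-- Variance of the componentwise product. -/
noncomputable def Wr (a0 a1 a2 b0 b1 b2 : ℝ) : ℝ :=
  (((1 + a0) * (1 + b0))^2 + ((1 + a1) * (1 + b1))^2 + ((1 + a2) * (1 + b2))^2) / 3
    - (Zr a0 a1 a2 b0 b1 b2)^2

/-- `Z * x(posterior - 1)`. -/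
noncomputable def tau1 (a0 a1 a2 b0 b1 b2 : ℝ) : ℝ :=
  Zr a0 a1 a2 b0 b1 b2 *
    xI ((1 + a0) * (1 + b0) / Zr a0 a1 a2 b0 b1 b2 - 1)
       ((1 + a1) * (1 + b1) / Zr a0 a1 a2 b0 b1 b2 - 1)
       ((1 + a2) * (1 + b2) / Zr a0 a1 a2 b0 b1 b2 - 1)

/-- `Z * y(posterior - 1)`. -/
noncomputable def tau3 (a0 a1 a2 b0 b1 b2 : ℝ) : ℝ :=
  Zr a0 a1 a2 b0 b1 b2 *
    yI ((1 + a0) * (1 + b0) / Zr a0 a1 a2 b0 b1 b2 - 1)
       ((1 + a1) * (1 + b1) / Zr a0 a1 a2 b0 b1 b2 - 1)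
       ((1 + a2) * (1 + b2) / Zr a0 a1 a2 b0 b1 b2 - 1)

lemma aux_tau1 (p0 p1 p2 Z : ℝ) (hZ : Z ≠ 0) (h : p0 + p1 + p2 = 3 * Z) :
    Z * (((p0 / Z - 1)^2 + (p1 / Z - 1)^2 + (p2 / Z - 1)^2) / 3)
      = ((p0^2 + p1^2 + p2^2) / 3 - Z^2) / Z := by
  obtain rfl : p2 = 3 * Z - p0 - p1 := by linarith
  field_simp
  ring

lemma aux_tau3 (p0 p1 p2 Z : ℝ) (hZ : Z ≠ 0) (h : p0 + p1 + p2 = 3 * Z) :
    Z * (((p0 / Z - 1)^3 + (p1 / Z - 1)^3 + (p2 / Z - 1)^3) / 3)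
      = p0 * p1 * p2 / Z^2 - Z + 3 / 2 * (((p0^2 + p1^2 + p2^2) / 3 - Z^2) / Z) := by
  obtain rfl : p2 = 3 * Z - p0 - p1 := by linarith
  field_simp
  ring

lemma tau1_eq (a0 a1 a2 b0 b1 b2 : ℝ) (hZ : Zr a0 a1 a2 b0 b1 b2 ≠ 0) :
    tau1 a0 a1 a2 b0 b1 b2 = Wr a0 a1 a2 b0 b1 b2 / Zr a0 a1 a2 b0 b1 b2 := by
  unfold tau1 xI Wr
  exact aux_tau1 _ _ _ _ hZ (by unfold Zr; ring)

lemma tau3_eq (a0 a1 a2 b0 b1 b2 : ℝ) (hZ : Zr a0 a1 a2 b0 b1 b2 ≠ 0) :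
    tau3 a0 a1 a2 b0 b1 b2 =
      ((1 + a0) * (1 + a1) * (1 + a2)) * ((1 + b0) * (1 + b1) * (1 + b2)) / (Zr a0 a1 a2 b0 b1 b2)^2
        - Zr a0 a1 a2 b0 b1 b2 + 3 / 2 * (Wr a0 a1 a2 b0 b1 b2 / Zr a0 a1 a2 b0 b1 b2) := by
  unfold tau3 yI Wr
  have := aux_tau3 ((1 + a0) * (1 + b0)) ((1 + a1) * (1 + b1)) ((1 + a2) * (1 + b2))
    (Zr a0 a1 a2 b0 b1 b2) hZ (by unfold Zr; ring)
  rw [this]
  congr 2
  ring

/-- The polynomial `C` in the closed form of the coset average. -/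
noncomputable def Cf (x y X Y : ℝ) : ℝ :=
  2 - x * X - (x + X) * (1 - x * X / 4) + x^2 * X^2 / 8 + X * y * (1 - X / 2) + x * Y * (1 - x / 2)

/-- The polynomial `M`, mean of the products of the normalising factors on the two cosets. -/
noncomputable def Mf (x y X Y : ℝ) : ℝ := 1 - 3 / 4 * x * X + 1 / 2 * y * Y

/-- The target `2 - R` is the upper bound claimed for the average of `tau1`. -/
noncomputable def Rf (x y X Y : ℝ) : ℝ :=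
  2 - x - X + 1 / 20 * x * X + (2 / 3 * x - 2 / 5 * y) * Y + (2 / 3 * X - 2 / 5 * Y) * y

lemma coset_id (a0 a1 a2 b0 b1 b2 : ℝ) (ha : a0 + a1 + a2 = 0) (hb : b0 + b1 + b2 = 0) :
    Wr a0 a1 a2 b0 b1 b2 * Zr a0 a1 a2 b1 b2 b0 * Zr a0 a1 a2 b2 b0 b1
      + Wr a0 a1 a2 b1 b2 b0 * Zr a0 a1 a2 b0 b1 b2 * Zr a0 a1 a2 b2 b0 b1
      + Wr a0 a1 a2 b2 b0 b1 * Zr a0 a1 a2 b0 b1 b2 * Zr a0 a1 a2 b1 b2 b0
    = 3 * (2 * (Zr a0 a1 a2 b0 b1 b2 * Zr a0 a1 a2 b1 b2 b0 * Zr a0 a1 a2 b2 b0 b1)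
        - Cf (xI a0 a1 a2) (yI a0 a1 a2) (xI b0 b1 b2) (yI b0 b1 b2)) := by
  obtain rfl : a2 = - a0 - a1 := by linarith
  obtain rfl : b2 = - b0 - b1 := by linarith
  simp only [Wr, Zr, Cf, xI, yI]
  ring

lemma coset_sum (a0 a1 a2 b0 b1 b2 : ℝ) (ha : a0 + a1 + a2 = 0) (hb : b0 + b1 + b2 = 0) :
    Zr a0 a1 a2 b0 b1 b2 + Zr a0 a1 a2 b1 b2 b0 + Zr a0 a1 a2 b2 b0 b1 = 3 := by
  obtain rfl : a2 = - a0 - a1 := by linarith
  obtain rfl : b2 = - b0 - b1 := by linarith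
  simp only [Zr]
  ring

lemma Mf_id (a0 a1 a2 b0 b1 b2 : ℝ) (ha : a0 + a1 + a2 = 0) (hb : b0 + b1 + b2 = 0) :
    Zr a0 a1 a2 b0 b1 b2 * Zr a0 a1 a2 b1 b2 b0 * Zr a0 a1 a2 b2 b0 b1
      + Zr a0 a1 a2 b0 b2 b1 * Zr a0 a1 a2 b2 b1 b0 * Zr a0 a1 a2 b1 b0 b2
    = 2 * Mf (xI a0 a1 a2) (yI a0 a1 a2) (xI b0 b1 b2) (yI b0 b1 b2) := by
  obtain rfl : a2 = - a0 - a1 := by linarith
  obtain rfl : b2 = - b0 - b1 := by linarith
  simp only [Zr, Mf, xI, yI]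
  ring

lemma xI_swap (b0 b1 b2 : ℝ) : xI b0 b2 b1 = xI b0 b1 b2 := by
  simp only [xI]; ring

lemma yI_swap (b0 b1 b2 : ℝ) : yI b0 b2 b1 = yI b0 b1 b2 := by
  simp only [yI]; ring

/-- The average over one coset. -/
lemma coset_avg (W0 W1 W2 Z0 Z1 Z2 C : ℝ) (h0 : 0 < Z0) (h1 : 0 < Z1) (h2 : 0 < Z2)
    (h : W0 * Z1 * Z2 + W1 * Z0 * Z2 + W2 * Z0 * Z1 = 3 * (2 * (Z0 * Z1 * Z2) - C)) :
    W0 / Z0 + W1 / Z1 + W2 / Z2 = 3 * (2 - C / (Z0 * Z1 * Z2)) := by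
  have h0' := h0.ne'
  have h1' := h1.ne'
  have h2' := h2.ne'
  field_simp
  linarith

/-- Two-stage elementary lemma: an affine function is nonnegative on an interval described by
a lower bound and a linear upper bound as soon as it is at the two ends. -/
lemma aff_nonneg (α β l D m x : ℝ) (hx : l ≤ x) (hD : 0 < D) (hDx : D * x ≤ m)
    (h1 : 0 ≤ α + β * l) (h2 : 0 ≤ D * α + β * m) : 0 ≤ α + β * x := by
  by_cases hβ : 0 ≤ β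
  · have : β * l ≤ β * x := mul_le_mul_of_nonneg_left hx hβ
    linarith
  · replace hβ := not_le.mp hβ
    have h3 : β * m ≤ β * (D * x) := mul_le_mul_of_nonpos_left hDx hβ.le
    have h4 : 0 ≤ D * (α + β * x) := by
      have : D * (α + β * x) = D * α + β * (D * x) := by ring
      rw [this]; linarith
    exact nonneg_of_mul_nonneg_right h4 hD

lemma bi_corner (A B C G l l' D D' m x x' : ℝ) (hx : l ≤ x) (hD : 0 < D) (hDx : D * x ≤ m)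
    (hx' : l' ≤ x') (hD' : 0 < D') (hDx' : D' * x' ≤ m)
    (h1 : 0 ≤ A + B * l + C * l' + G * l * l')
    (h2 : 0 ≤ D' * (A + B * l) + m * (C + G * l))
    (h3 : 0 ≤ D * (A + C * l') + m * (B + G * l'))
    (h4 : 0 ≤ D * D' * A + m * D' * B + m * D * C + m * m * G) :
    0 ≤ A + B * x + C * x' + G * x * x' := by
  have key := aff_nonneg (A + C * x') (B + G * x') l D m x hx hD hDx ?_ ?_
  · nlinarith [key]
  · have := aff_nonneg (A + B * l) (C + G * l) l' D' m x' hx' hD' hDx' (by nlinarith [h1]) (by nlinarith [h2])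
    nlinarith [this]
  · have := aff_nonneg (D * A + B * m) (D * C + G * m) l' D' m x' hx' hD' hDx'
      (by nlinarith [h3]) (by nlinarith [h4])
    nlinarith [this]

/-- Coefficients of the reduced polynomial, in the variables `t = y/x`, `s = Y/X`. -/
noncomputable def Apoly (t s : ℝ) : ℝ :=
  1 / 2 + t + s - t * s - (1 / 20 + 2 / 3 * (t + s) - 4 / 5 * t * s)

noncomputable def Bpoly (t s : ℝ) : ℝ := - (1 + s - t * s) / 2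

noncomputable def Gpoly (t s : ℝ) : ℝ :=
  1 / 8 + (1 / 20 + 2 / 3 * (t + s) - 4 / 5 * t * s) * (3 / 4 - t * s / 2)

lemma cert_RR (t s : ℝ) (h1 : -5/14 ≤ t) (h2 : t ≤ 5/7) (h3 : -5/14 ≤ s) (h4 : s ≤ 5/7) :
    0 ≤ Apoly t s + Bpoly t s * (2*t^2) + Bpoly s t * (2*s^2) + Gpoly t s * (2*t^2) * (2*s^2) := by
  have bern : ∀ p q r u : ℝ, 0 ≤ p → 0 ≤ q → 0 ≤ r → 0 ≤ u →
      0 ≤ (32372314/1423828125)*q^4*u^4 + (2172903118/4271484375)*q^4*r*u^3 + (1438330984/1423828125)*q^4*r^2*u^2 + (698316856/1423828125)*q^4*r^3*u + (136993792/4271484375)*q^4*r^4 + (2172903118/4271484375)*p*q^3*u^4 + (18950014922/4271484375)*p*q^3*r*u^3 + (4117794812/474609375)*p*q^3*r^2*u^2 + (24352768072/4271484375)*p*q^3*r^3*u + (2410351568/4271484375)*p*q^3*r^4 + (1438330984/1423828125)*p^2*q^2*u^4 + (4117794812/474609375)*p^2*q^2*r*u^3 + (7088578468/474609375)*p^2*q^2*r^2*u^2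 + (10272403936/1423828125)*p^2*q^2*r^3*u + (330157328/474609375)*p^2*q^2*r^4 + (698316856/1423828125)*p^3*q*u^4 + (24352768072/4271484375)*p^3*q*r*u^3 + (10272403936/1423828125)*p^3*q*r^2*u^2 + (3824432224/1423828125)*p^3*q*r^3*u + (1001402368/4271484375)*p^3*q*r^4 + (136993792/4271484375)*p^4*u^4 + (2410351568/4271484375)*p^4*r*u^3 + (330157328/474609375)*p^4*r^2*u^2 + (1001402368/4271484375)*p^4*r^3*u + (78344192/4271484375)*p^4*r^4 := by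
    intro p q r u hp hq hr hu
    positivity
  have key := bern (t + 5/14) (5/7 - t) (s + 5/14) (5/7 - s) (by linarith) (by linarith) (by linarith) (by linarith)
  refine le_of_le_of_eq key ?_
  try simp only [Apoly, Bpoly, Gpoly]
  ring


lemma cert_RE (t s : ℝ) (h1 : -5/14 ≤ t) (h2 : t ≤ 5/7) (h3 : -5/14 ≤ s) (h4 : s ≤ 5/7) :
    0 ≤ (15/14 - s) * (Apoly t s + Bpoly t s * (2*t^2)) + 125/343 * (Bpoly s t + Gpoly t s * (2*t^2)) := by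
  have bern : ∀ p q r u : ℝ, 0 ≤ p → 0 ≤ q → 0 ≤ r → 0 ≤ u →
      0 ≤ (16186157/434109375)*q^4*u^2 + (55798609/260465625)*q^4*r*u + (17124224/1302328125)*q^4*r^2 + (1086451559/1302328125)*p*q^3*u^2 + (74341999/28940625)*p*q^3*r*u + (301293946/1302328125)*p*q^3*r^2 + (719165492/434109375)*p^2*q^2*u^2 + (281571898/86821875)*p^2*q^2*r*u + (41269666/144703125)*p^2*q^2*r^2 + (349158428/434109375)*p^3*q*u^2 + (311867476/260465625)*p^3*q*r*u + (125175296/1302328125)*p^3*q*r^2 + (68496896/1302328125)*p^4*u^2 + (2999296/28940625)*p^4*r*u + (9793024/1302328125)*p^4*r^2 := by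
    intro p q r u hp hq hr hu
    positivity
  have key := bern (t + 5/14) (5/7 - t) (s + 5/14) (5/7 - s) (by linarith) (by linarith) (by linarith) (by linarith)
  refine le_of_le_of_eq key ?_
  try simp only [Apoly, Bpoly, Gpoly]
  ring


lemma cert_EE (t s : ℝ) (h1 : -5/14 ≤ t) (h2 : t ≤ 5/7) (h3 : -5/14 ≤ s) (h4 : s ≤ 5/7) :
    0 ≤ (15/14 - t) * (15/14 - s) * Apoly t s + 125/343 * (15/14 - s) * Bpoly t s + 125/343 * (15/14 - t) * Bpoly s t + 125/343 * (125/343) * Gpoly t s := by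
  have bern : ∀ p q r u : ℝ, 0 ≤ p → 0 ≤ q → 0 ≤ r → 0 ≤ u →
      0 ≤ (16186157/264710250)*q^2*u^2 + (55798609/158826150)*q^2*r*u + (8562112/397065375)*q^2*r^2 + (55798609/158826150)*p*q*u^2 + (16943057/31765230)*p*q*r*u + (374912/8823675)*p*q*r^2 + (8562112/397065375)*p^2*u^2 + (374912/8823675)*p^2*r*u + (1224128/397065375)*p^2*r^2 := by
    intro p q r u hp hq hr hu
    positivity
  have key := bern (t + 5/14) (5/7 - t) (s + 5/14) (5/7 - s) (by linarith) (by linarith) (by linarith) (by linarith)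
  refine le_of_le_of_eq key ?_
  try simp only [Apoly, Bpoly, Gpoly]
  ring


lemma cert_K (t s : ℝ) (h1 : -5/14 ≤ t) (h2 : t ≤ 5/7) (h3 : -5/14 ≤ s) (h4 : s ≤ 5/7) :
    0 ≤ 3/2 - 2*(t+s) + 7/4*t*s + 3/8*(t*(2*s^2)+s*(2*t^2)) + 3/8*(2*t^2+2*s^2) + 3/16*(2*t^2)*(2*s^2) := by
  have bern : ∀ p q r u : ℝ, 0 ≤ p → 0 ≤ q → 0 ≤ r → 0 ≤ u →
      0 ≤ (24749459/11390625)*q^3*u^3 + (16837919/3796875)*q^3*r*u^2 + (10591154/3796875)*q^3*r^2*u + (6009164/11390625)*q^3*r^3 + (16837919/3796875)*p*q^2*u^3 + (3315193/421875)*p*q^2*r*u^2 + (4938514/1265625)*p*q^2*r^2*u + (1816724/3796875)*p*q^2*r^3 + (10591154/3796875)*p^2*q*u^3 + (4938514/1265625)*p^2*q*r*u^2 + (739508/421875)*p^2*q*r^2*u + (2431184/3796875)*p^2*q*r^3 + (6009164/11390625)*p^3*u^3 + (1816724/3796875)*p^3*r*u^2 + (2431184/3796875)*p^3*r^2*u + (7852544/11390625)*p^3*r^3 := by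
    intro p q r u hp hq hr hu
    positivity
  have key := bern (t + 5/14) (5/7 - t) (s + 5/14) (5/7 - s) (by linarith) (by linarith) (by linarith) (by linarith)
  refine le_of_le_of_eq key ?_
  try simp only [Apoly, Bpoly, Gpoly]
  ring


/-- Domain facts for a zero-sum triple with lower bound `-lam`. -/
lemma dom_facts {lam a0 a1 a2 : ℝ} (h0 : 0 ≤ lam) (h2 : 2 * lam^2 ≤ 1)
    (ha : a0 + a1 + a2 = 0) (h_0 : -lam ≤ a0) (h_1 : -lam ≤ a1) (h_2 : -lam ≤ a2) :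
    0 ≤ xI a0 a1 a2 ∧ xI a0 a1 a2 ≤ 2 * lam^2 ∧ 2 * (yI a0 a1 a2)^2 ≤ (xI a0 a1 a2)^3 ∧
      0 ≤ 125 / 343 - 15 / 14 * xI a0 a1 a2 + yI a0 a1 a2 := by
  have hlam : lam ≤ 5 / 7 := by nlinarith
  refine ⟨?_, ?_, ?_, ?_⟩
  · unfold xI; positivity
  · -- `(a_i + lam)(a_i - 2 lam) ≤ 0`
    have h3 : a0 ≤ 2 * lam := by linarith
    have h4 : a1 ≤ 2 * lam := by linarith
    have h5 : a2 ≤ 2 * lam := by linarith
    have e0 := mul_nonneg (sub_nonneg.2 h_0) (sub_nonneg.2 h3)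
    have e1 := mul_nonneg (sub_nonneg.2 h_1) (sub_nonneg.2 h4)
    have e2 := mul_nonneg (sub_nonneg.2 h_2) (sub_nonneg.2 h5)
    unfold xI
    nlinarith
  · have key : (xI a0 a1 a2)^3 - 2 * (yI a0 a1 a2)^2
        = 2 / 27 * ((a0 - a1) * (a1 - a2) * (a2 - a0))^2 := by
      obtain rfl : a2 = - a0 - a1 := by linarith
      simp only [xI, yI]
      ring
    have : 0 ≤ 2 / 27 * ((a0 - a1) * (a1 - a2) * (a2 - a0))^2 := by positivity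
    linarith
  · have key : 125 / 343 - 15 / 14 * xI a0 a1 a2 + yI a0 a1 a2
        = (5 / 7 + a0) * (5 / 7 + a1) * (5 / 7 + a2) := by
      obtain rfl : a2 = - a0 - a1 := by linarith
      simp only [xI, yI]
      ring
    rw [key]
    have h3 : 0 ≤ 5 / 7 + a0 := by linarith
    have h4 : 0 ≤ 5 / 7 + a1 := by linarith
    have h5 : 0 ≤ 5 / 7 + a2 := by linarith
    positivity

/-- Range of `t = y / x`. -/
lemma t_range_aux {t x : ℝ} (hx : 0 < x) (hx1 : x ≤ 1) (hy : 2 * (t * x)^2 ≤ x^3)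
    (he : 0 ≤ 125 / 343 - 15 / 14 * x + t * x) :
    -5 / 14 ≤ t ∧ t ≤ 5 / 7 ∧ 2 * t^2 ≤ x ∧ (15 / 14 - t) * x ≤ 125 / 343 := by
  have h1 : 2 * t^2 ≤ x := by
    have h2 : 0 ≤ x^2 * (x - 2 * t^2) := by nlinarith
    have h3 : 0 < x^2 := by positivity
    have := nonneg_of_mul_nonneg_right h2 h3
    linarith
  have h4 : t ≤ 5 / 7 := by nlinarith
  have h5 : (15 / 14 - t) * x ≤ 125 / 343 := by nlinarith
  refine ⟨?_, h4, h1, h5⟩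
  by_contra hlt
  have hlt' : t < -5 / 14 := not_le.mp hlt
  have hD : 0 < 15 / 14 - t := by linarith
  have h6 : (15 / 14 - t) * (2 * t^2) ≤ 125 / 343 :=
    le_trans (mul_le_mul_of_nonneg_left h1 hD.le) h5
  have h7 : (t - 5 / 7)^2 * (2 * t + 5 / 7) ≥ 0 := by nlinarith
  have h8 : 0 < (t - 5 / 7)^2 := by
    have : t - 5 / 7 ≠ 0 := by intro h; linarith
    positivity
  have h9 : 2 * t + 5 / 7 < 0 := by linarith
  nlinarith [mul_neg_of_pos_of_neg h8 h9]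

lemma t_range {x y : ℝ} (hx : 0 < x) (hx1 : x ≤ 1) (hy : 2 * y^2 ≤ x^3)
    (he : 0 ≤ 125 / 343 - 15 / 14 * x + y) :
    -5 / 14 ≤ y / x ∧ y / x ≤ 5 / 7 ∧ 2 * (y / x)^2 ≤ x ∧ (15 / 14 - y / x) * x ≤ 125 / 343 := by
  have hyt : y / x * x = y := div_mul_cancel₀ y hx.ne'
  exact t_range_aux hx hx1 (by rw [hyt]; exact hy) (by rw [hyt]; exact he)

/-- The polynomial inequality behind the bound on `tau1`. -/
lemma Psi_nonneg {x y X Y : ℝ} (hx : 0 ≤ x) (hx1 : x ≤ 1) (hy : 2 * y^2 ≤ x^3)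
    (he : 0 ≤ 125 / 343 - 15 / 14 * x + y)
    (hX : 0 ≤ X) (hX1 : X ≤ 1) (hY : 2 * Y^2 ≤ X^3)
    (hE : 0 ≤ 125 / 343 - 15 / 14 * X + Y) :
    Mf x y X Y * Rf x y X Y ≤ Cf x y X Y := by
  rcases hx.eq_or_lt with rfl | hx0
  · have : y = 0 := by
      have : y^2 ≤ 0 := by nlinarith
      have h3 : y^2 = 0 := le_antisymm this (sq_nonneg y)
      exact pow_eq_zero_iff (two_ne_zero) |>.mp h3
    subst this
    simp only [Mf, Rf, Cf]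
    apply le_of_eq
    ring
  rcases hX.eq_or_lt with rfl | hX0
  · have : Y = 0 := by
      have : Y^2 ≤ 0 := by nlinarith
      have h3 : Y^2 = 0 := le_antisymm this (sq_nonneg Y)
      exact pow_eq_zero_iff (two_ne_zero) |>.mp h3
    subst this
    simp only [Mf, Rf, Cf]
    apply le_of_eq
    ring
  obtain ⟨t1, t2, t3, t4⟩ := t_range hx0 hx1 hy he
  obtain ⟨s1, s2, s3, s4⟩ := t_range hX0 hX1 hY hE
  set t := y / x with ht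
  set s := Y / X with hs
  have hyt : y = t * x := by rw [ht]; field_simp
  have hYs : Y = s * X := by rw [hs]; field_simp
  have main := bi_corner (Apoly t s) (Bpoly t s) (Bpoly s t) (Gpoly t s) (2 * t^2) (2 * s^2)
    (15 / 14 - t) (15 / 14 - s) (125 / 343) x X t3 (by linarith) t4 s3 (by linarith) s4
    (cert_RR t s t1 t2 s1 s2) (cert_RE t s t1 t2 s1 s2) ?_ ?_
  · have id : Cf x y X Y - Mf x y X Y * Rf x y X Y
        = x * X * (Apoly t s + Bpoly t s * x + Bpoly s t * X + Gpoly t s * x * X) := by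
      rw [hyt, hYs]
      simp only [Mf, Rf, Cf, Apoly, Bpoly, Gpoly]
      ring
    have : 0 ≤ x * X * (Apoly t s + Bpoly t s * x + Bpoly s t * X + Gpoly t s * x * X) :=
      mul_nonneg (mul_nonneg hx hX) main
    linarith
  · have := cert_RE s t s1 s2 t1 t2
    have e : (15 / 14 - t) * (Apoly t s + Bpoly s t * (2 * s^2))
        + 125 / 343 * (Bpoly t s + Gpoly t s * (2 * s^2))
        = (15 / 14 - t) * (Apoly s t + Bpoly s t * (2 * s^2))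
        + 125 / 343 * (Bpoly t s + Gpoly s t * (2 * s^2)) := by
      simp only [Apoly, Bpoly, Gpoly]
      ring
    rw [e]
    exact this
  · exact cert_EE t s t1 t2 s1 s2

/-- Upper bound on the average of `tau1` (positive channel). -/
theorem T1_upper {lam a0 a1 a2 b0 b1 b2 : ℝ} (h0 : 0 ≤ lam) (h2 : 2 * lam^2 ≤ 1)
    (ha : a0 + a1 + a2 = 0) (hb : b0 + b1 + b2 = 0)
    (ha0 : -lam ≤ a0) (ha1 : -lam ≤ a1) (ha2 : -lam ≤ a2)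
    (hb0 : -lam ≤ b0) (hb1 : -lam ≤ b1) (hb2 : -lam ≤ b2) :
    (tau1 a0 a1 a2 b0 b1 b2 + tau1 a0 a1 a2 b1 b2 b0 + tau1 a0 a1 a2 b2 b0 b1
      + tau1 a0 a1 a2 b0 b2 b1 + tau1 a0 a1 a2 b2 b1 b0 + tau1 a0 a1 a2 b1 b0 b2) / 6
    ≤ xI a0 a1 a2 + xI b0 b1 b2 - 1 / 20 * (xI a0 a1 a2 * xI b0 b1 b2)
      - (2 / 3 * xI a0 a1 a2 - 2 / 5 * yI a0 a1 a2) * yI b0 b1 b2
      - (2 / 3 * xI b0 b1 b2 - 2 / 5 * yI b0 b1 b2) * yI a0 a1 a2 := by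
  have hlam : lam < 1 := by nlinarith
  obtain ⟨x0, x1, x2, x3⟩ := dom_facts h0 h2 ha ha0 ha1 ha2
  obtain ⟨y0, y1, y2, y3⟩ := dom_facts h0 h2 hb hb0 hb1 hb2
  have pa0 : 0 < 1 + a0 := by linarith
  have pa1 : 0 < 1 + a1 := by linarith
  have pa2 : 0 < 1 + a2 := by linarith
  have pb0 : 0 < 1 + b0 := by linarith
  have pb1 : 0 < 1 + b1 := by linarith
  have pb2 : 0 < 1 + b2 := by linarith
  have Zpos : ∀ c0 c1 c2 : ℝ, 0 < 1 + c0 → 0 < 1 + c1 → 0 < 1 + c2 → 0 < Zr a0 a1 a2 c0 c1 c2 := by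
    intro c0 c1 c2 h0 h1 h2
    unfold Zr
    positivity
  have Wle : ∀ c0 c1 c2 : ℝ, 0 < 1 + c0 → 0 < 1 + c1 → 0 < 1 + c2 →
      Wr a0 a1 a2 c0 c1 c2 / Zr a0 a1 a2 c0 c1 c2 ≤ 2 * Zr a0 a1 a2 c0 c1 c2 := by
    intro c0 c1 c2 h0 h1 h2
    have hZ := Zpos c0 c1 c2 h0 h1 h2
    rw [div_le_iff₀ hZ]
    have p0 : 0 ≤ (1 + a0) * (1 + c0) := by positivity
    have p1 : 0 ≤ (1 + a1) * (1 + c1) := by positivity
    have p2 : 0 ≤ (1 + a2) * (1 + c2) := by positivity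
    have e : 2 * Zr a0 a1 a2 c0 c1 c2 * Zr a0 a1 a2 c0 c1 c2 - Wr a0 a1 a2 c0 c1 c2
        = 2 / 3 * (((1 + a0) * (1 + c0)) * ((1 + a1) * (1 + c1))
          + ((1 + a0) * (1 + c0)) * ((1 + a2) * (1 + c2))
          + ((1 + a1) * (1 + c1)) * ((1 + a2) * (1 + c2))) := by
      simp only [Wr, Zr]
      ring
    have : 0 ≤ 2 / 3 * (((1 + a0) * (1 + c0)) * ((1 + a1) * (1 + c1))
          + ((1 + a0) * (1 + c0)) * ((1 + a2) * (1 + c2))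
          + ((1 + a1) * (1 + c1)) * ((1 + a2) * (1 + c2))) := by positivity
    linarith
  -- names
  have Z0 := Zpos b0 b1 b2 pb0 pb1 pb2
  have Z1 := Zpos b1 b2 b0 pb1 pb2 pb0
  have Z2 := Zpos b2 b0 b1 pb2 pb0 pb1
  have Z3 := Zpos b0 b2 b1 pb0 pb2 pb1
  have Z4 := Zpos b2 b1 b0 pb2 pb1 pb0
  have Z5 := Zpos b1 b0 b2 pb1 pb0 pb2
  rw [tau1_eq _ _ _ _ _ _ Z0.ne', tau1_eq _ _ _ _ _ _ Z1.ne', tau1_eq _ _ _ _ _ _ Z2.ne',
    tau1_eq _ _ _ _ _ _ Z3.ne', tau1_eq _ _ _ _ _ _ Z4.ne', tau1_eq _ _ _ _ _ _ Z5.ne']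
  have hb' : b0 + b2 + b1 = 0 := by linarith
  have cid1 := coset_id a0 a1 a2 b0 b1 b2 ha hb
  have cid2 := coset_id a0 a1 a2 b0 b2 b1 ha hb'
  rw [xI_swap b0 b1 b2, yI_swap b0 b1 b2] at cid2
  set x := xI a0 a1 a2
  set y := yI a0 a1 a2
  set X := xI b0 b1 b2
  set Y := yI b0 b1 b2
  have avg1 := coset_avg _ _ _ _ _ _ _ Z0 Z1 Z2 cid1
  have avg2 := coset_avg _ _ _ _ _ _ _ Z3 Z4 Z5 cid2
  have sum1 := coset_sum a0 a1 a2 b0 b1 b2 ha hb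
  -- `C ≥ 0`
  have P1 : 0 < Zr a0 a1 a2 b0 b1 b2 * Zr a0 a1 a2 b1 b2 b0 * Zr a0 a1 a2 b2 b0 b1 := by positivity
  have P2 : 0 < Zr a0 a1 a2 b0 b2 b1 * Zr a0 a1 a2 b2 b1 b0 * Zr a0 a1 a2 b1 b0 b2 := by positivity
  have C0 : 0 ≤ Cf x y X Y := by
    have l0 := Wle b0 b1 b2 pb0 pb1 pb2
    have l1 := Wle b1 b2 b0 pb1 pb2 pb0
    have l2 := Wle b2 b0 b1 pb2 pb0 pb1
    have : 0 ≤ Cf x y X Y / (Zr a0 a1 a2 b0 b1 b2 * Zr a0 a1 a2 b1 b2 b0 * Zr a0 a1 a2 b2 b0 b1) := by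
      linarith
    exact nonneg_of_mul_nonneg_left (by
      rw [div_eq_mul_inv] at this
      exact this) (inv_pos.mpr P1)
  have Mid := Mf_id a0 a1 a2 b0 b1 b2 ha hb
  change _ = 2 * Mf x y X Y at Mid
  have Mpos : 0 < Mf x y X Y := by linarith
  have hx1 : x ≤ 1 := by linarith
  have hX1 : X ≤ 1 := by linarith
  have Psi := Psi_nonneg x0 hx1 x2 x3 y0 hX1 y2 y3
  -- AM-HM on the two cosets
  set P₁ := Zr a0 a1 a2 b0 b1 b2 * Zr a0 a1 a2 b1 b2 b0 * Zr a0 a1 a2 b2 b0 b1 with hP₁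
  set P₂ := Zr a0 a1 a2 b0 b2 b1 * Zr a0 a1 a2 b2 b1 b0 * Zr a0 a1 a2 b1 b0 b2 with hP₂
  have amhm : 1 / Mf x y X Y ≤ (1 / P₁ + 1 / P₂) / 2 := by
    have hM : Mf x y X Y = (P₁ + P₂) / 2 := by linarith
    rw [hM]
    have : (1 / P₁ + 1 / P₂) / 2 - 1 / ((P₁ + P₂) / 2) = (P₁ - P₂)^2 / (2 * P₁ * P₂ * (P₁ + P₂)) := by
      field_simp
      ring
    have h3 : 0 ≤ (P₁ - P₂)^2 / (2 * P₁ * P₂ * (P₁ + P₂)) := by positivity
    linarith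
  have step : Rf x y X Y ≤ Cf x y X Y / Mf x y X Y := by
    rw [le_div_iff₀ Mpos]
    linarith
  have step2 : Cf x y X Y / Mf x y X Y ≤ Cf x y X Y * ((1 / P₁ + 1 / P₂) / 2) := by
    have := mul_le_mul_of_nonneg_left amhm C0
    calc Cf x y X Y / Mf x y X Y = Cf x y X Y * (1 / Mf x y X Y) := by ring
      _ ≤ _ := this
  have e1 : Cf x y X Y * ((1 / P₁ + 1 / P₂) / 2) = (Cf x y X Y / P₁ + Cf x y X Y / P₂) / 2 := by
    ring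
  have final : (Wr a0 a1 a2 b0 b1 b2 / Zr a0 a1 a2 b0 b1 b2
      + Wr a0 a1 a2 b1 b2 b0 / Zr a0 a1 a2 b1 b2 b0
      + Wr a0 a1 a2 b2 b0 b1 / Zr a0 a1 a2 b2 b0 b1
      + Wr a0 a1 a2 b0 b2 b1 / Zr a0 a1 a2 b0 b2 b1
      + Wr a0 a1 a2 b2 b1 b0 / Zr a0 a1 a2 b2 b1 b0
      + Wr a0 a1 a2 b1 b0 b2 / Zr a0 a1 a2 b1 b0 b2) / 6 = 2 - (Cf x y X Y / P₁ + Cf x y X Y / P₂) / 2 := by
    linarith
  rw [final]
  simp only [Rf] at step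
  have e2 : 2 - (2 - x - X + 1 / 20 * x * X + (2 / 3 * x - 2 / 5 * y) * Y + (2 / 3 * X - 2 / 5 * Y) * y)
      = x + X - 1 / 20 * (x * X) - (2 / 3 * x - 2 / 5 * y) * Y - (2 / 3 * X - 2 / 5 * Y) * y := by ring
  linarith

lemma Z_le_two {lam a0 a1 a2 c0 c1 c2 : ℝ} (h0 : 0 ≤ lam) (h2 : 2 * lam^2 ≤ 1)
    (ha : a0 + a1 + a2 = 0) (hc : c0 + c1 + c2 = 0)
    (ha0 : -lam ≤ a0) (ha1 : -lam ≤ a1) (ha2 : -lam ≤ a2)
    (hc0 : -lam ≤ c0) (hc1 : -lam ≤ c1) (hc2 : -lam ≤ c2) :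
    Zr a0 a1 a2 c0 c1 c2 ≤ 2 := by
  have e0 : 0 ≤ (2 * lam - a0) * (c0 + lam) := mul_nonneg (by linarith) (by linarith)
  have e1 : 0 ≤ (2 * lam - a1) * (c1 + lam) := mul_nonneg (by linarith) (by linarith)
  have e2 : 0 ≤ (2 * lam - a2) * (c2 + lam) := mul_nonneg (by linarith) (by linarith)
  obtain rfl : a2 = - a0 - a1 := by linarith
  obtain rfl : c2 = - c0 - c1 := by linarith
  unfold Zr
  nlinarith

/-- One term of the lower bound for `tau3`. -/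
lemma tau3_term {E E' Z W : ℝ} (hE : 0 ≤ E) (hE' : 0 ≤ E') (hZ : 0 < Z) (hZ2 : Z ≤ 2) (hW : 0 ≤ W) :
    E * E' * (1 - 2 * (Z - 1)) - Z + 3 / 2 * (W * (1 - (Z - 1) + 1 / 2 * (Z - 1)^2))
      ≤ E * E' / Z^2 - Z + 3 / 2 * (W / Z) := by
  have h1 : 1 - 2 * (Z - 1) ≤ 1 / Z^2 := by
    rw [le_div_iff₀ (by positivity)]
    nlinarith [mul_nonneg (sq_nonneg (1 - Z)) (by linarith : (0:ℝ) ≤ 1 + 2 * Z)]
  have h2 : 1 - (Z - 1) + 1 / 2 * (Z - 1)^2 ≤ 1 / Z := by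
    rw [le_div_iff₀ hZ]
    nlinarith [mul_nonneg (sq_nonneg (Z - 1)) (by linarith : (0:ℝ) ≤ 2 - Z)]
  have h3 := mul_le_mul_of_nonneg_left h1 (mul_nonneg hE hE')
  have h4 := mul_le_mul_of_nonneg_left h2 hW
  have e1 : E * E' / Z^2 = E * E' * (1 / Z^2) := by ring
  have e2 : W / Z = W * (1 / Z) := by ring
  rw [e1, e2]
  linarith

/-- The polynomial lower bound for the average of `tau3`. -/
noncomputable def Lf (x y X Y : ℝ) : ℝ :=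
  (1 - 3 / 2 * x + y) * (1 - 3 / 2 * X + Y) - 1
    + 3 / 2 * ((x + X + x * X / 2) - (x * X + x * Y + X * y)
      + 1 / 2 * (y * Y + y * X^2 / 2 + x * X^2 / 2 + x^2 * Y / 2 + x^2 * X / 2 + x^2 * X^2 / 4))

lemma Lf_id (a0 a1 a2 b0 b1 b2 : ℝ) (ha : a0 + a1 + a2 = 0) (hb : b0 + b1 + b2 = 0) :
    (((1 + a0) * (1 + a1) * (1 + a2)) * ((1 + b0) * (1 + b1) * (1 + b2)) * (1 - 2 * (Zr a0 a1 a2 b0 b1 b2 - 1)) - Zr a0 a1 a2 b0 b1 b2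
        + 3 / 2 * (Wr a0 a1 a2 b0 b1 b2 * (1 - (Zr a0 a1 a2 b0 b1 b2 - 1) + 1 / 2 * (Zr a0 a1 a2 b0 b1 b2 - 1)^2)))
    + (((1 + a0) * (1 + a1) * (1 + a2)) * ((1 + b1) * (1 + b2) * (1 + b0)) * (1 - 2 * (Zr a0 a1 a2 b1 b2 b0 - 1)) - Zr a0 a1 a2 b1 b2 b0
        + 3 / 2 * (Wr a0 a1 a2 b1 b2 b0 * (1 - (Zr a0 a1 a2 b1 b2 b0 - 1) + 1 / 2 * (Zr a0 a1 a2 b1 b2 b0 - 1)^2)))
    + (((1 + a0) * (1 + a1) * (1 + a2)) * ((1 + b2) * (1 + b0) * (1 + b1)) * (1 - 2 * (Zr a0 a1 a2 b2 b0 b1 - 1)) - Zr a0 a1 a2 b2 b0 b1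
        + 3 / 2 * (Wr a0 a1 a2 b2 b0 b1 * (1 - (Zr a0 a1 a2 b2 b0 b1 - 1) + 1 / 2 * (Zr a0 a1 a2 b2 b0 b1 - 1)^2)))
    + (((1 + a0) * (1 + a1) * (1 + a2)) * ((1 + b0) * (1 + b2) * (1 + b1)) * (1 - 2 * (Zr a0 a1 a2 b0 b2 b1 - 1)) - Zr a0 a1 a2 b0 b2 b1
        + 3 / 2 * (Wr a0 a1 a2 b0 b2 b1 * (1 - (Zr a0 a1 a2 b0 b2 b1 - 1) + 1 / 2 * (Zr a0 a1 a2 b0 b2 b1 - 1)^2)))
    + (((1 + a0) * (1 + a1) * (1 + a2)) * ((1 + b2) * (1 + b1) * (1 + b0)) * (1 - 2 * (Zr a0 a1 a2 b2 b1 b0 - 1)) - Zr a0 a1 a2 b2 b1 b0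
        + 3 / 2 * (Wr a0 a1 a2 b2 b1 b0 * (1 - (Zr a0 a1 a2 b2 b1 b0 - 1) + 1 / 2 * (Zr a0 a1 a2 b2 b1 b0 - 1)^2)))
    + (((1 + a0) * (1 + a1) * (1 + a2)) * ((1 + b1) * (1 + b0) * (1 + b2)) * (1 - 2 * (Zr a0 a1 a2 b1 b0 b2 - 1)) - Zr a0 a1 a2 b1 b0 b2
        + 3 / 2 * (Wr a0 a1 a2 b1 b0 b2 * (1 - (Zr a0 a1 a2 b1 b0 b2 - 1) + 1 / 2 * (Zr a0 a1 a2 b1 b0 b2 - 1)^2)))
    = 6 * Lf (xI a0 a1 a2) (yI a0 a1 a2) (xI b0 b1 b2) (yI b0 b1 b2) := by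
  obtain rfl : a2 = - a0 - a1 := by linarith
  obtain rfl : b2 = - b0 - b1 := by linarith
  simp only [Wr, Zr, Lf, xI, yI]
  ring

/-- The polynomial inequality behind the bound on `tau3`. -/
lemma K_nonneg {x y X Y : ℝ} (hx : 0 ≤ x) (hx1 : x ≤ 1) (hy : 2 * y^2 ≤ x^3)
    (he : 0 ≤ 125 / 343 - 15 / 14 * x + y)
    (hX : 0 ≤ X) (hX1 : X ≤ 1) (hY : 2 * Y^2 ≤ X^3)
    (hE : 0 ≤ 125 / 343 - 15 / 14 * X + Y) :
    (1 - x) * Y + (1 - X) * y ≤ Lf x y X Y := by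
  rcases hx.eq_or_lt with rfl | hx0
  · have : y = 0 := by
      have : y^2 ≤ 0 := by nlinarith
      have h3 : y^2 = 0 := le_antisymm this (sq_nonneg y)
      exact pow_eq_zero_iff (two_ne_zero) |>.mp h3
    subst this
    simp only [Lf]
    apply le_of_eq
    ring
  rcases hX.eq_or_lt with rfl | hX0
  · have : Y = 0 := by
      have : Y^2 ≤ 0 := by nlinarith
      have h3 : Y^2 = 0 := le_antisymm this (sq_nonneg Y)
      exact pow_eq_zero_iff (two_ne_zero) |>.mp h3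
    subst this
    simp only [Lf]
    apply le_of_eq
    ring
  obtain ⟨t1, t2, t3, t4⟩ := t_range hx0 hx1 hy he
  obtain ⟨s1, s2, s3, s4⟩ := t_range hX0 hX1 hY hE
  set t := y / x with ht
  set s := Y / X with hs
  have hyt : y = t * x := by rw [ht]; field_simp
  have hYs : Y = s * X := by rw [hs]; field_simp
  have base := cert_K t s t1 t2 s1 s2
  have mono : 3 / 2 - 2 * (t + s) + 7 / 4 * t * s + 3 / 8 * (t * (2 * s^2) + s * (2 * t^2))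
        + 3 / 8 * (2 * t^2 + 2 * s^2) + 3 / 16 * (2 * t^2) * (2 * s^2)
      ≤ 3 / 2 - 2 * (t + s) + 7 / 4 * t * s + 3 / 8 * (t * X + s * x)
        + 3 / 8 * (x + X) + 3 / 16 * x * X := by
    have c1 : 0 ≤ (x - 2 * t^2) * (3 / 8 * (1 + s) + 3 / 16 * X) :=
      mul_nonneg (by linarith) (by nlinarith)
    have c2 : 0 ≤ (X - 2 * s^2) * (3 / 8 * (1 + t) + 3 / 16 * (2 * t^2)) :=
      mul_nonneg (by linarith) (by nlinarith [sq_nonneg t])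
    nlinarith
  have id : Lf x y X Y - ((1 - x) * Y + (1 - X) * y)
      = x * X * (3 / 2 - 2 * (t + s) + 7 / 4 * t * s + 3 / 8 * (t * X + s * x)
        + 3 / 8 * (x + X) + 3 / 16 * x * X) := by
    rw [hyt, hYs]
    simp only [Lf]
    ring
  have : 0 ≤ x * X * (3 / 2 - 2 * (t + s) + 7 / 4 * t * s + 3 / 8 * (t * X + s * x)
        + 3 / 8 * (x + X) + 3 / 16 * x * X) :=
    mul_nonneg (mul_nonneg hx hX) (le_trans base mono)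
  linarith

/-- Lower bound on the average of `tau3` (positive channel). -/
theorem T3_lower {lam a0 a1 a2 b0 b1 b2 : ℝ} (h0 : 0 ≤ lam) (h2 : 2 * lam^2 ≤ 1)
    (ha : a0 + a1 + a2 = 0) (hb : b0 + b1 + b2 = 0)
    (ha0 : -lam ≤ a0) (ha1 : -lam ≤ a1) (ha2 : -lam ≤ a2)
    (hb0 : -lam ≤ b0) (hb1 : -lam ≤ b1) (hb2 : -lam ≤ b2) :
    (1 - xI a0 a1 a2) * yI b0 b1 b2 + (1 - xI b0 b1 b2) * yI a0 a1 a2
    ≤ (tau3 a0 a1 a2 b0 b1 b2 + tau3 a0 a1 a2 b1 b2 b0 + tau3 a0 a1 a2 b2 b0 b1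
      + tau3 a0 a1 a2 b0 b2 b1 + tau3 a0 a1 a2 b2 b1 b0 + tau3 a0 a1 a2 b1 b0 b2) / 6 := by
  have hlam : lam < 1 := by nlinarith
  obtain ⟨x0, x1, x2, x3⟩ := dom_facts h0 h2 ha ha0 ha1 ha2
  obtain ⟨y0, y1, y2, y3⟩ := dom_facts h0 h2 hb hb0 hb1 hb2
  have pa0 : 0 < 1 + a0 := by linarith
  have pa1 : 0 < 1 + a1 := by linarith
  have pa2 : 0 < 1 + a2 := by linarith
  have pb0 : 0 < 1 + b0 := by linarith
  have pb1 : 0 < 1 + b1 := by linarith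
  have pb2 : 0 < 1 + b2 := by linarith
  have hE : 0 ≤ (1 + a0) * (1 + a1) * (1 + a2) := by positivity
  have term : ∀ c0 c1 c2 : ℝ, c0 + c1 + c2 = 0 → -lam ≤ c0 → -lam ≤ c1 → -lam ≤ c2 →
      ((1 + a0) * (1 + a1) * (1 + a2)) * ((1 + c0) * (1 + c1) * (1 + c2)) * (1 - 2 * (Zr a0 a1 a2 c0 c1 c2 - 1)) - Zr a0 a1 a2 c0 c1 c2
        + 3 / 2 * (Wr a0 a1 a2 c0 c1 c2 * (1 - (Zr a0 a1 a2 c0 c1 c2 - 1) + 1 / 2 * (Zr a0 a1 a2 c0 c1 c2 - 1)^2))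
      ≤ tau3 a0 a1 a2 c0 c1 c2 := by
    intro c0 c1 c2 hc h_0 h_1 h_2
    have p0 : 0 < 1 + c0 := by linarith
    have p1 : 0 < 1 + c1 := by linarith
    have p2 : 0 < 1 + c2 := by linarith
    have hZ : 0 < Zr a0 a1 a2 c0 c1 c2 := by
      unfold Zr
      positivity
    have hZ2 := Z_le_two h0 h2 ha hc ha0 ha1 ha2 h_0 h_1 h_2
    have hW : 0 ≤ Wr a0 a1 a2 c0 c1 c2 := by
      have : Wr a0 a1 a2 c0 c1 c2 = (((1 + a0) * (1 + c0) - (1 + a1) * (1 + c1))^2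
          + ((1 + a0) * (1 + c0) - (1 + a2) * (1 + c2))^2
          + ((1 + a1) * (1 + c1) - (1 + a2) * (1 + c2))^2) / 9 := by
        simp only [Wr, Zr]
        ring
      rw [this]
      positivity
    rw [tau3_eq _ _ _ _ _ _ hZ.ne']
    exact tau3_term hE (by positivity) hZ hZ2 hW
  have t0 := term b0 b1 b2 hb hb0 hb1 hb2
  have t1 := term b1 b2 b0 (by linarith) hb1 hb2 hb0
  have t2 := term b2 b0 b1 (by linarith) hb2 hb0 hb1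
  have t3 := term b0 b2 b1 (by linarith) hb0 hb2 hb1
  have t4 := term b2 b1 b0 (by linarith) hb2 hb1 hb0
  have t5 := term b1 b0 b2 (by linarith) hb1 hb0 hb2
  have id := Lf_id a0 a1 a2 b0 b1 b2 ha hb
  have K := K_nonneg x0 (by linarith) x2 x3 y0 (by linarith) y2 y3
  linarith

/-- The six-term average of the variance term. -/
lemma Wsum_id (a0 a1 a2 b0 b1 b2 : ℝ) (ha : a0 + a1 + a2 = 0) (hb : b0 + b1 + b2 = 0) :
    Wr a0 a1 a2 b0 b1 b2 + Wr a0 a1 a2 b1 b2 b0 + Wr a0 a1 a2 b2 b0 b1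
      + Wr a0 a1 a2 b0 b2 b1 + Wr a0 a1 a2 b2 b1 b0 + Wr a0 a1 a2 b1 b0 b2
    = 6 * (xI a0 a1 a2 + xI b0 b1 b2 + xI a0 a1 a2 * xI b0 b1 b2 / 2) := by
  obtain rfl : a2 = - a0 - a1 := by linarith
  obtain rfl : b2 = - b0 - b1 := by linarith
  simp only [Wr, Zr, xI]
  ring

/-- The antiferromagnetic range: a simple contraction. Here `nu = - lam`. -/
theorem T1_neg {nu a0 a1 a2 b0 b1 b2 : ℝ} (h0 : 0 ≤ nu) (h2 : nu ≤ 1 / 2)
    (ha : a0 + a1 + a2 = 0) (hb : b0 + b1 + b2 = 0)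
    (ha0 : a0 ≤ nu) (ha1 : a1 ≤ nu) (ha2 : a2 ≤ nu)
    (hb0 : b0 ≤ nu) (hb1 : b1 ≤ nu) (hb2 : b2 ≤ nu)
    (ha0' : -(2 * nu) ≤ a0) (ha1' : -(2 * nu) ≤ a1) (ha2' : -(2 * nu) ≤ a2)
    (hb0' : -(2 * nu) ≤ b0) (hb1' : -(2 * nu) ≤ b1) (hb2' : -(2 * nu) ≤ b2) :
    (tau1 a0 a1 a2 b0 b1 b2 + tau1 a0 a1 a2 b1 b2 b0 + tau1 a0 a1 a2 b2 b0 b1
      + tau1 a0 a1 a2 b0 b2 b1 + tau1 a0 a1 a2 b2 b1 b0 + tau1 a0 a1 a2 b1 b0 b2) / 6
    ≤ 3 / 2 * (xI a0 a1 a2 + xI b0 b1 b2) := by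
  have term : ∀ c0 c1 c2 : ℝ, c0 + c1 + c2 = 0 → c0 ≤ nu → c1 ≤ nu → c2 ≤ nu →
      tau1 a0 a1 a2 c0 c1 c2 ≤ 4 / 3 * Wr a0 a1 a2 c0 c1 c2 := by
    intro c0 c1 c2 hc h_0 h_1 h_2
    have e0 : 0 ≤ (nu - a0) * (nu - c0) := mul_nonneg (by linarith) (by linarith)
    have e1 : 0 ≤ (nu - a1) * (nu - c1) := mul_nonneg (by linarith) (by linarith)
    have e2 : 0 ≤ (nu - a2) * (nu - c2) := mul_nonneg (by linarith) (by linarith)
    have hZ : 3 / 4 ≤ Zr a0 a1 a2 c0 c1 c2 := by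
      obtain rfl : a2 = - a0 - a1 := by linarith
      obtain rfl : c2 = - c0 - c1 := by linarith
      unfold Zr
      nlinarith
    have hZ0 : 0 < Zr a0 a1 a2 c0 c1 c2 := by linarith
    have hW : 0 ≤ Wr a0 a1 a2 c0 c1 c2 := by
      have : Wr a0 a1 a2 c0 c1 c2 = (((1 + a0) * (1 + c0) - (1 + a1) * (1 + c1))^2
          + ((1 + a0) * (1 + c0) - (1 + a2) * (1 + c2))^2
          + ((1 + a1) * (1 + c1) - (1 + a2) * (1 + c2))^2) / 9 := by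
        simp only [Wr, Zr]
        ring
      rw [this]
      positivity
    rw [tau1_eq _ _ _ _ _ _ hZ0.ne', div_le_iff₀ hZ0]
    nlinarith
  have t0 := term b0 b1 b2 hb hb0 hb1 hb2
  have t1 := term b1 b2 b0 (by linarith) hb1 hb2 hb0
  have t2 := term b2 b0 b1 (by linarith) hb2 hb0 hb1
  have t3 := term b0 b2 b1 (by linarith) hb0 hb2 hb1
  have t4 := term b2 b1 b0 (by linarith) hb2 hb1 hb0
  have t5 := term b1 b0 b2 (by linarith) hb1 hb0 hb2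
  have id := Wsum_id a0 a1 a2 b0 b1 b2 ha hb
  have xle : ∀ c0 c1 c2 : ℝ, c0 + c1 + c2 = 0 → c0 ≤ nu → c1 ≤ nu → c2 ≤ nu →
      -(2 * nu) ≤ c0 → -(2 * nu) ≤ c1 → -(2 * nu) ≤ c2 → xI c0 c1 c2 ≤ 1 / 2 := by
    intro c0 c1 c2 hc h_0 h_1 h_2 h_3 h_4 h_5
    have e0 : 0 ≤ (nu - c0) * (c0 + 2 * nu) := mul_nonneg (by linarith) (by linarith)
    have e1 : 0 ≤ (nu - c1) * (c1 + 2 * nu) := mul_nonneg (by linarith) (by linarith)
    have e2 : 0 ≤ (nu - c2) * (c2 + 2 * nu) := mul_nonneg (by linarith) (by linarith)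
    unfold xI
    nlinarith
  have xa := xle a0 a1 a2 ha ha0 ha1 ha2 ha0' ha1' ha2'
  have xb := xle b0 b1 b2 hb hb0 hb1 hb2 hb0' hb1' hb2'
  have xa0 : 0 ≤ xI a0 a1 a2 := by unfold xI; positivity
  have xb0 : 0 ≤ xI b0 b1 b2 := by unfold xI; positivity
  nlinarith [mul_nonneg xa0 (sub_nonneg.2 xb), mul_nonneg xb0 (sub_nonneg.2 xa)]

/-- Nonnegativity of the weights used in the recursion. -/
lemma f_nonneg {lam a0 a1 a2 : ℝ} (h0 : 0 ≤ lam) (h2 : 2 * lam^2 ≤ 1)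
    (ha : a0 + a1 + a2 = 0) (h_0 : -lam ≤ a0) (h_1 : -lam ≤ a1) (h_2 : -lam ≤ a2) :
    0 ≤ 2 / 3 * xI a0 a1 a2 - 2 / 5 * yI a0 a1 a2 := by
  obtain ⟨x0, x1, x2, x3⟩ := dom_facts h0 h2 ha h_0 h_1 h_2
  set x := xI a0 a1 a2
  set y := yI a0 a1 a2
  have hx1 : x ≤ 1 := by linarith
  rcases x0.eq_or_lt with h | hx
  · have hx' : x = 0 := h.symm
    rw [hx'] at x2
    have : y^2 ≤ 0 := by nlinarith
    have h3 : y^2 = 0 := le_antisymm this (sq_nonneg y)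
    have h4 : y = 0 := pow_eq_zero_iff (two_ne_zero) |>.mp h3
    rw [hx', h4]; norm_num
  · obtain ⟨_, t2, _, _⟩ := t_range hx hx1 x2 x3
    have : y ≤ 5 / 7 * x := by
      rw [div_le_iff₀ hx] at t2
      exact t2
    linarith

lemma one_sub_x_nonneg {lam a0 a1 a2 : ℝ} (h0 : 0 ≤ lam) (h2 : 2 * lam^2 ≤ 1)
    (ha : a0 + a1 + a2 = 0) (h_0 : -lam ≤ a0) (h_1 : -lam ≤ a1) (h_2 : -lam ≤ a2) :
    0 ≤ 1 - xI a0 a1 a2 := by
  obtain ⟨x0, x1, x2, x3⟩ := dom_facts h0 h2 ha h_0 h_1 h_2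
  linarith

end Vale.Agent.helper4.PottsPair
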