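import Vale.Agent.helper4.PottsDefs
import Vale.Agent.helper4.PottsPair

/-!
Tree recursion for the 3-state Potts channel: weights, posteriors, colour symmetry and the
one-step recursion for a binary tree.
-/

open Finset

namespace Vale.Agent.helper4.Potts

open Vale.Agent.helper4.PottsPair

variable {d : ℕ}

lemma potts_sum_mul (lam : ℝ) (i : Fin 3) (f : Fin 3 → ℝ) :
    ∑ j : Fin 3, potts 3 lam i j * f j = lam * f i + (1 - lam) * ((∑ j : Fin 3, f j) / 3) := by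
  have : ∀ j : Fin 3, potts 3 lam i j * f j
      = (if i = j then lam * f j else 0) + (1 - lam) / 3 * f j := by
    intro j
    unfold potts
    split_ifs <;> push_cast <;> ring
  simp only [this, Finset.sum_add_distrib, Finset.sum_ite_eq, Finset.mem_univ, if_true,
    ← Finset.mul_sum]
  ring

lemma potts_nonneg {lam : ℝ} (h1 : -1 / 2 ≤ lam) (h2 : lam ≤ 1) (i j : Fin 3) :
    0 ≤ potts 3 lam i j := by
  unfold potts
  split_ifs <;> push_cast <;> linarith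

lemma potts_perm (g : Equiv.Perm (Fin 3)) (lam : ℝ) (i j : Fin 3) :
    potts 3 lam (g i) (g j) = potts 3 lam i j := by
  unfold potts
  simp only [g.injective.eq_iff]

lemma lik_nonneg {lam : ℝ} (h1 : -1 / 2 ≤ lam) (h2 : lam ≤ 1) :
    ∀ (n : ℕ) (i : Fin 3) (η : LeafCfg 3 d n), 0 ≤ lik 3 d lam n i η := by
  intro n
  induction n with
  | zero =>
    intro i η
    rw [lik]
    split_ifs <;> norm_num
  | succ n ih =>
    intro i η
    rw [lik]
    exact Finset.prod_nonneg fun c _ => Finset.sum_nonneg fun j _ =>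
      mul_nonneg (potts_nonneg h1 h2 i j) (ih j _)

/-- Colour permutation acting on leaf colourings. -/
def act (g : Equiv.Perm (Fin 3)) : (n : ℕ) → LeafCfg 3 d n → LeafCfg 3 d n
  | 0, η => g (LeafCfg.colour η)
  | n + 1, η => fun c => act g n ((η : Fin d → LeafCfg 3 d n) c)

lemma act_inv (g : Equiv.Perm (Fin 3)) :
    ∀ (n : ℕ) (η : LeafCfg 3 d n), act g⁻¹ n (act g n η) = η := by
  intro n
  induction n with
  | zero =>
    intro η
    simp only [act]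
    exact g.symm_apply_apply _
  | succ n ih =>
    intro η
    funext c
    simp only [act]
    exact ih _

lemma act_inv' (g : Equiv.Perm (Fin 3)) :
    ∀ (n : ℕ) (η : LeafCfg 3 d n), act g n (act g⁻¹ n η) = η := by
  intro n η
  have := act_inv (d := d) g⁻¹ n η
  simpa using this

/-- The action as an equivalence. -/
def actEquiv (g : Equiv.Perm (Fin 3)) (n : ℕ) : LeafCfg 3 d n ≃ LeafCfg 3 d n where
  toFun := act g n
  invFun := act g⁻¹ n
  left_inv := act_inv g n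
  right_inv := act_inv' g n

lemma lik_act (lam : ℝ) (g : Equiv.Perm (Fin 3)) :
    ∀ (n : ℕ) (i : Fin 3) (η : LeafCfg 3 d n),
      lik 3 d lam n (g i) (act g n η) = lik 3 d lam n i η := by
  intro n
  induction n with
  | zero =>
    intro i η
    have e1 : lik 3 d lam 0 (g i) (act g 0 η)
        = if g i = g (LeafCfg.colour η) then 1 else 0 := rfl
    have e2 : lik 3 d lam 0 i η = if i = LeafCfg.colour η then 1 else 0 := rfl
    rw [e1, e2]
    simp only [g.injective.eq_iff]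
  | succ n ih =>
    intro i η
    rw [lik, lik]
    refine Finset.prod_congr rfl fun c _ => ?_
    rw [← Equiv.sum_comp g]
    refine Finset.sum_congr rfl fun j _ => ?_
    rw [potts_perm]
    congr 1
    exact ih j _

/-- Weight (marginal probability) of a leaf colouring, for `q = 3`. -/
noncomputable abbrev wt (d : ℕ) (lam : ℝ) (n : ℕ) (η : LeafCfg 3 d n) : ℝ := evidence 3 d lam n η

lemma wt_eq (lam : ℝ) (n : ℕ) (η : LeafCfg 3 d n) :
    wt d lam n η = (lik 3 d lam n 0 η + lik 3 d lam n 1 η + lik 3 d lam n 2 η) / 3 := by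
  simp only [wt, evidence, Fin.sum_univ_three]
  push_cast
  ring

lemma wt_nonneg {lam : ℝ} (h1 : -1 / 2 ≤ lam) (h2 : lam ≤ 1) (n : ℕ) (η : LeafCfg 3 d n) :
    0 ≤ wt d lam n η := by
  rw [wt_eq]
  have := lik_nonneg (d := d) h1 h2 n 0 η
  have := lik_nonneg (d := d) h1 h2 n 1 η
  have := lik_nonneg (d := d) h1 h2 n 2 η
  positivity

lemma wt_act (lam : ℝ) (g : Equiv.Perm (Fin 3)) (n : ℕ) (η : LeafCfg 3 d n) :
    wt d lam n (act g n η) = wt d lam n η := by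
  simp only [wt, evidence]
  rw [← Equiv.sum_comp g]
  refine Finset.sum_congr rfl fun i _ => ?_
  rw [lik_act]

/-- Normalised message minus one: `v i = lik i / wt - 1`. -/
noncomputable def vv (d : ℕ) (lam : ℝ) (n : ℕ) (η : LeafCfg 3 d n) (i : Fin 3) : ℝ :=
  lik 3 d lam n i η / wt d lam n η - 1

lemma vv_act (lam : ℝ) (g : Equiv.Perm (Fin 3)) (n : ℕ) (η : LeafCfg 3 d n) (i : Fin 3) :
    vv d lam n (act g n η) (g i) = vv d lam n η i := by
  simp only [vv]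
  rw [lik_act, wt_act]

/-- Expectation under the marginal law of a function of the message `v`. -/
noncomputable def En (d : ℕ) (lam : ℝ) (n : ℕ) (Ψ : (Fin 3 → ℝ) → ℝ) : ℝ :=
  ∑ η : LeafCfg 3 d n, wt d lam n η * Ψ (vv d lam n η)

/-- Colour symmetry of the marginal law. -/
lemma En_perm (lam : ℝ) (g : Equiv.Perm (Fin 3)) (n : ℕ) (Ψ : (Fin 3 → ℝ) → ℝ) :
    En d lam n (fun u => Ψ (u ∘ g)) = En d lam n Ψ := by
  unfold En
  rw [← Equiv.sum_comp (actEquiv g n)]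
  refine Finset.sum_congr rfl fun η _ => ?_
  have h1 : (actEquiv (d := d) g n) η = act g n η := rfl
  have h2 : vv d lam n (act g n η) ∘ g = vv d lam n η := funext (vv_act lam g n η)
  rw [h1, wt_act]
  show _ * Ψ (vv d lam n (act g n η) ∘ g) = _
  rw [h2]

lemma lik_eq_zero_of_wt {lam : ℝ} (h1 : -1 / 2 ≤ lam) (h2 : lam ≤ 1) {n : ℕ} {η : LeafCfg 3 d n}
    (h : wt d lam n η = 0) (i : Fin 3) : lik 3 d lam n i η = 0 := by
  rw [wt_eq] at h
  have h0 := lik_nonneg (d := d) h1 h2 n 0 η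
  have h1' := lik_nonneg (d := d) h1 h2 n 1 η
  have h2' := lik_nonneg (d := d) h1 h2 n 2 η
  fin_cases i
  · show lik 3 d lam n 0 η = 0
    linarith
  · show lik 3 d lam n 1 η = 0
    linarith
  · show lik 3 d lam n 2 η = 0
    linarith

/-- The sum of the `vv` is zero when the weight is nonzero. -/
lemma vv_sum {lam : ℝ} {n : ℕ} {η : LeafCfg 3 d n} (h : wt d lam n η ≠ 0) :
    vv d lam n η 0 + vv d lam n η 1 + vv d lam n η 2 = 0 := by
  have e := wt_eq (d := d) lam n η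
  simp only [vv]
  field_simp
  linarith

lemma vv_ge {lam : ℝ} (h1 : -1 / 2 ≤ lam) (h2 : lam ≤ 1) {n : ℕ} {η : LeafCfg 3 d n}
    (i : Fin 3) : -1 ≤ vv d lam n η i := by
  simp only [vv]
  have : 0 ≤ lik 3 d lam n i η / wt d lam n η :=
    div_nonneg (lik_nonneg h1 h2 n i η) (wt_nonneg h1 h2 n η)
  linarith

lemma vv_le {lam : ℝ} {n : ℕ} {η : LeafCfg 3 d n} (h1 : -1 / 2 ≤ lam) (h2 : lam ≤ 1)
    (h : wt d lam n η ≠ 0) (i : Fin 3) : vv d lam n η i ≤ 2 := by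
  have h0 := vv_sum (lam := lam) (n := n) (η := η) h
  have g0 := vv_ge (d := d) (n := n) (η := η) h1 h2 0
  have g1 := vv_ge (d := d) (n := n) (η := η) h1 h2 1
  have g2 := vv_ge (d := d) (n := n) (η := η) h1 h2 2
  fin_cases i
  · show vv d lam n η 0 ≤ 2
    linarith
  · show vv d lam n η 1 ≤ 2
    linarith
  · show vv d lam n η 2 ≤ 2
    linarith

/-- Total mass one. -/
lemma lik_sum {lam : ℝ} (h1 : -1 / 2 ≤ lam) (h2 : lam ≤ 1) :
    ∀ (n : ℕ) (i : Fin 3), ∑ η : LeafCfg 3 d n, lik 3 d lam n i η = 1 := by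
  intro n
  induction n with
  | zero =>
    intro i
    change ∑ η : Fin 3, lik 3 d lam 0 i η = 1
    have e : ∀ η : Fin 3, lik 3 d lam 0 i η = if i = η then 1 else 0 := fun _ => rfl
    simp only [e]
    simp
  | succ n ih =>
    intro i
    change ∑ η : Fin d → LeafCfg 3 d n, lik 3 d lam (n + 1) i η = 1
    have e : ∀ η : Fin d → LeafCfg 3 d n, lik 3 d lam (n + 1) i η
        = ∏ c : Fin d, ∑ j : Fin 3, potts 3 lam i j * lik 3 d lam n j (η c) := fun _ => rfl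
    simp only [e]
    have key := Finset.prod_univ_sum (fun _ : Fin d => (Finset.univ : Finset (LeafCfg 3 d n)))
      (fun _ ω => ∑ j : Fin 3, potts 3 lam i j * lik 3 d lam n j ω)
    rw [Fintype.piFinset_univ] at key
    rw [← key]
    refine Finset.prod_eq_one fun c _ => ?_
    rw [Finset.sum_comm]
    simp only [← Finset.mul_sum, ih, mul_one]
    have e2 := potts_sum_mul lam i (fun _ => (1:ℝ))
    simp only [mul_one] at e2
    rw [e2]
    simp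

lemma wt_sum {lam : ℝ} (h1 : -1 / 2 ≤ lam) (h2 : lam ≤ 1) (n : ℕ) :
    ∑ η : LeafCfg 3 d n, wt d lam n η = 1 := by
  simp only [wt, evidence]
  rw [Finset.sum_comm]
  simp only [← Finset.mul_sum, lik_sum h1 h2]
  simp

/-- Second moment of a message. -/
noncomputable def xU (u : Fin 3 → ℝ) : ℝ := xI (u 0) (u 1) (u 2)

/-- Third moment of a message. -/
noncomputable def yU (u : Fin 3 → ℝ) : ℝ := yI (u 0) (u 1) (u 2)

lemma En_nonneg {lam : ℝ} (h1 : -1 / 2 ≤ lam) (h2 : lam ≤ 1) (n : ℕ) (Ψ : (Fin 3 → ℝ) → ℝ)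
    (h : ∀ η : LeafCfg 3 d n, wt d lam n η ≠ 0 → 0 ≤ Ψ (vv d lam n η)) : 0 ≤ En d lam n Ψ := by
  refine Finset.sum_nonneg fun η _ => ?_
  by_cases hw : wt d lam n η = 0
  · rw [hw, zero_mul]
  · exact mul_nonneg (wt_nonneg h1 h2 n η) (h η hw)

lemma En_one {lam : ℝ} (h1 : -1 / 2 ≤ lam) (h2 : lam ≤ 1) (n : ℕ) :
    En d lam n (fun _ => 1) = 1 := by
  simp only [En, mul_one]
  exact wt_sum h1 h2 n

/-- The two-fold average over the children of a binary vertex. -/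
noncomputable def SS (lam : ℝ) (n : ℕ) (F : (Fin 3 → ℝ) → (Fin 3 → ℝ) → ℝ) : ℝ :=
  ∑ η₀ : LeafCfg 3 2 n, ∑ η₁ : LeafCfg 3 2 n,
    wt 2 lam n η₀ * wt 2 lam n η₁ * F (vv 2 lam n η₀) (vv 2 lam n η₁)

lemma SS_prod (lam : ℝ) (n : ℕ) (φ ψ : (Fin 3 → ℝ) → ℝ) :
    SS lam n (fun u v => φ u * ψ v) = En 2 lam n φ * En 2 lam n ψ := by
  simp only [SS, En]
  rw [Finset.sum_mul_sum]
  refine Finset.sum_congr rfl fun η₀ _ => Finset.sum_congr rfl fun η₁ _ => ?_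
  ring

lemma SS_eq (lam : ℝ) (n : ℕ) (F : (Fin 3 → ℝ) → (Fin 3 → ℝ) → ℝ) :
    SS lam n F = ∑ η₀ : LeafCfg 3 2 n, wt 2 lam n η₀ * En 2 lam n (F (vv 2 lam n η₀)) := by
  simp only [SS, En, Finset.mul_sum]
  refine Finset.sum_congr rfl fun η₀ _ => Finset.sum_congr rfl fun η₁ _ => ?_
  ring

/-- Pairs of colourings give the colourings at the next depth. -/
def pr {n : ℕ} (η₀ η₁ : LeafCfg 3 2 n) : LeafCfg 3 2 (n + 1) := (![η₀, η₁] : Fin 2 → LeafCfg 3 2 n)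

lemma sum_succ (n : ℕ) (F : LeafCfg 3 2 (n + 1) → ℝ) :
    (∑ η : LeafCfg 3 2 (n + 1), F η)
      = ∑ η₀ : LeafCfg 3 2 n, ∑ η₁ : LeafCfg 3 2 n, F (pr η₀ η₁) := by
  change (∑ η : Fin 2 → LeafCfg 3 2 n, F η) = _
  rw [← Fintype.sum_prod_type']
  refine Fintype.sum_equiv (finTwoArrowEquiv _) _ _ fun x => ?_
  have : x = ![x 0, x 1] := by
    funext i
    fin_cases i <;> rfl
  show F x = F (pr (x 0) (x 1))
  congr 1

lemma wt_eq' (lam : ℝ) (n : ℕ) (η : LeafCfg 3 2 n) :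
    (∑ j : Fin 3, lik 3 2 lam n j η) / 3 = wt 2 lam n η := by
  rw [wt_eq, Fin.sum_univ_three]

lemma lik_pr (lam : ℝ) (n : ℕ) (i : Fin 3) (η₀ η₁ : LeafCfg 3 2 n) :
    lik 3 2 lam (n + 1) i (pr η₀ η₁)
      = (lam * lik 3 2 lam n i η₀ + (1 - lam) * wt 2 lam n η₀)
        * (lam * lik 3 2 lam n i η₁ + (1 - lam) * wt 2 lam n η₁) := by
  have e : lik 3 2 lam (n + 1) i (pr η₀ η₁)
      = ∏ c : Fin 2, ∑ j : Fin 3, potts 3 lam i j
        * lik 3 2 lam n j ((![η₀, η₁] : Fin 2 → LeafCfg 3 2 n) c) := rfl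
  rw [e, Fin.prod_univ_two]
  simp only [Matrix.cons_val_zero, Matrix.cons_val_one]
  rw [potts_sum_mul lam i (fun j => lik 3 2 lam n j η₀), potts_sum_mul lam i (fun j => lik 3 2 lam n j η₁),
    wt_eq', wt_eq']

lemma msg_eq {lam w l : ℝ} (hw : w ≠ 0) : lam * l + (1 - lam) * w = w * (1 + lam * (l / w - 1)) := by
  field_simp
  ring

lemma lik_pr' {lam : ℝ} {n : ℕ} (i : Fin 3) {η₀ η₁ : LeafCfg 3 2 n}
    (h0 : wt 2 lam n η₀ ≠ 0) (h1 : wt 2 lam n η₁ ≠ 0) :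
    lik 3 2 lam (n + 1) i (pr η₀ η₁) = wt 2 lam n η₀ * wt 2 lam n η₁ *
      ((1 + lam * vv 2 lam n η₀ i) * (1 + lam * vv 2 lam n η₁ i)) := by
  rw [lik_pr, msg_eq h0, msg_eq h1]
  simp only [vv]
  ring

/-- The normalising factor of the pair message. -/
noncomputable def ZZ (lam : ℝ) (u v : Fin 3 → ℝ) : ℝ :=
  Zr (lam * u 0) (lam * u 1) (lam * u 2) (lam * v 0) (lam * v 1) (lam * v 2)

lemma wt_pr {lam : ℝ} {n : ℕ} {η₀ η₁ : LeafCfg 3 2 n}
    (h0 : wt 2 lam n η₀ ≠ 0) (h1 : wt 2 lam n η₁ ≠ 0) :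
    wt 2 lam (n + 1) (pr η₀ η₁)
      = wt 2 lam n η₀ * wt 2 lam n η₁ * ZZ lam (vv 2 lam n η₀) (vv 2 lam n η₁) := by
  rw [wt_eq, lik_pr' 0 h0 h1, lik_pr' 1 h0 h1, lik_pr' 2 h0 h1]
  simp only [ZZ, Zr]
  ring

lemma vv_pr {lam : ℝ} {n : ℕ} (i : Fin 3) {η₀ η₁ : LeafCfg 3 2 n}
    (h0 : wt 2 lam n η₀ ≠ 0) (h1 : wt 2 lam n η₁ ≠ 0) :
    vv 2 lam (n + 1) (pr η₀ η₁) i
      = (1 + lam * vv 2 lam n η₀ i) * (1 + lam * vv 2 lam n η₁ i)
          / ZZ lam (vv 2 lam n η₀) (vv 2 lam n η₁) - 1 := by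
  rw [vv, wt_pr h0 h1, lik_pr' i h0 h1, mul_div_mul_left _ _ (mul_ne_zero h0 h1)]

/-- Vanishing of the weight of the pair if one child has weight zero. -/
lemma wt_pr_zero {lam : ℝ} (h1 : -1 / 2 ≤ lam) (h2 : lam ≤ 1) {n : ℕ} {η₀ η₁ : LeafCfg 3 2 n}
    (h : wt 2 lam n η₀ = 0 ∨ wt 2 lam n η₁ = 0) : wt 2 lam (n + 1) (pr η₀ η₁) = 0 := by
  have key : ∀ i : Fin 3, lik 3 2 lam (n + 1) i (pr η₀ η₁) = 0 := by
    intro i
    rw [lik_pr]
    rcases h with h | h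
    · rw [h, lik_eq_zero_of_wt h1 h2 h i]
      ring
    · rw [h, lik_eq_zero_of_wt h1 h2 h i]
      ring
  rw [wt_eq, key, key, key]
  ring

/-- `Z * x(post - 1)` on messages. -/
noncomputable def tauX (lam : ℝ) (u v : Fin 3 → ℝ) : ℝ :=
  tau1 (lam * u 0) (lam * u 1) (lam * u 2) (lam * v 0) (lam * v 1) (lam * v 2)

/-- `Z * y(post - 1)` on messages. -/
noncomputable def tauY (lam : ℝ) (u v : Fin 3 → ℝ) : ℝ :=
  tau3 (lam * u 0) (lam * u 1) (lam * u 2) (lam * v 0) (lam * v 1) (lam * v 2)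

lemma En_succ_x {lam : ℝ} (h1 : -1 / 2 ≤ lam) (h2 : lam ≤ 1) (n : ℕ) :
    En 2 lam (n + 1) xU = SS lam n (tauX lam) := by
  unfold En SS
  rw [sum_succ]
  refine Finset.sum_congr rfl fun η₀ _ => Finset.sum_congr rfl fun η₁ _ => ?_
  by_cases h0 : wt 2 lam n η₀ = 0
  · rw [wt_pr_zero h1 h2 (Or.inl h0), h0]
    ring
  by_cases h0' : wt 2 lam n η₁ = 0
  · rw [wt_pr_zero h1 h2 (Or.inr h0'), h0']
    ring
  rw [wt_pr h0 h0']
  have e : xU (vv 2 lam (n + 1) (pr η₀ η₁)) =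
      xI ((1 + lam * vv 2 lam n η₀ 0) * (1 + lam * vv 2 lam n η₁ 0) / ZZ lam (vv 2 lam n η₀) (vv 2 lam n η₁) - 1)
        ((1 + lam * vv 2 lam n η₀ 1) * (1 + lam * vv 2 lam n η₁ 1) / ZZ lam (vv 2 lam n η₀) (vv 2 lam n η₁) - 1)
        ((1 + lam * vv 2 lam n η₀ 2) * (1 + lam * vv 2 lam n η₁ 2) / ZZ lam (vv 2 lam n η₀) (vv 2 lam n η₁) - 1) := by
    simp only [xU]
    rw [vv_pr 0 h0 h0', vv_pr 1 h0 h0', vv_pr 2 h0 h0']
  rw [e]
  simp only [tauX, tau1, ZZ]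
  ring

lemma En_succ_y {lam : ℝ} (h1 : -1 / 2 ≤ lam) (h2 : lam ≤ 1) (n : ℕ) :
    En 2 lam (n + 1) yU = SS lam n (tauY lam) := by
  unfold En SS
  rw [sum_succ]
  refine Finset.sum_congr rfl fun η₀ _ => Finset.sum_congr rfl fun η₁ _ => ?_
  by_cases h0 : wt 2 lam n η₀ = 0
  · rw [wt_pr_zero h1 h2 (Or.inl h0), h0]
    ring
  by_cases h0' : wt 2 lam n η₁ = 0
  · rw [wt_pr_zero h1 h2 (Or.inr h0'), h0']
    ring
  rw [wt_pr h0 h0']
  have e : yU (vv 2 lam (n + 1) (pr η₀ η₁)) =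
      yI ((1 + lam * vv 2 lam n η₀ 0) * (1 + lam * vv 2 lam n η₁ 0) / ZZ lam (vv 2 lam n η₀) (vv 2 lam n η₁) - 1)
        ((1 + lam * vv 2 lam n η₀ 1) * (1 + lam * vv 2 lam n η₁ 1) / ZZ lam (vv 2 lam n η₀) (vv 2 lam n η₁) - 1)
        ((1 + lam * vv 2 lam n η₀ 2) * (1 + lam * vv 2 lam n η₁ 2) / ZZ lam (vv 2 lam n η₀) (vv 2 lam n η₁) - 1) := by
    simp only [yU]
    rw [vv_pr 0 h0 h0', vv_pr 1 h0 h0', vv_pr 2 h0 h0']
  rw [e]
  simp only [tauY, tau3, ZZ]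
  ring

/-- The six rearrangements of a triple. -/
def g1 : Equiv.Perm (Fin 3) := finRotate 3
def g2 : Equiv.Perm (Fin 3) := (finRotate 3)⁻¹
def g3 : Equiv.Perm (Fin 3) := Equiv.swap 1 2
def g4 : Equiv.Perm (Fin 3) := Equiv.swap 0 2
def g5 : Equiv.Perm (Fin 3) := Equiv.swap 0 1

lemma En_avg6 (lam : ℝ) (n : ℕ) (G : (Fin 3 → ℝ) → ℝ) :
    En d lam n G = En d lam n (fun u =>
      (G u + G (u ∘ g1) + G (u ∘ g2) + G (u ∘ g3) + G (u ∘ g4) + G (u ∘ g5)) / 6) := by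
  have e1 := En_perm (d := d) lam g1 n G
  have e2 := En_perm (d := d) lam g2 n G
  have e3 := En_perm (d := d) lam g3 n G
  have e4 := En_perm (d := d) lam g4 n G
  have e5 := En_perm (d := d) lam g5 n G
  have key : En d lam n (fun u =>
      (G u + G (u ∘ g1) + G (u ∘ g2) + G (u ∘ g3) + G (u ∘ g4) + G (u ∘ g5)) / 6)
      = (En d lam n G + En d lam n (fun u => G (u ∘ g1)) + En d lam n (fun u => G (u ∘ g2))
        + En d lam n (fun u => G (u ∘ g3)) + En d lam n (fun u => G (u ∘ g4))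
        + En d lam n (fun u => G (u ∘ g5))) / 6 := by
    simp only [En]
    rw [← Finset.sum_add_distrib, ← Finset.sum_add_distrib, ← Finset.sum_add_distrib,
      ← Finset.sum_add_distrib, ← Finset.sum_add_distrib, Finset.sum_div]
    refine Finset.sum_congr rfl fun η _ => ?_
    ring
  rw [key, e1, e2, e3, e4, e5]
  ring

/-- Symmetrised form of the two-fold average. -/
lemma SS_sym (lam : ℝ) (n : ℕ) (F : (Fin 3 → ℝ) → (Fin 3 → ℝ) → ℝ) :
    SS lam n F = SS lam n (fun u v =>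
      (F u v + F u (v ∘ g1) + F u (v ∘ g2) + F u (v ∘ g3) + F u (v ∘ g4) + F u (v ∘ g5)) / 6) := by
  rw [SS_eq, SS_eq]
  refine Finset.sum_congr rfl fun η₀ _ => ?_
  rw [En_avg6]

/-- Comparison for the two-fold average. -/
lemma SS_le {lam : ℝ} (h1 : -1 / 2 ≤ lam) (h2 : lam ≤ 1) (n : ℕ)
    (F G : (Fin 3 → ℝ) → (Fin 3 → ℝ) → ℝ)
    (h : ∀ η₀ η₁ : LeafCfg 3 2 n, wt 2 lam n η₀ ≠ 0 → wt 2 lam n η₁ ≠ 0 →
      F (vv 2 lam n η₀) (vv 2 lam n η₁) ≤ G (vv 2 lam n η₀) (vv 2 lam n η₁)) :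
    SS lam n F ≤ SS lam n G := by
  refine Finset.sum_le_sum fun η₀ _ => Finset.sum_le_sum fun η₁ _ => ?_
  by_cases h0 : wt 2 lam n η₀ = 0
  · rw [h0]
    simp
  by_cases h0' : wt 2 lam n η₁ = 0
  · rw [h0']
    simp
  exact mul_le_mul_of_nonneg_left (h η₀ η₁ h0 h0')
    (mul_nonneg (wt_nonneg h1 h2 n η₀) (wt_nonneg h1 h2 n η₁))

end Vale.Agent.helper4.Potts
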