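import Vale.Agent.helper4.Q4Kron

/-!
Bernstein type positivity on a product of six intervals, tested by one evaluation at a huge integer.
-/

set_option linter.unusedSectionVars false
set_option linter.unusedVariables false

namespace Vale.Agent.helper4.Q4

open MvPolynomial

/-- The half-open interval of the numbers `v` with `l ≤ v * D < h`. -/
structure Iv where
  l : ℕ
  h : ℕ
  D : ℕ

def Iv.left (I : Iv) : Iv := ⟨2 * I.l, I.l + I.h, 2 * I.D⟩

def Iv.right (I : Iv) : Iv := ⟨I.l + I.h, 2 * I.h, 2 * I.D⟩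

def Iv.mem (I : Iv) (v : ℝ) : Prop := (I.l : ℝ) ≤ v * I.D ∧ v * I.D < I.h

lemma Iv.mem_split {I : Iv} {v : ℝ} (h : I.mem v) : I.left.mem v ∨ I.right.mem v := by
  obtain ⟨h1, h2⟩ := h
  by_cases hc : v * I.D * 2 < (I.l : ℝ) + I.h
  · left
    constructor
    · simp only [Iv.left]
      push_cast
      linarith
    · simp only [Iv.left]
      push_cast
      linarith
  · right
    push Not at hc
    constructor
    · simp only [Iv.right]
      push_cast
      linarith
    · simp only [Iv.right]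
      push_cast
      linarith

/-- A term `c * x ^ p * X ^ q`. -/
structure CE where
  p : ℕ
  q : ℕ
  c : ℕ

/-- A tensor of coefficients, indexed by the powers of `e`, `t`, `E`, `T`. -/
abbrev Ten (α : Type) := List (List (List (List α)))

section generic

variable {R S : Type} [CommSemiring R] [CommSemiring S]

def Iv.A (I : Iv) (θ : R) : R := (I.l : R) + (I.h : R) * θ

def Iv.B (I : Iv) (θ : R) : R := (I.D : R) * (1 + θ)

def cpG (nx nX : ℕ) (ax bx aX bX : R) : List CE → R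
  | [] => 0
  | e :: es => (e.c : R) * (ax ^ e.p * bx ^ (nx - e.p) * (aX ^ e.q * bX ^ (nX - e.q))) + cpG nx nX ax bx aX bX es

def powAux (A B : R) : ℕ → ℕ → List R
  | 0, j => [A ^ j]
  | k + 1, j => (A ^ j * B ^ (k + 1)) :: powAux A B k (j + 1)

def powL (n : ℕ) (A B : R) : List R := powAux A B n 0

def dotG : List R → List R → R
  | u :: us, w :: ws => u * w + dotG us ws
  | _, _ => 0

def numG (nx nX : ℕ) (ax bx aX bX : R) (T : Ten (List CE)) : Ten R :=
  T.map fun a => a.map fun b => b.map fun d => d.map (cpG nx nX ax bx aX bX)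

def evalA (T' E' : List R) (m : List (List R)) : R := dotG E' (m.map (dotG T'))

def evalW (T' E' : List R) (N : Ten R) : List (List R) := N.map fun a => a.map (evalA T' E')

def evalC (T E : List R) (W : List (List R)) : R := dotG E (W.map (dotG T))

/-- Twelve values: numerators and denominators of the six coordinates. -/
structure Pt (R : Type) where
  ax : R
  bx : R
  at' : R
  bt : R
  ae : R
  be : R
  aX : R
  bX : R
  aT : R
  bT : R
  aE : R
  bE : R

/-- Degrees of a tensor. -/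
structure Dg where
  nx : ℕ
  nt : ℕ
  ne : ℕ
  nX : ℕ
  nT : ℕ
  nE : ℕ

/-- The value of a tensor. -/
def cellV (d : Dg) (C : Ten (List CE)) (v : Pt R) : R :=
  evalC (powL d.nt v.at' v.bt) (powL d.ne v.ae v.be)
    (evalW (powL d.nT v.aT v.bT) (powL d.nE v.aE v.bE) (numG d.nx d.nX v.ax v.bx v.aX v.bX C))

def Pt.map (f : R →+* S) (v : Pt R) : Pt S :=
  ⟨f v.ax, f v.bx, f v.at', f v.bt, f v.ae, f v.be, f v.aX, f v.bX, f v.aT, f v.bT, f v.aE, f v.bE⟩

lemma map_cpG (f : R →+* S) (nx nX : ℕ) (ax bx aX bX : R) (L : List CE) :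
    f (cpG nx nX ax bx aX bX L) = cpG nx nX (f ax) (f bx) (f aX) (f bX) L := by
  induction L with
  | nil => simp [cpG]
  | cons e es ih => simp [cpG, ih]

lemma map_powAux (f : R →+* S) (A B : R) (k j : ℕ) :
    (powAux A B k j).map f = powAux (f A) (f B) k j := by
  induction k generalizing j with
  | zero => simp [powAux]
  | succ k ih => simp [powAux, ih]

lemma map_dotG (f : R →+* S) (U W : List R) : f (dotG U W) = dotG (U.map f) (W.map f) := by
  induction U generalizing W with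
  | nil => simp [dotG]
  | cons u U ih =>
    cases W with
    | nil => simp [dotG]
    | cons w W => simp [dotG, ih]

lemma map_evalA (f : R →+* S) (T' E' : List R) (m : List (List R)) :
    f (evalA T' E' m) = evalA (T'.map f) (E'.map f) (m.map (List.map f)) := by
  simp only [evalA, map_dotG, List.map_map]
  congr 1
  refine List.map_congr_left fun r _ => ?_
  simp only [Function.comp, map_dotG]

lemma map_evalC (f : R →+* S) (T E : List R) (W : List (List R)) :
    f (evalC T E W) = evalC (T.map f) (E.map f) (W.map (List.map f)) := by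
  simp only [evalC, map_dotG, List.map_map]
  congr 1
  refine List.map_congr_left fun r _ => ?_
  simp only [Function.comp, map_dotG]

lemma map_cellV (f : R →+* S) (d : Dg) (C : Ten (List CE)) (v : Pt R) :
    f (cellV d C v) = cellV d C (v.map f) := by
  simp only [cellV, map_evalC, powL, map_powAux, Pt.map]
  congr 1
  simp only [evalW, numG, List.map_map]
  refine List.map_congr_left fun a _ => ?_
  simp only [Function.comp, List.map_map]
  refine List.map_congr_left fun b _ => ?_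
  simp only [Function.comp, map_evalA, map_powAux, List.map_map]
  congr 1
  refine List.map_congr_left fun d' _ => ?_
  simp only [Function.comp, List.map_map]
  exact List.map_congr_left fun L _ => map_cpG f _ _ _ _ _ _ L

end generic

section degrees

/-- Bounds on the six exponents. -/
def DegLe (a b c d e f : ℕ) (g : MP) : Prop :=
  ∀ m ∈ g.support, m 0 ≤ a ∧ m 1 ≤ b ∧ m 2 ≤ c ∧ m 3 ≤ d ∧ m 4 ≤ e ∧ m 5 ≤ f

lemma DegLe.add {a b c d e f : ℕ} {g h : MP} (hg : DegLe a b c d e f g) (hh : DegLe a b c d e f h) :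
    DegLe a b c d e f (g + h) := by
  intro m hm
  rcases Finset.mem_union.mp (MvPolynomial.support_add hm) with h1 | h1
  · exact hg m h1
  · exact hh m h1

lemma DegLe.mul {a b c d e f a' b' c' d' e' f' : ℕ} {g h : MP} (hg : DegLe a b c d e f g)
    (hh : DegLe a' b' c' d' e' f' h) :
    DegLe (a + a') (b + b') (c + c') (d + d') (e + e') (f + f') (g * h) := by
  intro m hm
  obtain ⟨u, hu, v, hv, rfl⟩ := Finset.mem_add.mp (MvPolynomial.support_mul g h hm)
  have h1 := hg u hu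
  have h2 := hh v hv
  simp only [Finsupp.add_apply]
  omega

lemma DegLe.mono {a b c d e f a' b' c' d' e' f' : ℕ} {g : MP} (hg : DegLe a b c d e f g)
    (h1 : a ≤ a') (h2 : b ≤ b') (h3 : c ≤ c') (h4 : d ≤ d') (h5 : e ≤ e') (h6 : f ≤ f') :
    DegLe a' b' c' d' e' f' g := by
  intro m hm
  have := hg m hm
  omega

lemma DegLe.one : DegLe 0 0 0 0 0 0 (1 : MP) := by
  intro m hm
  have h : m = 0 := by
    by_contra hne
    have : (1 : MP).coeff m = 0 := by
      rw [MvPolynomial.coeff_one, if_neg (Ne.symm hne)]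
    exact (MvPolynomial.mem_support_iff.mp hm) this
  subst h
  simp

lemma DegLe.pow {a b c d e f : ℕ} {g : MP} (hg : DegLe a b c d e f g) (k : ℕ) :
    DegLe (k * a) (k * b) (k * c) (k * d) (k * e) (k * f) (g ^ k) := by
  induction k with
  | zero => simpa using DegLe.one
  | succ k ih =>
    rw [pow_succ]
    have := ih.mul hg
    exact this.mono (by nlinarith) (by nlinarith) (by nlinarith) (by nlinarith) (by nlinarith) (by nlinarith)

lemma DegLe.natCast (n : ℕ) : DegLe 0 0 0 0 0 0 (n : MP) := by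
  intro m hm
  have h : m = 0 := by
    by_contra hne
    have e : (n : MP) = MvPolynomial.C n := by simp
    have : (n : MP).coeff m = 0 := by
      rw [e, MvPolynomial.coeff_C, if_neg (Ne.symm hne)]
    exact (MvPolynomial.mem_support_iff.mp hm) this
  subst h
  simp

lemma DegLe.zero (a b c d e f : ℕ) : DegLe a b c d e f (0 : MP) := by
  intro m hm
  simp at hm

lemma support_X' {i : Fin 6} {m : Fin 6 →₀ ℕ} (hm : m ∈ (X i : MP).support) : m = Finsupp.single i 1 := by
  by_contra hne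
  have : (X i : MP).coeff m = 0 := by
    rw [MvPolynomial.coeff_X, if_neg (Ne.symm hne)]
  exact (MvPolynomial.mem_support_iff.mp hm) this

lemma DegLe.X0 : DegLe 1 0 0 0 0 0 (X 0 : MP) := by
  intro m hm; rw [support_X' hm]; simp
lemma DegLe.X1 : DegLe 0 1 0 0 0 0 (X 1 : MP) := by
  intro m hm; rw [support_X' hm]; simp
lemma DegLe.X2 : DegLe 0 0 1 0 0 0 (X 2 : MP) := by
  intro m hm; rw [support_X' hm]; simp
lemma DegLe.X3 : DegLe 0 0 0 1 0 0 (X 3 : MP) := by
  intro m hm; rw [support_X' hm]; simp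
lemma DegLe.X4 : DegLe 0 0 0 0 1 0 (X 4 : MP) := by
  intro m hm; rw [support_X' hm]; simp
lemma DegLe.X5 : DegLe 0 0 0 0 0 1 (X 5 : MP) := by
  intro m hm; rw [support_X' hm]; simp

lemma DegLe.A {a b c d e f : ℕ} {g : MP} (hg : DegLe a b c d e f g) (I : Iv) :
    DegLe a b c d e f (I.A g) := by
  unfold Iv.A
  refine DegLe.add ((DegLe.natCast I.l).mono (by omega) (by omega) (by omega) (by omega) (by omega) (by omega)) ?_
  have := (DegLe.natCast I.h).mul hg
  simpa using this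

lemma DegLe.B {a b c d e f : ℕ} {g : MP} (hg : DegLe a b c d e f g) (I : Iv) :
    DegLe a b c d e f (I.B g) := by
  unfold Iv.B
  have h1 := DegLe.one.mono (a' := a) (b' := b) (c' := c) (d' := d) (e' := e) (f' := f)
    (by omega) (by omega) (by omega) (by omega) (by omega) (by omega)
  have := (DegLe.natCast I.D).mul (h1.add hg)
  simpa using this

lemma DegLe.dot {a b c d e f a' b' c' d' e' f' : ℕ} (U W : List MP) (hU : ∀ u ∈ U, DegLe a b c d e f u)
    (hW : ∀ v ∈ W, DegLe a' b' c' d' e' f' v) :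
    DegLe (a + a') (b + b') (c + c') (d + d') (e + e') (f + f') (dotG U W) := by
  induction U generalizing W with
  | nil => simpa [dotG] using DegLe.zero _ _ _ _ _ _
  | cons u U ih =>
    cases W with
    | nil => simpa [dotG] using DegLe.zero _ _ _ _ _ _
    | cons w W =>
      simp only [dotG]
      exact DegLe.add ((hU u (by simp)).mul (hW w (by simp)))
        (ih W (fun x hx => hU x (by simp [hx])) fun x hx => hW x (by simp [hx]))

lemma DegLe.powAux {a b c d e f : ℕ} {A B : MP} (hA : DegLe a b c d e f A) (hB : DegLe a b c d e f B)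
    (k j n : ℕ) (hn : j + k = n) (u : MP) (hu : u ∈ Q4.powAux A B k j) :
    DegLe (n * a) (n * b) (n * c) (n * d) (n * e) (n * f) u := by
  induction k generalizing j with
  | zero =>
    simp only [Q4.powAux, List.mem_singleton] at hu
    subst hu
    obtain rfl : j = n := by omega
    exact hA.pow j
  | succ k ih =>
    simp only [Q4.powAux, List.mem_cons] at hu
    rcases hu with rfl | hu
    · have := (hA.pow j).mul (hB.pow (k + 1))
      subst hn
      exact this.mono (by nlinarith) (by nlinarith) (by nlinarith) (by nlinarith) (by nlinarith) (by nlinarith)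
    · exact ih (j + 1) (by omega) hu

/-- The exponents in a list of terms fit. -/
def fitCE (nx nX : ℕ) (L : List CE) : Bool :=
  L.all fun e => Nat.ble e.p nx && Nat.ble e.q nX

def fitTen (nx nX : ℕ) (C : Ten (List CE)) : Bool :=
  C.all fun a => a.all fun b => b.all fun d => d.all (fitCE nx nX)

lemma fitTen_spec {nx nX : ℕ} {C : Ten (List CE)} (h : fitTen nx nX C = true) {a b d L}
    (ha : a ∈ C) (hb : b ∈ a) (hd : d ∈ b) (hL : L ∈ d) {e : CE} (he : e ∈ L) : e.p ≤ nx ∧ e.q ≤ nX := by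
  have h1 := List.all_eq_true.mp (List.all_eq_true.mp (List.all_eq_true.mp (List.all_eq_true.mp h a ha) b hb) d hd) L hL
  have h2 := List.all_eq_true.mp h1 e he
  simp only [Bool.and_eq_true] at h2
  exact ⟨Nat.le_of_ble_eq_true h2.1, Nat.le_of_ble_eq_true h2.2⟩

lemma DegLe.cp {nx nX : ℕ} {ax bx aX bX : MP} (h1 : DegLe 1 0 0 0 0 0 ax) (h2 : DegLe 1 0 0 0 0 0 bx)
    (h3 : DegLe 0 0 0 1 0 0 aX) (h4 : DegLe 0 0 0 1 0 0 bX) (L : List CE)
    (hL : ∀ e ∈ L, e.p ≤ nx ∧ e.q ≤ nX) : DegLe nx 0 0 nX 0 0 (cpG nx nX ax bx aX bX L) := by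
  induction L with
  | nil => simpa [cpG] using DegLe.zero _ _ _ _ _ _
  | cons e es ih =>
    simp only [cpG]
    refine DegLe.add ?_ (ih fun x hx => hL x (by simp [hx]))
    obtain ⟨b1, b2⟩ := hL e (by simp)
    have := (DegLe.natCast e.c).mul (((h1.pow e.p).mul (h2.pow (nx - e.p))).mul ((h3.pow e.q).mul (h4.pow (nX - e.q))))
    exact this.mono (by omega) (by omega) (by omega) (by omega) (by omega) (by omega)

/-- The polynomial attached to a cell. -/
noncomputable def cellF (d : Dg) (C : Ten (List CE)) (Cx Ct Ce CX CT CE' : Iv) : MP :=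
  cellV d C (⟨Cx.A (X 0), Cx.B (X 0), Ct.A (X 1), Ct.B (X 1), Ce.A (X 2), Ce.B (X 2),
    CX.A (X 3), CX.B (X 3), CT.A (X 4), CT.B (X 4), CE'.A (X 5), CE'.B (X 5)⟩ : Pt MP)

lemma cellF_deg (d : Dg) (C : Ten (List CE)) (Cx Ct Ce CX CT CE' : Iv) (hf : fitTen d.nx d.nX C = true) :
    DegLe d.nx d.nt d.ne d.nX d.nT d.nE (cellF d C Cx Ct Ce CX CT CE') := by
  unfold cellF cellV evalC evalW numG
  simp only [List.map_map]
  have hT' : ∀ u ∈ powL d.nT (CT.A (X 4) : MP) (CT.B (X 4)), DegLe 0 0 0 0 d.nT 0 u := by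
    intro u hu
    have := DegLe.powAux (DegLe.X4.A CT) (DegLe.X4.B CT) d.nT 0 d.nT (by omega) u hu
    exact this.mono (by omega) (by omega) (by omega) (by omega) (by omega) (by omega)
  have hE' : ∀ u ∈ powL d.nE (CE'.A (X 5) : MP) (CE'.B (X 5)), DegLe 0 0 0 0 0 d.nE u := by
    intro u hu
    have := DegLe.powAux (DegLe.X5.A CE') (DegLe.X5.B CE') d.nE 0 d.nE (by omega) u hu
    exact this.mono (by omega) (by omega) (by omega) (by omega) (by omega) (by omega)
  have ht : ∀ u ∈ powL d.nt (Ct.A (X 1) : MP) (Ct.B (X 1)), DegLe 0 d.nt 0 0 0 0 u := by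
    intro u hu
    have := DegLe.powAux (DegLe.X1.A Ct) (DegLe.X1.B Ct) d.nt 0 d.nt (by omega) u hu
    exact this.mono (by omega) (by omega) (by omega) (by omega) (by omega) (by omega)
  have he : ∀ u ∈ powL d.ne (Ce.A (X 2) : MP) (Ce.B (X 2)), DegLe 0 0 d.ne 0 0 0 u := by
    intro u hu
    have := DegLe.powAux (DegLe.X2.A Ce) (DegLe.X2.B Ce) d.ne 0 d.ne (by omega) u hu
    exact this.mono (by omega) (by omega) (by omega) (by omega) (by omega) (by omega)
  refine (DegLe.dot (a' := d.nx) (b' := d.nt) (c' := 0) (d' := d.nX) (e' := d.nT) (f' := d.nE)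
    (powL d.ne (Ce.A (X 2) : MP) (Ce.B (X 2))) _ he ?_).mono (by omega) (by omega) (by omega) (by omega) (by omega) (by omega)
  intro v hv
  obtain ⟨a, ha, rfl⟩ := List.mem_map.mp hv
  refine (DegLe.dot (a' := d.nx) (b' := 0) (c' := 0) (d' := d.nX) (e' := d.nT) (f' := d.nE)
    (powL d.nt (Ct.A (X 1) : MP) (Ct.B (X 1))) _ ht ?_).mono (by omega) (by omega) (by omega) (by omega) (by omega) (by omega)
  intro w hw
  simp only [Function.comp_apply, List.map_map, List.mem_map] at hw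
  obtain ⟨b, hb, rfl⟩ := hw
  unfold evalA
  refine (DegLe.dot (a' := d.nx) (b' := 0) (c' := 0) (d' := d.nX) (e' := d.nT) (f' := 0)
    (powL d.nE (CE'.A (X 5) : MP) (CE'.B (X 5))) _ hE' ?_).mono (by omega) (by omega) (by omega) (by omega) (by omega) (by omega)
  intro w hw
  simp only [List.mem_map] at hw
  obtain ⟨r0, hr0, rfl⟩ := hw
  obtain ⟨r1, hr1, rfl⟩ := hr0
  refine (DegLe.dot (a' := d.nx) (b' := 0) (c' := 0) (d' := d.nX) (e' := 0) (f' := 0)
    (powL d.nT (CT.A (X 4) : MP) (CT.B (X 4))) _ hT' ?_).mono (by omega) (by omega) (by omega) (by omega) (by omega) (by omega)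
  intro w hw
  obtain ⟨L, hL, rfl⟩ := List.mem_map.mp hw
  exact DegLe.cp (DegLe.X0.A Cx) (DegLe.X0.B Cx) (DegLe.X3.A CX) (DegLe.X3.B CX) L
    fun e he => fitTen_spec hf ha hb hr1 hL he

/-- The mixed radix exponents. -/
def radix (a b c d e f : ℕ) : Fin 6 → ℕ :=
  ![1, (a + 1) * (d + 1) * (e + 1) * (f + 1), (a + 1) * (d + 1) * (e + 1) * (f + 1) * (b + 1), a + 1, (a + 1) * (d + 1),
    (a + 1) * (d + 1) * (e + 1)]

lemma radix_unique {E u u' v v' : ℕ} (hu : u < E) (hu' : u' < E) (h : u + E * v = u' + E * v') :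
    u = u' ∧ v = v' := by
  have := KEngine.div_unique (x := v) (z := v') hu hu' (by nlinarith)
  exact ⟨this.2, this.1⟩

lemma inj_radix {a b c d e f : ℕ} {g h : MP} (hg : DegLe a b c d e f g) (hh : DegLe a b c d e f h) :
    Set.InjOn (iota (radix a b c d e f))
      ((↑g.support : Set (Fin 6 →₀ ℕ)) ∪ ↑h.support) := by
  have key : ∀ m ∈ (↑g.support : Set (Fin 6 →₀ ℕ)) ∪ ↑h.support,
      m 0 ≤ a ∧ m 1 ≤ b ∧ m 2 ≤ c ∧ m 3 ≤ d ∧ m 4 ≤ e ∧ m 5 ≤ f := by
    rintro m (hm | hm)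
    · exact hg m hm
    · exact hh m hm
  intro m hm n hn hmn
  obtain ⟨m0, m1, m2, m3, m4, m5⟩ := key m hm
  obtain ⟨n0, n1, n2, n3, n4, n5⟩ := key n hn
  have ev : ∀ u : Fin 6 →₀ ℕ, iota (radix a b c d e f) u
      = u 0 + (a + 1) * (u 3 + (d + 1) * (u 4 + (e + 1) * (u 5 + (f + 1) * (u 1 + (b + 1) * u 2)))) := by
    intro u
    simp only [iota, Fin.sum_univ_six, radix]
    simp only [Matrix.cons_val_zero, Matrix.cons_val_one, Matrix.cons_val]
    ring
  rw [ev, ev] at hmn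
  obtain ⟨e0, hmn⟩ := radix_unique (Nat.lt_succ_of_le m0) (Nat.lt_succ_of_le n0) hmn
  obtain ⟨e3, hmn⟩ := radix_unique (Nat.lt_succ_of_le m3) (Nat.lt_succ_of_le n3) hmn
  obtain ⟨e4, hmn⟩ := radix_unique (Nat.lt_succ_of_le m4) (Nat.lt_succ_of_le n4) hmn
  obtain ⟨e5, hmn⟩ := radix_unique (Nat.lt_succ_of_le m5) (Nat.lt_succ_of_le n5) hmn
  obtain ⟨e1, e2⟩ := radix_unique (Nat.lt_succ_of_le m1) (Nat.lt_succ_of_le n1) hmn
  ext i
  fin_cases i
  · exact e0
  · exact e1
  · exact e2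
  · exact e3
  · exact e4
  · exact e5

end degrees

section raw

/-- Scalar product of two lists, written with the recursor. -/
noncomputable def dotN (U W : List ℕ) : ℕ :=
  List.rec (motive := fun _ => List ℕ → ℕ) (fun _ => 0)
    (fun u _ ih W => List.casesOn W 0 (fun w ws => Nat.add (Nat.mul u w) (ih ws))) U W

noncomputable def mapDotN (T : List ℕ) (R : List (List ℕ)) : List ℕ :=
  List.rec [] (fun r _ ih => dotN T r :: ih) R

noncomputable def evalAN (T' E' : List ℕ) (m : List (List ℕ)) : ℕ := dotN E' (mapDotN T' m)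

noncomputable def evalWN (T' E' : List ℕ) (N : Ten ℕ) : List (List ℕ) :=
  List.rec [] (fun a _ ih => (List.rec [] (fun b _ ih2 => evalAN T' E' b :: ih2) a) :: ih) N

noncomputable def evalCN (T E : List ℕ) (W : List (List ℕ)) : ℕ := dotN E (mapDotN T W)

def cpN (nx nX ax bx aX bX : ℕ) : List CE → ℕ
  | [] => 0
  | e :: es =>
    Nat.add (Nat.mul e.c (Nat.mul (Nat.mul (Nat.pow ax e.p) (Nat.pow bx (Nat.sub nx e.p)))
      (Nat.mul (Nat.pow aX e.q) (Nat.pow bX (Nat.sub nX e.q))))) (cpN nx nX ax bx aX bX es)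

def powAuxN (A B : ℕ) : ℕ → ℕ → List ℕ
  | 0, j => [Nat.pow A j]
  | k + 1, j => Nat.mul (Nat.pow A j) (Nat.pow B (Nat.succ k)) :: powAuxN A B k (Nat.succ j)

def numN (nx nX ax bx aX bX : ℕ) (T : Ten (List CE)) : Ten ℕ :=
  T.map fun a => a.map fun b => b.map fun d => d.map (cpN nx nX ax bx aX bX)

/-- The same as `cpN`, written with the recursor. -/
noncomputable def cpR (nx nX ax bx aX bX : ℕ) (L : List CE) : ℕ :=
  List.rec 0 (fun e _ ih => Nat.add (Nat.mul e.c (Nat.mul (Nat.mul (Nat.pow ax e.p) (Nat.pow bx (Nat.sub nx e.p)))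
    (Nat.mul (Nat.pow aX e.q) (Nat.pow bX (Nat.sub nX e.q))))) ih) L

lemma cpR_eq (nx nX ax bx aX bX : ℕ) (L : List CE) : cpR nx nX ax bx aX bX L = cpN nx nX ax bx aX bX L := by
  induction L with
  | nil => rfl
  | cons e es ih =>
    have e1 : cpR nx nX ax bx aX bX (e :: es) = Nat.add (Nat.mul e.c (Nat.mul (Nat.mul (Nat.pow ax e.p) (Nat.pow bx (Nat.sub nx e.p)))
      (Nat.mul (Nat.pow aX e.q) (Nat.pow bX (Nat.sub nX e.q))))) (cpR nx nX ax bx aX bX es) := rfl
    rw [e1, ih]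
    rfl

/-- The map of a list, written with the recursor. -/
noncomputable def mapR {α β : Type} (f : α → β) (L : List α) : List β :=
  List.rec [] (fun a _ ih => f a :: ih) L

lemma mapR_eq {α β : Type} (f : α → β) (L : List α) : mapR f L = L.map f := by
  induction L with
  | nil => rfl
  | cons a L ih =>
    have e : mapR f (a :: L) = f a :: mapR f L := rfl
    rw [e, ih]
    rfl

lemma mapR_fun {α β : Type} (f : α → β) : mapR f = List.map f := funext (mapR_eq f)

/-- The same as `numN`, written with the recursor. -/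
noncomputable def numR (nx nX ax bx aX bX : ℕ) (T : Ten (List CE)) : Ten ℕ :=
  mapR (mapR (mapR (mapR (cpR nx nX ax bx aX bX)))) T

lemma numR_eq (nx nX ax bx aX bX : ℕ) (T : Ten (List CE)) : numR nx nX ax bx aX bX T = numN nx nX ax bx aX bX T := by
  have e : cpR nx nX ax bx aX bX = cpN nx nX ax bx aX bX := funext (cpR_eq nx nX ax bx aX bX)
  simp only [numR, mapR_fun, e]
  rfl

/-- The same as `powAuxN`, written with the recursor. -/
noncomputable def powR' (A B n : ℕ) : ℕ → List ℕ :=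
  Nat.rec (motive := fun _ => ℕ → List ℕ) (fun j => [Nat.pow A j])
    (fun k ih j => Nat.mul (Nat.pow A j) (Nat.pow B (Nat.succ k)) :: ih (Nat.succ j)) n

lemma powR'_eq (A B n j : ℕ) : powR' A B n j = powAuxN A B n j := by
  induction n generalizing j with
  | zero => rfl
  | succ k ih =>
    have e : powR' A B (k + 1) j = Nat.mul (Nat.pow A j) (Nat.pow B (Nat.succ k)) :: powR' A B k (Nat.succ j) := rfl
    rw [e, ih]
    rfl

lemma dotN_eq (U W : List ℕ) : dotN U W = dotG U W := by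
  induction U generalizing W with
  | nil => rfl
  | cons u U ih =>
    cases W with
    | nil => rfl
    | cons w W =>
      have : dotN (u :: U) (w :: W) = Nat.add (Nat.mul u w) (dotN U W) := rfl
      rw [this, ih]
      rfl

lemma mapDotN_eq (T : List ℕ) (R : List (List ℕ)) : mapDotN T R = R.map (dotG T) := by
  induction R with
  | nil => rfl
  | cons r R ih =>
    have : mapDotN T (r :: R) = dotN T r :: mapDotN T R := rfl
    rw [this, ih, dotN_eq]
    rfl

lemma evalAN_eq (T' E' : List ℕ) (m : List (List ℕ)) : evalAN T' E' m = evalA T' E' m := by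
  simp only [evalAN, evalA, dotN_eq, mapDotN_eq]

lemma evalCN_eq (T E : List ℕ) (W : List (List ℕ)) : evalCN T E W = evalC T E W := by
  simp only [evalCN, evalC, dotN_eq, mapDotN_eq]

lemma evalWN_eq (T' E' : List ℕ) (N : Ten ℕ) : evalWN T' E' N = evalW T' E' N := by
  induction N with
  | nil => rfl
  | cons a N ih =>
    have inner : ∀ a : List (List (List ℕ)), (List.rec [] (fun b _ ih2 => evalAN T' E' b :: ih2) a : List ℕ)
        = a.map (evalA T' E') := by
      intro a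
      induction a with
      | nil => rfl
      | cons b a ih2 =>
        show evalAN T' E' b :: _ = _
        rw [ih2, evalAN_eq]
        rfl
    show (List.rec [] (fun b _ ih2 => evalAN T' E' b :: ih2) a) :: evalWN T' E' N = _
    rw [ih, inner]
    rfl

lemma cpN_eq (nx nX ax bx aX bX : ℕ) (L : List CE) :
    cpN nx nX ax bx aX bX L = cpG nx nX ax bx aX bX L := by
  induction L with
  | nil => rfl
  | cons e es ih =>
    simp only [cpN, cpG, ih]
    simp

lemma powAuxN_eq (A B k j : ℕ) : powAuxN A B k j = powAux A B k j := by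
  induction k generalizing j with
  | zero => rfl
  | succ k ih =>
    simp only [powAuxN, powAux, ih]
    rfl

lemma numN_eq (nx nX ax bx aX bX : ℕ) (T : Ten (List CE)) :
    numN nx nX ax bx aX bX T = numG nx nX ax bx aX bX T := by
  have e : cpN nx nX ax bx aX bX = cpG nx nX ax bx aX bX := funext (cpN_eq nx nX ax bx aX bX)
  simp only [numN, numG, e]

def Iv.AN (I : Iv) (θ : ℕ) : ℕ := Nat.add I.l (Nat.mul I.h θ)

def Iv.BN (I : Iv) (θ : ℕ) : ℕ := Nat.mul I.D (Nat.add 1 θ)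

lemma Iv.AN_eq (I : Iv) (θ : ℕ) : I.AN θ = I.A θ := by
  simp [Iv.AN, Iv.A]

lemma Iv.BN_eq (I : Iv) (θ : ℕ) : I.BN θ = I.B θ := by
  simp [Iv.BN, Iv.B]

/-- What the test on a cell needs. -/
structure Ctx where
  d : Dg
  TP : Ten (List CE)
  TN : Ten (List CE)
  w : ℕ
  Kxa : ℕ
  Kxb : ℕ
  KXa : ℕ
  KXb : ℕ
  Kt : ℕ
  Ke : ℕ
  KT : ℕ
  KE : ℕ

def Dg.total (d : Dg) : ℕ := (d.nx + 1) * (d.nt + 1) * (d.ne + 1) * (d.nX + 1) * (d.nT + 1) * (d.nE + 1)

def Dg.rad (d : Dg) : Fin 6 → ℕ := radix d.nx d.nt d.ne d.nX d.nT d.nE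

/-- The Kronecker point. -/
def kp (w e : ℕ) : ℕ := Nat.pow 2 (Nat.mul w e)

def Ctx.t0 (c : Ctx) : ℕ := kp c.w 1
def Ctx.t1 (c : Ctx) : ℕ := kp c.w ((c.d.nx + 1) * (c.d.nX + 1) * (c.d.nT + 1) * (c.d.nE + 1))
def Ctx.t2 (c : Ctx) : ℕ := kp c.w ((c.d.nx + 1) * (c.d.nX + 1) * (c.d.nT + 1) * (c.d.nE + 1) * (c.d.nt + 1))
def Ctx.t3 (c : Ctx) : ℕ := kp c.w (c.d.nx + 1)
def Ctx.t4 (c : Ctx) : ℕ := kp c.w ((c.d.nx + 1) * (c.d.nX + 1))
def Ctx.t5 (c : Ctx) : ℕ := kp c.w ((c.d.nx + 1) * (c.d.nX + 1) * (c.d.nT + 1))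

/-- The value on a cell at the given numerators and denominators. -/
noncomputable def leafP (d : Dg) (N : Ten ℕ) (at' bt ae be aT bT aE bE : ℕ) : ℕ :=
  evalCN (powR' at' bt d.nt 0) (powR' ae be d.ne 0)
    (evalWN (powR' aT bT d.nT 0) (powR' aE bE d.nE 0) N)

lemma leafP_eq (d : Dg) (C : Ten (List CE)) (v : Pt ℕ) :
    leafP d (numN d.nx d.nX v.ax v.bx v.aX v.bX C) v.at' v.bt v.ae v.be v.aT v.bT v.aE v.bE = cellV d C v := by
  simp only [leafP, cellV, evalCN_eq, evalWN_eq, powR'_eq, powAuxN_eq, numN_eq]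
  rfl

/-- The value at the Kronecker point. -/
noncomputable def leafK (c : Ctx) (T : Ten (List CE)) (Cx CX Ct Ce CT CE' : Iv) : ℕ :=
  leafP c.d (numR c.d.nx c.d.nX (Cx.AN c.t0) (Cx.BN c.t0) (CX.AN c.t3) (CX.BN c.t3) T)
    (Ct.AN c.t1) (Ct.BN c.t1) (Ce.AN c.t2) (Ce.BN c.t2) (CT.AN c.t4) (CT.BN c.t4) (CE'.AN c.t5) (CE'.BN c.t5)

/-- The bounds on the size of the numbers. -/
def Iv.bd (I : Iv) (K : ℕ) : Bool := Nat.ble (Nat.add I.l I.h) K && Nat.ble (Nat.mul 2 I.D) K

noncomputable def leafDec (NP NN YM mask : ℕ) : Bool :=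
  Nat.ble NN NP && Nat.blt (Nat.sub NP NN) YM && Nat.beq (Nat.land (Nat.sub NP NN) mask) 0

/-- The test on one cell. -/
noncomputable def leafTest (c : Ctx) (Cx CX Ct Ce CT CE' : Iv) : Bool :=
  Nat.ble (Nat.add Cx.l Cx.h) c.Kxa && Nat.ble (Nat.mul 2 Cx.D) c.Kxb &&
  Nat.ble (Nat.add CX.l CX.h) c.KXa && Nat.ble (Nat.mul 2 CX.D) c.KXb &&
  Iv.bd Ct c.Kt && Iv.bd Ce c.Ke && Iv.bd CT c.KT && Iv.bd CE' c.KE &&
  leafDec (leafK c c.TP Cx CX Ct Ce CT CE') (leafK c c.TN Cx CX Ct Ce CT CE')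
    (Nat.pow 2 (Nat.mul c.w c.d.total)) (maskF c.w c.d.total)

/-- Sums of all entries. -/
def sum2 (W : List (List ℕ)) : ℕ := (W.map List.sum).sum

def sumT4 (N : Ten ℕ) : ℕ := (N.map fun a => (a.map sum2).sum).sum

lemma dot_le {B : ℕ} (U W : List ℕ) (h : ∀ u ∈ U, u ≤ B) : dotG U W ≤ B * W.sum := by
  induction U generalizing W with
  | nil => simp [dotG]
  | cons u U ih =>
    cases W with
    | nil => simp [dotG]
    | cons w W =>
      simp only [dotG, List.sum_cons, mul_add]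
      exact add_le_add (Nat.mul_le_mul_right w (h u (by simp)))
        (ih W fun x hx => h x (by simp [hx]))

lemma evalA_le {A B : ℕ} (T' E' : List ℕ) (m : List (List ℕ)) (h1 : ∀ u ∈ T', u ≤ A) (h2 : ∀ u ∈ E', u ≤ B) :
    evalA T' E' m ≤ A * B * sum2 m := by
  unfold evalA sum2
  refine (dot_le _ _ h2).trans ?_
  have : (m.map (dotG T')).sum ≤ A * (m.map List.sum).sum := by
    induction m with
    | nil => simp
    | cons r m ih =>
      simp only [List.map_cons, List.sum_cons, mul_add]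
      exact add_le_add (dot_le _ _ h1) ih
  calc _ ≤ B * (A * (m.map List.sum).sum) := Nat.mul_le_mul_left _ this
    _ = _ := by ring

lemma evalC_le {A B : ℕ} (T E : List ℕ) (W : List (List ℕ)) (h1 : ∀ u ∈ T, u ≤ A) (h2 : ∀ u ∈ E, u ≤ B) :
    evalC T E W ≤ A * B * sum2 W := evalA_le T E W h1 h2

lemma sumT2_evalW_le {A B : ℕ} (T' E' : List ℕ) (N : Ten ℕ) (h1 : ∀ u ∈ T', u ≤ A) (h2 : ∀ u ∈ E', u ≤ B) :
    sum2 (evalW T' E' N) ≤ A * B * sumT4 N := by
  have inner : ∀ a : List (List (List ℕ)), (a.map (evalA T' E')).sum ≤ A * B * (a.map sum2).sum := by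
    intro a
    induction a with
    | nil => simp
    | cons b a ih2 =>
      simp only [List.map_cons, List.sum_cons, mul_add]
      exact add_le_add (evalA_le _ _ _ h1 h2) ih2
  unfold evalW sumT4
  induction N with
  | nil => simp [sum2]
  | cons a N ih =>
    simp only [List.map_cons, List.sum_cons, mul_add]
    have e : sum2 ((a.map (evalA T' E')) :: N.map fun a => a.map (evalA T' E'))
        = (a.map (evalA T' E')).sum + sum2 (N.map fun a => a.map (evalA T' E')) := by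
      simp [sum2]
    rw [e]
    exact add_le_add (inner a) ih

lemma powAux_le {A B K : ℕ} (hA : A ≤ K) (hB : B ≤ K) (k j n : ℕ) (hn : j + k = n) (u : ℕ)
    (hu : u ∈ powAux A B k j) : u ≤ K ^ n := by
  induction k generalizing j with
  | zero =>
    simp only [powAux, List.mem_singleton] at hu
    subst hu
    obtain rfl : j = n := by omega
    exact Nat.pow_le_pow_left hA j
  | succ k ih =>
    simp only [powAux, List.mem_cons] at hu
    rcases hu with rfl | hu
    · subst hn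
      calc A ^ j * B ^ (k + 1) ≤ K ^ j * K ^ (k + 1) :=
            Nat.mul_le_mul (Nat.pow_le_pow_left hA j) (Nat.pow_le_pow_left hB (k + 1))
        _ = K ^ (j + (k + 1)) := (pow_add K j (k + 1)).symm
    · exact ih (j + 1) (by omega) hu

lemma powL_le {A B K : ℕ} (hA : A ≤ K) (hB : B ≤ K) (n u : ℕ) (hu : u ∈ powL n A B) : u ≤ K ^ n :=
  powAux_le hA hB n 0 n (by omega) u hu

/-- The bound at the point with all variables equal to one. -/
lemma cellV_ones_le {d : Dg} (C : Ten (List CE)) (v : Pt ℕ) {Kt Ke KT KE : ℕ}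
    (h1 : v.at' ≤ Kt) (h2 : v.bt ≤ Kt) (h3 : v.ae ≤ Ke) (h4 : v.be ≤ Ke) (h5 : v.aT ≤ KT) (h6 : v.bT ≤ KT)
    (h7 : v.aE ≤ KE) (h8 : v.bE ≤ KE) :
    cellV d C v ≤ sumT4 (numG d.nx d.nX v.ax v.bx v.aX v.bX C) * (Kt ^ d.nt * Ke ^ d.ne * KT ^ d.nT * KE ^ d.nE) := by
  unfold cellV
  have a1 := evalC_le (powL d.nt v.at' v.bt) (powL d.ne v.ae v.be)
    (evalW (powL d.nT v.aT v.bT) (powL d.nE v.aE v.bE) (numG d.nx d.nX v.ax v.bx v.aX v.bX C))
    (powL_le h1 h2 _) (powL_le h3 h4 _)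
  have a2 := sumT2_evalW_le (powL d.nT v.aT v.bT) (powL d.nE v.aE v.bE) (numG d.nx d.nX v.ax v.bx v.aX v.bX C)
    (powL_le h5 h6 _) (powL_le h7 h8 _)
  refine a1.trans ?_
  calc _ ≤ Kt ^ d.nt * Ke ^ d.ne * (KT ^ d.nT * KE ^ d.nE * sumT4 (numG d.nx d.nX v.ax v.bx v.aX v.bX C)) :=
        Nat.mul_le_mul_left _ a2
    _ = _ := by ring

/-- The conditions on the context and the pair of outer intervals. -/
def Ctx.boundOk (c : Ctx) : Bool :=
  let K := Nat.mul (Nat.mul (Nat.mul (Nat.pow c.Kt c.d.nt) (Nat.pow c.Ke c.d.ne)) (Nat.pow c.KT c.d.nT)) (Nat.pow c.KE c.d.nE)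
  let S := fun T => sumT4 (numN c.d.nx c.d.nX c.Kxa c.Kxb c.KXa c.KXb T)
  Nat.ble 1 c.w && fitTen c.d.nx c.d.nX c.TP && fitTen c.d.nx c.d.nX c.TN &&
    Nat.blt (Nat.mul (S c.TP) K) (Nat.pow 2 (Nat.sub c.w 1)) && Nat.blt (Nat.mul (S c.TN) K) (Nat.pow 2 (Nat.sub c.w 1))

lemma cpN_mono {nx nX ax bx aX bX ax' bx' aX' bX' : ℕ} (h1 : ax ≤ ax') (h2 : bx ≤ bx') (h3 : aX ≤ aX') (h4 : bX ≤ bX')
    (L : List CE) : cpN nx nX ax bx aX bX L ≤ cpN nx nX ax' bx' aX' bX' L := by
  induction L with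
  | nil => exact le_refl _
  | cons e es ih =>
    simp only [cpN]
    exact Nat.add_le_add (Nat.mul_le_mul_left _ (Nat.mul_le_mul
      (Nat.mul_le_mul (Nat.pow_le_pow_left h1 _) (Nat.pow_le_pow_left h2 _))
      (Nat.mul_le_mul (Nat.pow_le_pow_left h3 _) (Nat.pow_le_pow_left h4 _)))) ih

lemma sum_map_mono {α : Type} {f g : α → ℕ} (h : ∀ a, f a ≤ g a) (L : List α) : (L.map f).sum ≤ (L.map g).sum := by
  induction L with
  | nil => exact le_refl _
  | cons a L ih =>
    simp only [List.map_cons, List.sum_cons]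
    exact Nat.add_le_add (h a) ih

lemma sumT4_numN_mono {nx nX ax bx aX bX ax' bx' aX' bX' : ℕ} (h1 : ax ≤ ax') (h2 : bx ≤ bx') (h3 : aX ≤ aX')
    (h4 : bX ≤ bX') (T : Ten (List CE)) :
    sumT4 (numN nx nX ax bx aX bX T) ≤ sumT4 (numN nx nX ax' bx' aX' bX' T) := by
  simp only [sumT4, numN, List.map_map]
  refine sum_map_mono (fun a => ?_) T
  simp only [Function.comp_apply, List.map_map]
  refine sum_map_mono (fun b => ?_) a
  simp only [Function.comp_apply, sum2, List.map_map]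
  refine sum_map_mono (fun d => ?_) b
  simp only [Function.comp_apply]
  refine sum_map_mono (fun L => ?_) d
  exact cpN_mono h1 h2 h3 h4 L

lemma aeval_cellF {S : Type} [CommSemiring S] (w : Fin 6 → S) (d : Dg) (C : Ten (List CE)) (Cx Ct Ce CX CT CE' : Iv) :
    aeval w (cellF d C Cx Ct Ce CX CT CE') = cellV d C
      (⟨Cx.A (w 0), Cx.B (w 0), Ct.A (w 1), Ct.B (w 1), Ce.A (w 2), Ce.B (w 2),
        CX.A (w 3), CX.B (w 3), CT.A (w 4), CT.B (w 4), CE'.A (w 5), CE'.B (w 5)⟩ : Pt S) := by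
  have := map_cellV (aeval w : MP →ₐ[ℕ] S).toRingHom d C (⟨Cx.A (X 0), Cx.B (X 0), Ct.A (X 1), Ct.B (X 1), Ce.A (X 2), Ce.B (X 2),
    CX.A (X 3), CX.B (X 3), CT.A (X 4), CT.B (X 4), CE'.A (X 5), CE'.B (X 5)⟩ : Pt MP)
  unfold cellF
  simpa [Pt.map, Iv.A, Iv.B] using this

lemma leafK_eq (c : Ctx) (T : Ten (List CE)) (Cx CX Ct Ce CT CE' : Iv) :
    leafK c T Cx CX Ct Ce CT CE' = aeval (fun i => (2 ^ c.w) ^ c.d.rad i) (cellF c.d T Cx Ct Ce CX CT CE') := by
  rw [aeval_cellF]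
  have e : ∀ u, kp c.w u = (2 ^ c.w) ^ u := by
    intro u
    exact pow_mul 2 c.w u
  have key := leafP_eq c.d T (⟨Cx.AN c.t0, Cx.BN c.t0, Ct.AN c.t1, Ct.BN c.t1, Ce.AN c.t2, Ce.BN c.t2,
    CX.AN c.t3, CX.BN c.t3, CT.AN c.t4, CT.BN c.t4, CE'.AN c.t5, CE'.BN c.t5⟩ : Pt ℕ)
  unfold leafK
  simp only at key
  rw [numR_eq, key]
  simp only [Iv.AN_eq, Iv.BN_eq, Ctx.t0, Ctx.t1, Ctx.t2, Ctx.t3, Ctx.t4, Ctx.t5, e, Dg.rad, radix]
  simp

lemma cell_dom {c : Ctx} {Cx CX Ct Ce CT CE' : Iv} (hb : c.boundOk = true)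
    (hl : leafTest c Cx CX Ct Ce CT CE' = true) (m : Fin 6 →₀ ℕ) :
    (cellF c.d c.TN Cx Ct Ce CX CT CE').coeff m ≤ (cellF c.d c.TP Cx Ct Ce CX CT CE').coeff m := by
  simp only [Ctx.boundOk, Bool.and_eq_true, Nat.blt_eq] at hb
  obtain ⟨⟨⟨⟨hw, hf1⟩, hf2⟩, hS1⟩, hS2⟩ := hb
  simp only [leafTest, leafDec, Iv.bd, Bool.and_eq_true, Nat.blt_eq] at hl
  obtain ⟨⟨⟨⟨⟨⟨⟨⟨q1, q2⟩, q3⟩, q4⟩, k1, k2⟩, k3, k4⟩, k5, k6⟩, k7, k8⟩, ⟨h1, h2⟩, h3⟩ := hl
  have q1' : Nat.add Cx.l Cx.h ≤ c.Kxa := Nat.le_of_ble_eq_true q1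
  have q2' : Nat.mul 2 Cx.D ≤ c.Kxb := Nat.le_of_ble_eq_true q2
  have q3' : Nat.add CX.l CX.h ≤ c.KXa := Nat.le_of_ble_eq_true q3
  have q4' : Nat.mul 2 CX.D ≤ c.KXb := Nat.le_of_ble_eq_true q4
  have hw' : 1 ≤ c.w := Nat.le_of_ble_eq_true hw
  have k1' := Nat.le_of_ble_eq_true k1
  have k2' := Nat.le_of_ble_eq_true k2
  have k3' := Nat.le_of_ble_eq_true k3
  have k4' := Nat.le_of_ble_eq_true k4
  have k5' := Nat.le_of_ble_eq_true k5
  have k6' := Nat.le_of_ble_eq_true k6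
  have k7' := Nat.le_of_ble_eq_true k7
  have k8' := Nat.le_of_ble_eq_true k8
  have h3' := Nat.eq_of_beq_eq_true h3
  have hgP := cellF_deg c.d c.TP Cx Ct Ce CX CT CE' hf1
  have hgQ := cellF_deg c.d c.TN Cx Ct Ce CX CT CE' hf2
  have hinj := inj_radix hgP hgQ
  have hY : 2 ^ c.w = 2 * 2 ^ (c.w - 1) := by
    conv_lhs => rw [show c.w = (c.w - 1) + 1 by omega, pow_succ]
    ring
  have ones : ∀ T : Ten (List CE), aeval (fun _ => (1 : ℕ)) (cellF c.d T Cx Ct Ce CX CT CE')
      ≤ Nat.mul (sumT4 (numN c.d.nx c.d.nX c.Kxa c.Kxb c.KXa c.KXb T))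
        (Nat.mul (Nat.mul (Nat.mul (Nat.pow c.Kt c.d.nt) (Nat.pow c.Ke c.d.ne)) (Nat.pow c.KT c.d.nT)) (Nat.pow c.KE c.d.nE)) := by
    intro T
    rw [aeval_cellF]
    have e1 : ∀ I : Iv, I.A (1 : ℕ) = Nat.add I.l I.h := by
      intro I
      simp [Iv.A]
    have e2 : ∀ I : Iv, I.B (1 : ℕ) = Nat.mul 2 I.D := by
      intro I
      simp [Iv.B, Nat.mul_comm]
    have := cellV_ones_le (d := c.d) T (⟨Cx.A (1 : ℕ), Cx.B (1 : ℕ), Ct.A (1 : ℕ), Ct.B (1 : ℕ), Ce.A (1 : ℕ), Ce.B (1 : ℕ),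
        CX.A (1 : ℕ), CX.B (1 : ℕ), CT.A (1 : ℕ), CT.B (1 : ℕ), CE'.A (1 : ℕ), CE'.B (1 : ℕ)⟩ : Pt ℕ)
      (Kt := c.Kt) (Ke := c.Ke) (KT := c.KT) (KE := c.KE)
      (by simpa only [e1] using k1') (by simpa only [e2] using k2') (by simpa only [e1] using k3')
      (by simpa only [e2] using k4') (by simpa only [e1] using k5') (by simpa only [e2] using k6')
      (by simpa only [e1] using k7') (by simpa only [e2] using k8')
    refine this.trans (le_trans (le_of_eq ?_) (Nat.mul_le_mul_right _ (sumT4_numN_mono (nx := c.d.nx) (nX := c.d.nX)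
      (ax := Nat.add Cx.l Cx.h) (bx := Nat.mul 2 Cx.D) (aX := Nat.add CX.l CX.h) (bX := Nat.mul 2 CX.D) q1' q2' q3' q4' T)))
    have e3 : ∀ I : Iv, Nat.add I.l I.h = I.A (1 : ℕ) := fun I => (e1 I).symm
    have e4 : ∀ I : Iv, Nat.mul 2 I.D = I.B (1 : ℕ) := fun I => (e2 I).symm
    simp only [numN_eq, e3, e4]
    rfl
  have hN : leafK c c.TP Cx CX Ct Ce CT CE' = leafK c c.TN Cx CX Ct Ce CT CE'
      + (leafK c c.TP Cx CX Ct Ce CT CE' - leafK c c.TN Cx CX Ct Ce CT CE') := by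
    have : leafK c c.TN Cx CX Ct Ce CT CE' ≤ leafK c c.TP Cx CX Ct Ce CT CE' := Nat.le_of_ble_eq_true h1
    omega
  have hlt : leafK c c.TP Cx CX Ct Ce CT CE' - leafK c c.TN Cx CX Ct Ce CT CE' < (2 ^ c.w) ^ c.d.total := by
    have e : (2 ^ c.w) ^ c.d.total = 2 ^ (c.w * c.d.total) := (pow_mul 2 c.w c.d.total).symm
    rw [e]
    exact h2
  have hland : (leafK c c.TP Cx CX Ct Ce CT CE' - leafK c c.TN Cx CX Ct Ce CT CE') &&& maskN c.w c.d.total = 0 := by
    rw [← maskF_eq hw']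
    exact h3'
  have hd := digits_of_land hw' hlt hland
  refine dom_of_digits (e := c.d.rad) hinj hY ?_ ?_ ?_ hd m
  · exact lt_of_le_of_lt (ones _) hS1
  · exact lt_of_le_of_lt (ones _) hS2
  · rw [← leafK_eq, ← leafK_eq]
    exact hN

end raw

section realcell

/-- The real point. -/
noncomputable def ptR (x t e X T E : ℝ) : Pt ℝ := ⟨x, 1, t, 1, e, 1, X, 1, T, 1, E, 1⟩

/-- The quantity certified on a cell. -/
noncomputable def Rcell (c : Ctx) (x t e X T E : ℝ) : ℝ :=
  cellV c.d c.TP (ptR x t e X T E) - cellV c.d c.TN (ptR x t e X T E)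

lemma Iv.theta {I : Iv} {v : ℝ} (hD : 0 < I.D) (h : I.mem v) :
    ∃ θ : ℝ, 0 ≤ θ ∧ I.A θ = v * I.B θ ∧ 0 < I.B θ := by
  obtain ⟨h1, h2⟩ := h
  have hd : (0 : ℝ) < I.D := by exact_mod_cast hD
  have hp : 0 < (I.h : ℝ) - v * I.D := by linarith
  refine ⟨(v * I.D - I.l) / (I.h - v * I.D), div_nonneg (by linarith) hp.le, ?_, ?_⟩
  · unfold Iv.A Iv.B
    field_simp
    ring
  · unfold Iv.B
    have : 0 ≤ (v * I.D - I.l) / (I.h - v * I.D) := div_nonneg (by linarith) hp.le
    positivity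

lemma dot_scale (C D : ℝ) (U W : List ℝ) :
    dotG (U.map fun v => v * C) (W.map fun v => v * D) = dotG U W * (C * D) := by
  induction U generalizing W with
  | nil => simp [dotG]
  | cons x r ih =>
    cases W with
    | nil => simp [dotG]
    | cons v V =>
      simp only [List.map_cons, dotG, ih]
      ring

lemma powAux_scale (t b : ℝ) (k j : ℕ) :
    powAux (t * b) b k j = (powAux t 1 k j).map fun v => v * b ^ (j + k) := by
  induction k generalizing j with
  | zero =>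
    simp only [powAux, List.map_cons, List.map_nil, add_zero, mul_pow]
  | succ k ih =>
    simp only [powAux, List.map_cons, ih]
    congr 1
    · simp only [one_pow, mul_one, mul_pow]
      ring
    · have : j + (k + 1) = j + 1 + k := by omega
      rw [this]

lemma powL_scale (n : ℕ) (t b : ℝ) :
    powL n (t * b) b = (powL n t 1).map fun v => v * b ^ n := by
  have := powAux_scale t b n 0
  simpa [powL] using this

lemma cp_scale {nx nX : ℕ} (x bx X bX : ℝ) (L : List CE) (hL : ∀ e ∈ L, e.p ≤ nx ∧ e.q ≤ nX) :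
    cpG nx nX (x * bx) bx (X * bX) bX L = cpG nx nX x 1 X 1 L * (bx ^ nx * bX ^ nX) := by
  induction L with
  | nil => simp [cpG]
  | cons e es ih =>
    simp only [cpG]
    rw [ih fun u hu => hL u (by simp [hu])]
    obtain ⟨h1, h2⟩ := hL e (by simp)
    obtain ⟨q, hq⟩ := Nat.exists_eq_add_of_le h1
    obtain ⟨r, hr⟩ := Nat.exists_eq_add_of_le h2
    have e1 : nx - e.p = q := by omega
    have e2 : nX - e.q = r := by omega
    rw [e1, e2, hq, hr]
    simp only [mul_pow, one_pow, mul_one, pow_add]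
    ring

lemma evalA_scale (C D K : ℝ) (T' E' : List ℝ) (m : List (List ℝ)) :
    evalA (T'.map fun v => v * C) (E'.map fun v => v * D) (m.map (List.map fun v => v * K))
      = evalA T' E' m * (C * D * K) := by
  unfold evalA
  have e1 : (m.map (List.map fun v => v * K)).map (dotG (T'.map fun v => v * C))
      = (m.map (dotG T')).map fun v => v * (C * K) := by
    simp only [List.map_map]
    refine List.map_congr_left fun r _ => ?_
    simp only [Function.comp_apply]
    exact dot_scale _ _ _ _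
  rw [e1, dot_scale]
  ring

lemma numG_scale {nx nX : ℕ} (C : Ten (List CE)) (hf : fitTen nx nX C = true) (x bx X bX : ℝ) :
    numG nx nX (x * bx) bx (X * bX) bX C
      = (numG nx nX x 1 X 1 C).map (List.map (List.map (List.map fun v => v * (bx ^ nx * bX ^ nX)))) := by
  unfold numG
  simp only [List.map_map]
  refine List.map_congr_left fun a ha => ?_
  simp only [Function.comp_apply, List.map_map]
  refine List.map_congr_left fun b hb => ?_
  simp only [Function.comp_apply, List.map_map]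
  refine List.map_congr_left fun r hr => ?_
  simp only [Function.comp_apply, List.map_map]
  refine List.map_congr_left fun L hL => ?_
  simp only [Function.comp_apply]
  exact cp_scale x bx X bX L fun u hu => fitTen_spec hf ha hb hr hL hu

lemma evalW_scale (C D K : ℝ) (T' E' : List ℝ) (N : Ten ℝ) :
    evalW (T'.map fun v => v * C) (E'.map fun v => v * D)
        (N.map (List.map (List.map (List.map fun v => v * K))))
      = (evalW T' E' N).map (List.map fun v => v * (C * D * K)) := by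
  unfold evalW
  simp only [List.map_map]
  refine List.map_congr_left fun a _ => ?_
  simp only [Function.comp_apply, List.map_map]
  refine List.map_congr_left fun b _ => ?_
  simp only [Function.comp_apply]
  exact evalA_scale _ _ _ _ _ _

lemma cell_scale (d : Dg) (C : Ten (List CE)) (hf : fitTen d.nx d.nX C = true)
    (x t e X T E bx bt be bX bT bE : ℝ) :
    cellV d C (⟨x * bx, bx, t * bt, bt, e * be, be, X * bX, bX, T * bT, bT, E * bE, bE⟩ : Pt ℝ)
      = cellV d C (ptR x t e X T E) *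
        (bt ^ d.nt * be ^ d.ne * (bE ^ d.nE * (bT ^ d.nT * (bx ^ d.nx * bX ^ d.nX)))) := by
  simp only [cellV, ptR]
  rw [powL_scale, powL_scale, powL_scale, powL_scale, numG_scale C hf, evalW_scale]
  have := evalA_scale (bt ^ d.nt) (be ^ d.ne) (bT ^ d.nT * bE ^ d.nE * (bx ^ d.nx * bX ^ d.nX))
    (powL d.nt t 1) (powL d.ne e 1)
    (evalW (powL d.nT T 1) (powL d.nE E 1) (numG d.nx d.nX x 1 X 1 C))
  unfold evalC
  unfold evalA at this
  rw [this]
  ring

lemma Pt_ext_cell (d : Dg) (C : Ten (List CE)) {v w : Pt ℝ} (h : v = w) : cellV d C v = cellV d C w := by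
  rw [h]

/-- Positivity on a cell from the test. -/
theorem leaf_sound {c : Ctx} {Cx CX Ct Ce CT CE' : Iv} (hb : c.boundOk = true)
    (d0 : 0 < Cx.D) (d1 : 0 < Ct.D) (d2 : 0 < Ce.D) (d3 : 0 < CX.D) (d4 : 0 < CT.D) (d5 : 0 < CE'.D)
    (hl : leafTest c Cx CX Ct Ce CT CE' = true) {x t e X T E : ℝ} (m0 : Cx.mem x) (m1 : Ct.mem t)
    (m2 : Ce.mem e) (m3 : CX.mem X) (m4 : CT.mem T) (m5 : CE'.mem E) : 0 ≤ Rcell c x t e X T E := by
  have hb' := hb
  simp only [Ctx.boundOk, Bool.and_eq_true] at hb'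
  obtain ⟨⟨⟨⟨_, hf1⟩, hf2⟩, _⟩, _⟩ := hb'
  obtain ⟨θ0, p0, a0, b0⟩ := Iv.theta d0 m0
  obtain ⟨θ1, p1, a1, b1⟩ := Iv.theta d1 m1
  obtain ⟨θ2, p2, a2, b2⟩ := Iv.theta d2 m2
  obtain ⟨θ3, p3, a3, b3⟩ := Iv.theta d3 m3
  obtain ⟨θ4, p4, a4, b4⟩ := Iv.theta d4 m4
  obtain ⟨θ5, p5, a5, b5⟩ := Iv.theta d5 m5
  set θ : Fin 6 → ℝ := ![θ0, θ1, θ2, θ3, θ4, θ5] with hθ
  have hpos : ∀ i, 0 ≤ θ i := by
    intro i
    fin_cases i <;> simp [*]
  have key := real_le_of_dom (cell_dom hb hl) θ hpos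
  rw [aeval_cellF, aeval_cellF] at key
  have e0 : θ 0 = θ0 := rfl
  have e1 : θ 1 = θ1 := rfl
  have e2 : θ 2 = θ2 := rfl
  have e3 : θ 3 = θ3 := rfl
  have e4 : θ 4 = θ4 := rfl
  have e5 : θ 5 = θ5 := rfl
  simp only [e0, e1, e2, e3, e4, e5, a0, a1, a2, a3, a4, a5] at key
  rw [cell_scale c.d c.TN hf2, cell_scale c.d c.TP hf1] at key
  have hC : 0 < Ct.B θ1 ^ c.d.nt * Ce.B θ2 ^ c.d.ne * (CE'.B θ5 ^ c.d.nE * (CT.B θ4 ^ c.d.nT * (Cx.B θ0 ^ c.d.nx * CX.B θ3 ^ c.d.nX))) := by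
    positivity
  have := le_of_mul_le_mul_right key hC
  unfold Rcell
  linarith

end realcell

end Vale.Agent.helper4.Q4
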