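import Vale.Agent.helper4.Q4R2
import Vale.Agent.helper4.GWLaws

/-!
The certificate for four colours: everything but the two inequalities for pairs of messages.
-/

set_option linter.unusedSectionVars false
set_option linter.unusedVariables false

open Filter Topology

namespace Vale.Agent.helper4.Q4

open GW (ZZ uu xx Simp Bdd MLaw vertex Cert)

/-- The two inequalities for pairs of messages, and the positivity of the weight. -/
structure Facts : Prop where
  fr : ∀ c : Fin 4 → ℝ, Simp c → 0 ≤ Fr (mom c 2) (mom c 3) (mom c 4)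
  r1 : ∀ c a : Fin 4 → ℝ, ∑ l, c l = 0 → ∑ l, a l = 0 → (∀ l, -1 < c l) → (∀ l, -muQ.val ≤ a l) →
    0 < mom c 2 → 0 < mom a 2 →
    avgT a (fun b => ZZ c b * xx (uu c b)) ≤ mom c 2 + mom a 2 - 2 / 3 * mom a 2 * GG c
      - GG a * Fr (mom c 2) (mom c 3) (mom c 4) - mom c 2 ^ 2 * mom a 2 ^ 2 / dltD
  r2 : ∀ c a : Fin 4 → ℝ, ∑ l, c l = 0 → ∑ l, a l = 0 → (∀ l, -1 < c l) → (∀ l, -muQ.val ≤ a l) →
    0 < mom c 2 → 0 < mom a 2 →
    (1 - rr (mom a 2)) * GG c + hr (mom c 2) * GG a ≤ avgT a (fun b => ZZ c b * GG (uu c b))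

section perms

lemma taus_bij : ∀ τ ∈ taus, Function.Bijective τ := by
  intro τ hτ
  simp only [taus, List.mem_cons, List.not_mem_nil, or_false] at hτ
  rcases hτ with rfl | rfl | rfl | rfl | rfl | rfl | rfl | rfl | rfl | rfl | rfl | rfl | rfl | rfl | rfl | rfl | rfl | rfl | rfl | rfl | rfl | rfl | rfl | rfl <;>
    decide

/-- The orderings as permutations. -/
noncomputable def gs4 : List (Equiv.Perm (Fin 4)) :=
  taus.pmap (fun τ h => Equiv.ofBijective τ h) taus_bij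

lemma gs4_map {β : Type} (F : (Fin 4 → Fin 4) → β) :
    gs4.map (fun g : Equiv.Perm (Fin 4) => F g) = taus.map F := by
  unfold gs4
  rw [List.map_pmap]
  exact List.pmap_eq_map ..

lemma gs4_length : gs4.length = 24 := by
  unfold gs4
  rw [List.length_pmap]
  rfl

lemma gs4_avg (a : Fin 4 → ℝ) (Φ : (Fin 4 → ℝ) → ℝ) :
    (gs4.map fun g : Equiv.Perm (Fin 4) => Φ (a ∘ g)).sum / gs4.length = avgT a Φ := by
  rw [gs4_length]
  have := gs4_map (β := ℝ) (fun τ => Φ (a ∘ τ))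
  unfold avgT
  rw [this]
  norm_num

end perms

section phi

lemma phiT_nonneg {w : ℝ} (hw : -1 < w) : 0 ≤ phiT w := by
  have hu : 0 < 1 + w := by linarith
  have h1 := Real.one_sub_inv_le_log_of_pos hu
  have h2 : (1 + w) * (1 - (1 + w)⁻¹) ≤ (1 + w) * Real.log (1 + w) := mul_le_mul_of_nonneg_left h1 hu.le
  have h3 : (1 + w) * (1 - (1 + w)⁻¹) = w := by
    field_simp
    ring
  unfold phiT
  linarith

lemma phiT_le {w : ℝ} (hw : -1 < w) : phiT w ≤ w ^ 2 := by
  have hu : 0 < 1 + w := by linarith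
  have h1 := Real.log_le_sub_one_of_pos hu
  have h2 : (1 + w) * Real.log (1 + w) ≤ (1 + w) * (1 + w - 1) := mul_le_mul_of_nonneg_left h1 hu.le
  unfold phiT
  nlinarith

lemma phiT_zero : phiT 0 = 0 := by
  simp [phiT]

lemma HH_zero : HH 0 = 0 := by
  simp [HH, phiT_zero]

lemma mom0 {k : ℕ} (hk : k ≠ 0) : mom (0 : Fin 4 → ℝ) k = 0 := by
  simp [mom, hk]

lemma GG_zero : GG 0 = 0 := by
  have h2 := mom0 (k := 2) (by norm_num)
  have h3 := mom0 (k := 3) (by norm_num)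
  unfold GG
  rw [h2, h3, HH_zero]
  ring

lemma bdd_mom (k : ℕ) : Bdd fun c : Fin 4 → ℝ => mom c k := by
  have hb : ∀ i ∈ (Finset.univ : Finset (Fin 4)), Bdd (fun c : Fin 4 → ℝ => (1 / 4 : ℝ) * c i ^ k) :=
    fun i _ => ((GW.bdd_coord i).pow k).smul _
  refine (Bdd.sum _ hb).imp fun C h c hc => ?_
  have := h c hc
  have e : mom c k = ∑ i, (1 / 4 : ℝ) * c i ^ k := by
    unfold mom
    rw [Finset.sum_div]
    exact Finset.sum_congr rfl fun i _ => by ring
  show |mom c k| ≤ C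
  rw [e]
  exact this

lemma bdd_HH : Bdd HH := by
  refine ⟨16, fun c hc => ?_⟩
  unfold HH
  have h1 : ∀ l, 0 ≤ phiT (c l) := fun l => phiT_nonneg (hc.2 l)
  have h2 : ∀ l, phiT (c l) ≤ 16 := by
    intro l
    have h3 := phiT_le (hc.2 l)
    have h4 := GW.simp_abs_le hc l
    have h5 : c l ^ 2 ≤ 16 := by
      have h6 : |c l| ^ 2 ≤ ((4 : ℕ) : ℝ) ^ 2 := pow_le_pow_left₀ (abs_nonneg _) h4 2
      rw [sq_abs] at h6
      norm_num at h6
      linarith
    linarith
  rw [abs_of_nonneg (div_nonneg (Finset.sum_nonneg fun l _ => h1 l) (by norm_num))]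
  rw [Fin.sum_univ_four]
  have := h2 0
  have := h2 1
  have := h2 2
  have := h2 3
  linarith

lemma GG_bdd : Bdd GG := by
  have h := (((bdd_mom 2).smul 3).sub (bdd_HH.smul 6)).smul ((aN : ℝ) / aD) |>.sub ((bdd_mom 3).smul ((bN : ℝ) / aD))
  exact h

lemma Fr_bdd : Bdd fun c : Fin 4 → ℝ => Fr (mom c 2) (mom c 3) (mom c 4) := by
  have h2 := bdd_mom 2
  have h3 := bdd_mom 3
  have h4 := bdd_mom 4
  have h : Bdd fun c : Fin 4 → ℝ => (1 / (dF : ℝ)) * ((F1 : ℝ) * mom c 2 - (F2 : ℝ) * mom c 3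
      - (F3 : ℝ) * (mom c 4 - mom c 2 ^ 2) + (F4 : ℝ) * (mom c 2 * mom c 3) - (F5 : ℝ) * mom c 2 ^ 3) :=
    (((((h2.smul _).sub (h3.smul _)).sub ((h4.sub (h2.pow 2)).smul _)).add ((h2.mul h3).smul _)).sub
      ((h2.pow 3).smul _)).smul _
  refine h.imp fun C hC c hc => ?_
  have := hC c hc
  have e : Fr (mom c 2) (mom c 3) (mom c 4) = (1 / (dF : ℝ)) * ((F1 : ℝ) * mom c 2 - (F2 : ℝ) * mom c 3
      - (F3 : ℝ) * (mom c 4 - mom c 2 ^ 2) + (F4 : ℝ) * (mom c 2 * mom c 3) - (F5 : ℝ) * mom c 2 ^ 3) := by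
    unfold Fr
    ring
  show |Fr (mom c 2) (mom c 3) (mom c 4)| ≤ C
  rw [e]
  exact this

end phi

section scale

/-- The function whose mean enters the invariant. -/
noncomputable def gW (w : ℝ) : ℝ := 3 * w ^ 2 - 6 * phiT w

lemma d_log {w : ℝ} (hw : -1 < w) : HasDerivAt (fun w => Real.log (1 + w)) (1 / (1 + w)) w := by
  have := ((hasDerivAt_id w).const_add 1).log (by simp only [id]; linarith)
  simpa using this

lemma d_inv {w : ℝ} (hw : -1 < w) : HasDerivAt (fun w : ℝ => 6 / (1 + w)) (-6 / (1 + w) ^ 2) w := by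
  have h1 : (1 + w) ≠ 0 := by linarith
  have d1 : HasDerivAt (fun w : ℝ => 1 + w) 1 w := by simpa using (hasDerivAt_id w).const_add 1
  have h2 : HasDerivAt (fun w : ℝ => (1 + w)⁻¹) (-1 / (1 + w) ^ 2) w := d1.inv h1
  have h3 := h2.const_mul (6 : ℝ)
  have e : (fun w : ℝ => 6 * (1 + w)⁻¹) = fun w => 6 / (1 + w) := by
    funext u
    rw [div_eq_mul_inv]
  rw [e] at h3
  refine h3.congr_deriv ?_
  ring

lemma d_poly (a b c : ℝ) (w : ℝ) : HasDerivAt (fun w : ℝ => a * w ^ 2 + b * w + c) (2 * a * w + b) w := by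
  have h1 : HasDerivAt (fun w : ℝ => w ^ 2) (2 * w) w := by
    simpa using hasDerivAt_pow 2 w
  have h2 := (h1.const_mul a).add ((hasDerivAt_id w).const_mul b)
  have h3 := h2.add_const c
  refine HasDerivAt.congr_deriv (f := fun w : ℝ => a * w ^ 2 + b * w + c) h3 ?_
  ring

lemma kW_deriv {w : ℝ} (hw : -1 < w) : HasDerivAt (fun w => 6 * w + 6 - 12 * Real.log (1 + w) - 6 / (1 + w))
    (6 * (1 - 1 / (1 + w)) ^ 2) w := by
  have h1 : (1 + w) ≠ 0 := by linarith
  have d4 : HasDerivAt (fun w : ℝ => 6 * w + 6) 6 w := by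
    simpa using ((hasDerivAt_id w).const_mul 6).add_const 6
  have := (d4.sub ((d_log hw).const_mul 12)).sub (d_inv hw)
  refine HasDerivAt.congr_deriv (f := fun w => 6 * w + 6 - 12 * Real.log (1 + w) - 6 / (1 + w)) this ?_
  field_simp
  ring

lemma kW_mono : MonotoneOn (fun w => 6 * w + 6 - 12 * Real.log (1 + w) - 6 / (1 + w)) (Set.Ioi (-1)) := by
  refine monotoneOn_of_deriv_nonneg (convex_Ioi _) ?_ ?_ ?_
  · intro u hu
    exact (kW_deriv hu).continuousAt.continuousWithinAt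
  · intro u hu
    rw [interior_Ioi] at hu
    exact (kW_deriv hu).differentiableAt.differentiableWithinAt
  · intro u hu
    rw [interior_Ioi] at hu
    rw [(kW_deriv hu).deriv]
    positivity

lemma kW_zero : (fun w : ℝ => 6 * w + 6 - 12 * Real.log (1 + w) - 6 / (1 + w)) 0 = 0 := by
  norm_num

lemma Qg_nonpos {u : ℝ} (hu : -1 < u) : -3 * u ^ 2 - 18 * u + (18 + 12 * u) * Real.log (1 + u) ≤ 0 := by
  have hd : ∀ w, -1 < w → HasDerivAt (fun w => (3 * w ^ 2 + 18 * w + 0) - (18 + 12 * w) * Real.log (1 + w))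
      (6 * w + 6 - 12 * Real.log (1 + w) - 6 / (1 + w)) w := by
    intro w hw
    have h1 : (1 + w) ≠ 0 := by linarith
    have d3 : HasDerivAt (fun w : ℝ => 18 + 12 * w) 12 w := by
      simpa using ((hasDerivAt_id w).const_mul 12).const_add 18
    have := (d_poly 3 18 0 w).sub (d3.mul (d_log hw))
    refine HasDerivAt.congr_deriv (f := fun w => (3 * w ^ 2 + 18 * w + 0) - (18 + 12 * w) * Real.log (1 + w)) this ?_
    field_simp
    ring
  have := nonneg_of_deriv_sign hd (by norm_num) ?_ ?_ hu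
  · linarith
  · intro w hw
    have := kW_mono (Set.mem_Ioi.mpr (by norm_num : (-1 : ℝ) < 0)) (Set.mem_Ioi.mpr (by linarith : (-1 : ℝ) < w)) hw
    rw [kW_zero] at this
    exact this
  · intro w hw hw0
    have := kW_mono (Set.mem_Ioi.mpr hw) (Set.mem_Ioi.mpr (by norm_num : (-1 : ℝ) < 0)) hw0
    rw [kW_zero] at this
    exact this

lemma gW_deriv {u : ℝ} (hu : -1 < u) : HasDerivAt gW (6 * u - 6 * Real.log (1 + u)) u := by
  have h1 : (1 + u) ≠ 0 := by linarith
  have d1 : HasDerivAt (fun w : ℝ => 1 + w) 1 u := by simpa using (hasDerivAt_id u).const_add 1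
  have d3 : HasDerivAt (fun w : ℝ => 3 * w ^ 2 + 0 * w + 0) (2 * 3 * u + 0) u := d_poly 3 0 0 u
  have d4 : HasDerivAt phiT (Real.log (1 + u)) u := by
    have := (d1.mul (d_log hu)).sub (hasDerivAt_id u)
    refine HasDerivAt.congr_deriv (f := phiT) this ?_
    field_simp
    ring
  have := d3.sub (d4.const_mul 6)
  have e : gW = fun w => (3 * w ^ 2 + 0 * w + 0) - 6 * phiT w := by
    funext w
    unfold gW
    ring
  rw [e]
  refine HasDerivAt.congr_deriv this ?_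
  ring

theorem gW_scale {w s : ℝ} (hw : -1 < w) (h0 : 0 ≤ s) (h1 : s ≤ 1) : s ^ 3 * gW w ≤ gW (s * w) := by
  rcases h0.eq_or_lt with h | h
  · rw [← h]
    simp [gW, phiT_zero]
  have hpos : ∀ t, s ≤ t → t ≤ 1 → -1 < t * w := by
    intro t h2 h3
    have ht : 0 < t := by linarith
    rcases le_total 0 w with h4 | h4
    · have := mul_nonneg ht.le h4
      linarith
    · have : t * w ≥ 1 * w := by
        have := mul_le_mul_of_nonpos_right h3 h4
        linarith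
      linarith
  have hd : ∀ t, s ≤ t → t ≤ 1 → HasDerivAt (fun t => gW (t * w) / t ^ 3)
      ((-3 * (t * w) ^ 2 - 18 * (t * w) + (18 + 12 * (t * w)) * Real.log (1 + t * w)) / t ^ 4) t := by
    intro t h2 h3
    have ht : 0 < t := by linarith
    have a1 : HasDerivAt (fun t : ℝ => t * w) w t := by simpa using (hasDerivAt_id t).mul_const w
    have a2 : HasDerivAt (fun t => gW (t * w)) ((6 * (t * w) - 6 * Real.log (1 + t * w)) * w) t :=
      HasDerivAt.comp (h₂ := gW) (h := fun t : ℝ => t * w) t (gW_deriv (hpos t h2 h3)) a1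
    have a3 : HasDerivAt (fun t : ℝ => t ^ 3) (3 * t ^ 2) t := by
      simpa using hasDerivAt_pow 3 t
    have a4 := a2.div a3 (by positivity)
    refine HasDerivAt.congr_deriv (f := fun t => gW (t * w) / t ^ 3) a4 ?_
    unfold gW phiT
    field_simp
    ring
  have hanti : AntitoneOn (fun t => gW (t * w) / t ^ 3) (Set.Icc s 1) := by
    refine antitoneOn_of_deriv_nonpos (convex_Icc s 1) ?_ ?_ ?_
    · intro t ht
      exact (hd t ht.1 ht.2).continuousAt.continuousWithinAt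
    · intro t ht
      rw [interior_Icc] at ht
      exact (hd t ht.1.le ht.2.le).differentiableAt.differentiableWithinAt
    · intro t ht
      rw [interior_Icc] at ht
      rw [(hd t ht.1.le ht.2.le).deriv]
      have ht0 : 0 < t := by linarith [ht.1]
      exact div_nonpos_of_nonpos_of_nonneg (Qg_nonpos (hpos t ht.1.le ht.2.le)) (by positivity)
  have := hanti (Set.left_mem_Icc.mpr h1) (Set.right_mem_Icc.mpr h1) h1
  simp only [one_mul, one_pow, div_one] at this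
  have h3 : 0 < s ^ 3 := by positivity
  calc s ^ 3 * gW w ≤ s ^ 3 * (gW (s * w) / s ^ 3) := mul_le_mul_of_nonneg_left this h3.le
    _ = gW (s * w) := by field_simp

/-- A second order bound for the logarithm. -/
lemma log_second {v : ℝ} (h0 : 0 ≤ v) (h1 : v < 1) : Real.log (1 - v) ≤ -v - v ^ 2 / 2 := by
  have hd : ∀ w, w < 1 → HasDerivAt (fun w => (-(1 / 2) * w ^ 2 + (-1) * w + 0) - Real.log (1 - w)) (-1 - w + 1 / (1 - w)) w := by
    intro w hw
    have h2 : (1 - w) ≠ 0 := by linarith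
    have d1 : HasDerivAt (fun w : ℝ => 1 - w) (-1) w := by simpa using (hasDerivAt_id w).const_sub 1
    have d2 : HasDerivAt (fun w => Real.log (1 - w)) (-1 / (1 - w)) w := d1.log h2
    have := (d_poly (-(1 / 2)) (-1) 0 w).sub d2
    refine HasDerivAt.congr_deriv (f := fun w => (-(1 / 2) * w ^ 2 + (-1) * w + 0) - Real.log (1 - w)) this ?_
    ring
  have hm : MonotoneOn (fun w => (-(1 / 2) * w ^ 2 + (-1) * w + 0) - Real.log (1 - w)) (Set.Icc 0 v) := by
    refine monotoneOn_of_deriv_nonneg (convex_Icc 0 v) ?_ ?_ ?_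
    · intro u hu
      exact (hd u (by linarith [hu.2])).continuousAt.continuousWithinAt
    · intro u hu
      rw [interior_Icc] at hu
      exact (hd u (by linarith [hu.2])).differentiableAt.differentiableWithinAt
    · intro u hu
      rw [interior_Icc] at hu
      rw [(hd u (by linarith [hu.2])).deriv]
      have h3 : 0 < 1 - u := by linarith [hu.2]
      have e : -1 - u + 1 / (1 - u) = u ^ 2 / (1 - u) := by
        field_simp
        ring
      rw [e]
      positivity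
  have := hm (Set.left_mem_Icc.mpr h0) (Set.right_mem_Icc.mpr h0) h0
  norm_num at this
  linarith

lemma gW_neg {v : ℝ} (h0 : 0 ≤ v) (h1 : v < 1) : -3 * v ^ 3 ≤ gW (-v) := by
  have h2 := log_second h0 h1
  have h3 : (1 - v) * Real.log (1 - v) ≤ (1 - v) * (-v - v ^ 2 / 2) :=
    mul_le_mul_of_nonneg_left h2 (by linarith)
  unfold gW phiT
  have e : (1 + -v) = 1 - v := by ring
  rw [e]
  nlinarith

lemma gW_three : (117 : ℝ) / 10 ≤ gW 3 := by
  have h := Real.log_two_lt_d9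
  have e : Real.log (1 + 3) = 2 * Real.log 2 := by
    have : (1 + 3 : ℝ) = 2 ^ 2 := by norm_num
    rw [this, Real.log_pow]
    norm_num
  unfold gW phiT
  rw [e]
  norm_num at h ⊢
  linarith

lemma GG_eq (c : Fin 4 → ℝ) : GG c = ((aN : ℝ) / aD) * ((∑ l, gW (c l)) / 4) - ((bN : ℝ) / aD) * mom c 3 := by
  unfold GG HH gW mom
  simp only [Fin.sum_univ_four]
  ring

lemma aN_pos : (0 : ℝ) ≤ (aN : ℝ) / aD := by
  positivity

lemma GG_scale {lam : ℝ} (h0 : 0 ≤ lam) (h1 : lam ≤ 1) {c : Fin 4 → ℝ} (hc : Simp c) :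
    lam ^ 3 * GG c ≤ GG fun i => lam * c i := by
  rw [GG_eq, GG_eq]
  have e : mom (fun i => lam * c i) 3 = lam ^ 3 * mom c 3 := by
    unfold mom
    simp only [mul_pow, ← Finset.mul_sum]
    ring
  rw [e]
  have h2 : lam ^ 3 * ∑ l, gW (c l) ≤ ∑ l, gW (lam * c l) := by
    rw [Finset.mul_sum]
    exact Finset.sum_le_sum fun l _ => gW_scale (hc.2 l) h0 h1
  have h3 := mul_le_mul_of_nonneg_left h2 (aN_pos)
  have e2 : lam ^ 3 * (((aN : ℝ) / aD) * ((∑ l, gW (c l)) / 4) - ((bN : ℝ) / aD) * mom c 3)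
      = (((aN : ℝ) / aD) * (lam ^ 3 * ∑ l, gW (c l))) / 4 - ((bN : ℝ) / aD) * (lam ^ 3 * mom c 3) := by
    ring
  have e3 : ((aN : ℝ) / aD) * ((∑ l, gW (lam * c l)) / 4) = (((aN : ℝ) / aD) * (∑ l, gW (lam * c l))) / 4 := by
    ring
  rw [e2, e3]
  linarith

lemma GG_base {lam : ℝ} (h0 : 0 ≤ lam) (h1 : lam < 1) (η : Fin 4) : 0 ≤ GG fun i => lam * vertex η i := by
  have h3 : lam ^ 3 * gW 3 ≤ gW (lam * 3) := gW_scale (by norm_num) h0 h1.le
  have h4 := gW_neg h0 h1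
  have h5 := gW_three
  have hl3 : 0 ≤ lam ^ 3 := by positivity
  have h6 : lam ^ 3 * (117 / 10) ≤ lam ^ 3 * gW 3 := mul_le_mul_of_nonneg_left h5 hl3
  have key : 0 ≤ ((aN : ℝ) / aD) * ((gW (lam * 3) + 3 * gW (-lam)) / 4) - ((bN : ℝ) / aD) * (6 * lam ^ 3) := by
    have h7 : (gW (lam * 3) + 3 * gW (-lam)) / 4 ≥ lam ^ 3 * (27 / 40) := by linarith
    have h8 : ((1055 : ℝ) / 1024) * ((gW (lam * 3) + 3 * gW (-lam)) / 4) ≥ ((1055 : ℝ) / 1024) * (lam ^ 3 * (27 / 40)) :=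
      mul_le_mul_of_nonneg_left h7 (by norm_num)
    norm_num [aN, aD, bN]
    nlinarith
  rw [GG_eq]
  have e3 : mom (fun i => lam * vertex η i) 3 = 6 * lam ^ 3 := by
    unfold mom vertex
    fin_cases η <;> simp [Fin.sum_univ_four] <;> ring
  have e4 : (∑ l, gW (lam * vertex η l)) = gW (lam * 3) + 3 * gW (-lam) := by
    unfold vertex
    have a1 : lam * (((4 : ℕ) : ℝ) - 1) = lam * 3 := by norm_num
    have a2 : lam * ((0 : ℝ) - 1) = -lam := by ring
    fin_cases η <;> simp [Fin.sum_univ_four] <;> norm_num <;> ring_nf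
  rw [e3, e4]
  exact key

end scale

section poly

lemma hr_le_one {x : ℝ} (hx : 0 ≤ x) : hr x ≤ 1 := by
  unfold hr
  norm_num [dH, H1, H2, H3]
  have h1 : 0 ≤ x * (1538 - 771 * x + 124 * x ^ 2) := by
    refine mul_nonneg hx ?_
    nlinarith [sq_nonneg (x - 771 / 248)]
  have e : (1024 - 1538 * x + 771 * x ^ 2 - 124 * x ^ 3) / 1024 = 1 - x * (1538 - 771 * x + 124 * x ^ 2) / 1024 := by
    ring
  rw [e]
  linarith

lemma hr_nonneg {x : ℝ} (hx : x ≤ 3) : 0 ≤ hr x := by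
  unfold hr
  norm_num [dH, H1, H2, H3]
  have h1 : 0 ≤ (3 - x) * (124 * x ^ 2 - 399 * x + 341) := by
    refine mul_nonneg (by linarith) ?_
    nlinarith [sq_nonneg (x - 399 / 248)]
  have e : 1024 - 1538 * x + 771 * x ^ 2 - 124 * x ^ 3 = (3 - x) * (124 * x ^ 2 - 399 * x + 341) + 1 := by
    ring
  rw [e]
  positivity

lemma rr_nonneg {X : ℝ} (hX : 0 ≤ X) : 0 ≤ rr X := by
  unfold rr
  norm_num [dR, R1, R2, R3]
  have h1 : 0 ≤ X * (1124 - 1170 * X + 582 * X ^ 2) := by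
    refine mul_nonneg hX ?_
    nlinarith [sq_nonneg (X - 1170 / 1164)]
  have e : 1124 * X - 1170 * X ^ 2 + 582 * X ^ 3 = X * (1124 - 1170 * X + 582 * X ^ 2) := by
    ring
  rw [e]
  positivity

lemma rr_le_one {X : ℝ} (h0 : 0 ≤ X) (hX : X ≤ 15039 / 10000) : rr X ≤ 1 := by
  unfold rr
  norm_num [dR, R1, R2, R3]
  have h1 : 0 ≤ (15039 / 10000 - X) * (1124 - 1170 * (15039 / 10000 + X) + 582 * ((15039 / 10000) ^ 2 + 15039 / 10000 * X + X ^ 2)) := by
    refine mul_nonneg (by linarith) ?_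
    nlinarith [sq_nonneg (X - 1 / 4)]
  have h2 : 1124 * (15039 / 10000 : ℝ) - 1170 * (15039 / 10000) ^ 2 + 582 * (15039 / 10000) ^ 3 ≤ 1024 := by
    norm_num
  have e : (1124 * X - 1170 * X ^ 2 + 582 * X ^ 3) = (1124 * (15039 / 10000 : ℝ) - 1170 * (15039 / 10000) ^ 2 + 582 * (15039 / 10000) ^ 3)
      - (15039 / 10000 - X) * (1124 - 1170 * (15039 / 10000 + X) + 582 * ((15039 / 10000) ^ 2 + 15039 / 10000 * X + X ^ 2)) := by
    ring
  rw [e, div_le_one (by norm_num)]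
  linarith

lemma mom2_nonneg (c : Fin 4 → ℝ) : 0 ≤ mom c 2 :=
  div_nonneg (Finset.sum_nonneg fun i _ => sq_nonneg _) (by norm_num)

lemma mom2_eq_zero {c : Fin 4 → ℝ} (h : mom c 2 = 0) : c = 0 := by
  have h1 : ∑ l, c l ^ 2 = 0 := by
    unfold mom at h
    linarith
  funext l
  have := (Finset.sum_eq_zero_iff_of_nonneg (fun i _ => sq_nonneg (c i))).mp h1 l (Finset.mem_univ l)
  simpa using this

lemma mom2_le_simp {c : Fin 4 → ℝ} (hc : Simp c) : mom c 2 ≤ 3 := by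
  have := (momB_msg (μ := 1) (by norm_num) hc.1 (fun l => (hc.2 l).le)).d4
  norm_num at this
  exact this

lemma mom2_le_lam {a : Fin 4 → ℝ} {lam : ℝ} (h0 : 0 ≤ lam) (h1 : lam ≤ 725 / 1024) (ha : ∑ l, a l = 0)
    (hb : ∀ l, -lam ≤ a l) : mom a 2 ≤ 15039 / 10000 := by
  have := (momB_msg h0 ha hb).d4
  have h2 : lam ^ 2 ≤ (725 / 1024) ^ 2 := pow_le_pow_left₀ h0 h1 2
  norm_num at h2
  linarith

end poly

section merge

variable {c a : Fin 4 → ℝ}

lemma ZZ_zero_left (ha : ∑ l, a l = 0) : ZZ (0 : Fin 4 → ℝ) a = 1 := by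
  have hs : (∑ l : Fin 4, (0 : Fin 4 → ℝ) l) = 0 := by simp
  rw [ZZ_eq hs ha]
  simp [sS]

lemma uu_zero_left (ha : ∑ l, a l = 0) : uu (0 : Fin 4 → ℝ) a = a := by
  funext i
  simp [uu, ZZ_zero_left ha]

lemma ZZ_zero_right (hc : ∑ l, c l = 0) : ZZ c (0 : Fin 4 → ℝ) = 1 := by
  have hs : (∑ l : Fin 4, (0 : Fin 4 → ℝ) l) = 0 := by simp
  rw [ZZ_eq hc hs]
  simp [sS]

lemma uu_zero_right (hc : ∑ l, c l = 0) : uu c (0 : Fin 4 → ℝ) = c := by
  funext i
  simp [uu, ZZ_zero_right hc]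

lemma GG_perm (a : Fin 4 → ℝ) {τ : Fin 4 → Fin 4} (hτ : τ ∈ taus) : GG (a ∘ τ) = GG a := by
  unfold GG HH
  rw [mom_perm a 2 hτ, mom_perm a 3 hτ]
  have : ∑ l, phiT ((a ∘ τ) l) = ∑ l, phiT (a l) := taus_sum (fun l => phiT (a l)) τ hτ
  rw [this]

lemma zero_comp (τ : Fin 4 → Fin 4) : ((0 : Fin 4 → ℝ) ∘ τ) = 0 := rfl

/-- The first inequality for all messages, including the trivial ones. -/
lemma P1_all (F : Facts) (hc : ∑ l, c l = 0) (ha : ∑ l, a l = 0) (hc1 : ∀ l, -1 < c l) (ha1 : ∀ l, -muQ.val ≤ a l) :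
    avgT a (fun b => ZZ c b * xx (uu c b)) ≤ mom c 2 + mom a 2 - 2 / 3 * mom a 2 * GG c
      - GG a * Fr (mom c 2) (mom c 3) (mom c 4) - mom c 2 ^ 2 * mom a 2 ^ 2 / dltD := by
  rcases (mom2_nonneg c).eq_or_lt with hx | hx
  · have h0 := mom2_eq_zero hx.symm
    subst h0
    have e : avgT a (fun b => ZZ 0 b * xx (uu 0 b)) = avgT a (fun _ => mom a 2) := by
      refine avgT_congr_taus fun τ hτ => ?_
      have hs := sum_perm hτ ha
      rw [ZZ_zero_left hs, uu_zero_left hs, one_mul, xx_eq, mom_perm a 2 hτ]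
    rw [e, avgT_const, GG_zero, mom0 (by norm_num), mom0 (by norm_num), mom0 (by norm_num)]
    simp [Fr]
  rcases (mom2_nonneg a).eq_or_lt with hX | hX
  · have h0 := mom2_eq_zero hX.symm
    subst h0
    have e : avgT (0 : Fin 4 → ℝ) (fun b => ZZ c b * xx (uu c b)) = avgT 0 (fun _ => mom c 2) := by
      refine avgT_congr_taus fun τ hτ => ?_
      rw [zero_comp, ZZ_zero_right hc, uu_zero_right hc, one_mul, xx_eq]
    rw [e, avgT_const, GG_zero, mom0 (k := 2) (by norm_num)]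
    simp
  · exact F.r1 c a hc ha hc1 ha1 hx hX

/-- The second inequality for all messages, including the trivial ones. -/
lemma P2_all (F : Facts) (hc : ∑ l, c l = 0) (ha : ∑ l, a l = 0) (hc1 : ∀ l, -1 < c l) (ha1 : ∀ l, -muQ.val ≤ a l) :
    (1 - rr (mom a 2)) * GG c + hr (mom c 2) * GG a ≤ avgT a (fun b => ZZ c b * GG (uu c b)) := by
  rcases (mom2_nonneg c).eq_or_lt with hx | hx
  · have h0 := mom2_eq_zero hx.symm
    subst h0
    have e : avgT a (fun b => ZZ 0 b * GG (uu 0 b)) = avgT a (fun _ => GG a) := by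
      refine avgT_congr_taus fun τ hτ => ?_
      have hs := sum_perm hτ ha
      rw [ZZ_zero_left hs, uu_zero_left hs, one_mul, GG_perm a hτ]
    rw [e, avgT_const, GG_zero, mom0 (k := 2) (by norm_num)]
    norm_num [hr, dH]
  rcases (mom2_nonneg a).eq_or_lt with hX | hX
  · have h0 := mom2_eq_zero hX.symm
    subst h0
    have e : avgT (0 : Fin 4 → ℝ) (fun b => ZZ c b * GG (uu c b)) = avgT 0 (fun _ => GG c) := by
      refine avgT_congr_taus fun τ hτ => ?_
      rw [zero_comp, ZZ_zero_right hc, uu_zero_right hc, one_mul]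
    rw [e, avgT_const, GG_zero, mom0 (k := 2) (by norm_num)]
    norm_num [rr]
  · exact F.r2 c a hc ha hc1 ha1 hx hX

end merge

section inv

variable {lam : ℝ} {Ω : Type} (L : MLaw 4 lam Ω)

lemma muQ_val : muQ.val = 725 / 1024 := by
  norm_num [muQ, QQ.val]

lemma rr_bdd : Bdd fun a : Fin 4 → ℝ => rr (mom a 2) := by
  have h2 := bdd_mom 2
  have h : Bdd fun c : Fin 4 → ℝ => (1 / (dR : ℝ)) * ((R1 : ℝ) * mom c 2 - (R2 : ℝ) * mom c 2 ^ 2 + (R3 : ℝ) * mom c 2 ^ 3) :=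
    (((h2.smul _).sub ((h2.pow 2).smul _)).add ((h2.pow 3).smul _)).smul _
  refine h.imp fun C hC c hc => ?_
  have := hC c hc
  have e : rr (mom c 2) = (1 / (dR : ℝ)) * ((R1 : ℝ) * mom c 2 - (R2 : ℝ) * mom c 2 ^ 2 + (R3 : ℝ) * mom c 2 ^ 3) := by
    unfold rr
    ring
  show |rr (mom c 2)| ≤ C
  rw [e]
  exact this

lemma hr_bdd : Bdd fun a : Fin 4 → ℝ => hr (mom a 2) := by
  have h2 := bdd_mom 2
  have h : Bdd fun c : Fin 4 → ℝ => (1 / (dH : ℝ)) * ((dH : ℝ) - (H1 : ℝ) * mom c 2 + (H2 : ℝ) * mom c 2 ^ 2 - (H3 : ℝ) * mom c 2 ^ 3) :=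
    ((((GW.bdd_const _).sub (h2.smul _)).add ((h2.pow 2).smul _)).sub ((h2.pow 3).smul _)).smul _
  refine h.imp fun C hC c hc => ?_
  have := hC c hc
  have e : hr (mom c 2) = (1 / (dH : ℝ)) * ((dH : ℝ) - (H1 : ℝ) * mom c 2 + (H2 : ℝ) * mom c 2 ^ 2 - (H3 : ℝ) * mom c 2 ^ 3) := by
    unfold hr
    ring
  show |hr (mom c 2)| ≤ C
  rw [e]
  exact this

lemma gs4_sum_eq (a : Fin 4 → ℝ) (Φ : (Fin 4 → ℝ) → ℝ) :
    (gs4.map fun g : Equiv.Perm (Fin 4) => Φ (a ∘ g)).sum = 24 * avgT a Φ := by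
  have := gs4_avg a Φ
  rw [gs4_length] at this
  norm_num at this
  linarith

lemma tau_GG_ge (F : Facts) (h0 : 0 ≤ lam) (h1 : lam ≤ 725 / 1024) {c : Fin 4 → ℝ} (hc : Simp c) :
    (1 - L.E (fun a => rr (mom a 2))) * GG c + L.E GG * hr (mom c 2) ≤ L.tau GG c := by
  have hΦ : Bdd fun a => ZZ c a * GG (uu c a) := MLaw.bdd_merge GG_bdd hc
  have hlist := L.E_avg_list gs4 hΦ
  rw [gs4_length] at hlist
  have hb1 : Bdd fun a : Fin 4 → ℝ => (1 - rr (mom a 2)) * GG c + hr (mom c 2) * GG a :=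
    (((GW.bdd_const 1).sub rr_bdd).mul (GW.bdd_const _)).add (GG_bdd.smul _)
  have hmono : L.E (fun a => (1 - rr (mom a 2)) * GG c + hr (mom c 2) * GG a)
      ≤ L.E (fun a => (gs4.map fun g : Equiv.Perm (Fin 4) => (fun b => ZZ c b * GG (uu c b)) (a ∘ g)).sum / 24) := by
    refine MLaw.E_mono' L hb1 ?_ ?_
    · have hb2 : Bdd fun a => (1 / 24 : ℝ) * (gs4.map fun g : Equiv.Perm (Fin 4) => (fun b => ZZ c b * GG (uu c b)) (a ∘ g)).sum := by
        refine Bdd.smul _ ?_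
        clear hlist
        generalize gs4 = gs
        induction gs with
        | nil => simpa using GW.bdd_const (q := 4) 0
        | cons g gs ih =>
          simp only [List.map_cons, List.sum_cons]
          exact (MLaw.bdd_perm hΦ g).add ih
      refine hb2.imp fun C hC c' hc' => ?_
      have := hC c' hc'
      have e : ∀ v : ℝ, v / 24 = (1 / 24) * v := fun v => by ring
      show |(gs4.map fun g : Equiv.Perm (Fin 4) => (fun b => ZZ c b * GG (uu c b)) (c' ∘ g)).sum / 24| ≤ C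
      rw [e]
      exact this
    · intro ω hw
      have ha := L.a_sum ω hw
      have hb := L.a_lb ω
      have hc2 : ∀ l, -muQ.val ≤ L.a ω l := by
        intro l
        rw [muQ_val]
        have := hb l
        linarith
      have := P2_all F hc.1 ha hc.2 hc2
      have e0 := gs4_sum_eq (L.a ω) (fun b => ZZ c b * GG (uu c b))
      have e : (gs4.map fun g : Equiv.Perm (Fin 4) => (fun b => ZZ c b * GG (uu c b)) (L.a ω ∘ g)).sum / 24 = avgT (L.a ω) (fun b => ZZ c b * GG (uu c b)) := by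
        rw [e0]
        ring
      show (1 - rr (mom (L.a ω) 2)) * GG c + hr (mom c 2) * GG (L.a ω) ≤ (gs4.map fun g : Equiv.Perm (Fin 4) => (fun b => ZZ c b * GG (uu c b)) (L.a ω ∘ g)).sum / 24
      rw [e]
      exact this
  have e1 : L.E (fun a => (gs4.map fun g : Equiv.Perm (Fin 4) => (fun b => ZZ c b * GG (uu c b)) (a ∘ g)).sum / 24)
      = L.tau GG c := by
    have e2 : ∀ a : Fin 4 → ℝ, (gs4.map fun g : Equiv.Perm (Fin 4) => (fun b => ZZ c b * GG (uu c b)) (a ∘ g)).sum / 24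
        = (1 / 24) * (gs4.map fun g : Equiv.Perm (Fin 4) => (fun b => ZZ c b * GG (uu c b)) (a ∘ g)).sum := fun a => by ring
    simp only [e2]
    rw [L.E_smul, hlist]
    unfold MLaw.tau
    push_cast
    ring
  rw [e1] at hmono
  have e3 : L.E (fun a => (1 - rr (mom a 2)) * GG c + hr (mom c 2) * GG a)
      = (1 - L.E (fun a => rr (mom a 2))) * GG c + L.E GG * hr (mom c 2) := by
    rw [L.E_add (((GW.bdd_const 1).sub rr_bdd).mul (GW.bdd_const _)) (GG_bdd.smul _)]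
    rw [L.E_smul]
    have e4 : (fun a : Fin 4 → ℝ => (1 - rr (mom a 2)) * GG c) = fun a => GG c * (1 - rr (mom a 2)) := by
      funext a
      ring
    rw [e4, L.E_smul]
    have e5 : (fun a : Fin 4 → ℝ => 1 - rr (mom a 2)) = fun a => 1 + (-1) * rr (mom a 2) := by
      funext a
      ring
    rw [e5, L.E_add (GW.bdd_const 1) (rr_bdd.smul _), L.E_smul, L.E_const]
    ring
  rw [e3] at hmono
  exact hmono

theorem inv4 (F : Facts) (h0 : 0 ≤ lam) (h1 : lam ≤ 725 / 1024) (hG : 0 ≤ L.E GG) (k : ℕ) : 0 ≤ L.EE k GG := by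
  have hρ1 : 0 ≤ 1 - L.E (fun a => rr (mom a 2)) := by
    have : L.E (fun a => rr (mom a 2)) ≤ L.E (fun _ => (1 : ℝ)) := by
      refine MLaw.E_mono' L rr_bdd (GW.bdd_const 1) fun ω hw => ?_
      exact rr_le_one (mom2_nonneg _) (mom2_le_lam h0 h1 (L.a_sum ω hw) (L.a_lb ω))
    rw [L.E_const] at this
    linarith
  induction k with
  | zero =>
    rw [L.EE_zero, GG_zero]
  | succ k ih =>
    rw [L.EE_succ]
    have hb : Bdd fun c : Fin 4 → ℝ => (1 - L.E (fun a => rr (mom a 2))) * GG c + L.E GG * hr (mom c 2) :=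
      (GG_bdd.smul _).add (hr_bdd.smul _)
    have hm := L.EE_mono k hb (L.tau_bdd GG_bdd) (fun c hc => tau_GG_ge L F h0 h1 hc)
    refine le_trans ?_ hm
    rw [L.EE_add k (GG_bdd.smul _) (hr_bdd.smul _), L.EE_smul, L.EE_smul]
    have h3 : 0 ≤ L.EE k (fun c : Fin 4 → ℝ => hr (mom c 2)) :=
      L.EE_nonneg k hr_bdd fun c hc => hr_nonneg (mom2_le_simp hc)
    have := mul_nonneg hρ1 ih
    have := mul_nonneg hG h3
    linarith

end inv

/-- The certificate for four colours. -/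
noncomputable def cert4 (F : Facts) (lam : ℝ) (h0 : 0 ≤ lam) (h1 : lam ≤ 725 / 1024) : Cert 4 lam where
  G := GG
  f := fun c => Fr (mom c 2) (mom c 3) (mom c 4)
  gs := gs4
  κ := 2 / 3
  δ := 1 / 4096
  θ := lam ^ 3
  gs_ne := by
    intro h
    have := gs4_length
    rw [h] at this
    simp at this
  κ0 := by norm_num
  δ0 := by norm_num
  θ0 := by positivity
  G_bdd := GG_bdd
  f_bdd := Fr_bdd
  f_nonneg := F.fr
  P1 := fun c a hc ha hb => by
    have hc2 : ∀ l, -muQ.val ≤ a l := by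
      intro l
      rw [muQ_val]
      have := hb l
      linarith
    have h2 := P1_all F hc.1 ha.1 hc.2 hc2
    have e := gs4_avg a (fun b => ZZ c b * xx (uu c b))
    refine le_trans (le_of_eq e) (le_trans h2 (le_of_eq ?_))
    rw [xx_eq, xx_eq]
    norm_num [dltD]
    ring
  scale := fun c hc => GG_scale h0 (by linarith) hc
  base := fun η => GG_base h0 (by linarith) η
  inv := fun Ω L h k => inv4 L F h0 h1 h k

/-- Nonreconstruction for four colours from the two inequalities. -/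
theorem nonrec4 (F : Facts) {off : ℕ → ℝ} {lam m : ℝ} (hoff : ∀ k, 0 ≤ off k) (hsum : HasSum off 1)
    (hmean : HasSum (fun k : ℕ => (k : ℝ) * off k) m) (h1 : 0 ≤ lam) (h2 : lam ≤ 725 / 1024)
    (hcrit : m * lam ^ 2 ≤ 1) :
    (∀ n, HasSum (GW.evidence 4 off lam n) 1) ∧
    (∀ n, Summable fun η : GW.Cfg 4 n => GW.evidence 4 off lam n η *
      ((1 / 2) * ∑ i : Fin 4, |GW.posterior 4 off lam n i η - 1 / ((4 : ℕ) : ℝ)|)) ∧
    Tendsto (GW.advantage 4 off lam) atTop (𝓝 0) :=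
  GW.master (cert4 F lam h1 h2) hoff hsum hmean h1 (by linarith) hcrit

end Vale.Agent.helper4.Q4
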