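import Vale.Agent.helper4.Q4Real

/-!
The constants of the invariant for four colours, and the power means of a message as sparse polynomials.
-/

set_option linter.unusedSectionVars false
set_option linter.unusedVariables false

namespace Vale.Agent.helper4.Q4

open Flat

def aN : ℕ := 1055
def aD : ℕ := 1024
def bN : ℕ := 31
def dltD : ℕ := 4096

def dF : ℕ := 6144
def F1 : ℤ := 4096
def F2 : ℤ := 1024
def F3 : ℤ := 4260
def F4 : ℤ := 3450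
def F5 : ℤ := 444

def dH : ℕ := 1024
def H1 : ℤ := 1538
def H2 : ℤ := 771
def H3 : ℤ := 124

def dR : ℕ := 1024
def R1 : ℤ := 1124
def R2 : ℤ := 1170
def R3 : ℤ := 582

/-- The weight attached to a message. -/
noncomputable def Fr (x y z : ℝ) : ℝ :=
  ((F1 : ℝ) * x - F2 * y - F3 * (z - x ^ 2) + F4 * (x * y) - F5 * x ^ 3) / dF

noncomputable def hr (x : ℝ) : ℝ := ((dH : ℝ) - H1 * x + H2 * x ^ 2 - H3 * x ^ 3) / dH

noncomputable def rr (X : ℝ) : ℝ := ((R1 : ℝ) * X - R2 * X ^ 2 + R3 * X ^ 3) / dR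

/-- The invariant. -/
noncomputable def GG (c : Fin 4 → ℝ) : ℝ :=
  ((aN : ℝ) / aD) * (3 * mom c 2 - 6 * HH c) - ((bN : ℝ) / aD) * mom c 3

/-- The polynomial `F`, in terms of `x`, `t`, `e`. -/
def FF : Flat :=
  [((⟨0, 0, 0, 0, 1, 0⟩ : Mo), F1), ((⟨0, 0, 0, 0, 3, 0⟩ : Mo), -F5), ((⟨0, 1, 0, 0, 1, 0⟩ : Mo), -F2),
   ((⟨0, 1, 0, 0, 2, 0⟩ : Mo), F4), ((⟨1, 0, 0, 0, 1, 0⟩ : Mo), -F3)]

lemma val_FF (v : V6) : val FF v = (dF : ℝ) * Fr v.x (v.x * v.t) (v.x * (v.x + v.e)) := by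
  have h : (dF : ℝ) ≠ 0 := by norm_num [dF]
  simp only [FF, Fr, val_cons, val_nil, Mo.val]
  push_cast
  field_simp
  ring

/-- The polynomial `h`. -/
def hF : Flat :=
  [((⟨0, 0, 0, 0, 0, 0⟩ : Mo), (dH : ℤ)), ((⟨0, 0, 0, 0, 1, 0⟩ : Mo), -H1), ((⟨0, 0, 0, 0, 2, 0⟩ : Mo), H2),
   ((⟨0, 0, 0, 0, 3, 0⟩ : Mo), -H3)]

lemma val_hF (v : V6) : val hF v = (dH : ℝ) * hr v.x := by
  have h : (dH : ℝ) ≠ 0 := by norm_num [dH]
  simp only [hF, hr, val_cons, val_nil, Mo.val]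
  push_cast
  field_simp
  ring

/-- The polynomial `rho`, in terms of `X`. -/
def rF : Flat :=
  [((⟨0, 0, 0, 0, 0, 1⟩ : Mo), R1), ((⟨0, 0, 0, 0, 0, 2⟩ : Mo), -R2), ((⟨0, 0, 0, 0, 0, 3⟩ : Mo), R3)]

lemma val_rF (v : V6) : val rF v = (dR : ℝ) * rr v.X := by
  have h : (dR : ℝ) ≠ 0 := by norm_num [dR]
  simp only [rF, rr, val_cons, val_nil, Mo.val]
  push_cast
  field_simp
  ring

/-- The polynomial `3 * aN * x - bN * y`. -/
def gB : Flat := [((⟨0, 0, 0, 0, 1, 0⟩ : Mo), 3 * (aN : ℤ)), ((⟨0, 1, 0, 0, 1, 0⟩ : Mo), -(bN : ℤ))]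

lemma val_gB (v : V6) : val gB v = 3 * (aN : ℝ) * v.x - bN * (v.x * v.t) := by
  simp only [gB, val_cons, val_nil, Mo.val]
  push_cast
  ring

/-- Four consecutive power means, multiplied by powers of three. -/
def MQ : ℕ → Flat × Flat × Flat × Flat
  | 0 => ([((⟨0, 0, 0, 0, 0, 0⟩ : Mo), 1)], [], [((⟨0, 0, 0, 0, 1, 0⟩ : Mo), 9)], [((⟨0, 1, 0, 0, 1, 0⟩ : Mo), 27)])
  | k + 1 =>
    match MQ k with
    | (a, b, d, f) =>
      (b, d, f, add (mul [((⟨0, 0, 0, 0, 1, 0⟩ : Mo), 18)] d)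
        (add (mul [((⟨0, 1, 0, 0, 1, 0⟩ : Mo), 36)] b)
          (mul [((⟨0, 0, 0, 0, 2, 0⟩ : Mo), -81), ((⟨1, 0, 0, 0, 1, 0⟩ : Mo), 81)] a)))

/-- The power mean of order `k`, multiplied by `3 ^ k`. -/
def MF (k : ℕ) : Flat := (MQ k).1

lemma newton_pt (a b d f x y z : ℝ) (h : a + b + d + f = 0) (hx : x = (a ^ 2 + b ^ 2 + d ^ 2 + f ^ 2) / 4)
    (hy : y = (a ^ 3 + b ^ 3 + d ^ 3 + f ^ 3) / 4) (hz : z = (a ^ 4 + b ^ 4 + d ^ 4 + f ^ 4) / 4) :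
    a ^ 4 = 2 * x * a ^ 2 + 4 / 3 * y * a - (2 * x ^ 2 - z) := by
  have hf : f = -a - b - d := by linarith
  subst hf hx hy hz
  ring

lemma newton_rec {c : Fin 4 → ℝ} (h0 : ∑ l, c l = 0) (k : ℕ) :
    mom c (k + 4) = 2 * mom c 2 * mom c (k + 2) + 4 / 3 * mom c 3 * mom c (k + 1)
      - (2 * mom c 2 ^ 2 - mom c 4) * mom c k := by
  have h1 := sum4_zero h0
  have e0 := newton_pt (c 0) (c 1) (c 2) (c 3) (mom c 2) (mom c 3) (mom c 4) h1 (mom_four c 2) (mom_four c 3) (mom_four c 4)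
  have e1 := newton_pt (c 1) (c 0) (c 2) (c 3) (mom c 2) (mom c 3) (mom c 4) (by linarith)
    (by rw [mom_four]; ring) (by rw [mom_four]; ring) (by rw [mom_four]; ring)
  have e2 := newton_pt (c 2) (c 0) (c 1) (c 3) (mom c 2) (mom c 3) (mom c 4) (by linarith)
    (by rw [mom_four]; ring) (by rw [mom_four]; ring) (by rw [mom_four]; ring)
  have e3 := newton_pt (c 3) (c 0) (c 1) (c 2) (mom c 2) (mom c 3) (mom c 4) (by linarith)
    (by rw [mom_four]; ring) (by rw [mom_four]; ring) (by rw [mom_four]; ring)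
  set x := mom c 2
  set y := mom c 3
  set z := mom c 4
  have key : ∀ u : ℝ, u ^ 4 = 2 * x * u ^ 2 + 4 / 3 * y * u - (2 * x ^ 2 - z) →
      u ^ (k + 4) = 2 * x * u ^ (k + 2) + 4 / 3 * y * u ^ (k + 1) - (2 * x ^ 2 - z) * u ^ k := by
    intro u hu
    have : u ^ (k + 4) = u ^ k * u ^ 4 := by ring
    rw [this, hu]
    ring
  rw [mom_four, mom_four, mom_four, mom_four, key _ e0, key _ e1, key _ e2, key _ e3]
  ring

lemma mom_zero (c : Fin 4 → ℝ) : mom c 0 = 1 := by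
  simp [mom]

lemma mom_one {c : Fin 4 → ℝ} (h0 : ∑ l, c l = 0) : mom c 1 = 0 := by
  simp [mom, h0]

/-- The three moments of a message at a point. -/
structure RepC (c : Fin 4 → ℝ) (x t e : ℝ) : Prop where
  h2 : mom c 2 = x
  h3 : mom c 3 = x * t
  h4 : mom c 4 = x * (x + e)

lemma MQ_val {c : Fin 4 → ℝ} {v : V6} (h0 : ∑ l, c l = 0) (hR : RepC c v.x v.t v.e) (k : ℕ) :
    val (MQ k).1 v = 3 ^ k * mom c k ∧ val (MQ k).2.1 v = 3 ^ (k + 1) * mom c (k + 1) ∧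
      val (MQ k).2.2.1 v = 3 ^ (k + 2) * mom c (k + 2) ∧ val (MQ k).2.2.2 v = 3 ^ (k + 3) * mom c (k + 3) := by
  induction k with
  | zero =>
    simp only [MQ, val_cons, val_nil, Mo.val]
    refine ⟨?_, ?_, ?_, ?_⟩
    · rw [mom_zero]
      norm_num
    · rw [mom_one h0]
      norm_num
    · rw [hR.h2]
      norm_num
    · rw [hR.h3]
      norm_num
      ring
  | succ k ih =>
    obtain ⟨i1, i2, i3, i4⟩ := ih
    simp only [MQ]
    generalize hq : MQ k = q at *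
    obtain ⟨a', b', d', f'⟩ := q
    simp only at i1 i2 i3 i4 ⊢
    refine ⟨i2, i3, i4, ?_⟩
    simp only [val_add, val_mul, val_cons, val_nil, Mo.val, i2, i3, i1]
    have hn := newton_rec h0 k
    rw [hR.h2, hR.h3, hR.h4] at hn
    have e5 : k + 1 + 3 = k + 4 := by omega
    rw [e5, hn]
    have e6 : (3 : ℝ) ^ (k + 4) = 81 * 3 ^ k := by ring
    have e7 : (3 : ℝ) ^ (k + 2) = 9 * 3 ^ k := by ring
    have e8 : (3 : ℝ) ^ (k + 1) = 3 * 3 ^ k := by ring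
    rw [e6, e7, e8]
    push_cast
    ring

lemma MF_val {c : Fin 4 → ℝ} {v : V6} (h0 : ∑ l, c l = 0) (hR : RepC c v.x v.t v.e) (k : ℕ) :
    val (MF k) v = 3 ^ k * mom c k := (MQ_val h0 hR k).1

/-- Power means with a common denominator. -/
def KM : ℕ := 14

def DM : ℕ := 3 ^ KM

def MP' (k : ℕ) : Flat := smul ((3 : ℤ) ^ (KM - k)) (MF k)

lemma MP'_val {c : Fin 4 → ℝ} {v : V6} (h0 : ∑ l, c l = 0) (hR : RepC c v.x v.t v.e) {k : ℕ} (hk : k ≤ KM) :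
    val (MP' k) v = (DM : ℝ) * mom c k := by
  unfold MP' DM
  rw [val_smul, MF_val h0 hR]
  push_cast
  rw [← mul_assoc, ← pow_add]
  congr 2
  omega

lemma RepC_swap {a : Fin 4 → ℝ} {v : V6} (h : RepC a v.X v.T v.E) : RepC a v.swap.x v.swap.t v.swap.e := h

end Vale.Agent.helper4.Q4
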