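import Vale.Agent.helper4.Q4Tab

/-!
The constraints on the moments of a message.
-/

set_option linter.unusedSectionVars false
set_option linter.unusedVariables false

namespace Vale.Agent.helper4.Q4

lemma abc_ineq {A B C : ℝ} (hA : 0 ≤ A) (hB : 0 ≤ B) (hC : 0 ≤ C) :
    27 * (A * B * C) ≤ (A + B + C) ^ 3 ∧ 3 * (A * B * C * (A + B + C)) ≤ (A * B + B * C + C * A) ^ 2 ∧
      3 * (A * B + B * C + C * A) ≤ (A + B + C) ^ 2 := by
  refine ⟨?_, ?_, ?_⟩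
  · nlinarith [mul_nonneg hA (sq_nonneg (B - C)), mul_nonneg hB (sq_nonneg (A - C)), mul_nonneg hC (sq_nonneg (A - B)),
      mul_nonneg (add_nonneg (add_nonneg hA hB) hC) (add_nonneg (add_nonneg (sq_nonneg (A - B)) (sq_nonneg (B - C))) (sq_nonneg (A - C)))]
  · nlinarith [sq_nonneg (A * B - B * C), sq_nonneg (B * C - C * A), sq_nonneg (A * B - C * A)]
  · nlinarith [sq_nonneg (A - B), sq_nonneg (B - C), sq_nonneg (A - C)]

/-- Facts about four numbers of sum zero. -/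
structure MomF (x y z : ℝ) : Prop where
  e2 : x ^ 2 ≤ z
  d1 : 3 * y ^ 2 ≤ 4 * x ^ 3
  d2 : 4 * x * y ^ 2 ≤ 3 * (z - x ^ 2) ^ 2
  d3 : 3 * (z - x ^ 2) ≤ 4 * x ^ 2
  d7 : 0 ≤ 9 * x ^ 2 * (z - x ^ 2) ^ 2 - 9 * (z - x ^ 2) ^ 3 - 16 * x ^ 3 * y ^ 2 + 18 * x * (z - x ^ 2) * y ^ 2 - 3 * y ^ 4

lemma momF_of (a b d f : ℝ) (h : a + b + d + f = 0) :
    MomF ((a ^ 2 + b ^ 2 + d ^ 2 + f ^ 2) / 4) ((a ^ 3 + b ^ 3 + d ^ 3 + f ^ 3) / 4)
      ((a ^ 4 + b ^ 4 + d ^ 4 + f ^ 4) / 4) := by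
  have hf : f = -a - b - d := by linarith
  subst hf
  set A := (a + b) ^ 2 with hA
  set B := (a + d) ^ 2 with hB
  set C := (b + d) ^ 2 with hC
  have pA : 0 ≤ A := sq_nonneg _
  have pB : 0 ≤ B := sq_nonneg _
  have pC : 0 ≤ C := sq_nonneg _
  set x := (a ^ 2 + b ^ 2 + d ^ 2 + (-a - b - d) ^ 2) / 4 with hx
  set y := (a ^ 3 + b ^ 3 + d ^ 3 + (-a - b - d) ^ 3) / 4 with hy
  set z := (a ^ 4 + b ^ 4 + d ^ 4 + (-a - b - d) ^ 4) / 4 with hz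
  have i1 : 4 * x = A + B + C := by
    rw [hx, hA, hB, hC]
    ring
  have i2 : 4 * (z - x ^ 2) = A * B + B * C + C * A := by
    rw [hx, hz, hA, hB, hC]
    ring
  have i3 : 16 / 9 * y ^ 2 = A * B * C := by
    rw [hy, hA, hB, hC]
    ring
  obtain ⟨k1, k2, k3⟩ := abc_ineq pA pB pC
  have hdisc : 0 ≤ ((A - B) * (B - C) * (C - A)) ^ 2 := sq_nonneg _
  have i4 : ((A - B) * (B - C) * (C - A)) ^ 2 = (A + B + C) ^ 2 * (A * B + B * C + C * A) ^ 2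
      - 4 * (A * B + B * C + C * A) ^ 3 - 4 * (A + B + C) ^ 3 * (A * B * C)
      + 18 * (A + B + C) * (A * B + B * C + C * A) * (A * B * C) - 27 * (A * B * C) ^ 2 := by
    ring
  rw [i4, ← i1, ← i2, ← i3] at hdisc
  rw [← i1, ← i3] at k1
  rw [← i1, ← i2, ← i3] at k2
  rw [← i1, ← i2] at k3
  set w := z - x ^ 2 with hw
  refine ⟨?_, ?_, ?_, ?_, ?_⟩
  · have : 0 ≤ A * B + B * C + C * A := by positivity
    linarith
  · have e1 : (4 * x) ^ 3 = 64 * x ^ 3 := by ring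
    have e2 : 27 * (16 / 9 * y ^ 2) = 48 * y ^ 2 := by ring
    rw [e1, e2] at k1
    linarith
  · have e1 : 3 * (16 / 9 * y ^ 2 * (4 * x)) = 64 / 3 * (x * y ^ 2) := by ring
    have e2 : (4 * w) ^ 2 = 16 * w ^ 2 := by ring
    have e3 : 4 * x * y ^ 2 = 4 * (x * y ^ 2) := by ring
    rw [e1, e2] at k2
    rw [e3]
    linarith
  · have e1 : (4 * x) ^ 2 = 16 * x ^ 2 := by ring
    rw [e1] at k3
    linarith
  · have e1 : (4 * x) ^ 2 * (4 * w) ^ 2 - 4 * (4 * w) ^ 3 - 4 * (4 * x) ^ 3 * (16 / 9 * y ^ 2)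
        + 18 * (4 * x) * (4 * w) * (16 / 9 * y ^ 2) - 27 * (16 / 9 * y ^ 2) ^ 2
        = 256 / 9 * (9 * x ^ 2 * w ^ 2 - 9 * w ^ 3 - 16 * x ^ 3 * y ^ 2 + 18 * x * w * y ^ 2 - 3 * y ^ 4) := by ring
    rw [e1] at hdisc
    exact nonneg_of_mul_nonneg_right hdisc (by norm_num)

lemma mom_four (c : Fin 4 → ℝ) (k : ℕ) : mom c k = (c 0 ^ k + c 1 ^ k + c 2 ^ k + c 3 ^ k) / 4 := by
  simp [mom, Fin.sum_univ_four]

lemma momF_msg {c : Fin 4 → ℝ} (h0 : ∑ l, c l = 0) : MomF (mom c 2) (mom c 3) (mom c 4) := by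
  rw [Fin.sum_univ_four] at h0
  simp only [mom_four]
  exact momF_of _ _ _ _ h0

/-- Bounds from a lower bound on the entries. -/
structure MomB (μ x y z : ℝ) : Prop where
  d4 : x ≤ 3 * μ ^ 2
  d5 : 0 ≤ 3 * μ ^ 3 - 3 * μ * x + y
  d6 : 0 ≤ 3 * μ ^ 4 - 6 * μ ^ 2 * x + 4 * μ * y + 3 * x ^ 2 - 3 * (z - x ^ 2)
  d8 : 0 ≤ y + μ / 3 * x + μ ^ 3 / 9

lemma momB_of {μ a b d f : ℝ} (hμ : 0 ≤ μ) (h : a + b + d + f = 0) (ha : -μ ≤ a) (hb : -μ ≤ b) (hd : -μ ≤ d)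
    (hf : -μ ≤ f) :
    MomB μ ((a ^ 2 + b ^ 2 + d ^ 2 + f ^ 2) / 4) ((a ^ 3 + b ^ 3 + d ^ 3 + f ^ 3) / 4)
      ((a ^ 4 + b ^ 4 + d ^ 4 + f ^ 4) / 4) := by
  have pa : 0 ≤ a + μ := by linarith
  have pb : 0 ≤ b + μ := by linarith
  have pd : 0 ≤ d + μ := by linarith
  have pf : 0 ≤ f + μ := by linarith
  have hf' : f = -a - b - d := by linarith
  refine ⟨?_, ?_, ?_, ?_⟩
  · have h1 : (a + μ) * (3 * μ - a) ≥ 0 := mul_nonneg pa (by linarith)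
    have h2 : (b + μ) * (3 * μ - b) ≥ 0 := mul_nonneg pb (by linarith)
    have h3 : (d + μ) * (3 * μ - d) ≥ 0 := mul_nonneg pd (by linarith)
    have h4 : (f + μ) * (3 * μ - f) ≥ 0 := mul_nonneg pf (by linarith)
    nlinarith
  · have e : 3 * μ ^ 3 - 3 * μ * ((a ^ 2 + b ^ 2 + d ^ 2 + f ^ 2) / 4) + (a ^ 3 + b ^ 3 + d ^ 3 + f ^ 3) / 4
        = 3 / 4 * ((a + μ) * (b + μ) * (d + μ) + (a + μ) * (b + μ) * (f + μ) + (a + μ) * (d + μ) * (f + μ)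
          + (b + μ) * (d + μ) * (f + μ)) := by
      subst hf'
      ring
    rw [e]
    positivity
  · have e : 3 * μ ^ 4 - 6 * μ ^ 2 * ((a ^ 2 + b ^ 2 + d ^ 2 + f ^ 2) / 4) + 4 * μ * ((a ^ 3 + b ^ 3 + d ^ 3 + f ^ 3) / 4)
        + 3 * ((a ^ 2 + b ^ 2 + d ^ 2 + f ^ 2) / 4) ^ 2
        - 3 * ((a ^ 4 + b ^ 4 + d ^ 4 + f ^ 4) / 4 - ((a ^ 2 + b ^ 2 + d ^ 2 + f ^ 2) / 4) ^ 2)
        = 3 * ((a + μ) * (b + μ) * (d + μ) * (f + μ)) := by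
      subst hf'
      ring
    rw [e]
    positivity
  · have h1 : 0 ≤ (a + μ) * (a - μ / 3) ^ 2 := mul_nonneg pa (sq_nonneg _)
    have h2 : 0 ≤ (b + μ) * (b - μ / 3) ^ 2 := mul_nonneg pb (sq_nonneg _)
    have h3 : 0 ≤ (d + μ) * (d - μ / 3) ^ 2 := mul_nonneg pd (sq_nonneg _)
    have h4 : 0 ≤ (f + μ) * (f - μ / 3) ^ 2 := mul_nonneg pf (sq_nonneg _)
    have e : (a ^ 3 + b ^ 3 + d ^ 3 + f ^ 3) / 4 + μ / 3 * ((a ^ 2 + b ^ 2 + d ^ 2 + f ^ 2) / 4) + μ ^ 3 / 9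
        = ((a + μ) * (a - μ / 3) ^ 2 + (b + μ) * (b - μ / 3) ^ 2 + (d + μ) * (d - μ / 3) ^ 2 + (f + μ) * (f - μ / 3) ^ 2) / 4 := by
      subst hf'
      ring
    rw [e]
    positivity

lemma momB_msg {c : Fin 4 → ℝ} {μ : ℝ} (hμ : 0 ≤ μ) (h0 : ∑ l, c l = 0) (hb : ∀ l, -μ ≤ c l) :
    MomB μ (mom c 2) (mom c 3) (mom c 4) := by
  rw [Fin.sum_univ_four] at h0
  simp only [mom_four]
  exact momB_of hμ h0 (hb 0) (hb 1) (hb 2) (hb 3)

/-- The constraints, in terms of the sign of the third moment. -/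
structure DomS (μ x t e : ℝ) : Prop where
  pos : 0 ≤ t → Dom μ true x t e
  neg : t < 0 → Dom μ false x (-t) e

theorem domS_of {μ x y z : ℝ} (hμ : 0 < μ) (hx : 0 < x) (h1 : MomF x y z) (h2 : MomB μ x y z) :
    DomS μ x (y / x) (z / x - x) := by
  set t := y / x with ht
  set e := z / x - x with he
  have hy : y = x * t := by
    rw [ht]
    field_simp
  have hz : z = x * (x + e) := by
    rw [he]
    field_simp
    ring
  have hze : z - x ^ 2 = x * e := by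
    rw [hz]
    ring
  obtain ⟨a1, a2, a3, a4, a7⟩ := h1
  obtain ⟨b4, b5, b6, b8⟩ := h2
  rw [hze, hy] at a3 a7
  rw [hze] at a4 b6
  rw [hy] at a2 b5 b6 b8
  have e0 : 0 ≤ e := by
    have : 0 ≤ x * e := by
      rw [← hze]
      linarith
    exact nonneg_of_mul_nonneg_right this hx
  have q1 : 3 * t ^ 2 ≤ 4 * x := by
    have : x ^ 2 * (3 * t ^ 2) ≤ x ^ 2 * (4 * x) := by nlinarith
    exact le_of_mul_le_mul_left this (by positivity)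
  have q2 : 4 * x * t ^ 2 ≤ 3 * e ^ 2 := by
    have : x ^ 2 * (4 * x * t ^ 2) ≤ x ^ 2 * (3 * e ^ 2) := by nlinarith
    exact le_of_mul_le_mul_left this (by positivity)
  have q3 : 3 * e ≤ 4 * x := by
    have : x * (3 * e) ≤ x * (4 * x) := by nlinarith
    exact le_of_mul_le_mul_left this hx
  have q7 : 0 ≤ 9 * x * e ^ 2 - 9 * e ^ 3 - 16 * x ^ 2 * t ^ 2 + 18 * x * e * t ^ 2 - 3 * x * t ^ 4 := by
    have : 0 ≤ x ^ 3 * (9 * x * e ^ 2 - 9 * e ^ 3 - 16 * x ^ 2 * t ^ 2 + 18 * x * e * t ^ 2 - 3 * x * t ^ 4) := by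
      have e1 : x ^ 3 * (9 * x * e ^ 2 - 9 * e ^ 3 - 16 * x ^ 2 * t ^ 2 + 18 * x * e * t ^ 2 - 3 * x * t ^ 4)
          = 9 * x ^ 2 * (x * e) ^ 2 - 9 * (x * e) ^ 3 - 16 * x ^ 3 * (x * t) ^ 2 + 18 * x * (x * e) * (x * t) ^ 2 - 3 * (x * t) ^ 4 := by
        ring
      rw [e1]
      exact a7
    exact nonneg_of_mul_nonneg_right this (by positivity)
  constructor
  · intro h0
    refine ⟨hx, h0, e0, q1, q2, q3, b4, ?_, ?_, q7, by simp⟩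
    · simpa using b5
    · simp only [if_true]
      have e1 : 3 * μ ^ 4 - 6 * μ ^ 2 * x + 4 * μ * (x * t) + 3 * x ^ 2 - 3 * x * e
          = 3 * μ ^ 4 - 6 * μ ^ 2 * x + 4 * μ * (x * t) + 3 * x ^ 2 - 3 * (x * e) := by ring
      rw [e1]
      exact b6
  · intro h0
    refine ⟨hx, by linarith, e0, by nlinarith, by nlinarith, q3, b4, ?_, ?_, ?_, ?_⟩
    · simp only [Bool.false_eq_true, if_false]
      have e1 : x * -t = x * -t := rfl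
      nlinarith
    · simp only [Bool.false_eq_true, if_false]
      nlinarith
    · have e1 : 9 * x * e ^ 2 - 9 * e ^ 3 - 16 * x ^ 2 * (-t) ^ 2 + 18 * x * e * (-t) ^ 2 - 3 * x * (-t) ^ 4
          = 9 * x * e ^ 2 - 9 * e ^ 3 - 16 * x ^ 2 * t ^ 2 + 18 * x * e * t ^ 2 - 3 * x * t ^ 4 := by ring
      rw [e1]
      exact q7
    · intro _
      rcases le_total (μ ^ 2 / 3) x with h5 | h5
      · have h6 : 0 ≤ x * t + μ / 3 * x + μ ^ 3 / 9 := b8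
        have h7 : x * (3 * -t) ≤ x * (2 * μ) := by
          have : μ * (μ ^ 2 / 3) ≤ μ * x := mul_le_mul_of_nonneg_left h5 hμ.le
          nlinarith
        have h8 := le_of_mul_le_mul_left h7 hx
        linarith
      · have h6 : 3 * t ^ 2 ≤ 4 * (μ ^ 2 / 3) := by linarith
        by_contra hc
        push Not at hc
        have h7 : 2 * μ < 3 * -t := hc
        have h8 : (2 * μ) ^ 2 < (3 * -t) ^ 2 := by
          apply pow_lt_pow_left₀ h7 (by positivity) (by norm_num)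
        nlinarith

end Vale.Agent.helper4.Q4
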