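import Mathlib

/-!
Sparse polynomials in six variables with integer coefficients, for computations by the kernel.
-/

set_option linter.unusedSectionVars false
set_option linter.unusedVariables false

namespace Vale.Agent.helper4.Q4

/-- Exponents of `e`, `t`, `E`, `T`, `x`, `X`, in the order used for sorting. -/
structure Mo where
  l : ℕ
  j : ℕ
  l' : ℕ
  j' : ℕ
  p : ℕ
  q : ℕ

/-- A point. -/
structure V6 where
  x : ℝ
  t : ℝ
  e : ℝ
  X : ℝ
  T : ℝ
  E : ℝ

noncomputable def Mo.val (m : Mo) (v : V6) : ℝ :=
  v.e ^ m.l * v.t ^ m.j * v.E ^ m.l' * v.T ^ m.j' * v.x ^ m.p * v.X ^ m.q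

def Mo.add (a b : Mo) : Mo :=
  ⟨Nat.add a.l b.l, Nat.add a.j b.j, Nat.add a.l' b.l', Nat.add a.j' b.j', Nat.add a.p b.p, Nat.add a.q b.q⟩

lemma Mo.val_add (a b : Mo) (v : V6) : (Mo.add a b).val v = a.val v * b.val v := by
  simp only [Mo.val, Mo.add, Nat.add_eq, pow_add]
  ring

/-- Comparison: `0` for less, `1` for equal, `2` for greater. -/
def Mo.cmp (a b : Mo) : ℕ :=
  bif Nat.blt a.l b.l then 0 else bif Nat.blt b.l a.l then 2 else
  bif Nat.blt a.j b.j then 0 else bif Nat.blt b.j a.j then 2 else
  bif Nat.blt a.l' b.l' then 0 else bif Nat.blt b.l' a.l' then 2 else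
  bif Nat.blt a.j' b.j' then 0 else bif Nat.blt b.j' a.j' then 2 else
  bif Nat.blt a.p b.p then 0 else bif Nat.blt b.p a.p then 2 else
  bif Nat.blt a.q b.q then 0 else bif Nat.blt b.q a.q then 2 else 1

lemma Mo.cmp_eq {a b : Mo} (h : Mo.cmp a b = 1) : a = b := by
  rcases a with ⟨a1, a2, a3, a4, a5, a6⟩
  rcases b with ⟨b1, b2, b3, b4, b5, b6⟩
  simp only [Mo.cmp, cond_eq_ite, Nat.blt_eq] at h
  have e1 : a1 = b1 := by
    by_contra hne
    rcases Nat.lt_or_gt_of_ne hne with h1 | h1
    · simp [h1] at h
    · have h2 : ¬ a1 < b1 := by omega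
      simp [h2, h1] at h
  subst e1
  have e2 : a2 = b2 := by
    by_contra hne
    rcases Nat.lt_or_gt_of_ne hne with h1 | h1
    · simp [h1] at h
    · have h2 : ¬ a2 < b2 := by omega
      simp [h2, h1] at h
  subst e2
  have e3 : a3 = b3 := by
    by_contra hne
    rcases Nat.lt_or_gt_of_ne hne with h1 | h1
    · simp [h1] at h
    · have h2 : ¬ a3 < b3 := by omega
      simp [h2, h1] at h
  subst e3
  have e4 : a4 = b4 := by
    by_contra hne
    rcases Nat.lt_or_gt_of_ne hne with h1 | h1
    · simp [h1] at h
    · have h2 : ¬ a4 < b4 := by omega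
      simp [h2, h1] at h
  subst e4
  have e5 : a5 = b5 := by
    by_contra hne
    rcases Nat.lt_or_gt_of_ne hne with h1 | h1
    · simp [h1] at h
    · have h2 : ¬ a5 < b5 := by omega
      simp [h2, h1] at h
  subst e5
  have e6 : a6 = b6 := by
    by_contra hne
    rcases Nat.lt_or_gt_of_ne hne with h1 | h1
    · simp [h1] at h
    · have h2 : ¬ a6 < b6 := by omega
      simp [h2, h1] at h
  subst e6
  rfl

/-- A sparse polynomial: a list of terms, normally sorted. -/
abbrev Flat := List (Mo × ℤ)

namespace Flat

noncomputable def val (F : Flat) (v : V6) : ℝ := (F.map fun u => (u.2 : ℝ) * u.1.val v).sum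

@[simp] lemma val_nil (v : V6) : val [] v = 0 := rfl

@[simp] lemma val_cons (u : Mo × ℤ) (F : Flat) (v : V6) : val (u :: F) v = (u.2 : ℝ) * u.1.val v + val F v := by
  simp [val]

lemma val_append (F G : Flat) (v : V6) : val (F ++ G) v = val F v + val G v := by
  simp [val]

/-- A new term, unless its coefficient vanishes. -/
def consNZ (m : Mo) (c : ℤ) (F : Flat) : Flat :=
  match c with
  | Int.ofNat 0 => F
  | Int.ofNat (k + 1) => (m, Int.ofNat (k + 1)) :: F
  | Int.negSucc k => (m, Int.negSucc k) :: F

lemma val_consNZ (m : Mo) (c : ℤ) (F : Flat) (v : V6) : val (consNZ m c F) v = (c : ℝ) * m.val v + val F v := by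
  unfold consNZ
  split
  · simp
  · simp
  · simp

/-- Sum of two sorted polynomials, the first argument of the recursion bounding its length. -/
def merge : ℕ → Flat → Flat → Flat
  | 0, F, G => F ++ G
  | _ + 1, [], G => G
  | _ + 1, F, [] => F
  | n + 1, a :: F, b :: G =>
    match Mo.cmp a.1 b.1 with
    | 0 => a :: merge n F (b :: G)
    | 1 => consNZ a.1 (Int.add a.2 b.2) (merge n F G)
    | _ => b :: merge n (a :: F) G

lemma val_merge (n : ℕ) (F G : Flat) (v : V6) : val (merge n F G) v = val F v + val G v := by
  induction n generalizing F G with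
  | zero => simp [merge, val_append]
  | succ n ih =>
    cases F with
    | nil => simp [merge]
    | cons a F =>
      cases G with
      | nil => simp [merge]
      | cons b G =>
        rw [merge]
        split
        · rw [val_cons, ih, val_cons, val_cons]
          ring
        · rename_i h
          have e := Mo.cmp_eq h
          rw [val_consNZ, ih, val_cons, val_cons, e]
          have h4 : Int.add a.2 b.2 = a.2 + b.2 := rfl
          rw [h4]
          push_cast
          ring
        · rw [val_cons, ih, val_cons, val_cons]
          ring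

/-- Sum with a length bound computed from the arguments. -/
def add (F G : Flat) : Flat := merge (Nat.succ (Nat.add F.length G.length)) F G

lemma val_add (F G : Flat) (v : V6) : val (add F G) v = val F v + val G v := val_merge _ _ _ _

/-- A multiple by a nonzero integer. -/
def smul (n : ℤ) (F : Flat) : Flat := F.map fun u => (u.1, Int.mul n u.2)

lemma val_smul (n : ℤ) (F : Flat) (v : V6) : val (smul n F) v = (n : ℝ) * val F v := by
  induction F with
  | nil => simp [smul]
  | cons a F ih =>
    have e : smul n (a :: F) = (a.1, n * a.2) :: smul n F := rfl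
    rw [e, val_cons, val_cons, ih]
    push_cast
    ring

def neg (F : Flat) : Flat := smul (-1) F

lemma val_neg (F : Flat) (v : V6) : val (neg F) v = - val F v := by
  simp [neg, val_smul]

def sub (F G : Flat) : Flat := add F (neg G)

lemma val_sub (F G : Flat) (v : V6) : val (sub F G) v = val F v - val G v := by
  simp [sub, val_add, val_neg, sub_eq_add_neg]

/-- One pass of pairwise sums. -/
def pass : List Flat → List Flat
  | a :: b :: L => add a b :: pass L
  | L => L

/-- The sum of all polynomials of a list. -/
noncomputable def sumV (L : List Flat) (v : V6) : ℝ := (L.map fun F => val F v).sum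

lemma sumV_pass (L : List Flat) (v : V6) : sumV (pass L) v = sumV L v := by
  have key : ∀ n (L : List Flat), L.length ≤ n → sumV (pass L) v = sumV L v := by
    intro n
    induction n with
    | zero =>
      intro L h
      cases L with
      | nil => rfl
      | cons a L => simp at h
    | succ n ih =>
      intro L h
      match L, h with
      | [], _ => rfl
      | [a], _ => rfl
      | a :: b :: L, h =>
        have h2 : L.length ≤ n := by
          simp only [List.length_cons] at h
          omega
        have := ih L h2
        simp only [pass, sumV, List.map_cons, List.sum_cons, val_add] at this ⊢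
        rw [this]
        ring
  exact key _ L le_rfl

/-- Sum of a list of polynomials by repeated passes. -/
def mergeAll : ℕ → List Flat → Flat
  | 0, L => L.foldr add []
  | _ + 1, [] => []
  | _ + 1, [a] => a
  | n + 1, L => mergeAll n (pass L)

lemma val_foldr (L : List Flat) (v : V6) : val (L.foldr add []) v = sumV L v := by
  induction L with
  | nil => rfl
  | cons a L ih =>
    simp only [List.foldr_cons, val_add, ih]
    simp [sumV]

lemma val_mergeAll (n : ℕ) (L : List Flat) (v : V6) : val (mergeAll n L) v = sumV L v := by
  induction n generalizing L with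
  | zero => simp [mergeAll, val_foldr]
  | succ n ih =>
    match L with
    | [] => rfl
    | [a] => simp [mergeAll, sumV]
    | a :: b :: L =>
      have e : mergeAll (n + 1) (a :: b :: L) = mergeAll n (pass (a :: b :: L)) := rfl
      rw [e, ih, sumV_pass]

/-- The list of pairwise products with a fixed term. -/
def mulTerm (u : Mo × ℤ) (G : Flat) : Flat := G.map fun w => (Mo.add u.1 w.1, Int.mul u.2 w.2)

lemma val_mulTerm (u : Mo × ℤ) (G : Flat) (v : V6) : val (mulTerm u G) v = (u.2 : ℝ) * u.1.val v * val G v := by
  induction G with
  | nil => simp [mulTerm]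
  | cons a G ih =>
    have e : mulTerm u (a :: G) = (Mo.add u.1 a.1, u.2 * a.2) :: mulTerm u G := rfl
    rw [e, val_cons, val_cons, ih, Mo.val_add]
    push_cast
    ring

/-- Product. -/
def mul (F G : Flat) : Flat := mergeAll 16 (F.map fun u => mulTerm u G)

lemma val_mul (F G : Flat) (v : V6) : val (mul F G) v = val F v * val G v := by
  unfold mul
  rw [val_mergeAll]
  induction F with
  | nil => simp [sumV]
  | cons a F ih =>
    simp only [sumV, List.map_cons, List.sum_cons, val_mulTerm, val_cons] at ih ⊢
    simp only [List.map_map] at ih ⊢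
    rw [show (List.map ((fun F => val F v) ∘ fun u => mulTerm u G) F).sum = (List.map (fun F => val F v) (List.map (fun u => mulTerm u G) F)).sum by rw [List.map_map]]
    rw [show (List.map (fun F => val F v) (List.map (fun u => mulTerm u G) F)).sum = val F v * val G v from by
      rw [List.map_map]
      exact ih]
    ring

/-- Multiplication by a power of a single variable: exponents are shifted. -/
def shift (m : Mo) (F : Flat) : Flat := F.map fun u => (Mo.add m u.1, u.2)

lemma val_shift (m : Mo) (F : Flat) (v : V6) : val (shift m F) v = m.val v * val F v := by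
  induction F with
  | nil => simp [shift]
  | cons a F ih =>
    have e : shift m (a :: F) = (Mo.add m a.1, a.2) :: shift m F := rfl
    rw [e, val_cons, val_cons, ih, Mo.val_add]
    ring

/-- Exchange of the two groups of variables. -/
def Mo.swap (m : Mo) : Mo := ⟨m.l', m.j', m.l, m.j, m.q, m.p⟩

def _root_.Vale.Agent.helper4.Q4.V6.swap (v : V6) : V6 := ⟨v.X, v.T, v.E, v.x, v.t, v.e⟩

def swap (F : Flat) : Flat := F.map fun u => (Mo.swap u.1, u.2)

lemma val_swap (F : Flat) (v : V6) : val (swap F) v = val F v.swap := by
  induction F with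
  | nil => simp [swap]
  | cons a F ih =>
    have e : swap (a :: F) = (Mo.swap a.1, a.2) :: swap F := rfl
    rw [e, val_cons, val_cons, ih]
    simp only [Mo.swap, _root_.Vale.Agent.helper4.Q4.V6.swap, _root_.Vale.Agent.helper4.Q4.Mo.val]
    ring

/-- Equality of the two lists, tested entry by entry. -/
def beq : Flat → Flat → Bool
  | [], [] => true
  | a :: F, b :: G => Nat.beq (Mo.cmp a.1 b.1) 1 && decide (a.2 = b.2) && beq F G
  | [], _ :: _ => false
  | _ :: _, [] => false

lemma val_of_beq {F G : Flat} (h : beq F G = true) (v : V6) : val F v = val G v := by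
  induction F generalizing G with
  | nil =>
    cases G with
    | nil => rfl
    | cons b G => simp [beq] at h
  | cons a F ih =>
    cases G with
    | nil => simp [beq] at h
    | cons b G =>
      simp only [beq, Bool.and_eq_true, decide_eq_true_eq] at h
      obtain ⟨⟨h1, h2⟩, h3⟩ := h
      have e := Mo.cmp_eq (Nat.eq_of_beq_eq_true h1)
      rw [val_cons, val_cons, ih h3, e, h2]

end Flat

end Vale.Agent.helper4.Q4
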