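import Vale.Agent.helper4.Q4Kron

/-!
Averages over all orderings of four colours as polynomials in the power sums.
-/

set_option linter.unusedSectionVars false
set_option linter.unusedVariables false

namespace Vale.Agent.helper4.Q4

open MvPolynomial

/-- A pair standing for the difference of its two entries. -/
structure SP (R : Type) where
  p : R
  q : R

namespace SP

variable {R S : Type} [CommSemiring R] [CommSemiring S]

def add (a b : SP R) : SP R := ⟨a.p + b.p, a.q + b.q⟩

def mul (a b : SP R) : SP R := ⟨a.p * b.p + a.q * b.q, a.p * b.q + a.q * b.p⟩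

def zero : SP R := ⟨0, 0⟩

def one : SP R := ⟨1, 0⟩

def pow (a : SP R) : ℕ → SP R
  | 0 => one
  | k + 1 => mul (pow a k) a

/-- Applying a homomorphism to both entries. -/
def map (f : R →+* S) (a : SP R) : SP S := ⟨f a.p, f a.q⟩

lemma map_add (f : R →+* S) (a b : SP R) : map f (add a b) = add (map f a) (map f b) := by
  simp [map, add]

lemma map_mul (f : R →+* S) (a b : SP R) : map f (mul a b) = mul (map f a) (map f b) := by
  simp [map, mul]

lemma map_zero (f : R →+* S) : map f (zero : SP R) = zero := by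
  simp [map, zero]

lemma map_one (f : R →+* S) : map f (one : SP R) = one := by
  simp [map, one]

lemma map_pow (f : R →+* S) (a : SP R) (k : ℕ) : map f (pow a k) = pow (map f a) k := by
  induction k with
  | zero => exact map_one f
  | succ k ih => simp only [pow, map_mul, ih]

/-- The real number a pair stands for. -/
def val (a : SP ℝ) : ℝ := a.p - a.q

lemma val_add (a b : SP ℝ) : val (add a b) = val a + val b := by
  simp only [val, add]; ring

lemma val_mul (a b : SP ℝ) : val (mul a b) = val a * val b := by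
  simp only [val, mul]; ring

lemma val_zero : val (zero : SP ℝ) = 0 := by
  simp [val, zero]

lemma val_one : val (one : SP ℝ) = 1 := by
  simp [val, one]

lemma val_pow (a : SP ℝ) (k : ℕ) : val (pow a k) = val a ^ k := by
  induction k with
  | zero =>
    rw [_root_.pow_zero]
    exact val_one
  | succ k ih => simp only [pow, val_mul, ih, _root_.pow_succ]

end SP

section defs

variable {R S : Type} [CommSemiring R] [CommSemiring S]

/-- The message of the vertex, the last entry being minus the sum of the others. -/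
def cAt (v : Fin 6 → R) : Fin 4 → SP R
  | 0 => ⟨v 0, 0⟩
  | 1 => ⟨v 1, 0⟩
  | 2 => ⟨v 2, 0⟩
  | 3 => ⟨0, v 0 + v 1 + v 2⟩

/-- The message of the child. -/
def aAt (v : Fin 6 → R) : Fin 4 → SP R
  | 0 => ⟨v 3, 0⟩
  | 1 => ⟨v 4, 0⟩
  | 2 => ⟨v 5, 0⟩
  | 3 => ⟨0, v 3 + v 4 + v 5⟩

/-- All the orderings of four colours. -/
def taus : List (Fin 4 → Fin 4) :=
  [![0, 1, 2, 3], ![0, 1, 3, 2], ![0, 2, 1, 3], ![0, 2, 3, 1], ![0, 3, 1, 2], ![0, 3, 2, 1],
   ![1, 0, 2, 3], ![1, 0, 3, 2], ![1, 2, 0, 3], ![1, 2, 3, 0], ![1, 3, 0, 2], ![1, 3, 2, 0],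
   ![2, 0, 1, 3], ![2, 0, 3, 1], ![2, 1, 0, 3], ![2, 1, 3, 0], ![2, 3, 0, 1], ![2, 3, 1, 0],
   ![3, 0, 1, 2], ![3, 0, 2, 1], ![3, 1, 0, 2], ![3, 1, 2, 0], ![3, 2, 0, 1], ![3, 2, 1, 0]]

def sum4 (f : Fin 4 → SP R) : SP R := SP.add (SP.add (SP.add (f 0) (f 1)) (f 2)) (f 3)

/-- One ordering in the average. -/
def atomT (c a : Fin 4 → SP R) (i j k : ℕ) (τ : Fin 4 → Fin 4) : SP R :=
  SP.mul (sum4 fun l => SP.mul (SP.pow (c l) i) (SP.pow (a (τ l)) j))
    (SP.pow (sum4 fun l => SP.mul (c l) (a (τ l))) k)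

/-- The sum over all orderings. -/
def atomL (c a : Fin 4 → SP R) (i j k : ℕ) : SP R :=
  (taus.map (atomT c a i j k)).foldr SP.add SP.zero

/-- An entry of a table: the six exponents of the power sums and a coefficient. -/
structure TE where
  e1 : ℕ
  e2 : ℕ
  e3 : ℕ
  f1 : ℕ
  f2 : ℕ
  f3 : ℕ
  pos : ℕ
  neg : ℕ

def psum (c : Fin 4 → SP R) (r : ℕ) : SP R := sum4 fun l => SP.pow (c l) r

def termR (c a : Fin 4 → SP R) (e : TE) : SP R :=
  SP.mul (SP.mul (SP.mul (SP.mul (SP.mul (SP.mul ⟨(e.pos : R), (e.neg : R)⟩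
    (SP.pow (psum c 2) e.e1)) (SP.pow (psum c 3) e.e2)) (SP.pow (psum c 4) e.e3))
    (SP.pow (psum a 2) e.f1)) (SP.pow (psum a 3) e.f2)) (SP.pow (psum a 4) e.f3)

def tableR (c a : Fin 4 → SP R) (T : List TE) : SP R :=
  (T.map (termR c a)).foldr SP.add SP.zero

/-- The first side of the identity. -/
def idP (v : Fin 6 → R) (den i j k : ℕ) (T : List TE) : R :=
  (den : R) * (atomL (cAt v) (aAt v) i j k).p + (tableR (cAt v) (aAt v) T).q

/-- The second side of the identity. -/
def idQ (v : Fin 6 → R) (den i j k : ℕ) (T : List TE) : R :=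
  (den : R) * (atomL (cAt v) (aAt v) i j k).q + (tableR (cAt v) (aAt v) T).p

lemma map_cAt (f : R →+* S) (v : Fin 6 → R) (l : Fin 4) :
    SP.map f (cAt v l) = cAt (fun i => f (v i)) l := by
  fin_cases l <;> simp [SP.map, cAt]

lemma map_aAt (f : R →+* S) (v : Fin 6 → R) (l : Fin 4) :
    SP.map f (aAt v l) = aAt (fun i => f (v i)) l := by
  fin_cases l <;> simp [SP.map, aAt]

lemma map_sum4 (f : R →+* S) (g : Fin 4 → SP R) :
    SP.map f (sum4 g) = sum4 fun l => SP.map f (g l) := by
  simp only [sum4, SP.map_add]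

lemma map_foldr (f : R →+* S) (L : List (SP R)) :
    SP.map f (L.foldr SP.add SP.zero) = (L.map (SP.map f)).foldr SP.add SP.zero := by
  induction L with
  | nil => exact SP.map_zero f
  | cons a L ih => simp only [List.foldr_cons, List.map_cons, SP.map_add, ih]

lemma map_atomL (f : R →+* S) (c a : Fin 4 → SP R) (i j k : ℕ) :
    SP.map f (atomL c a i j k)
      = atomL (fun l => SP.map f (c l)) (fun l => SP.map f (a l)) i j k := by
  unfold atomL
  rw [map_foldr, List.map_map]
  congr 1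
  refine List.map_congr_left fun τ _ => ?_
  simp only [Function.comp, atomT, SP.map_mul, map_sum4, SP.map_pow]

lemma map_psum (f : R →+* S) (c : Fin 4 → SP R) (r : ℕ) :
    SP.map f (psum c r) = psum (fun l => SP.map f (c l)) r := by
  simp only [psum, map_sum4, SP.map_pow]

lemma map_termR (f : R →+* S) (c a : Fin 4 → SP R) (e : TE) :
    SP.map f (termR c a e) = termR (fun l => SP.map f (c l)) (fun l => SP.map f (a l)) e := by
  simp only [termR, SP.map_mul, SP.map_pow, map_psum]
  congr 6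
  simp [SP.map]

lemma map_tableR (f : R →+* S) (c a : Fin 4 → SP R) (T : List TE) :
    SP.map f (tableR c a T)
      = tableR (fun l => SP.map f (c l)) (fun l => SP.map f (a l)) T := by
  unfold tableR
  rw [map_foldr, List.map_map]
  congr 1
  refine List.map_congr_left fun e _ => ?_
  simp only [Function.comp, map_termR]

lemma map_idP (f : R →+* S) (v : Fin 6 → R) (den i j k : ℕ) (T : List TE) :
    f (idP v den i j k T) = idP (fun l => f (v l)) den i j k T := by
  have h1 := congrArg SP.p (map_atomL f (cAt v) (aAt v) i j k)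
  have h2 := congrArg SP.q (map_tableR f (cAt v) (aAt v) T)
  simp only [SP.map] at h1 h2
  simp only [idP, _root_.map_add, _root_.map_mul, h1, h2, _root_.map_natCast]
  have e1 : (fun l => SP.map f (cAt v l)) = cAt (fun i => f (v i)) := funext (map_cAt f v)
  have e2 : (fun l => SP.map f (aAt v l)) = aAt (fun i => f (v i)) := funext (map_aAt f v)
  have e1' : (fun l => (⟨f (cAt v l).p, f (cAt v l).q⟩ : SP S)) = cAt (fun i => f (v i)) := e1
  have e2' : (fun l => (⟨f (aAt v l).p, f (aAt v l).q⟩ : SP S)) = aAt (fun i => f (v i)) := e2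
  rw [e1', e2']

lemma map_idQ (f : R →+* S) (v : Fin 6 → R) (den i j k : ℕ) (T : List TE) :
    f (idQ v den i j k T) = idQ (fun l => f (v l)) den i j k T := by
  have h1 := congrArg SP.q (map_atomL f (cAt v) (aAt v) i j k)
  have h2 := congrArg SP.p (map_tableR f (cAt v) (aAt v) T)
  simp only [SP.map] at h1 h2
  simp only [idQ, _root_.map_add, _root_.map_mul, h1, h2, _root_.map_natCast]
  have e1 : (fun l => SP.map f (cAt v l)) = cAt (fun i => f (v i)) := funext (map_cAt f v)
  have e2 : (fun l => SP.map f (aAt v l)) = aAt (fun i => f (v i)) := funext (map_aAt f v)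
  have e1' : (fun l => (⟨f (cAt v l).p, f (cAt v l).q⟩ : SP S)) = cAt (fun i => f (v i)) := e1
  have e2' : (fun l => (⟨f (aAt v l).p, f (aAt v l).q⟩ : SP S)) = aAt (fun i => f (v i)) := e2
  rw [e1', e2']

end defs

section hom

/-- The weights separating the variables of the two messages. -/
def wt : Fin 6 → ℕ × ℕ := ![(1, 0), (1, 0), (1, 0), (0, 1), (0, 1), (0, 1)]

/-- Both entries of a pair are homogeneous. -/
def HomP (n : ℕ × ℕ) (s : SP MP) : Prop :=
  IsWeightedHomogeneous wt s.p n ∧ IsWeightedHomogeneous wt s.q n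

lemma HomP.add {n : ℕ × ℕ} {a b : SP MP} (ha : HomP n a) (hb : HomP n b) : HomP n (SP.add a b) :=
  ⟨ha.1.add hb.1, ha.2.add hb.2⟩

lemma HomP.mul {m n : ℕ × ℕ} {a b : SP MP} (ha : HomP m a) (hb : HomP n b) :
    HomP (m + n) (SP.mul a b) :=
  ⟨(ha.1.mul hb.1).add (ha.2.mul hb.2), (ha.1.mul hb.2).add (ha.2.mul hb.1)⟩

lemma HomP.zero (n : ℕ × ℕ) : HomP n SP.zero :=
  ⟨isWeightedHomogeneous_zero _ _ _, isWeightedHomogeneous_zero _ _ _⟩

lemma HomP.one : HomP 0 SP.one :=
  ⟨isWeightedHomogeneous_one _ _, isWeightedHomogeneous_zero _ _ _⟩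

lemma HomP.pow {n : ℕ × ℕ} {a : SP MP} (ha : HomP n a) (k : ℕ) : HomP (k • n) (SP.pow a k) := by
  induction k with
  | zero =>
    rw [zero_smul]
    exact HomP.one
  | succ k ih =>
    rw [succ_nsmul]
    exact ih.mul ha

lemma HomP_sum4 {n : ℕ × ℕ} {f : Fin 4 → SP MP} (h : ∀ l, HomP n (f l)) : HomP n (sum4 f) :=
  ((((h 0).add (h 1)).add (h 2)).add (h 3))

lemma HomP_foldr {n : ℕ × ℕ} (L : List (SP MP)) (h : ∀ s ∈ L, HomP n s) :
    HomP n (L.foldr SP.add SP.zero) := by
  induction L with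
  | nil => exact HomP.zero n
  | cons a L ih =>
    simp only [List.foldr_cons]
    exact (h a (by simp)).add (ih fun s hs => h s (by simp [hs]))

/-- The free variables. -/
noncomputable def VX : Fin 6 → MP := fun i => X i

lemma Hom_X (i : Fin 6) : IsWeightedHomogeneous wt (VX i) (wt i) := isWeightedHomogeneous_X _ _ _

lemma hom_cAt (l : Fin 4) : HomP (1, 0) (cAt VX l) := by
  have h0 : ∀ i : Fin 3, IsWeightedHomogeneous wt (VX ⟨i, by omega⟩) ((1, 0) : ℕ × ℕ) := by
    intro i
    fin_cases i <;> exact Hom_X _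
  fin_cases l
  · exact ⟨h0 0, isWeightedHomogeneous_zero _ _ _⟩
  · exact ⟨h0 1, isWeightedHomogeneous_zero _ _ _⟩
  · exact ⟨h0 2, isWeightedHomogeneous_zero _ _ _⟩
  · exact ⟨isWeightedHomogeneous_zero _ _ _, ((h0 0).add (h0 1)).add (h0 2)⟩

lemma hom_aAt (l : Fin 4) : HomP (0, 1) (aAt VX l) := by
  have h0 : ∀ i : Fin 3, IsWeightedHomogeneous wt (VX ⟨i + 3, by omega⟩) ((0, 1) : ℕ × ℕ) := by
    intro i
    fin_cases i <;> exact Hom_X _
  fin_cases l
  · exact ⟨h0 0, isWeightedHomogeneous_zero _ _ _⟩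
  · exact ⟨h0 1, isWeightedHomogeneous_zero _ _ _⟩
  · exact ⟨h0 2, isWeightedHomogeneous_zero _ _ _⟩
  · exact ⟨isWeightedHomogeneous_zero _ _ _, ((h0 0).add (h0 1)).add (h0 2)⟩

lemma hom_atomL (i j k : ℕ) : HomP (i + k, j + k) (atomL (cAt VX) (aAt VX) i j k) := by
  refine HomP_foldr _ fun s hs => ?_
  obtain ⟨τ, _, rfl⟩ := List.mem_map.mp hs
  have h1 : HomP (i, j) (sum4 fun l => SP.mul (SP.pow (cAt VX l) i) (SP.pow (aAt VX (τ l)) j)) := by
    refine HomP_sum4 fun l => ?_
    have := ((hom_cAt l).pow i).mul ((hom_aAt (τ l)).pow j)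
    simpa using this
  have h2 : HomP (k, k) (SP.pow (sum4 fun l => SP.mul (cAt VX l) (aAt VX (τ l))) k) := by
    have h3 : HomP (1, 1) (sum4 fun l => SP.mul (cAt VX l) (aAt VX (τ l))) :=
      HomP_sum4 fun l => by
        have := (hom_cAt l).mul (hom_aAt (τ l))
        simpa using this
    have := h3.pow k
    simpa using this
  have e : (i + k, j + k) = (i, j) + (k, k) := rfl
  rw [e]
  exact h1.mul h2

lemma hom_psum_c (r : ℕ) : HomP (r, 0) (psum (cAt VX) r) :=
  HomP_sum4 fun l => by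
    have := (hom_cAt l).pow r
    simpa using this

lemma hom_psum_a (r : ℕ) : HomP (0, r) (psum (aAt VX) r) :=
  HomP_sum4 fun l => by
    have := (hom_aAt l).pow r
    simpa using this

/-- The bidegree of an entry of a table. -/
def TE.deg (e : TE) : ℕ × ℕ := (2 * e.e1 + 3 * e.e2 + 4 * e.e3, 2 * e.f1 + 3 * e.f2 + 4 * e.f3)

lemma hom_termR (e : TE) : HomP e.deg (termR (cAt VX) (aAt VX) e) := by
  have h0 : HomP 0 (⟨(e.pos : MP), (e.neg : MP)⟩ : SP MP) := by
    constructor
    · have := isWeightedHomogeneous_C (R := ℕ) wt e.pos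
      simpa using this
    · have := isWeightedHomogeneous_C (R := ℕ) wt e.neg
      simpa using this
  have := ((((((h0.mul ((hom_psum_c 2).pow e.e1)).mul ((hom_psum_c 3).pow e.e2)).mul
    ((hom_psum_c 4).pow e.e3)).mul ((hom_psum_a 2).pow e.f1)).mul
    ((hom_psum_a 3).pow e.f2)).mul ((hom_psum_a 4).pow e.f3))
  have e1 : e.deg = 0 + e.e1 • ((2, 0) : ℕ × ℕ) + e.e2 • (3, 0) + e.e3 • (4, 0) + e.f1 • (0, 2)
      + e.f2 • (0, 3) + e.f3 • (0, 4) := by
    simp only [TE.deg]
    ext <;> simp <;> ring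
  rw [e1]
  exact this

lemma hom_tableR (T : List TE) (n : ℕ × ℕ) (hT : ∀ e ∈ T, e.deg = n) :
    HomP n (tableR (cAt VX) (aAt VX) T) := by
  refine HomP_foldr _ fun s hs => ?_
  obtain ⟨e, he, rfl⟩ := List.mem_map.mp hs
  have := hom_termR e
  rwa [hT e he] at this

lemma hom_idP (den i j k : ℕ) (T : List TE) (hT : ∀ e ∈ T, e.deg = (i + k, j + k)) :
    IsWeightedHomogeneous wt (idP VX den i j k T) (i + k, j + k) := by
  have h0 : IsWeightedHomogeneous wt (den : MP) (0 : ℕ × ℕ) := by
    have := isWeightedHomogeneous_C (R := ℕ) wt den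
    simpa using this
  have := (h0.mul (hom_atomL i j k).1)
  rw [zero_add] at this
  exact this.add (hom_tableR T _ hT).2

lemma hom_idQ (den i j k : ℕ) (T : List TE) (hT : ∀ e ∈ T, e.deg = (i + k, j + k)) :
    IsWeightedHomogeneous wt (idQ VX den i j k T) (i + k, j + k) := by
  have h0 : IsWeightedHomogeneous wt (den : MP) (0 : ℕ × ℕ) := by
    have := isWeightedHomogeneous_C (R := ℕ) wt den
    simpa using this
  have := (h0.mul (hom_atomL i j k).2)
  rw [zero_add] at this
  exact this.add (hom_tableR T _ hT).1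

/-- The exponents of the Kronecker substitution. -/
def eId (D : ℕ) : Fin 6 → ℕ := ![1, D, 0, D * D, D * (D * D), 0]

lemma weight_eq (m : Fin 6 →₀ ℕ) :
    Finsupp.weight wt m = (m 0 + m 1 + m 2, m 3 + m 4 + m 5) := by
  rw [Finsupp.weight_apply, Finsupp.sum_fintype _ _ (by simp)]
  rw [Fin.sum_univ_six]
  ext <;> simp [wt]

lemma inj_eId {D a b : ℕ} (ha : a < D) (hb : b < D) :
    Set.InjOn (iota (eId D)) {m : Fin 6 →₀ ℕ | Finsupp.weight wt m = (a, b)} := by
  intro m hm n hn h
  have hm' : Finsupp.weight wt m = (a, b) := hm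
  have hn' : Finsupp.weight wt n = (a, b) := hn
  rw [weight_eq, Prod.mk.injEq] at hm' hn'
  obtain ⟨hm1, hm2⟩ := hm'
  obtain ⟨hn1, hn2⟩ := hn'
  have hD : 0 < D := by omega
  simp only [iota, Fin.sum_univ_six, eId] at h
  simp only [Matrix.cons_val_zero, Matrix.cons_val_one, Matrix.cons_val] at h
  have lt0 : ∀ u v : ℕ, u < D → v < D → u * D + v < D * D := by
    intro u v hu hv
    calc u * D + v < u * D + D := by omega
      _ = (u + 1) * D := by ring
      _ ≤ D * D := Nat.mul_le_mul_right _ (by omega)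
  have lt1 : m 1 * D + m 0 < D * D := lt0 _ _ (by omega) (by omega)
  have lt2 : n 1 * D + n 0 < D * D := lt0 _ _ (by omega) (by omega)
  have k2 : (m 4 * D + m 3) * (D * D) + (m 1 * D + m 0)
      = (n 4 * D + n 3) * (D * D) + (n 1 * D + n 0) := by
    convert h using 1 <;> ring
  obtain ⟨u1, u2⟩ := KEngine.div_unique lt1 lt2 k2
  obtain ⟨v1, v2⟩ := KEngine.div_unique (show m 3 < D by omega) (show n 3 < D by omega) u1
  obtain ⟨w1, w2⟩ := KEngine.div_unique (show m 0 < D by omega) (show n 0 < D by omega) u2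
  ext i
  fin_cases i
  · exact w2
  · exact w1
  · show m 2 = n 2
    omega
  · exact v2
  · exact v1
  · show m 5 = n 5
    omega

end hom

/-- The test for one identity. -/
def checkId (den i j k D : ℕ) (T : List TE) : Bool :=
  let one6 : Fin 6 → ℕ := fun _ => 1
  let h := idP one6 den i j k T + idQ one6 den i j k T + 1
  let Y := 2 * h
  let pt : Fin 6 → ℕ := fun l => Y ^ eId D l
  decide (i + k < D) && decide (j + k < D) && T.all (fun e => e.deg == (i + k, j + k)) &&
    Nat.beq (idP pt den i j k T) (idQ pt den i j k T)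

theorem poly_eq_of_check {den i j k D : ℕ} {T : List TE} (hc : checkId den i j k D T = true) :
    idP VX den i j k T = idQ VX den i j k T := by
  simp only [checkId, Bool.and_eq_true, decide_eq_true_eq, List.all_eq_true, beq_iff_eq,
    Nat.beq_eq_true_eq] at hc
  obtain ⟨⟨⟨h1, h2⟩, h3⟩, h4'⟩ := hc
  have h4 := Nat.eq_of_beq_eq_true h4'
  set one6 : Fin 6 → ℕ := fun _ => 1
  set h := idP one6 den i j k T + idQ one6 den i j k T + 1 with hh
  set Y := 2 * h
  have hP := hom_idP den i j k T h3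
  have hQ := hom_idQ den i j k T h3
  have hinj : Set.InjOn (iota (eId D))
      ((↑(idP VX den i j k T).support : Set (Fin 6 →₀ ℕ)) ∪ ↑(idQ VX den i j k T).support) := by
    refine (inj_eId h1 h2).mono ?_
    rintro m (hm | hm)
    · exact hP (by simpa using hm)
    · exact hQ (by simpa using hm)
  have eval_ev : ∀ (w : Fin 6 → ℕ), aeval w (idP VX den i j k T) = idP w den i j k T := by
    intro w
    have := map_idP (aeval w : MP →ₐ[ℕ] ℕ).toRingHom VX den i j k T
    simpa [VX] using this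
  have eval_evQ : ∀ (w : Fin 6 → ℕ), aeval w (idQ VX den i j k T) = idQ w den i j k T := by
    intro w
    have := map_idQ (aeval w : MP →ₐ[ℕ] ℕ).toRingHom VX den i j k T
    simpa [VX] using this
  have hlt1 : aeval (fun _ => (1 : ℕ)) (idP VX den i j k T) < h := by
    rw [eval_ev]
    show idP one6 den i j k T < h
    omega
  have hlt2 : aeval (fun _ => (1 : ℕ)) (idQ VX den i j k T) < h := by
    rw [eval_evQ]
    show idQ one6 den i j k T < h
    omega
  have hpos : 0 < h := by omega
  have d0 : ∀ l, (0 / Y ^ l) % Y < h := by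
    intro l
    simpa using hpos
  ext m
  apply le_antisymm
  · refine dom_of_digits (e := eId D) (n := 0) ?_ rfl hlt2 hlt1 ?_ d0 m
    · rwa [Set.union_comm]
    · rw [eval_ev, eval_evQ, add_zero]
      exact h4.symm
  · refine dom_of_digits (e := eId D) (n := 0) hinj rfl hlt1 hlt2 ?_ d0 m
    rw [eval_ev, eval_evQ, add_zero]
    exact h4

section real

variable (c a : Fin 4 → ℝ)

/-- The real values of the six free variables. -/
def vals : Fin 6 → ℝ := ![c 0, c 1, c 2, a 0, a 1, a 2]

/-- The real sum over all orderings. -/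
noncomputable def atomR (i j k : ℕ) : ℝ :=
  (taus.map fun τ => (∑ l, c l ^ i * a (τ l) ^ j) * (∑ l, c l * a (τ l)) ^ k).sum

/-- The real value of a table in the power sums. -/
noncomputable def tableV (T : List TE) : ℝ :=
  (T.map fun e => ((e.pos : ℝ) - e.neg) * (∑ l, c l ^ 2) ^ e.e1 * (∑ l, c l ^ 3) ^ e.e2
    * (∑ l, c l ^ 4) ^ e.e3 * (∑ l, a l ^ 2) ^ e.f1 * (∑ l, a l ^ 3) ^ e.f2
    * (∑ l, a l ^ 4) ^ e.f3).sum

variable {c a}

lemma val_cAt (hc : ∑ l, c l = 0) (l : Fin 4) : SP.val (cAt (vals c a) l) = c l := by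
  have h3 : c 3 = -(c 0 + c 1 + c 2) := by
    rw [Fin.sum_univ_four] at hc
    linarith
  fin_cases l
  · simp [SP.val, cAt, vals]
  · simp [SP.val, cAt, vals]
  · simp [SP.val, cAt, vals]
  · simp only [SP.val, cAt, vals]
    simp
    linarith

lemma val_aAt (ha : ∑ l, a l = 0) (l : Fin 4) : SP.val (aAt (vals c a) l) = a l := by
  have h3 : a 3 = -(a 0 + a 1 + a 2) := by
    rw [Fin.sum_univ_four] at ha
    linarith
  fin_cases l
  · simp [SP.val, aAt, vals]
  · simp [SP.val, aAt, vals]
  · simp [SP.val, aAt, vals]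
  · simp only [SP.val, aAt, vals]
    simp
    linarith

lemma val_sum4 (f : Fin 4 → SP ℝ) : SP.val (sum4 f) = ∑ l, SP.val (f l) := by
  simp only [sum4, SP.val_add, Fin.sum_univ_four]

lemma val_foldr (L : List (SP ℝ)) :
    SP.val (L.foldr SP.add SP.zero) = (L.map SP.val).sum := by
  induction L with
  | nil => exact SP.val_zero
  | cons s L ih => simp only [List.foldr_cons, SP.val_add, ih, List.map_cons, List.sum_cons]

lemma val_atomL (hc : ∑ l, c l = 0) (ha : ∑ l, a l = 0) (i j k : ℕ) :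
    SP.val (atomL (cAt (vals c a)) (aAt (vals c a)) i j k) = atomR c a i j k := by
  unfold atomL atomR
  rw [val_foldr, List.map_map]
  congr 1
  refine List.map_congr_left fun τ _ => ?_
  simp only [Function.comp, atomT, SP.val_mul, val_sum4, SP.val_pow, val_cAt hc, val_aAt ha]

lemma val_psum_c (hc : ∑ l, c l = 0) (r : ℕ) :
    SP.val (psum (cAt (vals c a)) r) = ∑ l, c l ^ r := by
  simp only [psum, val_sum4, SP.val_pow, val_cAt hc]

lemma val_psum_a (ha : ∑ l, a l = 0) (r : ℕ) :
    SP.val (psum (aAt (vals c a)) r) = ∑ l, a l ^ r := by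
  simp only [psum, val_sum4, SP.val_pow, val_aAt ha]

lemma val_tableR (hc : ∑ l, c l = 0) (ha : ∑ l, a l = 0) (T : List TE) :
    SP.val (tableR (cAt (vals c a)) (aAt (vals c a)) T) = tableV c a T := by
  unfold tableR tableV
  rw [val_foldr, List.map_map]
  congr 1
  refine List.map_congr_left fun e _ => ?_
  simp only [Function.comp, termR, SP.val_mul, SP.val_pow, val_psum_c hc, val_psum_a ha]
  simp [SP.val]

/-- The identity for real messages. -/
theorem atom_eq {den i j k D : ℕ} {T : List TE} (hchk : checkId den i j k D T = true)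
    (hc : ∑ l, c l = 0) (ha : ∑ l, a l = 0) :
    (den : ℝ) * atomR c a i j k = tableV c a T := by
  have h := poly_eq_of_check hchk
  have hr := congrArg (aeval (vals c a) : MP →ₐ[ℕ] ℝ) h
  have e1 := map_idP (R := MP) (S := ℝ) (aeval (vals c a) : MP →ₐ[ℕ] ℝ).toRingHom VX den i j k T
  have e2 := map_idQ (R := MP) (S := ℝ) (aeval (vals c a) : MP →ₐ[ℕ] ℝ).toRingHom VX den i j k T
  have e3 : (fun l => (aeval (vals c a) : MP →ₐ[ℕ] ℝ).toRingHom (VX l)) = vals c a := by
    funext l
    simp [VX]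
  rw [e3] at e1 e2
  have hr' : idP (vals c a) den i j k T = idQ (vals c a) den i j k T := by
    have e1' : (aeval (vals c a) : MP →ₐ[ℕ] ℝ) (idP VX den i j k T) = idP (vals c a) den i j k T := e1
    have e2' : (aeval (vals c a) : MP →ₐ[ℕ] ℝ) (idQ VX den i j k T) = idQ (vals c a) den i j k T := e2
    rw [← e1', ← e2']
    exact hr
  have v1 := val_atomL hc ha i j k
  have v2 := val_tableR hc ha T
  simp only [SP.val] at v1 v2
  simp only [idP, idQ] at hr'
  rw [← v1, ← v2]
  linarith

end real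

end Vale.Agent.helper4.Q4
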