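import Vale.Agent.helper4.KEngine

/-!
Kronecker substitution for polynomials in six variables with natural coefficients.
-/

namespace Vale.Agent.helper4.Q4

open Vale.Agent.helper4.KEngine

/-- Polynomials in six variables. -/
abbrev MP := MvPolynomial (Fin 6) ℕ

/-- The exponent of the Kronecker variable attached to a monomial. -/
def iota (e : Fin 6 → ℕ) (m : Fin 6 →₀ ℕ) : ℕ := ∑ i, m i * e i

/-- Substitution of powers of one variable. -/
noncomputable def Psi (e : Fin 6 → ℕ) : MP →ₐ[ℕ] Polynomial ℕ :=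
  MvPolynomial.aeval fun i => (Polynomial.X : Polynomial ℕ) ^ e i

lemma Psi_eq (e : Fin 6 → ℕ) (P : MP) :
    Psi e P = ∑ m ∈ P.support, Polynomial.C (P.coeff m) * Polynomial.X ^ iota e m := by
  unfold Psi
  rw [MvPolynomial.aeval_def, MvPolynomial.eval₂_eq']
  refine Finset.sum_congr rfl fun m _ => ?_
  have h : (∏ i, ((Polynomial.X : Polynomial ℕ) ^ e i) ^ m i) = Polynomial.X ^ iota e m := by
    unfold iota
    simp only [← pow_mul]
    rw [Finset.prod_pow_eq_pow_sum]
    congr 1
    exact Finset.sum_congr rfl fun i _ => by ring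
  rw [h]
  rfl

lemma Psi_coeff (e : Fin 6 → ℕ) (P : MP) (j : ℕ) :
    (Psi e P).coeff j = ∑ m ∈ P.support, if iota e m = j then P.coeff m else 0 := by
  rw [Psi_eq, Polynomial.finsetSum_coeff]
  refine Finset.sum_congr rfl fun m _ => ?_
  rw [Polynomial.coeff_C_mul_X_pow]
  by_cases h : iota e m = j
  · simp [h]
  · have h' : ¬ j = iota e m := fun h2 => h h2.symm
    simp [h, h']

lemma Psi_coeff_iota {e : Fin 6 → ℕ} {P : MP} {S : Set (Fin 6 →₀ ℕ)}
    (hS : (↑P.support : Set (Fin 6 →₀ ℕ)) ⊆ S) (hinj : Set.InjOn (iota e) S) {m : Fin 6 →₀ ℕ}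
    (hm : m ∈ S) : (Psi e P).coeff (iota e m) = P.coeff m := by
  rw [Psi_coeff]
  by_cases h : m ∈ P.support
  · rw [Finset.sum_eq_single m]
    · simp
    · intro b hb hne
      have : iota e b ≠ iota e m := fun h2 => hne (hinj (hS hb) hm h2)
      simp [this]
    · intro h2
      exact absurd h h2
  · have h0 : P.coeff m = 0 := by simpa using h
    rw [h0]
    refine Finset.sum_eq_zero fun b hb => ?_
    have : iota e b ≠ iota e m := fun h2 => h (by
      have := hinj (hS hb) hm h2
      rwa [← this])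
    simp [this]

lemma eval_Psi (e : Fin 6 → ℕ) (Y : ℕ) (P : MP) :
    Polynomial.eval₂ (RingHom.id ℕ) Y (Psi e P) = MvPolynomial.aeval (fun i => Y ^ e i) P := by
  have h : ((Polynomial.aeval Y : Polynomial ℕ →ₐ[ℕ] ℕ).comp (Psi e))
      = MvPolynomial.aeval (fun i => Y ^ e i) := by
    apply MvPolynomial.algHom_ext
    intro i
    simp [Psi]
  have h2 := congrArg (fun f => f P) h
  simp only [AlgHom.comp_apply] at h2
  rw [← h2, Polynomial.aeval_def]
  rfl

lemma coeff_le_one (e : Fin 6 → ℕ) (P : MP) (j : ℕ) :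
    (Psi e P).coeff j ≤ MvPolynomial.aeval (fun _ => (1 : ℕ)) P := by
  have h1 := coeff_le_eval_one (RingHom.id ℕ) (Psi e P) j
  have h2 : ((Psi e P).eval 1) = MvPolynomial.aeval (fun _ => (1 : ℕ)) P := by
    have := eval_Psi e 1 P
    simpa [Polynomial.eval₂_id] using this
  simpa [h2] using h1

/-- Domination of coefficients from the digits of a difference. -/
theorem dom_of_digits {e : Fin 6 → ℕ} {P Q : MP}
    (hinj : Set.InjOn (iota e) ((↑P.support : Set (Fin 6 →₀ ℕ)) ∪ ↑Q.support)) {Y h : ℕ}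
    (hY : Y = 2 * h) (hP : MvPolynomial.aeval (fun _ => (1 : ℕ)) P < h)
    (hQ : MvPolynomial.aeval (fun _ => (1 : ℕ)) Q < h) {n : ℕ}
    (hN : MvPolynomial.aeval (fun i => Y ^ e i) P = MvPolynomial.aeval (fun i => Y ^ e i) Q + n)
    (hd : ∀ i, (n / Y ^ i) % Y < h) (m : Fin 6 →₀ ℕ) : Q.coeff m ≤ P.coeff m := by
  by_cases hm : m ∈ (↑P.support : Set (Fin 6 →₀ ℕ)) ∪ ↑Q.support
  · have key := digit_key (RingHom.id ℕ) Y h hY (iota e m) (Psi e P) (Psi e Q) n
      (fun i => lt_of_le_of_lt (coeff_le_one e P i) hP)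
      (fun i => lt_of_le_of_lt (coeff_le_one e Q i) hQ)
      (by rw [eval_Psi, eval_Psi]; exact hN) hd
    have e1 := Psi_coeff_iota (S := (↑P.support : Set (Fin 6 →₀ ℕ)) ∪ ↑Q.support)
      Set.subset_union_left hinj hm
    have e2 := Psi_coeff_iota (S := (↑P.support : Set (Fin 6 →₀ ℕ)) ∪ ↑Q.support)
      Set.subset_union_right hinj hm
    simp only [RingHom.id_apply] at key
    rw [e1, e2] at key
    omega
  · have h1 : m ∉ P.support := fun h2 => hm (Or.inl h2)
    have h2 : m ∉ Q.support := fun h3 => hm (Or.inr h3)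
    have e1 : P.coeff m = 0 := by simpa using h1
    have e2 : Q.coeff m = 0 := by simpa using h2
    rw [e1, e2]

/-- Domination of coefficients gives an inequality at nonnegative real points. -/
theorem real_le_of_dom {P Q : MP} (h : ∀ m, Q.coeff m ≤ P.coeff m) (x : Fin 6 → ℝ)
    (hx : ∀ i, 0 ≤ x i) : MvPolynomial.aeval x Q ≤ MvPolynomial.aeval x P := by
  have ev : ∀ (A : MP) (S : Finset (Fin 6 →₀ ℕ)), A.support ⊆ S →
      MvPolynomial.aeval x A = ∑ m ∈ S, ((MvPolynomial.coeff m A : ℕ) : ℝ) * ∏ i, x i ^ m i := by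
    intro A S hS
    rw [MvPolynomial.aeval_def, MvPolynomial.eval₂_eq']
    refine Finset.sum_subset hS fun m _ hm => ?_
    have : MvPolynomial.coeff m A = 0 := by simpa using hm
    simp [this]
  have hs1 : P.support ⊆ P.support ∪ Q.support := Finset.subset_union_left
  have hs2 : Q.support ⊆ P.support ∪ Q.support := Finset.subset_union_right
  rw [ev P _ hs1, ev Q _ hs2]
  refine Finset.sum_le_sum fun m _ => ?_
  refine mul_le_mul_of_nonneg_right (by exact_mod_cast h m) ?_
  exact Finset.prod_nonneg fun i _ => pow_nonneg (hx i) _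

/-- The top bit of each of `k` digits of width `w`. -/
def maskN (w k : ℕ) : ℕ := 2 ^ (w - 1) * ∑ i ∈ Finset.range k, (2 ^ w) ^ i

/-- The mask in closed form. -/
def maskF (w k : ℕ) : ℕ := ((2 ^ w) ^ k - 1) / (2 ^ w - 1) * 2 ^ (w - 1)

lemma maskF_eq {w : ℕ} (hw : 1 ≤ w) (k : ℕ) : maskF w k = maskN w k := by
  unfold maskF maskN
  have h2 : 2 ≤ 2 ^ w := by
    calc 2 = 2 ^ 1 := by norm_num
      _ ≤ 2 ^ w := Nat.pow_le_pow_right (by norm_num) hw
  rw [Nat.geomSum_eq h2, mul_comm]

lemma maskN_succ (w k : ℕ) : maskN w (k + 1) = 2 ^ (w - 1) + 2 ^ w * maskN w k := by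
  unfold maskN
  rw [Finset.sum_range_succ']
  simp only [pow_succ, pow_zero]
  have : ∑ x ∈ Finset.range k, (2 ^ w) ^ x * 2 ^ w = 2 ^ w * ∑ x ∈ Finset.range k, (2 ^ w) ^ x := by
    rw [Finset.mul_sum]
    exact Finset.sum_congr rfl fun i _ => by ring
  rw [this]
  ring

lemma maskN_bit {w : ℕ} (hw : 1 ≤ w) :
    ∀ (k i : ℕ), i < k → (maskN w k).testBit (w * i + (w - 1)) = true := by
  intro k
  induction k with
  | zero => intro i hi; omega
  | succ k ih =>
    intro i hi
    rw [maskN_succ, add_comm, mul_comm (2 ^ w)]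
    have hlt : 2 ^ (w - 1) < 2 ^ w := Nat.pow_lt_pow_right (by norm_num) (by omega)
    rw [mul_comm, Nat.testBit_two_pow_mul_add _ hlt]
    cases i with
    | zero =>
      simp only [mul_zero, zero_add]
      have : w - 1 < w := by omega
      simp [this]
    | succ i =>
      have h1 : ¬ (w * (i + 1) + (w - 1) < w) := by
        have : w * (i + 1) = w * i + w := by ring
        omega
      simp only [h1, if_false]
      have h2 : w * (i + 1) + (w - 1) - w = w * i + (w - 1) := by
        have : w * (i + 1) = w * i + w := by ring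
        omega
      rw [h2]
      exact ih i (by omega)

/-- A test on the digits of `n` in base `2 ^ w`. -/
lemma digits_of_land {w k n : ℕ} (hw : 1 ≤ w) (hlt : n < (2 ^ w) ^ k)
    (hland : n &&& maskN w k = 0) (i : ℕ) : (n / (2 ^ w) ^ i) % 2 ^ w < 2 ^ (w - 1) := by
  by_cases hi : i < k
  · have hb : n.testBit (w * i + (w - 1)) = false := by
      have h1 : (n &&& maskN w k).testBit (w * i + (w - 1)) = false := by
        rw [hland]
        simp
      rw [Nat.testBit_land, maskN_bit hw k i hi] at h1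
      simpa using h1
    apply Nat.lt_pow_two_of_testBit
    intro j hj
    rw [Nat.testBit_mod_two_pow]
    rw [← pow_mul, Nat.testBit_div_two_pow]
    by_cases hjw : j < w
    · have : j = w - 1 := by omega
      subst this
      have e : w * i + (w - 1) = (w - 1) + w * i := by ring
      rw [e] at hb
      simp [hb]
    · simp [hjw]
  · have h0 : n / (2 ^ w) ^ i = 0 := by
      apply Nat.div_eq_of_lt
      refine lt_of_lt_of_le hlt (Nat.pow_le_pow_right (by positivity) (by omega))
    rw [h0]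
    simp

end Vale.Agent.helper4.Q4
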