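import Vale.Agent.helper4.Q4Tree
import Vale.Agent.helper4.Q4Flat

/-!
Tensors given by lists of numbers, and their values as sparse polynomials with numerical keys.
-/

set_option linter.unusedSectionVars false
set_option linter.unusedVariables false

namespace Vale.Agent.helper4.Q4

/-- The key of a monomial. -/
def enc (l j l' j' p q : ℕ) : ℕ :=
  Nat.add (Nat.mul l 1073741824) (Nat.add (Nat.mul j 16777216) (Nat.add (Nat.mul l' 262144)
    (Nat.add (Nat.mul j' 4096) (Nat.add (Nat.mul p 64) q))))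

noncomputable def mon (k : ℕ) (v : V6) : ℝ :=
  v.e ^ (k / 1073741824 % 64) * v.t ^ (k / 16777216 % 64) * v.E ^ (k / 262144 % 64) * v.T ^ (k / 4096 % 64)
    * v.x ^ (k / 64 % 64) * v.X ^ (k % 64)

lemma mon_enc {l j l' j' p q : ℕ} (h1 : l < 64) (h2 : j < 64) (h3 : l' < 64) (h4 : j' < 64) (h5 : p < 64)
    (h6 : q < 64) (v : V6) :
    mon (enc l j l' j' p q) v = v.e ^ l * v.t ^ j * v.E ^ l' * v.T ^ j' * v.x ^ p * v.X ^ q := by
  have e : enc l j l' j' p q = l * 1073741824 + (j * 16777216 + (l' * 262144 + (j' * 4096 + (p * 64 + q)))) := rfl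
  unfold mon
  rw [e]
  have a1 : (l * 1073741824 + (j * 16777216 + (l' * 262144 + (j' * 4096 + (p * 64 + q))))) / 1073741824 % 64 = l := by omega
  have a2 : (l * 1073741824 + (j * 16777216 + (l' * 262144 + (j' * 4096 + (p * 64 + q))))) / 16777216 % 64 = j := by omega
  have a3 : (l * 1073741824 + (j * 16777216 + (l' * 262144 + (j' * 4096 + (p * 64 + q))))) / 262144 % 64 = l' := by omega
  have a4 : (l * 1073741824 + (j * 16777216 + (l' * 262144 + (j' * 4096 + (p * 64 + q))))) / 4096 % 64 = j' := by omega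
  have a5 : (l * 1073741824 + (j * 16777216 + (l' * 262144 + (j' * 4096 + (p * 64 + q))))) / 64 % 64 = p := by omega
  have a6 : (l * 1073741824 + (j * 16777216 + (l' * 262144 + (j' * 4096 + (p * 64 + q))))) % 64 = q := by omega
  rw [a1, a2, a3, a4, a5, a6]

/-- A sparse polynomial with numerical keys. -/
abbrev FN := List (ℕ × ℤ)

namespace FN

noncomputable def val (F : FN) (v : V6) : ℝ := (F.map fun u => (u.2 : ℝ) * mon u.1 v).sum

@[simp] lemma val_nil (v : V6) : val [] v = 0 := rfl

@[simp] lemma val_cons (u : ℕ × ℤ) (F : FN) (v : V6) : val (u :: F) v = (u.2 : ℝ) * mon u.1 v + val F v := by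
  simp [val]

lemma val_append (F G : FN) (v : V6) : val (F ++ G) v = val F v + val G v := by
  simp [val]

/-- A new term, unless its coefficient vanishes. -/
def consNZ (m : ℕ) (c : ℤ) (F : FN) : FN :=
  match c with
  | Int.ofNat 0 => F
  | Int.ofNat (k + 1) => (m, Int.ofNat (k + 1)) :: F
  | Int.negSucc k => (m, Int.negSucc k) :: F

lemma val_consNZ (m : ℕ) (c : ℤ) (F : FN) (v : V6) : val (consNZ m c F) v = (c : ℝ) * mon m v + val F v := by
  unfold consNZ
  split
  · simp
  · simp
  · simp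

/-- Sum of two sorted polynomials, the first argument of the recursion bounding its length. -/
def merge : ℕ → FN → FN → FN
  | 0, F, G => F ++ G
  | _ + 1, [], G => G
  | _ + 1, F, [] => F
  | n + 1, a :: F, b :: G =>
    bif Nat.blt a.1 b.1 then a :: merge n F (b :: G)
    else bif Nat.blt b.1 a.1 then b :: merge n (a :: F) G
    else bif Nat.beq a.1 b.1 then consNZ a.1 (Int.add a.2 b.2) (merge n F G)
    else a :: b :: merge n F G

lemma val_merge (n : ℕ) (F G : FN) (v : V6) : val (merge n F G) v = val F v + val G v := by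
  induction n generalizing F G with
  | zero => simp [merge, val_append]
  | succ n ih =>
    cases F with
    | nil => simp [merge]
    | cons a F =>
      cases G with
      | nil => simp [merge]
      | cons b G =>
        rw [merge]
        cases Nat.blt a.1 b.1
        · cases Nat.blt b.1 a.1
          · cases h : Nat.beq a.1 b.1
            · simp only [cond_false, val_cons, ih]
              ring
            · have e : a.1 = b.1 := Nat.eq_of_beq_eq_true h
              simp only [cond_false, cond_true]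
              rw [val_consNZ, ih, val_cons, val_cons, e]
              have h4 : Int.add a.2 b.2 = a.2 + b.2 := rfl
              rw [h4]
              push_cast
              ring
          · simp only [cond_false, cond_true, val_cons, ih]
            ring
        · simp only [cond_true, val_cons, ih]
          ring

/-- Sum with a length bound computed from the arguments. -/
def add (F G : FN) : FN := merge (Nat.succ (Nat.add F.length G.length)) F G

lemma val_add (F G : FN) (v : V6) : val (add F G) v = val F v + val G v := val_merge _ _ _ _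

/-- A multiple. -/
def smul (n : ℤ) (F : FN) : FN := F.map fun u => (u.1, Int.mul n u.2)

lemma val_smul (n : ℤ) (F : FN) (v : V6) : val (smul n F) v = (n : ℝ) * val F v := by
  induction F with
  | nil => simp [smul]
  | cons a F ih =>
    have e : smul n (a :: F) = (a.1, n * a.2) :: smul n F := rfl
    rw [e, val_cons, val_cons, ih]
    push_cast
    ring

def neg (F : FN) : FN := smul (-1) F

lemma val_neg (F : FN) (v : V6) : val (neg F) v = - val F v := by
  simp [neg, val_smul]

/-- Equality of the two lists. -/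
def beq : FN → FN → Bool
  | [], [] => true
  | a :: F, b :: G => Nat.beq a.1 b.1 && decide (a.2 = b.2) && beq F G
  | [], _ :: _ => false
  | _ :: _, [] => false

lemma val_of_beq {F G : FN} (h : beq F G = true) (v : V6) : val F v = val G v := by
  induction F generalizing G with
  | nil =>
    cases G with
    | nil => rfl
    | cons b G => simp [beq] at h
  | cons a F ih =>
    cases G with
    | nil => simp [beq] at h
    | cons b G =>
      simp only [beq, Bool.and_eq_true, decide_eq_true_eq] at h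
      obtain ⟨⟨h1, h2⟩, h3⟩ := h
      have e := Nat.eq_of_beq_eq_true h1
      rw [val_cons, val_cons, ih h3, e, h2]

end FN

open FN

/-- Terms of a list, with an index growing along the list. -/
def flatLev {α : Type} (f : ℕ → α → FN) : ℕ → List α → FN
  | _, [] => []
  | i, a :: as => f i a ++ flatLev f (i + 1) as

/-- The flat form of a tensor, with `x` and `X` raised by `sx` and `sX`. -/
def flatT (sx sX : ℕ) (C : Ten (List CE)) : FN :=
  flatLev (fun l A => flatLev (fun j B => flatLev (fun l' M => flatLev (fun j' L =>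
    L.map fun u => (enc l j l' j' (Nat.add u.p sx) (Nat.add u.q sX), (u.c : ℤ))) 0 M) 0 B) 0 A) 0 C

/-- A sum over a list with growing powers. -/
noncomputable def rowV (u : ℝ) : ℕ → List ℝ → ℝ
  | _, [] => 0
  | i, w :: W => u ^ i * w + rowV u (i + 1) W

lemma dot_powAux (u : ℝ) (W : List ℝ) (k i : ℕ) (h : W.length ≤ k + 1) :
    dotG (powAux u 1 k i) W = rowV u i W := by
  induction W generalizing k i with
  | nil =>
    cases k <;> simp [powAux, dotG, rowV]
  | cons w W ih =>
    cases k with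
    | zero =>
      have hW : W = [] := by simpa using h
      subst hW
      simp [powAux, dotG, rowV]
    | succ k =>
      simp only [powAux, dotG, rowV, one_pow, mul_one]
      rw [ih k (i + 1) (by simpa using h)]

lemma flatLev_val {α : Type} (f : ℕ → α → FN) (g : α → ℝ) (u c₀ : ℝ) (v : V6) (as : List α) (i : ℕ)
    (h : ∀ i a, i < 64 → a ∈ as → val (f i a) v = c₀ * (u ^ i * g a)) (hl : i + as.length ≤ 64) :
    val (flatLev f i as) v = c₀ * rowV u i (as.map g) := by
  induction as generalizing i with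
  | nil => simp [flatLev, rowV]
  | cons a as ih =>
    simp only [flatLev, val_append, List.map_cons, rowV]
    have hl' : i + 1 + as.length ≤ 64 := by
      simp only [List.length_cons] at hl
      omega
    rw [h i a (by omega) (by simp), ih (i + 1) (fun i b h1 hb => h i b h1 (by simp [hb])) hl']
    ring

/-- Bounds on the lengths of the levels of a tensor. -/
def shapeOk (d : Dg) (C : Ten (List CE)) : Bool :=
  Nat.blt d.ne 64 && Nat.blt d.nt 64 && Nat.blt d.nE 64 && Nat.blt d.nT 64 && Nat.blt d.nx 63 && Nat.blt d.nX 63 &&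
  fitTen d.nx d.nX C &&
  Nat.ble C.length (d.ne + 1) && C.all fun A =>
    Nat.ble A.length (d.nt + 1) && A.all fun B =>
      Nat.ble B.length (d.nE + 1) && B.all fun M => Nat.ble M.length (d.nT + 1)

lemma last_val (L : List CE) (nx nX : ℕ) (v : V6) (l j l' j' : ℕ) (h1 : l < 64) (h2 : j < 64) (h3 : l' < 64)
    (h4 : j' < 64) (hn : nx < 63) (hN : nX < 63) (hL : ∀ e ∈ L, e.p ≤ nx ∧ e.q ≤ nX) :
    val (L.map fun u => (enc l j l' j' (Nat.add u.p 1) (Nat.add u.q 1), (u.c : ℤ))) v
      = v.e ^ l * v.t ^ j * v.E ^ l' * v.T ^ j' * (v.x * v.X * cpG nx nX v.x 1 v.X 1 L) := by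
  induction L with
  | nil => simp [cpG]
  | cons u L ih =>
    obtain ⟨h5, h6⟩ := hL u (by simp)
    have e1 : Nat.add u.p 1 = u.p + 1 := rfl
    have e2 : Nat.add u.q 1 = u.q + 1 := rfl
    simp only [List.map_cons, val_cons, ih fun u hu => hL u (by simp [hu]), cpG, one_pow, mul_one]
    rw [mon_enc h1 h2 h3 h4 (by rw [e1]; omega) (by rw [e2]; omega), e1, e2]
    push_cast
    ring

theorem cell_flat (d : Dg) (C : Ten (List CE)) (hs : shapeOk d C = true) (v : V6) :
    v.x * v.X * cellV d C (ptR v.x v.t v.e v.X v.T v.E) = val (flatT 1 1 C) v := by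
  have hf : fitTen d.nx d.nX C = true := by
    simp only [shapeOk, Bool.and_eq_true] at hs
    exact hs.1.1.2
  simp only [shapeOk, Bool.and_eq_true, List.all_eq_true, Nat.ble_eq, Nat.blt_eq] at hs
  obtain ⟨⟨⟨⟨⟨⟨⟨⟨b1, b2⟩, b3⟩, b4⟩, b5⟩, b6⟩, _⟩, h1⟩, h2⟩ := hs
  simp only [cellV, ptR, evalC, evalW, numG, powL, List.map_map]
  rw [dot_powAux _ _ _ _ (by simpa using h1)]
  unfold flatT
  have := flatLev_val (fun l A => flatLev (fun j B => flatLev (fun l' M => flatLev (fun j' L =>
    L.map fun u => (enc l j l' j' (Nat.add u.p 1) (Nat.add u.q 1), (u.c : ℤ))) 0 M) 0 B) 0 A)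
    (fun A => dotG (powAux v.t 1 d.nt 0) (List.map (evalA (powAux v.T 1 d.nT 0) (powAux v.E 1 d.nE 0))
      (A.map fun b => b.map fun M => M.map (cpG d.nx d.nX v.x 1 v.X 1))))
    v.e (v.x * v.X) v C 0 ?_ (by omega)
  · rw [this]
    simp only [Function.comp_def]
  intro l A hl hA
  obtain ⟨h3, h4⟩ := h2 A hA
  rw [dot_powAux _ _ _ _ (by simpa using h3)]
  have := flatLev_val (fun j B => flatLev (fun l' M => flatLev (fun j' L =>
    L.map fun u => (enc l j l' j' (Nat.add u.p 1) (Nat.add u.q 1), (u.c : ℤ))) 0 M) 0 B)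
    (fun B => evalA (powAux v.T 1 d.nT 0) (powAux v.E 1 d.nE 0)
      (B.map fun M => M.map (cpG d.nx d.nX v.x 1 v.X 1)))
    v.t (v.x * v.X * v.e ^ l) v A 0 ?_ (by omega)
  · rw [this]
    simp only [List.map_map, Function.comp_def]
    ring
  intro j B hj hB
  obtain ⟨h5, h6⟩ := h4 B hB
  unfold evalA
  rw [dot_powAux _ _ _ _ (by simpa using h5)]
  have := flatLev_val (fun l' M => flatLev (fun j' L =>
    L.map fun u => (enc l j l' j' (Nat.add u.p 1) (Nat.add u.q 1), (u.c : ℤ))) 0 M)
    (fun M => dotG (powAux v.T 1 d.nT 0) (M.map (cpG d.nx d.nX v.x 1 v.X 1)))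
    v.E (v.x * v.X * (v.e ^ l * v.t ^ j)) v B 0 ?_ (by omega)
  · rw [this]
    simp only [List.map_map, Function.comp_def]
    ring
  intro l' M hl' hM
  have h7 := h6 M hM
  rw [dot_powAux _ _ _ _ (by simpa using h7)]
  have := flatLev_val (fun j' L =>
    L.map fun u => (enc l j l' j' (Nat.add u.p 1) (Nat.add u.q 1), (u.c : ℤ)))
    (cpG d.nx d.nX v.x 1 v.X 1)
    v.T (v.x * v.X * (v.e ^ l * v.t ^ j * v.E ^ l')) v M 0 ?_ (by omega)
  · rw [this]
    ring
  intro j' L hj' hL
  have hfit : ∀ e ∈ L, e.p ≤ d.nx ∧ e.q ≤ d.nX := fun u hu => fitTen_spec hf hA hB hM hL hu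
  rw [last_val L d.nx d.nX v l j l' j' hl hj hl' hj' b5 b6 hfit]
  ring

/-- The value of a context as a sparse polynomial, multiplied by `x * X`. -/
def ctxFlat (c : Ctx) : FN := add (flatT 1 1 c.TP) (neg (flatT 1 1 c.TN))

theorem Rcell_flat (c : Ctx) (h1 : shapeOk c.d c.TP = true) (h2 : shapeOk c.d c.TN = true) (v : V6) :
    v.x * v.X * Rcell c v.x v.t v.e v.X v.T v.E = val (ctxFlat c) v := by
  unfold Rcell ctxFlat
  rw [val_add, val_neg, ← cell_flat _ _ h1 v, ← cell_flat _ _ h2 v]
  ring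

/-- Sign change of the odd powers of `t` when `sc` is false, and of `T` when `sa` is false. -/
def flipS (sc sa : Bool) (u : ℕ × ℤ) : ℕ × ℤ :=
  bif xor (and (not sc) (Nat.beq (Nat.mod (Nat.div u.1 16777216) 2) 1))
      (and (not sa) (Nat.beq (Nat.mod (Nat.div u.1 4096) 2) 1)) then
    (u.1, Int.neg u.2) else u

def flipF (sc sa : Bool) (F : FN) : FN := F.map (flipS sc sa)

def sgnR (s : Bool) : ℝ := if s then 1 else -1

def V6.flip (sc sa : Bool) (v : V6) : V6 := ⟨v.x, sgnR sc * v.t, v.e, v.X, sgnR sa * v.T, v.E⟩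

lemma sgn_pow (s : Bool) (n m : ℕ) (hm : n % 2 = m % 2) :
    (sgnR s) ^ n = bif and (not s) (Nat.beq (Nat.mod m 2) 1) then -1 else 1 := by
  cases s with
  | true => simp [sgnR]
  | false =>
    simp only [sgnR, Bool.false_eq_true, if_false, Bool.not_false, Bool.true_and]
    rcases Nat.even_or_odd n with h | h
    · have h1 : n % 2 = 0 := Nat.even_iff.mp h
      have h2 : Nat.beq (Nat.mod m 2) 1 = false := by
        have : Nat.mod m 2 = m % 2 := rfl
        rw [this, ← hm, h1]
        rfl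
      rw [h2, h.neg_one_pow]
      rfl
    · have h1 : n % 2 = 1 := Nat.odd_iff.mp h
      have h2 : Nat.beq (Nat.mod m 2) 1 = true := by
        have : Nat.mod m 2 = m % 2 := rfl
        rw [this, ← hm, h1]
        rfl
      rw [h2, h.neg_one_pow]
      rfl

lemma val_flip (sc sa : Bool) (F : FN) (v : V6) : val F (v.flip sc sa) = val (flipF sc sa F) v := by
  induction F with
  | nil => rfl
  | cons u F ih =>
    have e : flipF sc sa (u :: F) = flipS sc sa u :: flipF sc sa F := rfl
    rw [e, val_cons, val_cons, ih]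
    congr 1
    have hn : Int.neg u.2 = -u.2 := rfl
    have a1 : u.1 / 16777216 % 64 % 2 = (u.1 / 16777216) % 2 := by omega
    have a2 : u.1 / 4096 % 64 % 2 = (u.1 / 4096) % 2 := by omega
    have e1 : Nat.div u.1 16777216 = u.1 / 16777216 := rfl
    have e2 : Nat.div u.1 4096 = u.1 / 4096 := rfl
    simp only [mon, V6.flip, mul_pow, sgn_pow sc _ _ a1, sgn_pow sa _ _ a2, flipS, hn, e1, e2]
    cases h1 : (and (not sc) (Nat.beq (Nat.mod (u.1 / 16777216) 2) 1)) <;>
      cases h2 : (and (not sa) (Nat.beq (Nat.mod (u.1 / 4096) 2) 1)) <;>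
        simp

/-- A pairing of two lists with an index. -/
def zipI {α β : Type} (f : ℕ → α → α → β) : ℕ → List α → List α → List β
  | i, a :: as, b :: bs => f i a b :: zipI f (i + 1) as bs
  | _, _, _ => []

/-- Raw tensors: a term is stored as one number. -/
abbrev RawT := List (List (List (List (List ℕ))))

/-- Entries taken from the first tensor or from the second one according to signs. -/
def selT (sc sa : Bool) (A B : RawT) : RawT :=
  bif and sc sa then A else
  zipI (fun _ A1 B1 => zipI (fun j A2 B2 => zipI (fun _ A3 B3 => zipI (fun j' L L' =>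
    bif xor (and (not sc) (Nat.beq (Nat.mod j 2) 1)) (and (not sa) (Nat.beq (Nat.mod j' 2) 1)) then L' else L)
    0 A3 B3) 0 A2 B2) 0 A1 B1) 0 A B

/-- A stored term. -/
def unp (n : ℕ) : CE := ⟨Nat.mod (Nat.shiftRight n 6) 64, Nat.mod n 64, Nat.shiftRight n 12⟩

def unpT (A : RawT) : Ten (List CE) :=
  A.map fun a => a.map fun b => b.map fun d => d.map fun L => L.map unp

/-- A polynomial given by two tensors, the positive and the negative part. -/
structure LitT where
  d : Dg
  TP : RawT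
  TN : RawT

namespace LitT

/-- The context for a pair of signs and given numerical bounds. -/
def ctx (L : LitT) (sc sa : Bool) (w Kxa Kxb KXa KXb Kt Ke KT KE : ℕ) : Ctx :=
  ⟨L.d, unpT (selT sc sa L.TP L.TN), unpT (selT sc sa L.TN L.TP), w, Kxa, Kxb, KXa, KXb, Kt, Ke, KT, KE⟩

/-- The polynomial, multiplied by `x * X`. -/
def flat (L : LitT) : FN := ctxFlat (L.ctx true true 0 0 0 0 0 0 0 0 0)

/-- The check that tensors for a pair of signs have the right value. -/
def okSign (L : LitT) (sc sa : Bool) : Bool :=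
  let c := L.ctx sc sa 0 0 0 0 0 0 0 0 0
  shapeOk c.d c.TP && shapeOk c.d c.TN && FN.beq (ctxFlat c) (flipF sc sa L.flat)

/-- The check for all four pairs of signs. -/
def ok (L : LitT) : Bool :=
  L.okSign true true && L.okSign true false && L.okSign false true && L.okSign false false

/-- What is proved by tests on cells for a pair of signs. -/
def Cov (L : LitT) (μ : ℝ) (sc sa : Bool) (Cx CX Ct Ce CT CE' : Iv) : Prop :=
  Cover (L.ctx sc sa 0 0 0 0 0 0 0 0 0) μ sc sa Cx CX Ct Ce CT CE'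

lemma cov_of_chunk {L : LitT} {μ' : QQ} {sc sa : Bool} {Cx CX Ct Ce CT CE' : Iv}
    {w Kxa Kxb KXa KXb Kt Ke KT KE f code : ℕ}
    (h : chunkOk (L.ctx sc sa w Kxa Kxb KXa KXb Kt Ke KT KE) μ' sc sa f Cx CX Ct Ce CT CE' code = true) :
    L.Cov μ'.val sc sa Cx CX Ct Ce CT CE' := by
  intro x t e X T E m0 m1 m2 m3 m4 m5 d1 d2
  exact (chunk_sound h) x t e X T E m0 m1 m2 m3 m4 m5 d1 d2

lemma Cov.split_t {L : LitT} {μ : ℝ} {sc sa : Bool} {Cx CX Ct Ce CT CE' : Iv}
    (h1 : L.Cov μ sc sa Cx CX Ct.left Ce CT CE') (h2 : L.Cov μ sc sa Cx CX Ct.right Ce CT CE') :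
    L.Cov μ sc sa Cx CX Ct Ce CT CE' := Cover.split_t h1 h2

lemma Cov.split_e {L : LitT} {μ : ℝ} {sc sa : Bool} {Cx CX Ct Ce CT CE' : Iv}
    (h1 : L.Cov μ sc sa Cx CX Ct Ce.left CT CE') (h2 : L.Cov μ sc sa Cx CX Ct Ce.right CT CE') :
    L.Cov μ sc sa Cx CX Ct Ce CT CE' := Cover.split_e h1 h2

lemma Cov.split_T {L : LitT} {μ : ℝ} {sc sa : Bool} {Cx CX Ct Ce CT CE' : Iv}
    (h1 : L.Cov μ sc sa Cx CX Ct Ce CT.left CE') (h2 : L.Cov μ sc sa Cx CX Ct Ce CT.right CE') :
    L.Cov μ sc sa Cx CX Ct Ce CT CE' := Cover.split_T h1 h2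

lemma Cov.split_E {L : LitT} {μ : ℝ} {sc sa : Bool} {Cx CX Ct Ce CT CE' : Iv}
    (h1 : L.Cov μ sc sa Cx CX Ct Ce CT CE'.left) (h2 : L.Cov μ sc sa Cx CX Ct Ce CT CE'.right) :
    L.Cov μ sc sa Cx CX Ct Ce CT CE' := Cover.split_E h1 h2

lemma val_nonneg {L : LitT} {sc sa : Bool} (hL : L.okSign sc sa = true) {μ : ℝ} {Cx CX Ct Ce CT CE' : Iv}
    (hc : L.Cov μ sc sa Cx CX Ct Ce CT CE') {v : V6}
    (m0 : Cx.mem v.x) (m1 : Ct.mem v.t) (m2 : Ce.mem v.e) (m3 : CX.mem v.X) (m4 : CT.mem v.T) (m5 : CE'.mem v.E)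
    (d1 : Dom 1 sc v.x v.t v.e) (d2 : Dom μ sa v.X v.T v.E) : 0 ≤ val L.flat (v.flip sc sa) := by
  simp only [okSign, Bool.and_eq_true] at hL
  obtain ⟨⟨h1, h2⟩, h3⟩ := hL
  have h4 := hc _ _ _ _ _ _ m0 m1 m2 m3 m4 m5 d1 d2
  have h5 := Rcell_flat _ h1 h2 v
  rw [val_of_beq h3 v] at h5
  rw [val_flip, ← h5]
  exact mul_nonneg (mul_pos d1.hx d2.hx).le h4

end LitT

/-- The tests showing that a cell contains all the values of the third moment. -/
def rootT (μ : QQ) (τ : Bool) (Cx Ct : Iv) : Bool :=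
  Nat.beq Ct.l 0 && Nat.blt 0 Ct.D && Nat.blt 0 Cx.D && Nat.blt 0 μ.d &&
  (QQ.le (QQ.mul (QQ.cst 4) Cx.hi) (QQ.mul (QQ.cst 3) (QQ.mul Ct.hi Ct.hi)) ||
    QQ.lt (QQ.mul (QQ.cst 2) μ) Ct.hi ||
    (not τ && QQ.lt (QQ.mul (QQ.cst 2) μ) (QQ.mul (QQ.cst 3) Ct.hi)))

/-- The tests showing that a cell contains all the values of the fourth moment. -/
def rootE (Cx Ce : Iv) : Bool :=
  Nat.beq Ce.l 0 && Nat.blt 0 Ce.D && Nat.blt 0 Cx.D &&
  QQ.le (QQ.mul (QQ.cst 4) Cx.hi) (QQ.mul (QQ.cst 3) Ce.hi)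

lemma rootT_mem {μ : QQ} {τ : Bool} {Cx Ct : Iv} (h : rootT μ τ Cx Ct = true) {x t e : ℝ} (hx : Cx.mem x)
    (hD : Dom μ.val τ x t e) : Ct.mem t := by
  simp only [rootT, Bool.and_eq_true, Bool.or_eq_true, Nat.blt_eq] at h
  obtain ⟨⟨⟨⟨h1, h2⟩, h3⟩, h4⟩, h5⟩ := h
  have h1' : Ct.l = 0 := Nat.eq_of_beq_eq_true h1
  have hdt : (0 : ℝ) < Ct.D := by exact_mod_cast h2
  have u1 := Iv.lt_hi h3 hx
  have e0 : Ct.hi.val * Ct.D = Ct.h := by
    simp only [QQ.val, Iv.hi]
    field_simp
  have hpt : Ct.hi.Pos := h2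
  have hpx : Cx.hi.Pos := h3
  have hpm : μ.Pos := h4
  have key : t < Ct.hi.val := by
    have h0 := Ct.hi.val_nonneg
    have hm := μ.val_nonneg
    have ht := hD.ht
    have d1 := hD.d1
    have d4 := hD.d4
    rcases h5 with (h5 | h5) | h5
    · have a := QQ.le_sound (QQ.pos_mul (QQ.pos_cst 4) hpx) (QQ.pos_mul (QQ.pos_cst 3) (QQ.pos_mul hpt hpt)) h5
      simp only [QQ.val_mul, QQ.val_cst] at a
      push_cast at a
      by_contra hc
      push Not at hc
      have : Ct.hi.val * Ct.hi.val ≤ t * t := mul_self_le_mul_self h0 hc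
      nlinarith
    · have a := QQ.lt_sound (QQ.pos_mul (QQ.pos_cst 2) hpm) hpt h5
      simp only [QQ.val_mul, QQ.val_cst] at a
      push_cast at a
      by_contra hc
      push Not at hc
      have : (2 * μ.val) * (2 * μ.val) ≤ t * t := mul_self_le_mul_self (by positivity) (by linarith)
      nlinarith
    · simp only [Bool.and_eq_true, Bool.not_eq_true'] at h5
      have a := QQ.lt_sound (QQ.pos_mul (QQ.pos_cst 2) hpm) (QQ.pos_mul (QQ.pos_cst 3) hpt) h5.2
      simp only [QQ.val_mul, QQ.val_cst] at a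
      push_cast at a
      have := hD.d8 h5.1
      linarith
  constructor
  · rw [h1']
    have := hD.ht
    push_cast
    positivity
  · rw [← e0]
    exact mul_lt_mul_of_pos_right key hdt

lemma rootE_mem {Cx Ce : Iv} (h : rootE Cx Ce = true) {x t e μ : ℝ} {τ : Bool} (hx : Cx.mem x)
    (hD : Dom μ τ x t e) : Ce.mem e := by
  simp only [rootE, Bool.and_eq_true, Nat.blt_eq] at h
  obtain ⟨⟨⟨h1, h2⟩, h3⟩, h5⟩ := h
  have h1' : Ce.l = 0 := Nat.eq_of_beq_eq_true h1
  have hdt : (0 : ℝ) < Ce.D := by exact_mod_cast h2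
  have u1 := Iv.lt_hi h3 hx
  have e0 : Ce.hi.val * Ce.D = Ce.h := by
    simp only [QQ.val, Iv.hi]
    field_simp
  have hpt : Ce.hi.Pos := h2
  have hpx : Cx.hi.Pos := h3
  have a := QQ.le_sound (QQ.pos_mul (QQ.pos_cst 4) hpx) (QQ.pos_mul (QQ.pos_cst 3) hpt) h5
  simp only [QQ.val_mul, QQ.val_cst] at a
  push_cast at a
  have d3 := hD.d3
  have key : e < Ce.hi.val := by linarith
  constructor
  · rw [h1']
    have := hD.he
    push_cast
    positivity
  · rw [← e0]
    exact mul_lt_mul_of_pos_right key hdt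

end Vale.Agent.helper4.Q4
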