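import Vale.Agent.helper4.Q4TabChk

/-!
The inequalities for one pair of intervals of second moments, from checks by the kernel.
-/

set_option linter.unusedSectionVars false
set_option linter.unusedVariables false

namespace Vale.Agent.helper4.Q4

open GW (ZZ uu xx Simp)
open FN

/-- A linear combination of entries of a table. -/
def combI (T : List FN) : ℕ → List ℤ → FN
  | _, [] => []
  | i, p :: P => if p = 0 then combI T (i + 1) P else add (smul p (T.getD i [])) (combI T (i + 1) P)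

/-- The linear combination of a sequence of real numbers. -/
noncomputable def sumP : List ℤ → (ℕ → ℝ) → ℝ
  | [], _ => 0
  | p :: P, A => (p : ℝ) * A 0 + sumP P fun k => A (k + 1)

lemma combI_val {T : List FN} {A : ℕ → ℝ} {r : ℝ} {v : V6} {n : ℕ}
    (hT : ∀ k, k < n → val (T.getD k []) v = r * A k) (P : List ℤ) (i : ℕ) (hl : i + P.length ≤ n) :
    val (combI T i P) v = r * sumP P fun k => A (i + k) := by
  induction P generalizing i with
  | nil => simp [combI, sumP]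
  | cons p P ih =>
    have hl' : i + 1 + P.length ≤ n := by
      simp only [List.length_cons] at hl
      omega
    by_cases hp : p = 0
    · have e : (fun k => A (i + 1 + k)) = fun k => A (i + (k + 1)) := by
        funext k
        congr 1
        omega
      simp only [combI, sumP, hp, if_true, ih (i + 1) hl', e]
      simp
    simp only [combI, sumP, hp, if_false, val_add, val_smul, ih (i + 1) hl', hT i (by simp only [List.length_cons] at hl; omega)]
    have e : (fun k => A (i + 1 + k)) = fun k => A (i + (k + 1)) := by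
      funext k
      congr 1
      omega
    rw [e, add_zero]
    ring

lemma sumP_smul (P : List ℤ) (r : ℝ) (A : ℕ → ℝ) : sumP P (fun k => r * A k) = r * sumP P A := by
  induction P generalizing A with
  | nil => simp [sumP]
  | cons p P ih =>
    simp only [sumP]
    rw [ih (fun k => A (k + 1))]
    ring

lemma sumP_avg {a : Fin 4 → ℝ} (c : Fin 4 → ℝ) (P : List ℤ) (g : (Fin 4 → ℝ) → ℝ) :
    sumP P (fun k => avgT a (fun b => g b * sS c b ^ k)) = avgT a (fun b => g b * evL P (sS c b)) := by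
  induction P generalizing g with
  | nil => simp [sumP, avgT_const]
  | cons p P ih =>
    have e : (fun k => avgT a (fun b => g b * sS c b ^ (k + 1)))
        = fun k => avgT a (fun b => (g b * sS c b) * sS c b ^ k) := by
      funext k
      refine avgT_congr fun b => ?_
      ring
    simp only [sumP, e, ih]
    rw [← avgT_smul, ← avgT_add]
    refine avgT_congr fun b => ?_
    simp only [evL_cons]
    ring

lemma sumP_mean (c : Fin 4 → ℝ) (P : List ℤ) (w : Fin 4 → ℝ) :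
    sumP P (fun k => (∑ l, w l * c l ^ k) / 4) = (∑ l, w l * evL P (c l)) / 4 := by
  induction P generalizing w with
  | nil => simp [sumP]
  | cons p P ih =>
    have e : (fun k => (∑ l, w l * c l ^ (k + 1)) / 4) = fun k => (∑ l, (w l * c l) * c l ^ k) / 4 := by
      funext k
      congr 1
      refine Finset.sum_congr rfl fun l _ => ?_
      ring
    simp only [sumP, e, ih]
    simp only [Fin.sum_univ_four, evL_cons]
    simp
    ring

lemma sumP_mom (c : Fin 4 → ℝ) (P : List ℤ) : sumP P (fun k => mom c k) = (∑ l, evL P (c l)) / 4 := by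
  have := sumP_mean c P (fun _ => 1)
  simpa [mom] using this

/-- The data of an upper bound for `1 / Z`. -/
structure UpD where
  P : List ℤ
  dP : ℕ
  pa : ℕ
  pb : ℕ
  K : ℕ
  R : List ℤ

/-- The data of a lower bound for `1 / Z`. -/
structure LowD where
  Q : List ℤ
  dQ : ℕ
  K : ℕ
  R : List ℤ

/-- The data of a lower bound for the entropy function. -/
structure PhiD where
  Q : List ℤ
  d : ℕ
  K : ℕ
  R : List ℤ

/-- The data of an upper bound for the entropy function. -/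
structure LogD where
  L : List ℤ
  d : ℕ
  K : ℕ
  R : List ℤ

/-- The cells at the root of the subdivision. -/
structure Roots where
  Cx : Iv
  CX : Iv
  Ctp : Iv
  Ctn : Iv
  Ce : Iv
  CTp : Iv
  CTn : Iv
  CEr : Iv

def Roots.ok (R : Roots) (μ : QQ) : Bool :=
  rootT (QQ.cst 1) true R.Cx R.Ctp && rootT (QQ.cst 1) false R.Cx R.Ctn && rootE R.Cx R.Ce &&
  rootT μ true R.CX R.CTp && rootT μ false R.CX R.CTn && rootE R.CX R.CEr

lemma LitT.Cov.split_x {L : LitT} {μ : ℝ} {sc sa : Bool} {Cx CX Ct Ce CT CE' : Iv}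
    (h1 : L.Cov μ sc sa Cx.left CX Ct Ce CT CE') (h2 : L.Cov μ sc sa Cx.right CX Ct Ce CT CE') :
    L.Cov μ sc sa Cx CX Ct Ce CT CE' := Cover.split_x h1 h2

lemma LitT.Cov.split_X {L : LitT} {μ : ℝ} {sc sa : Bool} {Cx CX Ct Ce CT CE' : Iv}
    (h1 : L.Cov μ sc sa Cx CX.left Ct Ce CT CE') (h2 : L.Cov μ sc sa Cx CX.right Ct Ce CT CE') :
    L.Cov μ sc sa Cx CX Ct Ce CT CE' := Cover.split_X h1 h2

/-- The four statements from the subdivisions. -/
structure LitT.Full (L : LitT) (μ : ℝ) (R : Roots) : Prop where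
  pp : L.Cov μ true true R.Cx R.CX R.Ctp R.Ce R.CTp R.CEr
  pn : L.Cov μ true false R.Cx R.CX R.Ctp R.Ce R.CTn R.CEr
  np : L.Cov μ false true R.Cx R.CX R.Ctn R.Ce R.CTp R.CEr
  nn : L.Cov μ false false R.Cx R.CX R.Ctn R.Ce R.CTn R.CEr

lemma dom_cst1 {τ : Bool} {x t e : ℝ} (h : Dom 1 τ x t e) : Dom (QQ.cst 1).val τ x t e := by
  have : (QQ.cst 1).val = 1 := by
    rw [QQ.val_cst]
    simp
  rw [this]
  exact h

theorem LitT.nonneg {L : LitT} {μ : QQ} {R : Roots} (hL : L.ok = true) (hR : R.ok μ = true) (hF : L.Full μ.val R)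
    {v : V6} (m1 : R.Cx.mem v.x) (m2 : R.CX.mem v.X) (d1 : DomS 1 v.x v.t v.e) (d2 : DomS μ.val v.X v.T v.E) :
    0 ≤ val L.flat v := by
  simp only [LitT.ok, Bool.and_eq_true] at hL
  obtain ⟨⟨⟨l1, l2⟩, l3⟩, l4⟩ := hL
  simp only [Roots.ok, Bool.and_eq_true] at hR
  obtain ⟨⟨⟨⟨⟨r1, r2⟩, r3⟩, r4⟩, r5⟩, r6⟩ := hR
  rcases le_or_gt 0 v.t with h1 | h1 <;> rcases le_or_gt 0 v.T with h2 | h2
  · have p1 := d1.pos h1
    have p2 := d2.pos h2
    have := LitT.val_nonneg (v := v) l1 hF.pp m1 (rootT_mem r1 m1 (dom_cst1 p1)) (rootE_mem r3 m1 p1) m2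
      (rootT_mem r4 m2 p2) (rootE_mem r6 m2 p2) p1 p2
    have e : v.flip true true = v := by
      simp [V6.flip, sgnR]
    rwa [e] at this
  · have p1 := d1.pos h1
    have p2 := d2.neg h2
    have := LitT.val_nonneg (v := ⟨v.x, v.t, v.e, v.X, -v.T, v.E⟩) l2 hF.pn m1 (rootT_mem r1 m1 (dom_cst1 p1))
      (rootE_mem r3 m1 p1) m2 (rootT_mem r5 m2 p2) (rootE_mem r6 m2 p2) p1 p2
    have e : V6.flip true false ⟨v.x, v.t, v.e, v.X, -v.T, v.E⟩ = v := by
      simp [V6.flip, sgnR]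
    rwa [e] at this
  · have p1 := d1.neg h1
    have p2 := d2.pos h2
    have := LitT.val_nonneg (v := ⟨v.x, -v.t, v.e, v.X, v.T, v.E⟩) l3 hF.np m1 (rootT_mem r2 m1 (dom_cst1 p1))
      (rootE_mem r3 m1 p1) m2 (rootT_mem r4 m2 p2) (rootE_mem r6 m2 p2) p1 p2
    have e : V6.flip false true ⟨v.x, -v.t, v.e, v.X, v.T, v.E⟩ = v := by
      simp [V6.flip, sgnR]
    rwa [e] at this
  · have p1 := d1.neg h1
    have p2 := d2.neg h2
    have := LitT.val_nonneg (v := ⟨v.x, -v.t, v.e, v.X, -v.T, v.E⟩) l4 hF.nn m1 (rootT_mem r2 m1 (dom_cst1 p1))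
      (rootE_mem r3 m1 p1) m2 (rootT_mem r5 m2 p2) (rootE_mem r6 m2 p2) p1 p2
    have e : V6.flip false false ⟨v.x, -v.t, v.e, v.X, -v.T, v.E⟩ = v := by
      simp [V6.flip, sgnR]
    rwa [e] at this

section msgs

variable {c a : Fin 4 → ℝ}

/-- The point of a pair of messages. -/
noncomputable def ptOf (c a : Fin 4 → ℝ) : V6 :=
  ⟨mom c 2, mom c 3 / mom c 2, mom c 4 / mom c 2 - mom c 2, mom a 2, mom a 3 / mom a 2, mom a 4 / mom a 2 - mom a 2⟩

lemma rep_ptOf (hx : 0 < mom c 2) (hX : 0 < mom a 2) : Rep c a (ptOf c a) := by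
  constructor
  · rfl
  · simp only [ptOf]
    field_simp
  · simp only [ptOf]
    field_simp
    ring
  · rfl
  · simp only [ptOf]
    field_simp
  · simp only [ptOf]
    field_simp
    ring

lemma domS_ptOf {μ : ℝ} (hμ : 0 < μ) (h0 : ∑ l, c l = 0) (hb : ∀ l, -μ ≤ c l) (hx : 0 < mom c 2) :
    DomS μ (mom c 2) (mom c 3 / mom c 2) (mom c 4 / mom c 2 - mom c 2) :=
  domS_of hμ hx (momF_msg h0) (momB_msg hμ.le h0 hb)

/-- Where the merged normalisation lies. -/
def zOk (pa pb : ℕ) (μ : QQ) (Cx CX : Iv) : Bool :=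
  (Nat.ble μ.n μ.d && Nat.blt 0 μ.d && Nat.ble (Nat.mul pb μ.d) (Nat.mul pa (Nat.sub μ.d μ.n))) ||
  (Nat.ble pb pa && Nat.blt 0 Cx.D && Nat.blt 0 CX.D &&
    Nat.ble (Nat.mul (Nat.mul Cx.h CX.h) (Nat.mul pa pa))
      (Nat.mul (Nat.mul (Nat.sub pa pb) (Nat.sub pa pb)) (Nat.mul Cx.D CX.D)))

lemma s_sq_le (c b : Fin 4 → ℝ) : sS c b ^ 2 ≤ mom c 2 * mom b 2 := by
  have := Finset.sum_mul_sq_le_sq_mul_sq (Finset.univ : Finset (Fin 4)) c b
  unfold sS mom
  rw [div_pow]
  nlinarith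

lemma z_lower {pa pb : ℕ} {μ : QQ} {Cx CX : Iv} (hz : zOk pa pb μ Cx CX = true) (hpa : 0 < pa) {b : Fin 4 → ℝ}
    (hc : ∑ l, c l = 0) (hb : ∑ l, b l = 0) (hc1 : ∀ l, -1 < c l) (hb1 : ∀ l, -μ.val ≤ b l)
    (m1 : Cx.mem (mom c 2)) (m2 : CX.mem (mom b 2)) (hp1 : 0 ≤ mom c 2) (hp2 : 0 ≤ mom b 2) :
    (pb : ℝ) ≤ pa * (1 + sS c b) := by
  have hpa' : (0 : ℝ) < pa := by exact_mod_cast hpa
  simp only [zOk, Bool.or_eq_true, Bool.and_eq_true, Nat.blt_eq] at hz
  rcases hz with ⟨⟨h1, h2⟩, h3⟩ | ⟨⟨⟨h1, h2⟩, h3⟩, h4⟩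
  · have hn : μ.n ≤ μ.d := Nat.le_of_ble_eq_true h1
    have hd : (0 : ℝ) < μ.d := by exact_mod_cast h2
    have h5 : pb * μ.d ≤ pa * (μ.d - μ.n) := Nat.le_of_ble_eq_true h3
    have h6 : (pb : ℝ) * μ.d ≤ pa * ((μ.d : ℝ) - μ.n) := by
      have : ((μ.d - μ.n : ℕ) : ℝ) = (μ.d : ℝ) - μ.n := by
        push_cast [hn]
        ring
      rw [← this]
      exact_mod_cast h5
    have h7 : μ.val ≤ 1 := by
      unfold QQ.val
      rw [div_le_one hd]
      exact_mod_cast hn
    have e1 : ∑ l, (1 + c l) * (1 + b l) = 4 * (1 + sS c b) := sum_w hc hb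
    have h8 : ∑ l, (1 + c l) * (1 - μ.val) ≤ ∑ l, (1 + c l) * (1 + b l) := by
      refine Finset.sum_le_sum fun l _ => ?_
      have := hc1 l
      have := hb1 l
      exact mul_le_mul_of_nonneg_left (by linarith) (by linarith)
    have h9 : ∑ l, (1 + c l) * (1 - μ.val) = 4 * (1 - μ.val) := by
      rw [← Finset.sum_mul, Finset.sum_add_distrib, hc]
      simp
    rw [h9, e1] at h8
    have h10 : 1 - μ.val ≤ 1 + sS c b := by linarith
    have h11 : (pb : ℝ) ≤ pa * (1 - μ.val) := by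
      have e2 : 1 - μ.val = ((μ.d : ℝ) - μ.n) / μ.d := by
        unfold QQ.val
        field_simp
      rw [e2, mul_div_assoc', le_div_iff₀ hd]
      exact h6
    exact h11.trans (mul_le_mul_of_nonneg_left h10 hpa'.le)
  · have hn : pb ≤ pa := Nat.le_of_ble_eq_true h1
    have d1 : (0 : ℝ) < Cx.D := by exact_mod_cast h2
    have d2 : (0 : ℝ) < CX.D := by exact_mod_cast h3
    have h5 : Cx.h * CX.h * (pa * pa) ≤ (pa - pb) * (pa - pb) * (Cx.D * CX.D) := Nat.le_of_ble_eq_true h4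
    have h6 : (Cx.h : ℝ) * CX.h * (pa * pa) ≤ ((pa : ℝ) - pb) * ((pa : ℝ) - pb) * (Cx.D * CX.D) := by
      have : ((pa - pb : ℕ) : ℝ) = (pa : ℝ) - pb := by
        push_cast [hn]
        ring
      rw [← this]
      exact_mod_cast h5
    have h7 : mom c 2 * Cx.D < Cx.h := m1.2
    have h8 : mom b 2 * CX.D < CX.h := m2.2
    have h9 : mom c 2 * mom b 2 * (Cx.D * CX.D) ≤ Cx.h * CX.h := by
      have : (mom c 2 * Cx.D) * (mom b 2 * CX.D) ≤ Cx.h * CX.h :=
        mul_le_mul h7.le h8.le (by positivity) (by linarith [show 0 ≤ mom c 2 * Cx.D from by positivity])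
      nlinarith
    have h10 := s_sq_le c b
    have h11 : sS c b ^ 2 * (pa * pa) ≤ ((pa : ℝ) - pb) * ((pa : ℝ) - pb) := by
      have h12 : sS c b ^ 2 * (pa * pa) * (Cx.D * CX.D) ≤ ((pa : ℝ) - pb) * ((pa : ℝ) - pb) * (Cx.D * CX.D) := by
        have h13 : sS c b ^ 2 * (Cx.D * CX.D) ≤ Cx.h * CX.h := by
          have := mul_le_mul_of_nonneg_right h10 (show (0 : ℝ) ≤ Cx.D * CX.D by positivity)
          linarith
        have := mul_le_mul_of_nonneg_right h13 (show (0 : ℝ) ≤ pa * pa by positivity)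
        nlinarith
      exact le_of_mul_le_mul_right h12 (by positivity)
    have hpb : (pb : ℝ) ≤ pa := by exact_mod_cast hn
    have h12 : -(sS c b * pa) ≤ (pa : ℝ) - pb := by
      have h13 : (sS c b * pa) ^ 2 ≤ ((pa : ℝ) - pb) ^ 2 := by nlinarith
      exact (abs_le_of_sq_le_sq' h13 (by linarith)).1 |> fun h => by linarith
    nlinarith

end msgs

end Vale.Agent.helper4.Q4
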