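import Mathlib

/-!
Univariate polynomials given by lists of integers, and the bounds for `1 / Z`, `1 / Z ^ 2` and `log`.
-/

set_option linter.unusedSectionVars false
set_option linter.unusedVariables false

namespace Vale.Agent.helper4.Q4

/-- The value of a list of coefficients. -/
noncomputable def evL : List ℤ → ℝ → ℝ
  | [], _ => 0
  | p :: P, s => (p : ℝ) + s * evL P s

@[simp] lemma evL_nil (s : ℝ) : evL [] s = 0 := rfl

@[simp] lemma evL_cons (p : ℤ) (P : List ℤ) (s : ℝ) : evL (p :: P) s = (p : ℝ) + s * evL P s := rfl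

def padd : List ℤ → List ℤ → List ℤ
  | [], Q => Q
  | P, [] => P
  | p :: P, q :: Q => Int.add p q :: padd P Q

lemma evL_padd (P Q : List ℤ) (s : ℝ) : evL (padd P Q) s = evL P s + evL Q s := by
  induction P generalizing Q with
  | nil => simp [padd]
  | cons p P ih =>
    cases Q with
    | nil => simp [padd]
    | cons q Q =>
      have e : Int.add p q = p + q := rfl
      simp only [padd, evL_cons, ih, e]
      push_cast
      ring

def psmul (n : ℤ) (P : List ℤ) : List ℤ := P.map fun p => Int.mul n p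

lemma evL_psmul (n : ℤ) (P : List ℤ) (s : ℝ) : evL (psmul n P) s = (n : ℝ) * evL P s := by
  induction P with
  | nil => simp [psmul]
  | cons p P ih =>
    have e : psmul n (p :: P) = (n * p) :: psmul n P := rfl
    rw [e, evL_cons, evL_cons, ih]
    push_cast
    ring

def pmul : List ℤ → List ℤ → List ℤ
  | [], _ => []
  | p :: P, Q => padd (psmul p Q) (0 :: pmul P Q)

lemma evL_pmul (P Q : List ℤ) (s : ℝ) : evL (pmul P Q) s = evL P s * evL Q s := by
  induction P with
  | nil => simp [pmul]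
  | cons p P ih =>
    simp only [pmul, evL_padd, evL_psmul, evL_cons, ih]
    push_cast
    ring

def pderiv : List ℤ → List ℤ
  | [] => []
  | _ :: P => padd P (0 :: pderiv P)

lemma hasDerivAt_evL (P : List ℤ) (s : ℝ) : HasDerivAt (evL P) (evL (pderiv P) s) s := by
  induction P with
  | nil =>
    show HasDerivAt (fun _ => (0 : ℝ)) 0 s
    exact hasDerivAt_const s (0 : ℝ)
  | cons p P ih =>
    have h1 : HasDerivAt (fun s => (p : ℝ) + s * evL P s) (1 * evL P s + s * evL (pderiv P) s) s :=
      ((hasDerivAt_id s).mul ih).const_add _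
    have e : evL (pderiv (p :: P)) s = 1 * evL P s + s * evL (pderiv P) s := by
      simp [pderiv, evL_padd]
    rw [e]
    exact h1

/-- All coefficients vanish. -/
def pzero (P : List ℤ) : Bool := P.all fun p => decide (p = 0)

lemma evL_of_pzero {P : List ℤ} (h : pzero P = true) (s : ℝ) : evL P s = 0 := by
  induction P with
  | nil => rfl
  | cons p P ih =>
    simp only [pzero, List.all_cons, Bool.and_eq_true, decide_eq_true_eq] at h
    rw [evL_cons, ih h.2, h.1]
    simp

/-- Equality as polynomials. -/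
def peq (P Q : List ℤ) : Bool := pzero (padd P (psmul (-1) Q))

lemma evL_of_peq {P Q : List ℤ} (h : peq P Q = true) (s : ℝ) : evL P s = evL Q s := by
  have := evL_of_pzero h s
  rw [evL_padd, evL_psmul] at this
  push_cast at this
  linarith

/-- The certificate for an upper bound of `1 / Z` for `Z ≥ b / a`, where `Z = 1 + s`. -/
def chkUp1 (P : List ℤ) (dP a b K : ℕ) (R : List ℤ) : Bool :=
  Nat.blt 0 dP && Nat.blt 0 a && Nat.blt 0 b && Nat.blt 0 K &&
  peq (psmul (K : ℤ) (pmul [1, 1] P))
    (psmul (dP : ℤ) (padd [(K : ℤ)] (pmul [(a : ℤ) - b, (a : ℤ)] (pmul R R))))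

theorem up1 {P : List ℤ} {dP a b K : ℕ} {R : List ℤ} (h : chkUp1 P dP a b K R = true) {s : ℝ}
    (hs : (b : ℝ) ≤ a * (1 + s)) (hZ : 0 < 1 + s) : 1 / (1 + s) ≤ evL P s / dP := by
  simp only [chkUp1, Bool.and_eq_true, Nat.blt_eq] at h
  obtain ⟨⟨⟨⟨h1, h2⟩, h3⟩, h4⟩, h5⟩ := h
  have e := evL_of_peq h5 s
  simp only [evL_psmul, evL_pmul, evL_padd, evL_cons, evL_nil] at e
  push_cast at e
  have hd : (0 : ℝ) < dP := by exact_mod_cast h1
  have hK : (0 : ℝ) < K := by exact_mod_cast h4
  rw [div_le_div_iff₀ hZ hd]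
  have h6 : 0 ≤ ((a : ℝ) * (1 + s) - b) * evL R s ^ 2 := mul_nonneg (by linarith) (sq_nonneg _)
  have h7 : (K : ℝ) * ((1 + s) * evL P s) ≥ K * dP := by
    have : (K : ℝ) * ((1 + s) * evL P s) = dP * (K + ((a : ℝ) * (1 + s) - b) * evL R s ^ 2) := by
      linear_combination e
    rw [this]
    nlinarith [mul_nonneg hd.le h6]
  have h8 : (1 + s) * evL P s ≥ dP := le_of_mul_le_mul_left (by linarith) hK
  linarith

/-- The certificate for a lower bound of `1 / Z`. -/
def chkLow1 (Q : List ℤ) (dQ K : ℕ) (R : List ℤ) : Bool :=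
  Nat.blt 0 dQ && Nat.blt 0 K &&
  peq (psmul (K : ℤ) (pmul [1, 1] Q))
    (psmul (dQ : ℤ) (padd [(K : ℤ)] (psmul (-1) (pmul R R))))

theorem low1 {Q : List ℤ} {dQ K : ℕ} {R : List ℤ} (h : chkLow1 Q dQ K R = true) {s : ℝ}
    (hZ : 0 < 1 + s) : evL Q s / dQ ≤ 1 / (1 + s) := by
  simp only [chkLow1, Bool.and_eq_true, Nat.blt_eq] at h
  obtain ⟨⟨h1, h2⟩, h3⟩ := h
  have e := evL_of_peq h3 s
  simp only [evL_psmul, evL_pmul, evL_padd, evL_cons, evL_nil] at e
  push_cast at e
  have hd : (0 : ℝ) < dQ := by exact_mod_cast h1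
  have hK : (0 : ℝ) < K := by exact_mod_cast h2
  rw [div_le_div_iff₀ hd hZ]
  have h7 : (K : ℝ) * ((1 + s) * evL Q s) ≤ K * dQ := by
    have : (K : ℝ) * ((1 + s) * evL Q s) = dQ * (K - evL R s ^ 2) := by
      linear_combination e
    rw [this]
    nlinarith [mul_nonneg hd.le (sq_nonneg (evL R s))]
  have h8 : (1 + s) * evL Q s ≤ dQ := le_of_mul_le_mul_left (by linarith) hK
  linarith

/-- The certificate for an upper bound of `1 / Z ^ 2` for `Z ≥ b / a`. -/
def chkUp2 (P : List ℤ) (dP a b K : ℕ) (R : List ℤ) : Bool :=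
  Nat.blt 0 dP && Nat.blt 0 a && Nat.blt 0 b && Nat.blt 0 K &&
  peq (psmul (K : ℤ) (pmul [1, 2, 1] P))
    (psmul (dP : ℤ) (padd [(K : ℤ)] (pmul [(a : ℤ) - b, (a : ℤ)] (pmul R R))))

theorem up2 {P : List ℤ} {dP a b K : ℕ} {R : List ℤ} (h : chkUp2 P dP a b K R = true) {s : ℝ}
    (hs : (b : ℝ) ≤ a * (1 + s)) (hZ : 0 < 1 + s) : 1 / (1 + s) ^ 2 ≤ evL P s / dP := by
  simp only [chkUp2, Bool.and_eq_true, Nat.blt_eq] at h
  obtain ⟨⟨⟨⟨h1, h2⟩, h3⟩, h4⟩, h5⟩ := h
  have e := evL_of_peq h5 s
  simp only [evL_psmul, evL_pmul, evL_padd, evL_cons, evL_nil] at e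
  push_cast at e
  have hd : (0 : ℝ) < dP := by exact_mod_cast h1
  have hK : (0 : ℝ) < K := by exact_mod_cast h4
  have hZ2 : 0 < (1 + s) ^ 2 := by positivity
  rw [div_le_div_iff₀ hZ2 hd]
  have h6 : 0 ≤ ((a : ℝ) * (1 + s) - b) * evL R s ^ 2 := mul_nonneg (by linarith) (sq_nonneg _)
  have h7 : (K : ℝ) * ((1 + s) ^ 2 * evL P s) ≥ K * dP := by
    have : (K : ℝ) * ((1 + s) ^ 2 * evL P s) = dP * (K + ((a : ℝ) * (1 + s) - b) * evL R s ^ 2) := by
      linear_combination e
    rw [this]
    nlinarith [mul_nonneg hd.le h6]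
  have h8 : (1 + s) ^ 2 * evL P s ≥ dP := le_of_mul_le_mul_left (by linarith) hK
  linarith

/-- A function vanishing at `0` with derivative of the sign of its argument is nonnegative on `w > -1`. -/
lemma nonneg_of_deriv_sign {f f' : ℝ → ℝ} (hd : ∀ w, -1 < w → HasDerivAt f (f' w) w) (h0 : f 0 = 0)
    (h1 : ∀ w, 0 ≤ w → 0 ≤ f' w) (h2 : ∀ w, -1 < w → w ≤ 0 → f' w ≤ 0) {w : ℝ} (hw : -1 < w) : 0 ≤ f w := by
  rcases le_total 0 w with h | h
  · have hm : MonotoneOn f (Set.Ici 0) := by
      refine monotoneOn_of_deriv_nonneg (convex_Ici 0) ?_ ?_ ?_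
      · intro u hu
        exact (hd u (by have : (0:ℝ) ≤ u := hu; linarith)).continuousAt.continuousWithinAt
      · intro u hu
        rw [interior_Ici] at hu
        have hu' : (0:ℝ) < u := hu
        exact (hd u (by linarith)).differentiableAt.differentiableWithinAt
      · intro u hu
        rw [interior_Ici] at hu
        have hu' : (0:ℝ) < u := hu
        rw [(hd u (by linarith)).deriv]
        exact h1 u hu'.le
    have := hm (Set.mem_Ici.mpr le_rfl) (Set.mem_Ici.mpr h) h
    rw [h0] at this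
    exact this
  · have hm : AntitoneOn f (Set.Icc w 0) := by
      refine antitoneOn_of_deriv_nonpos (convex_Icc w 0) ?_ ?_ ?_
      · intro u hu
        exact (hd u (by linarith [hu.1])).continuousAt.continuousWithinAt
      · intro u hu
        rw [interior_Icc] at hu
        exact (hd u (by linarith [hu.1])).differentiableAt.differentiableWithinAt
      · intro u hu
        rw [interior_Icc] at hu
        rw [(hd u (by linarith [hu.1])).deriv]
        exact h2 u (by linarith [hu.1]) hu.2.le
    have := hm (Set.left_mem_Icc.mpr h) (Set.right_mem_Icc.mpr h) h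
    rw [h0] at this
    exact this

/-- The function `φ(1 + w) = (1 + w) log (1 + w) - w`. -/
noncomputable def phiT (w : ℝ) : ℝ := (1 + w) * Real.log (1 + w) - w

/-- The constant coefficient. -/
def hd0 : List ℤ → ℤ
  | [] => 0
  | p :: _ => p

/-- The certificate for a lower bound of `phiT`. -/
def chkPhiLow (Q : List ℤ) (dQ K : ℕ) (R : List ℤ) : Bool :=
  Nat.blt 0 dQ && Nat.blt 0 K &&
  decide (hd0 Q = 0) && decide (hd0 (pderiv Q) = 0) &&
  peq (psmul (K : ℤ) (pmul [1, 1] (pderiv (pderiv Q))))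
    (psmul (dQ : ℤ) (padd [(K : ℤ)] (psmul (-1) (pmul R R))))

lemma evL_zero (P : List ℤ) : evL P 0 = (hd0 P : ℤ) := by
  cases P <;> simp [hd0]

theorem phi_low {Q : List ℤ} {dQ K : ℕ} {R : List ℤ} (h : chkPhiLow Q dQ K R = true) {w : ℝ} (hw : -1 < w) :
    evL Q w / dQ ≤ phiT w := by
  simp only [chkPhiLow, Bool.and_eq_true, Nat.blt_eq, decide_eq_true_eq] at h
  obtain ⟨⟨⟨⟨h1, h2⟩, h3⟩, h4⟩, h5⟩ := h
  have hd : (0 : ℝ) < dQ := by exact_mod_cast h1
  have hK : (0 : ℝ) < K := by exact_mod_cast h2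
  have e0 : evL Q 0 = 0 := by
    rw [evL_zero, h3]
    simp
  have e1 : evL (pderiv Q) 0 = 0 := by
    rw [evL_zero, h4]
    simp
  -- the derivative of the difference
  have dg : ∀ u, -1 < u → HasDerivAt (fun u => Real.log (1 + u) - evL (pderiv Q) u / dQ)
      (1 / (1 + u) - evL (pderiv (pderiv Q)) u / dQ) u := by
    intro u hu
    have h6 : HasDerivAt (fun u => Real.log (1 + u)) (1 / (1 + u)) u := by
      have := ((hasDerivAt_id u).const_add 1).log (by simp only [id]; linarith)
      simpa using this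
    exact h6.sub ((hasDerivAt_evL (pderiv Q) u).div_const _)
  have sg : ∀ u, -1 < u → 0 ≤ 1 / (1 + u) - evL (pderiv (pderiv Q)) u / dQ := by
    intro u hu
    have e := evL_of_peq h5 u
    simp only [evL_psmul, evL_pmul, evL_padd, evL_cons, evL_nil] at e
    push_cast at e
    have hZ : 0 < 1 + u := by linarith
    rw [sub_nonneg, div_le_div_iff₀ hd hZ]
    have h7 : (K : ℝ) * ((1 + u) * evL (pderiv (pderiv Q)) u) ≤ K * dQ := by
      have : (K : ℝ) * ((1 + u) * evL (pderiv (pderiv Q)) u) = dQ * (K - evL R u ^ 2) := by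
        linear_combination e
      rw [this]
      nlinarith [mul_nonneg hd.le (sq_nonneg (evL R u))]
    have h8 : (1 + u) * evL (pderiv (pderiv Q)) u ≤ dQ := le_of_mul_le_mul_left (by linarith) hK
    linarith
  -- monotonicity of the derivative gives its sign
  have g_pos : ∀ u, 0 ≤ u → 0 ≤ Real.log (1 + u) - evL (pderiv Q) u / dQ := by
    intro u hu
    have hm : MonotoneOn (fun u => Real.log (1 + u) - evL (pderiv Q) u / dQ) (Set.Ici 0) := by
      refine monotoneOn_of_deriv_nonneg (convex_Ici 0) ?_ ?_ ?_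
      · intro a ha
        exact (dg a (by have : (0:ℝ) ≤ a := ha; linarith)).continuousAt.continuousWithinAt
      · intro a ha
        rw [interior_Ici] at ha
        have ha' : (0:ℝ) < a := ha
        exact (dg a (by linarith)).differentiableAt.differentiableWithinAt
      · intro a ha
        rw [interior_Ici] at ha
        have ha' : (0:ℝ) < a := ha
        rw [(dg a (by linarith)).deriv]
        exact sg a (by linarith)
    have := hm (Set.mem_Ici.mpr le_rfl) (Set.mem_Ici.mpr hu) hu
    simp only [add_zero, Real.log_one, e1, zero_div, sub_zero] at this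
    simpa using this
  have g_neg : ∀ u, -1 < u → u ≤ 0 → Real.log (1 + u) - evL (pderiv Q) u / dQ ≤ 0 := by
    intro u hu hu0
    have hm : MonotoneOn (fun u => Real.log (1 + u) - evL (pderiv Q) u / dQ) (Set.Icc u 0) := by
      refine monotoneOn_of_deriv_nonneg (convex_Icc u 0) ?_ ?_ ?_
      · intro a ha
        exact (dg a (by linarith [ha.1])).continuousAt.continuousWithinAt
      · intro a ha
        rw [interior_Icc] at ha
        exact (dg a (by linarith [ha.1])).differentiableAt.differentiableWithinAt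
      · intro a ha
        rw [interior_Icc] at ha
        rw [(dg a (by linarith [ha.1])).deriv]
        exact sg a (by linarith [ha.1])
    have := hm (Set.left_mem_Icc.mpr hu0) (Set.right_mem_Icc.mpr hu0) hu0
    simp only [add_zero, Real.log_one, e1, zero_div, sub_zero] at this
    simpa using this
  -- the difference itself
  have df : ∀ u, -1 < u → HasDerivAt (fun u => phiT u - evL Q u / dQ)
      (Real.log (1 + u) - evL (pderiv Q) u / dQ) u := by
    intro u hu
    have hZ : (1 + u) ≠ 0 := by linarith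
    have h6 : HasDerivAt (fun u => Real.log (1 + u)) (1 / (1 + u)) u := by
      have := ((hasDerivAt_id u).const_add 1).log (by simp only [id]; linarith)
      simpa using this
    have h7 : HasDerivAt phiT (Real.log (1 + u)) u := by
      have h8 : HasDerivAt (fun u => (1 + u) * Real.log (1 + u) - u)
          (1 * Real.log (1 + u) + (1 + u) * (1 / (1 + u)) - 1) u :=
        ((((hasDerivAt_id u).const_add 1).mul h6)).sub (hasDerivAt_id u)
      have e : 1 * Real.log (1 + u) + (1 + u) * (1 / (1 + u)) - 1 = Real.log (1 + u) := by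
        field_simp
        ring
      rw [e] at h8
      exact h8
    exact h7.sub ((hasDerivAt_evL Q u).div_const _)
  have key := nonneg_of_deriv_sign df (by simp [phiT, e0]) g_pos g_neg hw
  linarith

/-- The certificate for an upper bound of `log (1 + w)`. -/
def chkLogUp (L : List ℤ) (dL K : ℕ) (R : List ℤ) : Bool :=
  Nat.blt 0 dL && Nat.blt 0 K && decide (hd0 L = 0) &&
  peq (psmul (K : ℤ) (pmul [1, 1] (pderiv L)))
    (psmul (dL : ℤ) (padd [(K : ℤ)] (pmul [0, 1] (pmul R R))))

theorem log_up {L : List ℤ} {dL K : ℕ} {R : List ℤ} (h : chkLogUp L dL K R = true) {w : ℝ} (hw : -1 < w) :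
    Real.log (1 + w) ≤ evL L w / dL := by
  simp only [chkLogUp, Bool.and_eq_true, Nat.blt_eq, decide_eq_true_eq] at h
  obtain ⟨⟨⟨h1, h2⟩, h3⟩, h5⟩ := h
  have hd : (0 : ℝ) < dL := by exact_mod_cast h1
  have hK : (0 : ℝ) < K := by exact_mod_cast h2
  have e0 : evL L 0 = 0 := by
    rw [evL_zero, h3]
    simp
  have df : ∀ u, -1 < u → HasDerivAt (fun u => evL L u / dL - Real.log (1 + u))
      (evL (pderiv L) u / dL - 1 / (1 + u)) u := by
    intro u hu
    have h6 : HasDerivAt (fun u => Real.log (1 + u)) (1 / (1 + u)) u := by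
      have := ((hasDerivAt_id u).const_add 1).log (by simp only [id]; linarith)
      simpa using this
    exact ((hasDerivAt_evL L u).div_const _).sub h6
  have e1 : ∀ u, -1 < u → evL (pderiv L) u / dL - 1 / (1 + u) = (u * evL R u ^ 2 / K) / (1 + u) := by
    intro u hu
    have e := evL_of_peq h5 u
    simp only [evL_psmul, evL_pmul, evL_padd, evL_cons, evL_nil] at e
    push_cast at e
    have hZ : (1 + u) ≠ 0 := by linarith
    have hd' : (dL : ℝ) ≠ 0 := hd.ne'
    have hK' : (K : ℝ) ≠ 0 := hK.ne'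
    field_simp
    linear_combination e
  have key := nonneg_of_deriv_sign df (by simp [e0])
    (fun u hu => by
      rw [e1 u (by linarith)]
      have : 0 < 1 + u := by linarith
      positivity)
    (fun u hu hu0 => by
      rw [e1 u hu]
      have h8 : 0 < 1 + u := by linarith
      exact div_nonpos_of_nonpos_of_nonneg (div_nonpos_of_nonpos_of_nonneg
        (mul_nonpos_of_nonpos_of_nonneg hu0 (sq_nonneg _)) hK.le) h8.le) hw
  linarith

/-- The polynomial `(1 + w) * L(w) - w` scaled by the denominator of `L`. -/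
def psiOf (L : List ℤ) (dL : ℕ) : List ℤ := padd (pmul [1, 1] L) (psmul (-(dL : ℤ)) [0, 1])

theorem phi_up {L : List ℤ} {dL K : ℕ} {R : List ℤ} (h : chkLogUp L dL K R = true) {w : ℝ} (hw : -1 < w) :
    phiT w ≤ evL (psiOf L dL) w / dL := by
  have h1 := log_up h hw
  have hd : (0 : ℝ) < dL := by
    simp only [chkLogUp, Bool.and_eq_true, Nat.blt_eq] at h
    exact_mod_cast h.1.1.1
  have hZ : 0 < 1 + w := by linarith
  have h2 := mul_le_mul_of_nonneg_left h1 hZ.le
  unfold phiT psiOf
  simp only [evL_padd, evL_pmul, evL_psmul, evL_cons, evL_nil]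
  push_cast
  have hd' : (dL : ℝ) ≠ 0 := hd.ne'
  have e : (((1 : ℝ) + w * (1 + w * 0)) * evL L w + -(dL : ℝ) * (0 + w * (1 + w * 0))) / dL
      = (1 + w) * (evL L w / dL) - w := by
    field_simp
    ring
  rw [e]
  linarith

end Vale.Agent.helper4.Q4
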