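import Vale.Agent.helper4.Q4Pair

/-!
The first inequality for one pair of intervals of second moments, from checks by the kernel.
-/

set_option linter.unusedSectionVars false
set_option linter.unusedVariables false

namespace Vale.Agent.helper4.Q4

open GW (ZZ uu xx Simp)
open FN

/-- The data of the first inequality for a pair of intervals. -/
structure R1D where
  p : UpD
  qc : PhiD
  qa : PhiD
  Zl : ℕ

/-- The polynomial `x + X`. -/
def S0F : FN := [(1, 1), (64, 1)]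

/-- The polynomial `x ^ 2 * X ^ 2`. -/
def S4F : FN := [(130, 1)]

lemma val_S0F (v : V6) : val S0F v = v.X + v.x := by
  simp only [S0F, val_cons, val_nil]
  have e1 : mon 1 v = v.X := by
    have := mon_enc (l := 0) (j := 0) (l' := 0) (j' := 0) (p := 0) (q := 1) (by norm_num) (by norm_num) (by norm_num)
      (by norm_num) (by norm_num) (by norm_num) v
    simpa [enc] using this
  have e2 : mon 64 v = v.x := by
    have := mon_enc (l := 0) (j := 0) (l' := 0) (j' := 0) (p := 1) (q := 0) (by norm_num) (by norm_num) (by norm_num)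
      (by norm_num) (by norm_num) (by norm_num) v
    simpa [enc] using this
  rw [e1, e2]
  simp

lemma val_S4F (v : V6) : val S4F v = v.x ^ 2 * v.X ^ 2 := by
  simp only [S4F, val_cons, val_nil]
  have e1 : mon 130 v = v.x ^ 2 * v.X ^ 2 := by
    have := mon_enc (l := 0) (j := 0) (l' := 0) (j' := 0) (p := 2) (q := 2) (by norm_num) (by norm_num) (by norm_num)
      (by norm_num) (by norm_num) (by norm_num) v
    simpa [enc] using this
  rw [e1]
  simp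

/-- The linear combination of tables, which equals a multiple of the first inequality. -/
noncomputable def R1D.comb (D : R1D) : FN :=
  let d1 : ℕ := D.qc.d
  let d2 : ℕ := D.qa.d
  let dP : ℕ := D.p.dP
  let Z1 : ℕ := 3 * aD * d1 * DM * dF * d2 * dltD
  let Z2 : ℕ := 2 * dP * DT * dF * d2 * dltD
  let Z3 : ℕ := dP * DT * 3 * d1 * dltD
  let Z4 : ℕ := dP * DT * 3 * aD * d1 * DM * dF * d2
  let Z : ℕ := dP * DT * Z1
  add (smul (Z : ℤ) S0F) (add (smul (-(Z1 : ℤ)) (combI TVlit 0 D.p.P))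
    (add (smul (-(Z2 : ℤ)) (add (smul ((d1 * DM : ℕ) : ℤ) XGlit) (smul (-(6 * aN : ℕ) : ℤ) (combI XMlit 0 D.qc.Q))))
      (add (smul (-(Z3 : ℤ)) (add (smul ((d2 * DM : ℕ) : ℤ) FGlit) (smul (-(6 * aN : ℕ) : ℤ) (combI FMlit 0 D.qa.Q))))
        (smul (-(Z4 : ℤ)) S4F))))

/-- All the checks for a pair of intervals. -/
noncomputable def chkR1 (D : R1D) (L : LitT) (μ : QQ) (Rt : Roots) : Bool :=
  chkUp1 D.p.P D.p.dP D.p.pa D.p.pb D.p.K D.p.R && zOk D.p.pa D.p.pb μ Rt.Cx Rt.CX &&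
  chkPhiLow D.qc.Q D.qc.d D.qc.K D.qc.R && chkPhiLow D.qa.Q D.qa.d D.qa.K D.qa.R &&
  Nat.ble D.p.P.length 11 && Nat.ble D.qc.Q.length 15 && Nat.ble D.qa.Q.length 15 && Nat.blt 0 D.Zl &&
  FN.beq D.comb (smul (D.Zl : ℤ) L.flat) && L.ok && Rt.ok μ

/-- The upper bound for the invariant, with a lower bound for the entropy. -/
noncomputable def GupR (x y m d : ℝ) : ℝ :=
  ((aN : ℝ) / aD) * (3 * x - 6 * (m / d)) - ((bN : ℝ) / aD) * y

lemma r1_alg (x X y Y F A1 A2 A3 DTr DMr dP d1 d2 aNr aDr bNr dFr dl : ℝ) (h1 : dP ≠ 0) (h2 : d1 ≠ 0) (h3 : d2 ≠ 0)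
    (h4 : aDr ≠ 0) (h5 : dFr ≠ 0) (h6 : dl ≠ 0) (h7 : DTr ≠ 0) (h8 : DMr ≠ 0) :
    (dP * DTr * (3 * aDr * d1 * DMr * dFr * d2 * dl)) * (X + x)
      + (-(3 * aDr * d1 * DMr * dFr * d2 * dl)) * (DTr * A1)
      + (-(2 * dP * DTr * dFr * d2 * dl)) * ((d1 * DMr) * (X * (3 * aNr * x - bNr * y)) + (-(6 * aNr)) * (DMr * (X * A2)))
      + (-(dP * DTr * 3 * d1 * dl)) * ((d2 * DMr) * (dFr * F * (3 * aNr * X - bNr * Y)) + (-(6 * aNr)) * (DMr * (dFr * F * A3)))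
      + (-(dP * DTr * 3 * aDr * d1 * DMr * dFr * d2)) * (x ^ 2 * X ^ 2)
    = (dP * DTr * (3 * aDr * d1 * DMr * dFr * d2 * dl)) *
      (x + X - A1 / dP - 2 / 3 * X * ((aNr / aDr) * (3 * x - 6 * (A2 / d1)) - (bNr / aDr) * y)
        - F * ((aNr / aDr) * (3 * X - 6 * (A3 / d2)) - (bNr / aDr) * Y) - x ^ 2 * X ^ 2 / dl) := by
  field_simp
  ring

section main

variable {c a : Fin 4 → ℝ} {v : V6}

lemma aD_ne : (aD : ℝ) ≠ 0 := by norm_num [aD]
lemma dF_ne : (dF : ℝ) ≠ 0 := by norm_num [dF]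
lemma dlt_ne : (dltD : ℝ) ≠ 0 := by norm_num [dltD]
lemma DT_ne : (DT : ℝ) ≠ 0 := by
  have := DT_pos
  positivity
lemma DM_ne : (DM : ℝ) ≠ 0 := by
  unfold DM
  positivity

theorem comb_val {D : R1D} (hc : ∑ l, c l = 0) (ha : ∑ l, a l = 0) (hR : Rep c a v)
    (l1 : D.p.P.length ≤ 11) (l2 : D.qc.Q.length ≤ 15) (l3 : D.qa.Q.length ≤ 15)
    (hd1 : (D.qc.d : ℝ) ≠ 0) (hd2 : (D.qa.d : ℝ) ≠ 0) (hdP : (D.p.dP : ℝ) ≠ 0) :
    val D.comb v = ((D.p.dP : ℝ) * DT * (3 * aD * D.qc.d * DM * dF * D.qa.d * dltD)) *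
      (v.x + v.X - avgT a (fun b => Vp v.x v.X c b * evL D.p.P (sS c b)) / D.p.dP
        - 2 / 3 * v.X * GupR v.x (v.x * v.t) ((∑ l, evL D.qc.Q (c l)) / 4) D.qc.d
        - Fr v.x (v.x * v.t) (v.x * (v.x + v.e)) * GupR v.X (v.X * v.T) ((∑ l, evL D.qa.Q (a l)) / 4) D.qa.d
        - v.x ^ 2 * v.X ^ 2 / dltD) := by
  obtain ⟨g1, g2, g3, g4⟩ := GB_spec (v := v) gbC
  have s1 : val (combI TVlit 0 D.p.P) v = (DT : ℝ) * avgT a (fun b => Vp v.x v.X c b * evL D.p.P (sS c b)) := by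
    have := combI_val (T := TVlit) (A := fun k => avgT a (fun b => Vp v.x v.X c b * sS c b ^ k)) (r := (DT : ℝ)) (v := v) (n := 11)
      (fun k hk => TV_spec hc ha hR tvC_all hk) D.p.P 0 (by omega)
    rw [this]
    simp only [zero_add]
    rw [sumP_avg c D.p.P (fun b => Vp v.x v.X c b)]
  have s2 : val (combI XMlit 0 D.qc.Q) v = (DM : ℝ) * (v.X * ((∑ l, evL D.qc.Q (c l)) / 4)) := by
    have := combI_val (T := XMlit) (A := fun k => v.X * mom c k) (r := (DM : ℝ)) (v := v) (n := 15)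
      (fun k hk => XM_spec hc hR xmC_all hk) D.qc.Q 0 (by omega)
    rw [this]
    simp only [zero_add]
    have e : sumP D.qc.Q (fun k => v.X * mom c k) = v.X * sumP D.qc.Q (fun k => mom c k) := sumP_smul _ _ _
    rw [e, sumP_mom]
  have s3 : val (combI FMlit 0 D.qa.Q) v
      = (DM : ℝ) * ((dF : ℝ) * Fr v.x (v.x * v.t) (v.x * (v.x + v.e)) * ((∑ l, evL D.qa.Q (a l)) / 4)) := by
    have := combI_val (T := FMlit) (A := fun k => (dF : ℝ) * Fr v.x (v.x * v.t) (v.x * (v.x + v.e)) * mom a k)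
      (r := (DM : ℝ)) (v := v) (n := 15) (fun k hk => FM_spec ha hR fmC_all hk) D.qa.Q 0 (by omega)
    rw [this]
    simp only [zero_add]
    have e : sumP D.qa.Q (fun k => (dF : ℝ) * Fr v.x (v.x * v.t) (v.x * (v.x + v.e)) * mom a k)
        = (dF : ℝ) * Fr v.x (v.x * v.t) (v.x * (v.x + v.e)) * sumP D.qa.Q (fun k => mom a k) := sumP_smul _ _ _
    rw [e, sumP_mom]
  unfold R1D.comb
  simp only [val_add, val_smul, val_S0F, val_S4F, s1, s2, s3, g1, g2, GupR]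
  push_cast
  have := r1_alg v.x v.X (v.x * v.t) (v.X * v.T) (Fr v.x (v.x * v.t) (v.x * (v.x + v.e)))
    (avgT a (fun b => Vp v.x v.X c b * evL D.p.P (sS c b))) ((∑ l, evL D.qc.Q (c l)) / 4) ((∑ l, evL D.qa.Q (a l)) / 4)
    (DT : ℝ) (DM : ℝ) (D.p.dP : ℝ) (D.qc.d : ℝ) (D.qa.d : ℝ) (aN : ℝ) (aD : ℝ) (bN : ℝ) (dF : ℝ) (dltD : ℝ) hdP hd1 hd2
    aD_ne dF_ne dlt_ne DT_ne DM_ne
  linear_combination this

/-- The entropy term is bounded by the polynomial. -/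
lemma HH_ge {Q : List ℤ} {d K : ℕ} {R : List ℤ} (h : chkPhiLow Q d K R = true) {c : Fin 4 → ℝ} (hc : ∀ l, -1 < c l) :
    ((∑ l, evL Q (c l)) / 4) / d ≤ HH c := by
  unfold HH
  rw [div_right_comm]
  apply div_le_div_of_nonneg_right _ (by norm_num)
  rw [Finset.sum_div]
  exact Finset.sum_le_sum fun l _ => phi_low h (hc l)

lemma GG_le {Q : List ℤ} {d K : ℕ} {R : List ℤ} (h : chkPhiLow Q d K R = true) {c : Fin 4 → ℝ} (hc : ∀ l, -1 < c l) :
    GG c ≤ GupR (mom c 2) (mom c 3) ((∑ l, evL Q (c l)) / 4) d := by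
  unfold GG GupR
  have h1 := HH_ge h hc
  have h2 : (0 : ℝ) ≤ (aN : ℝ) / aD := by positivity
  have h3 := mul_le_mul_of_nonneg_left h1 h2
  nlinarith

/-- The first inequality, for a pair of messages with second moments in given intervals. -/
theorem R1_cell {D : R1D} {L : LitT} {μ : QQ} {Rt : Roots} (hchk : chkR1 D L μ Rt = true) (hF : L.Full μ.val Rt)
    (hμ0 : 0 < μ.val) (hμ : μ.val < 1)
    (hc : ∑ l, c l = 0) (ha : ∑ l, a l = 0) (hc1 : ∀ l, -1 < c l) (ha1 : ∀ l, -μ.val ≤ a l)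
    (hx : 0 < mom c 2) (hX : 0 < mom a 2) (m1 : Rt.Cx.mem (mom c 2)) (m2 : Rt.CX.mem (mom a 2))
    (hF0 : 0 ≤ Fr (mom c 2) (mom c 3) (mom c 4)) :
    avgT a (fun b => ZZ c b * xx (uu c b)) ≤ mom c 2 + mom a 2 - 2 / 3 * mom a 2 * GG c
      - GG a * Fr (mom c 2) (mom c 3) (mom c 4) - mom c 2 ^ 2 * mom a 2 ^ 2 / dltD := by
  simp only [chkR1, Bool.and_eq_true] at hchk
  obtain ⟨⟨⟨⟨⟨⟨⟨⟨⟨⟨h1, h2⟩, h3⟩, h4⟩, l1⟩, l2⟩, l3⟩, hZl⟩, hbeq⟩, hL⟩, hRt⟩ := hchk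
  have l1' : D.p.P.length ≤ 11 := Nat.le_of_ble_eq_true l1
  have l2' : D.qc.Q.length ≤ 15 := Nat.le_of_ble_eq_true l2
  have l3' : D.qa.Q.length ≤ 15 := Nat.le_of_ble_eq_true l3
  have hZl' : 0 < D.Zl := by simpa [Nat.blt_eq] using hZl
  have hP := h1
  simp only [chkUp1, Bool.and_eq_true, Nat.blt_eq] at h1
  obtain ⟨⟨⟨⟨hdP, hpa⟩, hpb⟩, hK⟩, _⟩ := h1
  have hQ3 := h3
  have hQ4 := h4
  simp only [chkPhiLow, Bool.and_eq_true, Nat.blt_eq] at h3 h4
  obtain ⟨⟨⟨⟨hd1, _⟩, _⟩, _⟩, _⟩ := h3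
  obtain ⟨⟨⟨⟨hd2, _⟩, _⟩, _⟩, _⟩ := h4
  have hd1' : (0 : ℝ) < D.qc.d := by exact_mod_cast hd1
  have hd2' : (0 : ℝ) < D.qa.d := by exact_mod_cast hd2
  have hdP' : (0 : ℝ) < D.p.dP := by exact_mod_cast hdP
  have hca : ∀ l, -1 < a l := fun l => by linarith [ha1 l]
  -- the certified polynomial
  have hR : Rep c a (ptOf c a) := rep_ptOf hx hX
  have d1 := domS_ptOf (μ := 1) one_pos hc (fun l => (hc1 l).le) hx
  have d2 := domS_ptOf hμ0 ha ha1 hX
  have hnn : 0 ≤ val L.flat (ptOf c a) := LitT.nonneg hL hRt hF m1 m2 d1 d2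
  have hv := comb_val (D := D) hc ha hR l1' l2' l3' hd1'.ne' hd2'.ne' hdP'.ne'
  have hv2 : val D.comb (ptOf c a) = (D.Zl : ℝ) * val L.flat (ptOf c a) := by
    rw [val_of_beq hbeq, val_smul]
    simp
  have hZpos : (0 : ℝ) < (D.p.dP : ℝ) * DT * (3 * aD * D.qc.d * DM * dF * D.qa.d * dltD) := by
    have : (0 : ℝ) < DT := by
      have := DT_pos
      positivity
    have h5 : (0 : ℝ) < DM := by
      unfold DM
      positivity
    have h6 : (0 : ℝ) < aD := by norm_num [aD]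
    have h7 : (0 : ℝ) < dF := by norm_num [dF]
    have h8 : (0 : ℝ) < dltD := by norm_num [dltD]
    positivity
  have hreal := hv2
  rw [hv] at hreal
  have hnn2 := mul_nonneg (Nat.cast_nonneg D.Zl) hnn
  rw [← hreal] at hnn2
  have hR1 := nonneg_of_mul_nonneg_right hnn2 hZpos
  -- rewrite the coordinates of the point
  have ex : (ptOf c a).x = mom c 2 := hR.h2
  have eX : (ptOf c a).X = mom a 2 := hR.h2'
  have ey : (ptOf c a).x * (ptOf c a).t = mom c 3 := hR.h3.symm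
  have eY : (ptOf c a).X * (ptOf c a).T = mom a 3 := hR.h3'.symm
  have ez : (ptOf c a).x * ((ptOf c a).x + (ptOf c a).e) = mom c 4 := hR.h4.symm
  simp only [ey, eY, ez] at hR1
  simp only [ex, eX] at hR1
  -- the first term
  have hA1 : avgT a (fun b => ZZ c b * xx (uu c b))
      ≤ avgT a (fun b => Vp (mom c 2) (mom a 2) c b * evL D.p.P (sS c b)) / D.p.dP := by
    have e : avgT a (fun b => Vp (mom c 2) (mom a 2) c b * evL D.p.P (sS c b)) / D.p.dP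
        = avgT a (fun b => Vp (mom c 2) (mom a 2) c b * (evL D.p.P (sS c b) / D.p.dP)) := by
      have := avgT_smul (a := a) (1 / (D.p.dP : ℝ)) (fun b => Vp (mom c 2) (mom a 2) c b * evL D.p.P (sS c b))
      rw [div_eq_mul_inv, mul_comm, ← one_div, ← this]
      refine avgT_congr fun b => ?_
      ring
    rw [e]
    refine avgT_mono fun τ hτ => ?_
    set b := a ∘ τ with hb
    have hb0 : ∑ l, b l = 0 := sum_perm hτ ha
    have hb1 : ∀ l, -1 < b l := fun l => hca (τ l)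
    have hb2 : ∀ l, -μ.val ≤ b l := fun l => ha1 (τ l)
    have hZ : 0 < 1 + sS c b := Z_pos hc1 hb1 hc hb0
    have em : mom b 2 = mom a 2 := mom_perm a 2 hτ
    have hVp : 0 ≤ Vp (mom c 2) (mom a 2) c b := by
      rw [← em]
      exact Vp_nonneg hc hb0 hZ
    have hzl : (D.p.pb : ℝ) ≤ D.p.pa * (1 + sS c b) :=
      z_lower h2 hpa hc hb0 hc1 hb2 m1 (by rw [em]; exact m2) hx.le (by rw [em]; exact hX.le)
    have hup := up1 hP hzl hZ
    rw [merge_x hc hb0 hZ, em]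
    exact mul_le_mul_of_nonneg_left hup hVp
  have hG1 := GG_le hQ3 hc1
  have hG2 := GG_le hQ4 hca
  have hXn : 0 ≤ mom a 2 := hX.le
  have e1 := mul_le_mul_of_nonneg_left hG1 (show 0 ≤ 2 / 3 * mom a 2 by positivity)
  have e2 := mul_le_mul_of_nonneg_right hG2 hF0
  linarith

end main

end Vale.Agent.helper4.Q4
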