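import Vale.Agent.helper4.Q4R2

/-!
A polynomial lower bound for the entropy of messages with a large second moment: the entries of such a
message are close to `-1` or to `3`, and the bound is only needed there.
-/

set_option linter.unusedSectionVars false
set_option linter.unusedVariables false

namespace Vale.Agent.helper4.Q4

open GW (ZZ uu xx Simp)
open FN

/-- The polynomial for messages with a large second moment. -/
def Qtop : List ℤ := [0, 0, -449862, -628435, 700574, -136149]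

def dtop : ℕ := 1048576

lemma phiT_tangent {w b : ℝ} (hw : -1 < w) (hb : 0 < b) : (1 + w) * Real.log b - b + 1 ≤ phiT w := by
  have hZ : 0 < 1 + w := by linarith
  have h := Real.one_sub_inv_le_log_of_pos (div_pos hZ hb)
  rw [Real.log_div hZ.ne' hb.ne', inv_div] at h
  have h2 := mul_le_mul_of_nonneg_left h hZ.le
  have e : (1 + w) * (1 - b / (1 + w)) = 1 + w - b := by
    field_simp
  rw [e] at h2
  unfold phiT
  nlinarith

lemma Qtop_low {w : ℝ} (h0 : -1 < w) (h1 : w ≤ -1 + (133 / 1024)) : evL Qtop w / dtop ≤ phiT w := by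
  have ht := phiT_tangent h0 (show (0 : ℝ) < 1 / 32 by norm_num)
  have hl : Real.log (1 / 32) = -(5 * Real.log 2) := by
    rw [show (1 / 32 : ℝ) = (2 ^ 5)⁻¹ by norm_num, Real.log_inv, Real.log_pow]
    norm_num
  rw [hl] at ht
  have hlog := Real.log_two_lt_d9
  have hZ0 : 0 ≤ 1 + w := by linarith
  have h3 : 0 ≤ (1 + w) * ((888 / 256 : ℝ) - 5 * Real.log 2) := mul_nonneg hZ0 (by linarith)
  obtain ⟨Z, hZ⟩ : ∃ Z, Z = 1 + w := ⟨_, rfl⟩
  obtain ⟨y, hy⟩ : ∃ y, y = (133 / 1024) - (1 + w) := ⟨_, rfl⟩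
  have hZ1 : 0 ≤ Z := by rw [hZ]; exact hZ0
  have hy1 : 0 ≤ y := by rw [hy]; linarith
  have key : 1 - 1 / 32 - (888 / 256 : ℝ) * Z - evL Qtop w / dtop = (549755813888 / 41615795893) * Z ^ 0 * y ^ 5 + (118692702584832 / 41615795893) * Z ^ 1 * y ^ 4 + (342471671397376 / 41615795893) * Z ^ 2 * y ^ 3 + (332030713258793 / 41615795893) * Z ^ 3 * y ^ 2 + (110844270530603305 / 42614574994432) * Z ^ 4 * y ^ 1 + (576478540166252441 / 43637324794298368) * Z ^ 5 * y ^ 0 := by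
    rw [hZ, hy]
    simp only [Qtop, dtop, evL_cons, evL_nil]
    push_cast
    ring
  have hp : 0 ≤ (549755813888 / 41615795893) * Z ^ 0 * y ^ 5 + (118692702584832 / 41615795893) * Z ^ 1 * y ^ 4 + (342471671397376 / 41615795893) * Z ^ 2 * y ^ 3 + (332030713258793 / 41615795893) * Z ^ 3 * y ^ 2 + (110844270530603305 / 42614574994432) * Z ^ 4 * y ^ 1 + (576478540166252441 / 43637324794298368) * Z ^ 5 * y ^ 0 := by positivity
  rw [← key] at hp
  rw [hZ] at hp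
  linarith

lemma Qtop_high {w : ℝ} (h0 : 3 - (133 / 1024) ≤ w) (h1 : w ≤ 3) : evL Qtop w / dtop ≤ phiT w := by
  have hw : -1 < w := by linarith
  have ht := phiT_tangent hw (show (0 : ℝ) < 4 by norm_num)
  have hl : Real.log 4 = 2 * Real.log 2 := by
    rw [show (4 : ℝ) = 2 ^ 2 by norm_num, Real.log_pow]
    norm_num
  rw [hl] at ht
  have hlog := Real.log_two_gt_d9
  have hZ0 : 0 ≤ 1 + w := by linarith
  have h3 : 0 ≤ (1 + w) * (2 * Real.log 2 - (90852 / 65536 : ℝ)) := mul_nonneg hZ0 (by linarith)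
  obtain ⟨y1, hy1⟩ : ∃ y, y = 1 + w - (4 - (133 / 1024)) := ⟨_, rfl⟩
  obtain ⟨y2, hy2⟩ : ∃ y, y = 4 - (1 + w) := ⟨_, rfl⟩
  have h4 : 0 ≤ y1 := by rw [hy1]; linarith
  have h5 : 0 ≤ y2 := by rw [hy2]; linarith
  have key : (90852 / 65536 : ℝ) * (1 + w) - 3 - evL Qtop w / dtop = (3335740812106962081 / 6233903542042624) * y1 ^ 0 * y2 ^ 5 + (6207325414336715 / 6087796427776) * y1 ^ 1 * y2 ^ 4 + (1295800787489 / 5945113699) * y1 ^ 2 * y2 ^ 3 + (605903287296 / 5945113699) * y1 ^ 3 * y2 ^ 2 + (817203511296 / 849301957) * y1 ^ 4 * y2 ^ 1 + (3530463117312 / 5945113699) * y1 ^ 5 * y2 ^ 0 := by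
    rw [hy1, hy2]
    simp only [Qtop, dtop, evL_cons, evL_nil]
    push_cast
    ring
  have hp : 0 ≤ (3335740812106962081 / 6233903542042624) * y1 ^ 0 * y2 ^ 5 + (6207325414336715 / 6087796427776) * y1 ^ 1 * y2 ^ 4 + (1295800787489 / 5945113699) * y1 ^ 2 * y2 ^ 3 + (605903287296 / 5945113699) * y1 ^ 3 * y2 ^ 2 + (817203511296 / 849301957) * y1 ^ 4 * y2 ^ 1 + (3530463117312 / 5945113699) * y1 ^ 5 * y2 ^ 0 := by positivity
  rw [← key] at hp
  linarith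

lemma clust {u a b e : ℝ} (h0 : u + a + b + e = 0) (hu : -1 < u) (ha : -1 < a) (hb : -1 < b) (he : -1 < e)
    (hx : 11 ≤ u ^ 2 + a ^ 2 + b ^ 2 + e ^ 2) : u ≤ -1 + (133 / 1024) ∨ (3 - (133 / 1024) ≤ u ∧ u ≤ 3) := by
  have h3 : u ≤ 3 := by linarith
  by_cases h1 : u ≤ -1 + (133 / 1024)
  · exact Or.inl h1
  by_cases h2 : 3 - (133 / 1024) ≤ u
  · exact Or.inr ⟨h2, h3⟩
  exfalso
  push Not at h1 h2
  have ha' : 0 ≤ a + 1 := by linarith
  have hb' : 0 ≤ b + 1 := by linarith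
  have he' : 0 ≤ e + 1 := by linarith
  have s : (a + 1) ^ 2 + (b + 1) ^ 2 + (e + 1) ^ 2 ≤ (a + 1 + (b + 1) + (e + 1)) ^ 2 := by
    nlinarith [mul_nonneg ha' hb', mul_nonneg ha' he', mul_nonneg hb' he']
  have eq : a + 1 + (b + 1) + (e + 1) = 3 - u := by linarith
  rw [eq] at s
  have hab : a + b + e = -u := by linarith
  have s2 : a ^ 2 + b ^ 2 + e ^ 2 ≤ (3 - u) ^ 2 + 2 * u - 3 := by nlinarith
  have p := mul_pos (sub_pos.2 h1) (sub_pos.2 h2)
  nlinarith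

lemma mom2_big_entry {c : Fin 4 → ℝ} (hc : ∑ l, c l = 0) (hc1 : ∀ l, -1 < c l) (hx : 11 / 4 ≤ mom c 2) (l : Fin 4) :
    c l ≤ -1 + (133 / 1024) ∨ (3 - (133 / 1024) ≤ c l ∧ c l ≤ 3) := by
  have h0 := hc
  rw [Fin.sum_univ_four] at h0
  have hm : 11 ≤ c 0 ^ 2 + c 1 ^ 2 + c 2 ^ 2 + c 3 ^ 2 := by
    unfold mom at hx
    rw [Fin.sum_univ_four] at hx
    linarith
  fin_cases l
  · exact clust (u := c 0) (a := c 1) (b := c 2) (e := c 3) (by linarith) (hc1 0) (hc1 1) (hc1 2) (hc1 3) (by linarith)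
  · exact clust (u := c 1) (a := c 0) (b := c 2) (e := c 3) (by linarith) (hc1 1) (hc1 0) (hc1 2) (hc1 3) (by linarith)
  · exact clust (u := c 2) (a := c 0) (b := c 1) (e := c 3) (by linarith) (hc1 2) (hc1 0) (hc1 1) (hc1 3) (by linarith)
  · exact clust (u := c 3) (a := c 0) (b := c 1) (e := c 2) (by linarith) (hc1 3) (hc1 0) (hc1 1) (hc1 2) (by linarith)

lemma Qtop_le {c : Fin 4 → ℝ} (hc : ∑ l, c l = 0) (hc1 : ∀ l, -1 < c l) (hx : 11 / 4 ≤ mom c 2) (l : Fin 4) :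
    evL Qtop (c l) / dtop ≤ phiT (c l) := by
  rcases mom2_big_entry hc hc1 hx l with h | ⟨h1, h2⟩
  · exact Qtop_low (hc1 l) h
  · exact Qtop_high h1 h2

/-- The entropy term is bounded by the polynomial. -/
lemma HH_top {c : Fin 4 → ℝ} (hc : ∑ l, c l = 0) (hc1 : ∀ l, -1 < c l) (hx : 11 / 4 ≤ mom c 2) :
    ((∑ l, evL Qtop (c l)) / 4) / dtop ≤ HH c := by
  unfold HH
  rw [div_right_comm]
  apply div_le_div_of_nonneg_right _ (by norm_num)
  rw [Finset.sum_div]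
  exact Finset.sum_le_sum fun l _ => Qtop_le hc hc1 hx l

lemma GG_top {c : Fin 4 → ℝ} (hc : ∑ l, c l = 0) (hc1 : ∀ l, -1 < c l) (hx : 11 / 4 ≤ mom c 2) :
    GG c ≤ GupR (mom c 2) (mom c 3) ((∑ l, evL Qtop (c l)) / 4) dtop := by
  unfold GG GupR
  have h1 := HH_top hc hc1 hx
  have h2 : (0 : ℝ) ≤ (aN : ℝ) / aD := by positivity
  have h3 := mul_le_mul_of_nonneg_left h1 h2
  nlinarith

/-- All the checks for a pair of intervals, without the one for the polynomial bounding the entropy of `c`. -/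
noncomputable def chkR1T (D : R1D) (L : LitT) (μ : QQ) (Rt : Roots) : Bool :=
  chkUp1 D.p.P D.p.dP D.p.pa D.p.pb D.p.K D.p.R && zOk D.p.pa D.p.pb μ Rt.Cx Rt.CX &&
  Nat.blt 0 D.qc.d && chkPhiLow D.qa.Q D.qa.d D.qa.K D.qa.R &&
  Nat.ble D.p.P.length 11 && Nat.ble D.qc.Q.length 15 && Nat.ble D.qa.Q.length 15 && Nat.blt 0 D.Zl &&
  FN.beq D.comb (smul (D.Zl : ℤ) L.flat) && L.ok && Rt.ok μ

theorem R1_cellT {c a : Fin 4 → ℝ} {D : R1D} {L : LitT} {μ : QQ} {Rt : Roots} (hchk : chkR1T D L μ Rt = true) (hF : L.Full μ.val Rt)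
    (hμ0 : 0 < μ.val) (hμ : μ.val < 1)
    (hc : ∑ l, c l = 0) (ha : ∑ l, a l = 0) (hc1 : ∀ l, -1 < c l) (ha1 : ∀ l, -μ.val ≤ a l)
    (hx : 0 < mom c 2) (hX : 0 < mom a 2) (m1 : Rt.Cx.mem (mom c 2)) (m2 : Rt.CX.mem (mom a 2))
    (hF0 : 0 ≤ Fr (mom c 2) (mom c 3) (mom c 4))
    (hG1 : GG c ≤ GupR (mom c 2) (mom c 3) ((∑ l, evL D.qc.Q (c l)) / 4) D.qc.d) :
    avgT a (fun b => ZZ c b * xx (uu c b)) ≤ mom c 2 + mom a 2 - 2 / 3 * mom a 2 * GG c
      - GG a * Fr (mom c 2) (mom c 3) (mom c 4) - mom c 2 ^ 2 * mom a 2 ^ 2 / dltD := by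
  simp only [chkR1T, Bool.and_eq_true] at hchk
  obtain ⟨⟨⟨⟨⟨⟨⟨⟨⟨⟨h1, h2⟩, h3⟩, h4⟩, l1⟩, l2⟩, l3⟩, hZl⟩, hbeq⟩, hL⟩, hRt⟩ := hchk
  have l1' : D.p.P.length ≤ 11 := Nat.le_of_ble_eq_true l1
  have l2' : D.qc.Q.length ≤ 15 := Nat.le_of_ble_eq_true l2
  have l3' : D.qa.Q.length ≤ 15 := Nat.le_of_ble_eq_true l3
  have hZl' : 0 < D.Zl := by simpa [Nat.blt_eq] using hZl
  have hP := h1
  simp only [chkUp1, Bool.and_eq_true, Nat.blt_eq] at h1
  obtain ⟨⟨⟨⟨hdP, hpa⟩, hpb⟩, hK⟩, _⟩ := h1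
  have hQ4 := h4
  have hd1 : 0 < D.qc.d := by simpa [Nat.blt_eq] using h3
  simp only [chkPhiLow, Bool.and_eq_true, Nat.blt_eq] at h4
  obtain ⟨⟨⟨⟨hd2, _⟩, _⟩, _⟩, _⟩ := h4
  have hd1' : (0 : ℝ) < D.qc.d := by exact_mod_cast hd1
  have hd2' : (0 : ℝ) < D.qa.d := by exact_mod_cast hd2
  have hdP' : (0 : ℝ) < D.p.dP := by exact_mod_cast hdP
  have hca : ∀ l, -1 < a l := fun l => by linarith [ha1 l]
  -- the certified polynomial
  have hR : Rep c a (ptOf c a) := rep_ptOf hx hX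
  have d1 := domS_ptOf (μ := 1) one_pos hc (fun l => (hc1 l).le) hx
  have d2 := domS_ptOf hμ0 ha ha1 hX
  have hnn : 0 ≤ val L.flat (ptOf c a) := LitT.nonneg hL hRt hF m1 m2 d1 d2
  have hv := comb_val (D := D) hc ha hR l1' l2' l3' hd1'.ne' hd2'.ne' hdP'.ne'
  have hv2 : val D.comb (ptOf c a) = (D.Zl : ℝ) * val L.flat (ptOf c a) := by
    rw [val_of_beq hbeq, val_smul]
    simp
  have hZpos : (0 : ℝ) < (D.p.dP : ℝ) * DT * (3 * aD * D.qc.d * DM * dF * D.qa.d * dltD) := by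
    have : (0 : ℝ) < DT := by
      have := DT_pos
      positivity
    have h5 : (0 : ℝ) < DM := by
      unfold DM
      positivity
    have h6 : (0 : ℝ) < aD := by norm_num [aD]
    have h7 : (0 : ℝ) < dF := by norm_num [dF]
    have h8 : (0 : ℝ) < dltD := by norm_num [dltD]
    positivity
  have hreal := hv2
  rw [hv] at hreal
  have hnn2 := mul_nonneg (Nat.cast_nonneg D.Zl) hnn
  rw [← hreal] at hnn2
  have hR1 := nonneg_of_mul_nonneg_right hnn2 hZpos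
  -- rewrite the coordinates of the point
  have ex : (ptOf c a).x = mom c 2 := hR.h2
  have eX : (ptOf c a).X = mom a 2 := hR.h2'
  have ey : (ptOf c a).x * (ptOf c a).t = mom c 3 := hR.h3.symm
  have eY : (ptOf c a).X * (ptOf c a).T = mom a 3 := hR.h3'.symm
  have ez : (ptOf c a).x * ((ptOf c a).x + (ptOf c a).e) = mom c 4 := hR.h4.symm
  simp only [ey, eY, ez] at hR1
  simp only [ex, eX] at hR1
  -- the first term
  have hA1 : avgT a (fun b => ZZ c b * xx (uu c b))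
      ≤ avgT a (fun b => Vp (mom c 2) (mom a 2) c b * evL D.p.P (sS c b)) / D.p.dP := by
    have e : avgT a (fun b => Vp (mom c 2) (mom a 2) c b * evL D.p.P (sS c b)) / D.p.dP
        = avgT a (fun b => Vp (mom c 2) (mom a 2) c b * (evL D.p.P (sS c b) / D.p.dP)) := by
      have := avgT_smul (a := a) (1 / (D.p.dP : ℝ)) (fun b => Vp (mom c 2) (mom a 2) c b * evL D.p.P (sS c b))
      rw [div_eq_mul_inv, mul_comm, ← one_div, ← this]
      refine avgT_congr fun b => ?_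
      ring
    rw [e]
    refine avgT_mono fun τ hτ => ?_
    set b := a ∘ τ with hb
    have hb0 : ∑ l, b l = 0 := sum_perm hτ ha
    have hb1 : ∀ l, -1 < b l := fun l => hca (τ l)
    have hb2 : ∀ l, -μ.val ≤ b l := fun l => ha1 (τ l)
    have hZ : 0 < 1 + sS c b := Z_pos hc1 hb1 hc hb0
    have em : mom b 2 = mom a 2 := mom_perm a 2 hτ
    have hVp : 0 ≤ Vp (mom c 2) (mom a 2) c b := by
      rw [← em]
      exact Vp_nonneg hc hb0 hZ
    have hzl : (D.p.pb : ℝ) ≤ D.p.pa * (1 + sS c b) :=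
      z_lower h2 hpa hc hb0 hc1 hb2 m1 (by rw [em]; exact m2) hx.le (by rw [em]; exact hX.le)
    have hup := up1 hP hzl hZ
    rw [merge_x hc hb0 hZ, em]
    exact mul_le_mul_of_nonneg_left hup hVp
  have hG2 := GG_le hQ4 hca
  have hXn : 0 ≤ mom a 2 := hX.le
  have e1 := mul_le_mul_of_nonneg_left hG1 (show 0 ≤ 2 / 3 * mom a 2 by positivity)
  have e2 := mul_le_mul_of_nonneg_right hG2 hF0
  linarith




end Vale.Agent.helper4.Q4
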