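import Vale.Agent.helper4.Q4R1

/-!
The second inequality for one pair of intervals of second moments, from checks by the kernel.
-/

set_option linter.unusedSectionVars false
set_option linter.unusedVariables false

namespace Vale.Agent.helper4.Q4

open GW (ZZ uu xx Simp)
open FN

/-- The eigenvalue bound. -/
def muQ : QQ := ⟨725, 1024⟩

/-- The data of the second inequality for a pair of intervals. -/
structure R2D where
  q : LowD
  ql : PhiD
  p2 : UpD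
  uc : LogD
  ua : LogD
  Zl : ℕ

/-- The constant polynomial one. -/
def S1F : FN := [(0, 1)]

lemma val_S1F (v : V6) : val S1F v = 1 := by
  simp only [S1F, val_cons, val_nil]
  have e1 : mon 0 v = 1 := by
    have := mon_enc (l := 0) (j := 0) (l' := 0) (j' := 0) (p := 0) (q := 0) (by norm_num) (by norm_num) (by norm_num)
      (by norm_num) (by norm_num) (by norm_num) v
    simpa [enc] using this
  rw [e1]
  simp

/-- The linear combination of tables, which equals a multiple of the second inequality. -/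
noncomputable def R2D.comb (D : R2D) : FN :=
  let dQ : ℕ := D.q.dQ
  let dL : ℕ := D.ql.d
  let dW : ℕ := D.p2.dP
  let dU1 : ℕ := D.uc.d
  let dU2 : ℕ := D.ua.d
  add (smul ((3 * (aN + bN) * DM * (dL * dW * dR * dU1 * dH * dU2) : ℕ) : ℤ) (combI TVlit 0 D.q.Q))
   (add (smul ((6 * aN * DM * (dQ * dW * dR * dU1 * dH * dU2) : ℕ) : ℤ) (combI TSlit 0 D.ql.Q))
    (add (smul (-((bN * DM * (dQ * dL * dR * dU1 * dH * dU2) : ℕ) : ℤ)) (combI TWlit 0 D.p2.P))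
     (add (smul ((bN * DT * DM * (dQ * dL * dW * dR * dU1 * dH * dU2) : ℕ) : ℤ) S1F)
      (add (smul (-((DT * DM * (dQ * dL * dW * dU1 * dH * dU2) : ℕ) : ℤ)) RGlit)
       (add (smul (-((DT * DM * (dQ * dL * dW * dR * dU1 * dU2) : ℕ) : ℤ)) HGlit)
        (add (smul (-((6 * aN * DT * (dQ * dL * dW * dH * dU2) : ℕ) : ℤ)) (combI RMlit 0 (psiOf D.uc.L D.uc.d)))
          (smul (-((6 * aN * DT * (dQ * dL * dW * dR * dU1) : ℕ) : ℤ)) (combI HMlit 0 (psiOf D.ua.L D.ua.d)))))))))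

/-- All the checks for a pair of intervals. -/
noncomputable def chkR2 (D : R2D) (L : LitT) (μ : QQ) (Rt : Roots) : Bool :=
  chkLow1 D.q.Q D.q.dQ D.q.K D.q.R && chkPhiLow D.ql.Q D.ql.d D.ql.K D.ql.R &&
  chkUp2 D.p2.P D.p2.dP D.p2.pa D.p2.pb D.p2.K D.p2.R && zOk D.p2.pa D.p2.pb μ Rt.Cx Rt.CX &&
  chkLogUp D.uc.L D.uc.d D.uc.K D.uc.R && chkLogUp D.ua.L D.ua.d D.ua.K D.ua.R &&
  Nat.ble D.q.Q.length 11 && Nat.ble D.ql.Q.length 13 && Nat.ble D.p2.P.length 12 &&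
  Nat.ble (psiOf D.uc.L D.uc.d).length 15 && Nat.ble (psiOf D.ua.L D.ua.d).length 15 && Nat.blt 0 D.Zl &&
  FN.beq D.comb (smul (D.Zl : ℤ) L.flat) && L.ok && Rt.ok μ

lemma r2_alg (x X y Y ρ h A1 A2 A3 U1 U2 DTr DMr dQ dL dW dU1 dU2 dRr dHr aNr aDr bNr : ℝ) (h1 : dQ ≠ 0) (h2 : dL ≠ 0)
    (h3 : dW ≠ 0) (h4 : dU1 ≠ 0) (h5 : dU2 ≠ 0) (h6 : dRr ≠ 0) (h7 : dHr ≠ 0) (h8 : aDr ≠ 0) :
    (3 * (aNr + bNr) * DMr * (dL * dW * dRr * dU1 * dHr * dU2)) * (DTr * A1)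
      + (6 * aNr * DMr * (dQ * dW * dRr * dU1 * dHr * dU2)) * (DTr * A2)
      + (-(bNr * DMr * (dQ * dL * dRr * dU1 * dHr * dU2))) * (DTr * A3)
      + (bNr * DTr * DMr * (dQ * dL * dW * dRr * dU1 * dHr * dU2))
      + (-(DTr * DMr * (dQ * dL * dW * dU1 * dHr * dU2))) * ((3 * aNr * x - bNr * y) * (dRr * (1 - ρ)))
      + (-(DTr * DMr * (dQ * dL * dW * dRr * dU1 * dU2))) * (dHr * h * (3 * aNr * X - bNr * Y))
      + (-(6 * aNr * DTr * (dQ * dL * dW * dHr * dU2))) * (DMr * (dRr * ρ * U1))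
      + (-(6 * aNr * DTr * (dQ * dL * dW * dRr * dU1))) * (DMr * (dHr * (1 - h) * U2))
    = (aDr * DTr * DMr * (dQ * dL * dW * dRr * dU1 * dHr * dU2)) *
      (3 * (aNr / aDr + bNr / aDr) * (A1 / dQ) + 6 * (aNr / aDr) * (A2 / dL) - (bNr / aDr) * (A3 / dW) + bNr / aDr
        - (1 - ρ) * (3 * (aNr / aDr) * x - (bNr / aDr) * y) - h * (3 * (aNr / aDr) * X - (bNr / aDr) * Y)
        - 6 * (aNr / aDr) * ρ * (U1 / dU1) - 6 * (aNr / aDr) * (1 - h) * (U2 / dU2)) := by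
  field_simp
  ring

section main

variable {c a : Fin 4 → ℝ} {v : V6}

lemma dR_ne : (dR : ℝ) ≠ 0 := by norm_num [dR]
lemma dH_ne : (dH : ℝ) ≠ 0 := by norm_num [dH]

theorem comb2_val {D : R2D} (hc : ∑ l, c l = 0) (ha : ∑ l, a l = 0) (hR : Rep c a v)
    (l1 : D.q.Q.length ≤ 11) (l2 : D.ql.Q.length ≤ 13) (l3 : D.p2.P.length ≤ 12)
    (l4 : (psiOf D.uc.L D.uc.d).length ≤ 15) (l5 : (psiOf D.ua.L D.ua.d).length ≤ 15)
    (h1 : (D.q.dQ : ℝ) ≠ 0) (h2 : (D.ql.d : ℝ) ≠ 0) (h3 : (D.p2.dP : ℝ) ≠ 0) (h4 : (D.uc.d : ℝ) ≠ 0)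
    (h5 : (D.ua.d : ℝ) ≠ 0) :
    val D.comb v = ((aD : ℝ) * DT * DM * (D.q.dQ * D.ql.d * D.p2.dP * dR * D.uc.d * dH * D.ua.d)) *
      (3 * ((aN : ℝ) / aD + (bN : ℝ) / aD) * (avgT a (fun b => Vp v.x v.X c b * evL D.q.Q (sS c b)) / D.q.dQ)
        + 6 * ((aN : ℝ) / aD) * (avgT a (fun b => evL D.ql.Q (sS c b)) / D.ql.d)
        - ((bN : ℝ) / aD) * (avgT a (fun b => W3p v.x (v.x * v.t) v.X (v.X * v.T) c b * evL D.p2.P (sS c b)) / D.p2.dP)
        + (bN : ℝ) / aD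
        - (1 - rr v.X) * (3 * ((aN : ℝ) / aD) * v.x - ((bN : ℝ) / aD) * (v.x * v.t))
        - hr v.x * (3 * ((aN : ℝ) / aD) * v.X - ((bN : ℝ) / aD) * (v.X * v.T))
        - 6 * ((aN : ℝ) / aD) * rr v.X * (((∑ l, evL (psiOf D.uc.L D.uc.d) (c l)) / 4) / D.uc.d)
        - 6 * ((aN : ℝ) / aD) * (1 - hr v.x) * (((∑ l, evL (psiOf D.ua.L D.ua.d) (a l)) / 4) / D.ua.d)) := by
  obtain ⟨g1, g2, g3, g4⟩ := GB_spec (v := v) gbC
  have s1 : val (combI TVlit 0 D.q.Q) v = (DT : ℝ) * avgT a (fun b => Vp v.x v.X c b * evL D.q.Q (sS c b)) := by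
    have := combI_val (T := TVlit) (A := fun k => avgT a (fun b => Vp v.x v.X c b * sS c b ^ k)) (r := (DT : ℝ)) (v := v) (n := 11)
      (fun k hk => TV_spec hc ha hR tvC_all hk) D.q.Q 0 (by omega)
    rw [this]
    simp only [zero_add]
    rw [sumP_avg c D.q.Q (fun b => Vp v.x v.X c b)]
  have s2 : val (combI TSlit 0 D.ql.Q) v = (DT : ℝ) * avgT a (fun b => evL D.ql.Q (sS c b)) := by
    have := combI_val (T := TSlit) (A := fun k => avgT a (fun b => sS c b ^ k)) (r := (DT : ℝ)) (v := v) (n := 13)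
      (fun k hk => TS_spec hc ha hR tsC_all hk) D.ql.Q 0 (by omega)
    rw [this]
    simp only [zero_add]
    have := sumP_avg (a := a) c D.ql.Q (fun _ => 1)
    simpa only [one_mul] using congrArg (fun u => (DT : ℝ) * u) this
  have s3 : val (combI TWlit 0 D.p2.P) v
      = (DT : ℝ) * avgT a (fun b => W3p v.x (v.x * v.t) v.X (v.X * v.T) c b * evL D.p2.P (sS c b)) := by
    have := combI_val (T := TWlit) (A := fun k => avgT a (fun b => W3p v.x (v.x * v.t) v.X (v.X * v.T) c b * sS c b ^ k))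
      (r := (DT : ℝ)) (v := v) (n := 12) (fun k hk => TW_spec hc ha hR twC_all hk) D.p2.P 0 (by omega)
    rw [this]
    simp only [zero_add]
    rw [sumP_avg c D.p2.P (fun b => W3p v.x (v.x * v.t) v.X (v.X * v.T) c b)]
  have s4 : val (combI RMlit 0 (psiOf D.uc.L D.uc.d)) v
      = (DM : ℝ) * ((dR : ℝ) * rr v.X * ((∑ l, evL (psiOf D.uc.L D.uc.d) (c l)) / 4)) := by
    have := combI_val (T := RMlit) (A := fun k => (dR : ℝ) * rr v.X * mom c k) (r := (DM : ℝ)) (v := v) (n := 15)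
      (fun k hk => RM_spec hc hR rmC_all hk) (psiOf D.uc.L D.uc.d) 0 (by omega)
    rw [this]
    simp only [zero_add]
    rw [sumP_smul, sumP_mom]
  have s5 : val (combI HMlit 0 (psiOf D.ua.L D.ua.d)) v
      = (DM : ℝ) * ((dH : ℝ) * (1 - hr v.x) * ((∑ l, evL (psiOf D.ua.L D.ua.d) (a l)) / 4)) := by
    have := combI_val (T := HMlit) (A := fun k => (dH : ℝ) * (1 - hr v.x) * mom a k) (r := (DM : ℝ)) (v := v) (n := 15)
      (fun k hk => HM_spec ha hR hmC_all hk) (psiOf D.ua.L D.ua.d) 0 (by omega)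
    rw [this]
    simp only [zero_add]
    rw [sumP_smul, sumP_mom]
  unfold R2D.comb
  simp only [val_add, val_smul, val_S1F, s1, s2, s3, s4, s5, g3, g4]
  push_cast
  have := r2_alg v.x v.X (v.x * v.t) (v.X * v.T) (rr v.X) (hr v.x)
    (avgT a (fun b => Vp v.x v.X c b * evL D.q.Q (sS c b)))
    (avgT a (fun b => evL D.ql.Q (sS c b)))
    (avgT a (fun b => W3p v.x (v.x * v.t) v.X (v.X * v.T) c b * evL D.p2.P (sS c b)))
    ((∑ l, evL (psiOf D.uc.L D.uc.d) (c l)) / 4) ((∑ l, evL (psiOf D.ua.L D.ua.d) (a l)) / 4)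
    (DT : ℝ) (DM : ℝ) (D.q.dQ : ℝ) (D.ql.d : ℝ) (D.p2.dP : ℝ) (D.uc.d : ℝ) (D.ua.d : ℝ) (dR : ℝ) (dH : ℝ) (aN : ℝ) (aD : ℝ) (bN : ℝ)
    h1 h2 h3 h4 h5 dR_ne dH_ne aD_ne
  linear_combination this

lemma avgT_congr_taus {a : Fin 4 → ℝ} {f g : (Fin 4 → ℝ) → ℝ} (h : ∀ τ ∈ taus, f (a ∘ τ) = g (a ∘ τ)) :
    avgT a f = avgT a g := by
  unfold avgT
  congr 1
  congr 1
  exact List.map_congr_left h

/-- The value of the entropy of a message in terms of logarithms. -/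
lemma HH_log (hc : ∑ l, c l = 0) : HH c = (∑ l, (1 + c l) * Real.log (1 + c l)) / 4 := by
  unfold HH phiT
  rw [Finset.sum_sub_distrib, hc, sub_zero]

/-- The average of the invariant over the orderings. -/
theorem avg_ZG (hc : ∑ l, c l = 0) (ha : ∑ l, a l = 0) (hc1 : ∀ l, -1 < c l) (ha1 : ∀ l, -1 < a l) :
    avgT a (fun b => ZZ c b * GG (uu c b)) =
      ((aN : ℝ) / aD) * (3 * avgT a (fun b => Vp (mom c 2) (mom a 2) c b * (1 / (1 + sS c b)))
          - 6 * (HH c + HH a - avgT a (fun b => phiT (sS c b))))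
        - ((bN : ℝ) / aD) * (avgT a (fun b => W3p (mom c 2) (mom c 3) (mom a 2) (mom a 3) c b * (1 / (1 + sS c b) ^ 2))
          - 3 * avgT a (fun b => Vp (mom c 2) (mom a 2) c b * (1 / (1 + sS c b))) - 1) := by
  have hform : ∀ τ ∈ taus, ZZ c (a ∘ τ) * GG (uu c (a ∘ τ)) =
      ((aN : ℝ) / aD) * (3 * (Vp (mom c 2) (mom a 2) c (a ∘ τ) * (1 / (1 + sS c (a ∘ τ))))
        - 6 * ((∑ l, (1 + (a ∘ τ) l) * ((1 + c l) * Real.log (1 + c l))) / 4
          + (∑ l, (1 + c l) * ((1 + (a ∘ τ) l) * Real.log (1 + (a ∘ τ) l))) / 4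
          - (phiT (sS c (a ∘ τ)) + sS c (a ∘ τ))))
      - ((bN : ℝ) / aD) * (W3p (mom c 2) (mom c 3) (mom a 2) (mom a 3) c (a ∘ τ) * (1 / (1 + sS c (a ∘ τ)) ^ 2)
        - 3 * (Vp (mom c 2) (mom a 2) c (a ∘ τ) * (1 / (1 + sS c (a ∘ τ)))) - (1 + sS c (a ∘ τ))) := by
    intro τ hτ
    have hb0 : ∑ l, (a ∘ τ) l = 0 := sum_perm hτ ha
    have hb1 : ∀ l, -1 < (a ∘ τ) l := fun l => ha1 (τ l)
    have hZ : 0 < 1 + sS c (a ∘ τ) := Z_pos hc1 hb1 hc hb0
    have e1 := merge_x hc hb0 hZ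
    have e2 := merge_y hc hb0 hZ
    have e3 := merge_H hc hb0 hc1 hb1 hZ
    rw [mom_perm a 2 hτ] at e1 e2
    rw [mom_perm a 3 hτ] at e2
    rw [xx_eq] at e1
    unfold GG
    calc ZZ c (a ∘ τ) * (((aN : ℝ) / aD) * (3 * mom (uu c (a ∘ τ)) 2 - 6 * HH (uu c (a ∘ τ)))
          - ((bN : ℝ) / aD) * mom (uu c (a ∘ τ)) 3)
        = ((aN : ℝ) / aD) * (3 * (ZZ c (a ∘ τ) * mom (uu c (a ∘ τ)) 2) - 6 * (ZZ c (a ∘ τ) * HH (uu c (a ∘ τ))))
          - ((bN : ℝ) / aD) * (ZZ c (a ∘ τ) * mom (uu c (a ∘ τ)) 3) := by ring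
      _ = _ := by rw [e1, e2, e3]
  have hcong := avgT_congr_taus (a := a) (f := fun b => ZZ c b * GG (uu c b)) (g := fun b =>
      ((aN : ℝ) / aD) * (3 * (Vp (mom c 2) (mom a 2) c b * (1 / (1 + sS c b)))
        - 6 * ((∑ l, (1 + b l) * ((1 + c l) * Real.log (1 + c l))) / 4
          + (∑ l, (1 + c l) * ((1 + b l) * Real.log (1 + b l))) / 4
          - (phiT (sS c b) + sS c b)))
      - ((bN : ℝ) / aD) * (W3p (mom c 2) (mom c 3) (mom a 2) (mom a 3) c b * (1 / (1 + sS c b) ^ 2)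
        - 3 * (Vp (mom c 2) (mom a 2) c b * (1 / (1 + sS c b))) - (1 + sS c b))) hform
  rw [hcong]
  have h1 : avgT a (fun b => (∑ l, (1 + b l) * ((1 + c l) * Real.log (1 + c l))) / 4) = HH c := by
    have e := avgT_weighted (a := a) (fun l => (1 + c l) * Real.log (1 + c l)) (fun j => 1 + a j) (fun u => 1 + u) rfl
    have e2 : (fun b : Fin 4 → ℝ => (∑ l, (1 + b l) * ((1 + c l) * Real.log (1 + c l))) / 4)
        = fun b => (1 / 4) * ∑ l, (1 + c l) * Real.log (1 + c l) * (1 + b l) := by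
      funext b
      rw [one_div, inv_mul_eq_div]
      congr 1
      exact Finset.sum_congr rfl fun l _ => by ring
    rw [e2, avgT_smul, e, HH_log hc]
    have e3 : ∑ l, (1 + a l) = 4 := by
      rw [Finset.sum_add_distrib, ha]
      simp
    rw [e3]
    ring
  have h2 : avgT a (fun b => (∑ l, (1 + c l) * ((1 + b l) * Real.log (1 + b l))) / 4) = HH a := by
    have e := avgT_weighted (a := a) (fun l => 1 + c l) (fun j => (1 + a j) * Real.log (1 + a j))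
      (fun u => (1 + u) * Real.log (1 + u)) rfl
    have e2 : (fun b : Fin 4 → ℝ => (∑ l, (1 + c l) * ((1 + b l) * Real.log (1 + b l))) / 4)
        = fun b => (1 / 4) * ∑ l, (1 + c l) * ((1 + b l) * Real.log (1 + b l)) := by
      funext b
      ring
    rw [e2, avgT_smul, e, HH_log ha]
    have e3 : ∑ l, (1 + c l) = 4 := by
      rw [Finset.sum_add_distrib, hc]
      simp
    rw [e3]
    ring
  have h3 : avgT a (fun b => sS c b) = 0 := by
    have e := avgT_weighted (a := a) (fun l => c l) (fun j => a j) (fun u => u) rfl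
    have e2 : (fun b : Fin 4 → ℝ => sS c b) = fun b => (1 / 4) * ∑ l, c l * b l := by
      funext b
      unfold sS
      ring
    rw [e2, avgT_smul, e, ha]
    simp
  simp only [avgT_sub, avgT_add, avgT_smul, h1, h2, h3]
  have h4 : avgT a (fun _ => (1 : ℝ)) = 1 := avgT_const 1
  rw [h4]
  ring

lemma r2_final {α β x X y Y ρ h AV AP AW A1 A2 A3 U1 U2 Hc Ha : ℝ} (hα : 0 ≤ α) (hβ : 0 ≤ β) (hρ : 0 ≤ ρ) (hh : h ≤ 1)
    (a1 : A1 ≤ AV) (a2 : A2 ≤ AP) (a3 : AW ≤ A3) (u1 : Hc ≤ U1) (u2 : Ha ≤ U2)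
    (hR : 0 ≤ 3 * (α + β) * A1 + 6 * α * A2 - β * A3 + β - (1 - ρ) * (3 * α * x - β * y) - h * (3 * α * X - β * Y)
      - 6 * α * ρ * U1 - 6 * α * (1 - h) * U2) :
    (1 - ρ) * (α * (3 * x - 6 * Hc) - β * y) + h * (α * (3 * X - 6 * Ha) - β * Y)
      ≤ α * (3 * AV - 6 * (Hc + Ha - AP)) - β * (AW - 3 * AV - 1) := by
  have t1 : 0 ≤ 3 * (α + β) * (AV - A1) := mul_nonneg (by positivity) (by linarith)
  have t2 : 0 ≤ 6 * α * (AP - A2) := mul_nonneg (by positivity) (by linarith)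
  have t3 : 0 ≤ β * (A3 - AW) := mul_nonneg hβ (by linarith)
  have t4 : 0 ≤ 6 * α * ρ * (U1 - Hc) := mul_nonneg (by positivity) (by linarith)
  have t5 : 0 ≤ 6 * α * (1 - h) * (U2 - Ha) := mul_nonneg (mul_nonneg (by positivity) (by linarith)) (by linarith)
  linarith [t1, t2, t3, t4, t5, hR]

/-- The second inequality, for a pair of messages with second moments in given intervals. -/
theorem R2_cell {D : R2D} {L : LitT} {μ : QQ} {Rt : Roots} (hchk : chkR2 D L μ Rt = true) (hF : L.Full μ.val Rt)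
    (hμ0 : 0 < μ.val) (hμ : μ.val < 1)
    (hc : ∑ l, c l = 0) (ha : ∑ l, a l = 0) (hc1 : ∀ l, -1 < c l) (ha1 : ∀ l, -μ.val ≤ a l)
    (hx : 0 < mom c 2) (hX : 0 < mom a 2) (m1 : Rt.Cx.mem (mom c 2)) (m2 : Rt.CX.mem (mom a 2))
    (hρ : 0 ≤ rr (mom a 2)) (hh : hr (mom c 2) ≤ 1) :
    (1 - rr (mom a 2)) * GG c + hr (mom c 2) * GG a ≤ avgT a (fun b => ZZ c b * GG (uu c b)) := by
  simp only [chkR2, Bool.and_eq_true] at hchk
  obtain ⟨⟨⟨⟨⟨⟨⟨⟨⟨⟨⟨⟨⟨⟨h1, h2⟩, h3⟩, h4⟩, h5⟩, h6⟩, l1⟩, l2⟩, l3⟩, l4⟩, l5⟩, hZl⟩, hbeq⟩, hL⟩, hRt⟩ := hchk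
  have l1' : D.q.Q.length ≤ 11 := Nat.le_of_ble_eq_true l1
  have l2' : D.ql.Q.length ≤ 13 := Nat.le_of_ble_eq_true l2
  have l3' : D.p2.P.length ≤ 12 := Nat.le_of_ble_eq_true l3
  have l4' : (psiOf D.uc.L D.uc.d).length ≤ 15 := Nat.le_of_ble_eq_true l4
  have l5' : (psiOf D.ua.L D.ua.d).length ≤ 15 := Nat.le_of_ble_eq_true l5
  have hq := h1
  have hql := h2
  have hp2 := h3
  have huc := h5
  have hua := h6
  simp only [chkLow1, Bool.and_eq_true, Nat.blt_eq] at h1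
  simp only [chkPhiLow, Bool.and_eq_true, Nat.blt_eq] at h2
  simp only [chkUp2, Bool.and_eq_true, Nat.blt_eq] at h3
  simp only [chkLogUp, Bool.and_eq_true, Nat.blt_eq] at h5 h6
  have dq0 : (0 : ℝ) < D.q.dQ := by exact_mod_cast h1.1.1
  have dl0 : (0 : ℝ) < D.ql.d := by exact_mod_cast h2.1.1.1.1
  have dw0 : (0 : ℝ) < D.p2.dP := by exact_mod_cast h3.1.1.1.1
  have hpa2 : 0 < D.p2.pa := h3.1.1.1.2
  have du1 : (0 : ℝ) < D.uc.d := by exact_mod_cast h5.1.1.1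
  have du2 : (0 : ℝ) < D.ua.d := by exact_mod_cast h6.1.1.1
  have hca : ∀ l, -1 < a l := fun l => by linarith [ha1 l]
  -- the certified polynomial
  have hR : Rep c a (ptOf c a) := rep_ptOf hx hX
  have d1 := domS_ptOf (μ := 1) one_pos hc (fun l => (hc1 l).le) hx
  have d2 := domS_ptOf hμ0 ha ha1 hX
  have hnn : 0 ≤ val L.flat (ptOf c a) := LitT.nonneg hL hRt hF m1 m2 d1 d2
  have hv := comb2_val (D := D) hc ha hR l1' l2' l3' l4' l5' dq0.ne' dl0.ne' dw0.ne' du1.ne' du2.ne'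
  have hv2 : val D.comb (ptOf c a) = (D.Zl : ℝ) * val L.flat (ptOf c a) := by
    rw [val_of_beq hbeq, val_smul]
    simp
  have hZpos : (0 : ℝ) < (aD : ℝ) * DT * DM * (D.q.dQ * D.ql.d * D.p2.dP * dR * D.uc.d * dH * D.ua.d) := by
    have h0 : (0 : ℝ) < DT := by
      have := DT_pos
      positivity
    have h5' : (0 : ℝ) < DM := by
      unfold DM
      positivity
    have h6' : (0 : ℝ) < aD := by norm_num [aD]
    have h7 : (0 : ℝ) < dR := by norm_num [dR]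
    have h8 : (0 : ℝ) < dH := by norm_num [dH]
    positivity
  have hreal := hv2
  rw [hv] at hreal
  have hnn2 := mul_nonneg (Nat.cast_nonneg D.Zl) hnn
  rw [← hreal] at hnn2
  have hR2 := nonneg_of_mul_nonneg_right hnn2 hZpos
  have ex : (ptOf c a).x = mom c 2 := hR.h2
  have eX : (ptOf c a).X = mom a 2 := hR.h2'
  have ey : (ptOf c a).x * (ptOf c a).t = mom c 3 := hR.h3.symm
  have eY : (ptOf c a).X * (ptOf c a).T = mom a 3 := hR.h3'.symm
  simp only [ey, eY] at hR2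
  simp only [ex, eX] at hR2
  -- the bounds on the terms
  have hAV : avgT a (fun b => Vp (mom c 2) (mom a 2) c b * evL D.q.Q (sS c b)) / D.q.dQ
      ≤ avgT a (fun b => Vp (mom c 2) (mom a 2) c b * (1 / (1 + sS c b))) := by
    have e : avgT a (fun b => Vp (mom c 2) (mom a 2) c b * evL D.q.Q (sS c b)) / D.q.dQ
        = avgT a (fun b => Vp (mom c 2) (mom a 2) c b * (evL D.q.Q (sS c b) / D.q.dQ)) := by
      have := avgT_smul (a := a) (1 / (D.q.dQ : ℝ)) (fun b => Vp (mom c 2) (mom a 2) c b * evL D.q.Q (sS c b))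
      rw [div_eq_mul_inv, mul_comm, ← one_div, ← this]
      refine avgT_congr fun b => ?_
      ring
    rw [e]
    refine avgT_mono fun τ hτ => ?_
    have hb0 : ∑ l, (a ∘ τ) l = 0 := sum_perm hτ ha
    have hb1 : ∀ l, -1 < (a ∘ τ) l := fun l => hca (τ l)
    have hZ : 0 < 1 + sS c (a ∘ τ) := Z_pos hc1 hb1 hc hb0
    have em : mom (a ∘ τ) 2 = mom a 2 := mom_perm a 2 hτ
    have hVp : 0 ≤ Vp (mom c 2) (mom a 2) c (a ∘ τ) := by
      rw [← em]
      exact Vp_nonneg hc hb0 hZ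
    exact mul_le_mul_of_nonneg_left (low1 hq hZ) hVp
  have hAP : avgT a (fun b => evL D.ql.Q (sS c b)) / D.ql.d ≤ avgT a (fun b => phiT (sS c b)) := by
    have e : avgT a (fun b => evL D.ql.Q (sS c b)) / D.ql.d = avgT a (fun b => evL D.ql.Q (sS c b) / D.ql.d) := by
      have := avgT_smul (a := a) (1 / (D.ql.d : ℝ)) (fun b => evL D.ql.Q (sS c b))
      rw [div_eq_mul_inv, mul_comm, ← one_div, ← this]
      refine avgT_congr fun b => ?_
      ring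
    rw [e]
    refine avgT_mono fun τ hτ => ?_
    have hb0 : ∑ l, (a ∘ τ) l = 0 := sum_perm hτ ha
    have hb1 : ∀ l, -1 < (a ∘ τ) l := fun l => hca (τ l)
    have hZ : 0 < 1 + sS c (a ∘ τ) := Z_pos hc1 hb1 hc hb0
    exact phi_low hql (by linarith)
  have hAW : avgT a (fun b => W3p (mom c 2) (mom c 3) (mom a 2) (mom a 3) c b * (1 / (1 + sS c b) ^ 2))
      ≤ avgT a (fun b => W3p (mom c 2) (mom c 3) (mom a 2) (mom a 3) c b * evL D.p2.P (sS c b)) / D.p2.dP := by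
    have e : avgT a (fun b => W3p (mom c 2) (mom c 3) (mom a 2) (mom a 3) c b * evL D.p2.P (sS c b)) / D.p2.dP
        = avgT a (fun b => W3p (mom c 2) (mom c 3) (mom a 2) (mom a 3) c b * (evL D.p2.P (sS c b) / D.p2.dP)) := by
      have := avgT_smul (a := a) (1 / (D.p2.dP : ℝ))
        (fun b => W3p (mom c 2) (mom c 3) (mom a 2) (mom a 3) c b * evL D.p2.P (sS c b))
      rw [div_eq_mul_inv, mul_comm, ← one_div, ← this]
      refine avgT_congr fun b => ?_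
      ring
    rw [e]
    refine avgT_mono fun τ hτ => ?_
    have hb0 : ∑ l, (a ∘ τ) l = 0 := sum_perm hτ ha
    have hb1 : ∀ l, -1 < (a ∘ τ) l := fun l => hca (τ l)
    have hb2 : ∀ l, -μ.val ≤ (a ∘ τ) l := fun l => ha1 (τ l)
    have hZ : 0 < 1 + sS c (a ∘ τ) := Z_pos hc1 hb1 hc hb0
    have em : mom (a ∘ τ) 2 = mom a 2 := mom_perm a 2 hτ
    have em3 : mom (a ∘ τ) 3 = mom a 3 := mom_perm a 3 hτ
    have hW : 0 ≤ W3p (mom c 2) (mom c 3) (mom a 2) (mom a 3) c (a ∘ τ) := by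
      rw [← em, ← em3]
      exact W3p_nonneg hc hb0 hc1 hb1
    have hzl : (D.p2.pb : ℝ) ≤ D.p2.pa * (1 + sS c (a ∘ τ)) :=
      z_lower h4 hpa2 hc hb0 hc1 hb2 m1 (by rw [em]; exact m2) hx.le (by rw [em]; exact hX.le)
    exact mul_le_mul_of_nonneg_left (up2 hp2 hzl hZ) hW
  have hU1 : HH c ≤ ((∑ l, evL (psiOf D.uc.L D.uc.d) (c l)) / 4) / D.uc.d := by
    unfold HH
    rw [div_right_comm]
    apply div_le_div_of_nonneg_right _ (by norm_num)
    rw [Finset.sum_div]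
    exact Finset.sum_le_sum fun l _ => phi_up huc (hc1 l)
  have hU2 : HH a ≤ ((∑ l, evL (psiOf D.ua.L D.ua.d) (a l)) / 4) / D.ua.d := by
    unfold HH
    rw [div_right_comm]
    apply div_le_div_of_nonneg_right _ (by norm_num)
    rw [Finset.sum_div]
    exact Finset.sum_le_sum fun l _ => phi_up hua (hca l)
  rw [avg_ZG hc ha hc1 hca]
  unfold GG
  exact r2_final (by positivity) (by positivity) hρ hh hAV hAP hAW hU1 hU2 hR2

end main

end Vale.Agent.helper4.Q4
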