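import Vale.Agent.helper4.Q4Dom
import Vale.Agent.helper4.Q4Poly
import Vale.Agent.helper4.GWMaster

/-!
Merging two messages of four colours: the exact formulas.
-/

set_option linter.unusedSectionVars false
set_option linter.unusedVariables false

namespace Vale.Agent.helper4.Q4

open GW (ZZ uu xx Simp)

section basic

variable {c b : Fin 4 → ℝ}

lemma xx_eq (c : Fin 4 → ℝ) : xx c = mom c 2 := by
  simp [xx, mom]

lemma sum4_zero (h : ∑ l, c l = 0) : c 0 + c 1 + c 2 + c 3 = 0 := by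
  rwa [Fin.sum_univ_four] at h

lemma ZZ_eq (hc : ∑ l, c l = 0) (hb : ∑ l, b l = 0) : ZZ c b = 1 + sS c b := by
  have h1 := sum4_zero hc
  have h2 := sum4_zero hb
  simp only [ZZ, sS, Fin.sum_univ_four]
  push_cast
  linear_combination (1 / 4) * h1 + (1 / 4) * h2

lemma W2_eq (hc : ∑ l, c l = 0) (hb : ∑ l, b l = 0) :
    (∑ i, ((1 + c i) * (1 + b i)) ^ 2) / 4 = Vp (mom c 2) (mom b 2) c b + (1 + sS c b) ^ 2 := by
  have h1 := sum4_zero hc
  have h2 := sum4_zero hb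
  simp only [Vp, sS, Mm, mom, Fin.sum_univ_four]
  linear_combination (1 / 2) * h1 + (1 / 2) * h2

lemma W3_eq (hc : ∑ l, c l = 0) (hb : ∑ l, b l = 0) :
    (∑ i, ((1 + c i) * (1 + b i)) ^ 3) / 4 = W3p (mom c 2) (mom c 3) (mom b 2) (mom b 3) c b := by
  have h1 := sum4_zero hc
  have h2 := sum4_zero hb
  simp only [W3p, sS, Mm, mom, Fin.sum_univ_four]
  linear_combination (3 / 4) * h1 + (3 / 4) * h2

lemma sum_w (hc : ∑ l, c l = 0) (hb : ∑ l, b l = 0) : ∑ i, (1 + c i) * (1 + b i) = 4 * (1 + sS c b) := by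
  have h1 := sum4_zero hc
  have h2 := sum4_zero hb
  simp only [sS, Fin.sum_univ_four]
  linear_combination h1 + h2

lemma Z_pos (hc : ∀ l, -1 < c l) (hb : ∀ l, -1 < b l) (h0 : ∑ l, c l = 0) (h1 : ∑ l, b l = 0) : 0 < 1 + sS c b := by
  rw [← ZZ_eq h0 h1]
  exact GW.ZZ_pos hc hb

/-- The second moment of the merged message. -/
lemma merge_x (hc : ∑ l, c l = 0) (hb : ∑ l, b l = 0) (hZ : 0 < 1 + sS c b) :
    ZZ c b * xx (uu c b) = Vp (mom c 2) (mom b 2) c b * (1 / (1 + sS c b)) := by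
  have e1 := W2_eq hc hb
  have e2 := sum_w hc hb
  have hZ' : (1 + sS c b) ≠ 0 := hZ.ne'
  rw [ZZ_eq hc hb, xx_eq, mom]
  have e3 : ∑ l, uu c b l ^ 2 = (∑ i, ((1 + c i) * (1 + b i)) ^ 2) / (1 + sS c b) ^ 2 - 2 * (∑ i, (1 + c i) * (1 + b i)) / (1 + sS c b) + 4 := by
    simp only [uu, ZZ_eq hc hb]
    simp only [Fin.sum_univ_four]
    field_simp
    ring
  rw [e3, e2]
  have e4 : (∑ i, ((1 + c i) * (1 + b i)) ^ 2) = 4 * (Vp (mom c 2) (mom b 2) c b + (1 + sS c b) ^ 2) := by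
    linarith
  rw [e4]
  field_simp
  ring

lemma Vp_nonneg (hc : ∑ l, c l = 0) (hb : ∑ l, b l = 0) (hZ : 0 < 1 + sS c b) : 0 ≤ Vp (mom c 2) (mom b 2) c b := by
  have h1 := merge_x hc hb hZ
  have h2 : 0 ≤ ZZ c b * xx (uu c b) := by
    rw [ZZ_eq hc hb]
    exact mul_nonneg hZ.le (GW.xx_nonneg _)
  rw [h1] at h2
  have h3 : 0 < 1 / (1 + sS c b) := by positivity
  exact nonneg_of_mul_nonneg_left h2 h3

lemma W3p_nonneg (hc : ∑ l, c l = 0) (hb : ∑ l, b l = 0) (h1 : ∀ l, -1 < c l) (h2 : ∀ l, -1 < b l) :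
    0 ≤ W3p (mom c 2) (mom c 3) (mom b 2) (mom b 3) c b := by
  rw [← W3_eq hc hb]
  refine div_nonneg (Finset.sum_nonneg fun i _ => ?_) (by norm_num)
  have h3 := h1 i
  have h4 := h2 i
  exact pow_nonneg (mul_nonneg (by linarith) (by linarith)) 3

/-- The third moment of the merged message. -/
lemma merge_y (hc : ∑ l, c l = 0) (hb : ∑ l, b l = 0) (hZ : 0 < 1 + sS c b) :
    ZZ c b * mom (uu c b) 3 = W3p (mom c 2) (mom c 3) (mom b 2) (mom b 3) c b * (1 / (1 + sS c b) ^ 2)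
      - 3 * (Vp (mom c 2) (mom b 2) c b * (1 / (1 + sS c b))) - (1 + sS c b) := by
  have e1 := W2_eq hc hb
  have e2 := sum_w hc hb
  have e5 := W3_eq hc hb
  have hZ' : (1 + sS c b) ≠ 0 := hZ.ne'
  rw [ZZ_eq hc hb, mom]
  have e3 : ∑ l, uu c b l ^ 3 = (∑ i, ((1 + c i) * (1 + b i)) ^ 3) / (1 + sS c b) ^ 3
      - 3 * (∑ i, ((1 + c i) * (1 + b i)) ^ 2) / (1 + sS c b) ^ 2 + 3 * (∑ i, (1 + c i) * (1 + b i)) / (1 + sS c b) - 4 := by
    simp only [uu, ZZ_eq hc hb]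
    simp only [Fin.sum_univ_four]
    field_simp
    ring
  rw [e3, e2]
  have e4 : (∑ i, ((1 + c i) * (1 + b i)) ^ 2) = 4 * (Vp (mom c 2) (mom b 2) c b + (1 + sS c b) ^ 2) := by
    linarith
  have e6 : (∑ i, ((1 + c i) * (1 + b i)) ^ 3) = 4 * W3p (mom c 2) (mom c 3) (mom b 2) (mom b 3) c b := by
    linarith
  rw [e4, e6]
  field_simp
  ring

/-- The mean of `phiT` over a message. -/
noncomputable def HH (c : Fin 4 → ℝ) : ℝ := (∑ l, phiT (c l)) / 4

/-- The entropy term of the merged message. -/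
lemma merge_H (hc : ∑ l, c l = 0) (hb : ∑ l, b l = 0) (h1 : ∀ l, -1 < c l) (h2 : ∀ l, -1 < b l)
    (hZ : 0 < 1 + sS c b) :
    ZZ c b * HH (uu c b) = (∑ l, (1 + b l) * ((1 + c l) * Real.log (1 + c l))) / 4
      + (∑ l, (1 + c l) * ((1 + b l) * Real.log (1 + b l))) / 4 - (phiT (sS c b) + sS c b) := by
  have hZ' : (1 + sS c b) ≠ 0 := hZ.ne'
  have hs := sum_w hc hb
  have hu : ∀ l, 1 + uu c b l = (1 + c l) * (1 + b l) / (1 + sS c b) := by
    intro l
    simp only [uu, ZZ_eq hc hb]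
    ring
  have hl : ∀ l, Real.log (1 + uu c b l) = Real.log (1 + c l) + Real.log (1 + b l) - Real.log (1 + sS c b) := by
    intro l
    have p1 : 0 < 1 + c l := by linarith [h1 l]
    have p2 : 0 < 1 + b l := by linarith [h2 l]
    rw [hu, Real.log_div (mul_pos p1 p2).ne' hZ', Real.log_mul p1.ne' p2.ne']
  have hsum : ∑ l, uu c b l = 0 := by
    have : ∑ l, (1 + uu c b l) = 4 := by
      simp only [hu]
      rw [← Finset.sum_div, hs]
      field_simp
    rw [Finset.sum_add_distrib] at this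
    simp at this
    linarith
  unfold HH phiT
  rw [ZZ_eq hc hb]
  have e1 : ∑ l, ((1 + uu c b l) * Real.log (1 + uu c b l) - uu c b l)
      = (∑ l, ((1 + c l) * (1 + b l)) * (Real.log (1 + c l) + Real.log (1 + b l) - Real.log (1 + sS c b))) / (1 + sS c b) := by
    rw [Finset.sum_sub_distrib, hsum, sub_zero, Finset.sum_div]
    refine Finset.sum_congr rfl fun l _ => ?_
    rw [hl, hu]
    ring
  rw [e1]
  have e2 : ∑ l, ((1 + c l) * (1 + b l)) * (Real.log (1 + c l) + Real.log (1 + b l) - Real.log (1 + sS c b))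
      = ∑ l, (1 + b l) * ((1 + c l) * Real.log (1 + c l)) + ∑ l, (1 + c l) * ((1 + b l) * Real.log (1 + b l))
        - (∑ l, (1 + c l) * (1 + b l)) * Real.log (1 + sS c b) := by
    rw [Finset.sum_mul, ← Finset.sum_add_distrib, ← Finset.sum_sub_distrib]
    refine Finset.sum_congr rfl fun l _ => ?_
    ring
  rw [e2, hs]
  field_simp
  ring

end basic

section perms

variable {a : Fin 4 → ℝ}

lemma taus_sum (f : Fin 4 → ℝ) : ∀ τ ∈ taus, ∑ l, f (τ l) = ∑ l, f l := by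
  intro τ hτ
  simp only [taus, List.mem_cons, List.not_mem_nil, or_false] at hτ
  rcases hτ with rfl | rfl | rfl | rfl | rfl | rfl | rfl | rfl | rfl | rfl | rfl | rfl | rfl | rfl | rfl | rfl | rfl | rfl | rfl | rfl | rfl | rfl | rfl | rfl <;>
    simp [Fin.sum_univ_four] <;> ring

lemma mom_perm (a : Fin 4 → ℝ) (k : ℕ) {τ : Fin 4 → Fin 4} (hτ : τ ∈ taus) : mom (a ∘ τ) k = mom a k := by
  unfold mom
  show (∑ l, a (τ l) ^ k) / 4 = _
  rw [taus_sum (fun l => a l ^ k) τ hτ]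

lemma sum_perm {τ : Fin 4 → Fin 4} (hτ : τ ∈ taus) (h : ∑ l, a l = 0) : ∑ l, (a ∘ τ) l = 0 := by
  show ∑ l, a (τ l) = 0
  rw [taus_sum a τ hτ]
  exact h

/-- Averaging a sum with weights over the orderings. -/
lemma avgT_weighted (w φ : Fin 4 → ℝ) (ψ : ℝ → ℝ) (hφ : φ = fun j => ψ (a j)) :
    avgT a (fun b => ∑ l, w l * ψ (b l)) = (∑ l, w l) * (∑ l, ψ (a l)) / 4 := by
  simp only [avgT, taus, List.map_cons, List.map_nil, List.sum_cons, List.sum_nil, Function.comp,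
    Fin.sum_univ_four]
  simp
  ring

end perms

end Vale.Agent.helper4.Q4
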