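import Vale.Agent.helper4.Q4Atoms
import Vale.Agent.helper4.Q4Lit

/-!
Averages over the orderings of four colours, as sparse polynomials in normalised moments.
-/

set_option linter.unusedSectionVars false
set_option linter.unusedVariables false

namespace Vale.Agent.helper4.Q4

/-- Normalised power sums. -/
noncomputable def mom (c : Fin 4 → ℝ) (k : ℕ) : ℝ := (∑ l, c l ^ k) / 4

/-- The relation between two messages and a point. -/
structure Rep (c a : Fin 4 → ℝ) (v : V6) : Prop where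
  h2 : mom c 2 = v.x
  h3 : mom c 3 = v.x * v.t
  h4 : mom c 4 = v.x * (v.x + v.e)
  h2' : mom a 2 = v.X
  h3' : mom a 3 = v.X * v.T
  h4' : mom a 4 = v.X * (v.X + v.E)

section
open Flat

lemma list_binom (a b : ℝ) (n : ℕ) :
    ((List.range (n + 1)).map fun l => (n.choose l : ℝ) * (a ^ l * b ^ (n - l))).sum = (a + b) ^ n := by
  rw [add_pow]
  have : ∀ (f : ℕ → ℝ) (m : ℕ), ((List.range m).map f).sum = ∑ i ∈ Finset.range m, f i := by
    intro f m
    induction m with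
    | zero => simp
    | succ m ih => rw [List.range_succ, Finset.sum_range_succ, List.map_append, List.sum_append, ih]; simp
  rw [this]
  refine Finset.sum_congr rfl fun i _ => by ring

lemma val_flatMap {α : Type} (L : List α) (f : α → Flat) (v : V6) :
    val (L.flatMap f) v = (L.map fun u => val (f u) v).sum := by
  induction L with
  | nil => simp
  | cons a L ih => simp [val_append, ih]

/-- The terms of one entry of a table. -/
def teF (e : TE) : Flat :=
  (List.range (e.e3 + 1)).flatMap fun l => (List.range (e.f3 + 1)).map fun l' =>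
    ((⟨l, e.e2, l', e.f2, e.e1 + e.e2 + e.e3 + (e.e3 - l), e.f1 + e.f2 + e.f3 + (e.f3 - l')⟩ : Mo),
      ((e.pos : ℤ) - e.neg) * 4 ^ (e.e1 + e.e2 + e.e3 + e.f1 + e.f2 + e.f3) * (e.e3.choose l) * (e.f3.choose l'))

lemma val_teF (e : TE) (v : V6) :
    val (teF e) v = ((e.pos : ℝ) - e.neg) * (4 * v.x) ^ e.e1 * (4 * (v.x * v.t)) ^ e.e2
      * (4 * (v.x * (v.x + v.e))) ^ e.e3 * (4 * v.X) ^ e.f1 * (4 * (v.X * v.T)) ^ e.f2
      * (4 * (v.X * (v.X + v.E))) ^ e.f3 := by
  unfold teF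
  rw [val_flatMap]
  have h1 := list_binom v.e v.x e.e3
  have h2 := list_binom v.E v.X e.f3
  have e1 : (v.x + v.e) = (v.e + v.x) := add_comm _ _
  have e2 : (v.X + v.E) = (v.E + v.X) := add_comm _ _
  rw [e1, e2]
  simp only [mul_pow]
  rw [← h1, ← h2]
  have inner : ∀ l : ℕ, val ((List.range (e.f3 + 1)).map fun l' =>
      ((⟨l, e.e2, l', e.f2, e.e1 + e.e2 + e.e3 + (e.e3 - l), e.f1 + e.f2 + e.f3 + (e.f3 - l')⟩ : Mo),
      ((e.pos : ℤ) - e.neg) * 4 ^ (e.e1 + e.e2 + e.e3 + e.f1 + e.f2 + e.f3) * (e.e3.choose l) * (e.f3.choose l'))) v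
      = ((e.pos : ℝ) - e.neg) * 4 ^ (e.e1 + e.e2 + e.e3 + e.f1 + e.f2 + e.f3) * v.t ^ e.e2 * v.T ^ e.f2
        * v.x ^ (e.e1 + e.e2 + e.e3) * v.X ^ (e.f1 + e.f2 + e.f3)
        * ((e.e3.choose l : ℝ) * (v.e ^ l * v.x ^ (e.e3 - l)))
        * ((List.range (e.f3 + 1)).map fun l' => (e.f3.choose l' : ℝ) * (v.E ^ l' * v.X ^ (e.f3 - l'))).sum := by
    intro l
    generalize List.range (e.f3 + 1) = Ls
    induction Ls with
    | nil => simp
    | cons b Ls ih =>
      rw [List.map_cons, val_cons, ih, List.map_cons, List.sum_cons]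
      simp only [Mo.val, pow_add]
      push_cast
      ring
  simp only [inner]
  rw [List.sum_map_mul_right, List.sum_map_mul_left]
  simp only [pow_add]
  ring

/-- A table as a polynomial in the normalised moments. -/
def tableF (T : List TE) : Flat := mergeAll 16 (T.map teF)

lemma sum_mom {c : Fin 4 → ℝ} {k : ℕ} {u : ℝ} (h : mom c k = u) : ∑ l, c l ^ k = 4 * u := by
  unfold mom at h
  linarith

lemma val_tableF {c a : Fin 4 → ℝ} {v : V6} (hR : Rep c a v) (T : List TE) :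
    val (tableF T) v = tableV c a T := by
  unfold tableF tableV
  rw [val_mergeAll]
  unfold sumV
  rw [List.map_map]
  congr 1
  refine List.map_congr_left fun e _ => ?_
  simp only [Function.comp, val_teF, sum_mom hR.h2, sum_mom hR.h3, sum_mom hR.h4, sum_mom hR.h2', sum_mom hR.h3',
    sum_mom hR.h4']

end

/-- An entry of the list of all tables. -/
structure AE where
  i : ℕ
  j : ℕ
  k : ℕ
  den : ℕ
  T : List TE

/-- The statement proved for an entry. -/
def AE.Spec (c a : Fin 4 → ℝ) (u : AE) : Prop := (u.den : ℝ) * atomR c a u.i u.j u.k = tableV c a u.T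

/-- Looking up a table. -/
def findA (i j k : ℕ) : List AE → ℕ × List TE
  | [] => (0, [])
  | u :: L => bif Nat.beq u.i i && Nat.beq u.j j && Nat.beq u.k k then (u.den, u.T) else findA i j k L

lemma findA_spec {c a : Fin 4 → ℝ} (i j k : ℕ) (L : List AE) (hL : ∀ u ∈ L, u.Spec c a) :
    ((findA i j k L).1 : ℝ) * atomR c a i j k = tableV c a (findA i j k L).2 := by
  induction L with
  | nil => simp [findA, tableV]
  | cons u L ih =>
    unfold findA
    cases h : (Nat.beq u.i i && Nat.beq u.j j && Nat.beq u.k k)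
    · simpa using ih fun w hw => hL w (by simp [hw])
    · simp only [Bool.and_eq_true] at h
      obtain ⟨⟨h1, h2⟩, h3⟩ := h
      have e1 := Nat.eq_of_beq_eq_true h1
      have e2 := Nat.eq_of_beq_eq_true h2
      have e3 := Nat.eq_of_beq_eq_true h3
      have := hL u (by simp)
      subst e1 e2 e3
      simpa [AE.Spec] using this

/-- The scalar product of a message with another one, normalised. -/
noncomputable def sS (c a' : Fin 4 → ℝ) : ℝ := (∑ l, c l * a' l) / 4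

/-- Mixed moments. -/
noncomputable def Mm (i j : ℕ) (c a' : Fin 4 → ℝ) : ℝ := (∑ l, c l ^ i * a' l ^ j) / 4

/-- Average over the orderings of the colours. -/
noncomputable def avgT (a : Fin 4 → ℝ) (f : (Fin 4 → ℝ) → ℝ) : ℝ := (taus.map fun τ => f (a ∘ τ)).sum / 24

section avg

variable {a : Fin 4 → ℝ}

lemma avgT_add (f g : (Fin 4 → ℝ) → ℝ) : avgT a (fun b => f b + g b) = avgT a f + avgT a g := by
  unfold avgT
  rw [List.sum_map_add]
  ring

lemma avgT_smul (r : ℝ) (f : (Fin 4 → ℝ) → ℝ) : avgT a (fun b => r * f b) = r * avgT a f := by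
  unfold avgT
  rw [List.sum_map_mul_left]
  ring

lemma avgT_neg (f : (Fin 4 → ℝ) → ℝ) : avgT a (fun b => - f b) = - avgT a f := by
  have := avgT_smul (a := a) (-1) f
  simpa using this

lemma avgT_sub (f g : (Fin 4 → ℝ) → ℝ) : avgT a (fun b => f b - g b) = avgT a f - avgT a g := by
  simp only [sub_eq_add_neg, avgT_add, avgT_neg]

lemma avgT_congr {f g : (Fin 4 → ℝ) → ℝ} (h : ∀ b, f b = g b) : avgT a f = avgT a g := by
  have : f = g := funext h
  rw [this]

lemma avgT_mono {f g : (Fin 4 → ℝ) → ℝ} (h : ∀ τ ∈ taus, f (a ∘ τ) ≤ g (a ∘ τ)) : avgT a f ≤ avgT a g := by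
  unfold avgT
  have : (taus.map fun τ => f (a ∘ τ)).sum ≤ (taus.map fun τ => g (a ∘ τ)).sum :=
    List.sum_le_sum fun τ hτ => h τ hτ
  linarith

lemma avgT_const (r : ℝ) : avgT a (fun _ => r) = r := by
  simp [avgT, taus]
  ring

lemma avgT_atom (c : Fin 4 → ℝ) (i j k : ℕ) :
    avgT a (fun b => Mm i j c b * sS c b ^ k) = atomR c a i j k / (24 * 4 ^ (k + 1)) := by
  unfold avgT atomR
  have e : ∀ τ : Fin 4 → Fin 4, Mm i j c (a ∘ τ) * sS c (a ∘ τ) ^ k
      = (1 / 4 ^ (k + 1)) * ((∑ l, c l ^ i * a (τ l) ^ j) * (∑ l, c l * a (τ l)) ^ k) := by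
    intro τ
    simp only [Mm, sS, Function.comp, div_pow, pow_succ]
    field_simp
  simp only [e]
  rw [List.sum_map_mul_left]
  field_simp

end avg

/-- A common denominator for the tables. -/
def DT : ℕ := 24 * 4 ^ 12 * 6718464

lemma DT_pos : 0 < DT := by
  unfold DT
  positivity

section tables

open Flat

variable (tab : List AE)

/-- The check for a table of mixed moments. -/
def ascOk (i j k : ℕ) : Bool :=
  let u := findA i j k tab
  Nat.blt 0 u.1 && Nat.beq (Nat.mul (Nat.div DT (Nat.mul (Nat.mul 24 (Nat.pow 4 (k + 1))) u.1))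
    (Nat.mul (Nat.mul 24 (Nat.pow 4 (k + 1))) u.1)) DT

/-- The polynomial of a table of mixed moments, multiplied by `DT`. -/
def Asc (i j k : ℕ) : Flat :=
  let u := findA i j k tab
  smul (Int.ofNat (Nat.div DT (Nat.mul (Nat.mul 24 (Nat.pow 4 (k + 1))) u.1))) (tableF u.2)

variable {tab} {c a : Fin 4 → ℝ} {v : V6}

theorem Asc_val (htab : ∀ u ∈ tab, u.Spec c a) (hR : Rep c a v) {i j k : ℕ} (h : ascOk tab i j k = true) :
    val (Asc tab i j k) v = DT * avgT a (fun b => Mm i j c b * sS c b ^ k) := by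
  unfold ascOk at h
  unfold Asc
  simp only [Bool.and_eq_true, Nat.blt_eq] at h
  obtain ⟨h1, h2⟩ := h
  have h3 := Nat.eq_of_beq_eq_true h2
  have h4 := findA_spec i j k tab htab
  set u := findA i j k tab with hu
  rw [val_smul, val_tableF hR, ← h4, avgT_atom]
  have e1 : Nat.mul (Nat.mul 24 (Nat.pow 4 (k + 1))) u.1 = 24 * 4 ^ (k + 1) * u.1 := rfl
  have e2 : Nat.mul (Nat.div DT (24 * 4 ^ (k + 1) * u.1)) (24 * 4 ^ (k + 1) * u.1) = DT := by
    rw [← e1]
    exact h3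
  have e3 : ((DT / (24 * 4 ^ (k + 1) * u.1) : ℕ) : ℝ) * (24 * 4 ^ (k + 1) * (u.1 : ℝ)) = DT := by
    exact_mod_cast e2
  have hd : (0 : ℝ) < u.1 := by exact_mod_cast h1
  have e4 : ((Int.ofNat (Nat.div DT (Nat.mul (Nat.mul 24 (Nat.pow 4 (k + 1))) u.1)) : ℤ) : ℝ)
      = ((DT / (24 * 4 ^ (k + 1) * u.1) : ℕ) : ℝ) := by
    rw [e1]
    rfl
  rw [e4, ← e3]
  field_simp

/-- The polynomial of the average of a power of the scalar product. -/
def TSF (tab : List AE) : ℕ → Flat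
  | 0 => [((⟨0, 0, 0, 0, 0, 0⟩ : Mo), (DT : ℤ))]
  | k + 1 => Asc tab 1 1 k

/-- What is needed for the power `k`. -/
def tsOk (tab : List AE) : ℕ → Bool
  | 0 => true
  | k + 1 => ascOk tab 1 1 k

lemma Mm11 (c b : Fin 4 → ℝ) : Mm 1 1 c b = sS c b := by
  simp [Mm, sS]

theorem TSF_val (htab : ∀ u ∈ tab, u.Spec c a) (hR : Rep c a v) {k : ℕ} (h : tsOk tab k = true) :
    val (TSF tab k) v = DT * avgT a (fun b => sS c b ^ k) := by
  cases k with
  | zero =>
    simp only [TSF, val_cons, val_nil, Mo.val, pow_zero, avgT_const]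
    norm_num
  | succ k =>
    rw [TSF, Asc_val htab hR h]
    congr 1
    refine avgT_congr fun b => ?_
    rw [Mm11]
    ring

/-- The monomials `x` and `X`, and the others needed. -/
def fx : Flat := [((⟨0, 0, 0, 0, 1, 0⟩ : Mo), 1)]

def fX : Flat := [((⟨0, 0, 0, 0, 0, 1⟩ : Mo), 1)]

def fy : Flat := [((⟨0, 1, 0, 0, 1, 0⟩ : Mo), 1)]

def fY : Flat := [((⟨0, 0, 0, 1, 0, 1⟩ : Mo), 1)]

lemma val_fx : val fx v = v.x := by simp [fx, Mo.val]

lemma val_fX : val fX v = v.X := by simp [fX, Mo.val]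

lemma val_fy : val fy v = v.x * v.t := by
  simp [fy, Mo.val]
  ring

lemma val_fY : val fY v = v.X * v.T := by
  simp [fY, Mo.val]
  ring

/-- The numerator `V` of the second moment of the merged message, up to the denominator. -/
noncomputable def Vp (x X : ℝ) (c b : Fin 4 → ℝ) : ℝ :=
  x + X + 2 * sS c b + 2 * Mm 2 1 c b + 2 * Mm 1 2 c b + Mm 2 2 c b - sS c b ^ 2

/-- The third moment of the product. -/
noncomputable def W3p (x y X Y : ℝ) (c b : Fin 4 → ℝ) : ℝ :=
  1 + 3 * x + y + 3 * X + Y + 9 * sS c b + 9 * Mm 1 2 c b + 3 * Mm 1 3 c b + 9 * Mm 2 1 c b + 9 * Mm 2 2 c b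
    + 3 * Mm 2 3 c b + 3 * Mm 3 1 c b + 3 * Mm 3 2 c b + Mm 3 3 c b

/-- The table for `V * s ^ k`. -/
def TVF (tab : List AE) (k : ℕ) : Flat :=
  add (mul (add fx fX) (TSF tab k)) (add (smul 2 (TSF tab (k + 1))) (add (smul 2 (Asc tab 2 1 k))
    (add (smul 2 (Asc tab 1 2 k)) (add (Asc tab 2 2 k) (neg (TSF tab (k + 2)))))))

def tvOk (tab : List AE) (k : ℕ) : Bool :=
  tsOk tab k && tsOk tab (k + 1) && tsOk tab (k + 2) && ascOk tab 2 1 k && ascOk tab 1 2 k && ascOk tab 2 2 k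

theorem TVF_val (htab : ∀ u ∈ tab, u.Spec c a) (hR : Rep c a v) {k : ℕ} (h : tvOk tab k = true) :
    val (TVF tab k) v = DT * avgT a (fun b => Vp v.x v.X c b * sS c b ^ k) := by
  simp only [tvOk, Bool.and_eq_true] at h
  obtain ⟨⟨⟨⟨⟨h1, h2⟩, h3⟩, h4⟩, h5⟩, h6⟩ := h
  unfold TVF
  simp only [val_add, val_mul, val_smul, val_neg, val_fx, val_fX, TSF_val htab hR h1, TSF_val htab hR h2,
    TSF_val htab hR h3, Asc_val htab hR h4, Asc_val htab hR h5, Asc_val htab hR h6]
  have e : ∀ b, Vp v.x v.X c b * sS c b ^ k = (v.x + v.X) * sS c b ^ k + (2 * sS c b ^ (k + 1) +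
      (2 * (Mm 2 1 c b * sS c b ^ k) + (2 * (Mm 1 2 c b * sS c b ^ k) + (Mm 2 2 c b * sS c b ^ k
        + - sS c b ^ (k + 2))))) := by
    intro b
    simp only [Vp, pow_succ]
    ring
  simp only [e, avgT_add, avgT_smul, avgT_neg]
  push_cast
  ring

/-- The table for `W3 * s ^ k`. -/
def TWF (tab : List AE) (k : ℕ) : Flat :=
  add (mul (add [((⟨0, 0, 0, 0, 0, 0⟩ : Mo), 1)] (add (smul 3 fx) (add fy (add (smul 3 fX) fY)))) (TSF tab k))
    (add (smul 9 (TSF tab (k + 1))) (add (smul 9 (Asc tab 1 2 k)) (add (smul 3 (Asc tab 1 3 k))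
      (add (smul 9 (Asc tab 2 1 k)) (add (smul 9 (Asc tab 2 2 k)) (add (smul 3 (Asc tab 2 3 k))
        (add (smul 3 (Asc tab 3 1 k)) (add (smul 3 (Asc tab 3 2 k)) (Asc tab 3 3 k)))))))))

def twOk (tab : List AE) (k : ℕ) : Bool :=
  tsOk tab k && tsOk tab (k + 1) && ascOk tab 1 2 k && ascOk tab 1 3 k && ascOk tab 2 1 k && ascOk tab 2 2 k
    && ascOk tab 2 3 k && ascOk tab 3 1 k && ascOk tab 3 2 k && ascOk tab 3 3 k

theorem TWF_val (htab : ∀ u ∈ tab, u.Spec c a) (hR : Rep c a v) {k : ℕ} (h : twOk tab k = true) :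
    val (TWF tab k) v = DT * avgT a (fun b => W3p v.x (v.x * v.t) v.X (v.X * v.T) c b * sS c b ^ k) := by
  simp only [twOk, Bool.and_eq_true] at h
  obtain ⟨⟨⟨⟨⟨⟨⟨⟨⟨h1, h2⟩, h3⟩, h4⟩, h5⟩, h6⟩, h7⟩, h8⟩, h9⟩, h10⟩ := h
  unfold TWF
  simp only [val_add, val_mul, val_smul, val_fx, val_fX, val_fy, val_fY, val_cons, val_nil, Mo.val, pow_zero,
    TSF_val htab hR h1, TSF_val htab hR h2, Asc_val htab hR h3, Asc_val htab hR h4, Asc_val htab hR h5,
    Asc_val htab hR h6, Asc_val htab hR h7, Asc_val htab hR h8, Asc_val htab hR h9, Asc_val htab hR h10]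
  have e : ∀ b, W3p v.x (v.x * v.t) v.X (v.X * v.T) c b * sS c b ^ k
      = (1 + 3 * v.x + v.x * v.t + 3 * v.X + v.X * v.T) * sS c b ^ k + (9 * sS c b ^ (k + 1) +
      (9 * (Mm 1 2 c b * sS c b ^ k) + (3 * (Mm 1 3 c b * sS c b ^ k) + (9 * (Mm 2 1 c b * sS c b ^ k)
      + (9 * (Mm 2 2 c b * sS c b ^ k) + (3 * (Mm 2 3 c b * sS c b ^ k) + (3 * (Mm 3 1 c b * sS c b ^ k)
      + (3 * (Mm 3 2 c b * sS c b ^ k) + Mm 3 3 c b * sS c b ^ k)))))))) := by
    intro b
    simp only [W3p, pow_succ]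
    ring
  simp only [e, avgT_add, avgT_smul]
  push_cast
  ring

end tables

end Vale.Agent.helper4.Q4
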