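import Vale.Agent.helper4.Q4TabSem

/-!
Checks of the literal tables.
-/

namespace Vale.Agent.helper4.Q4

theorem tvC_0 : tvChk 0 = true := by decide +kernel
theorem tvC_1 : tvChk 1 = true := by decide +kernel
theorem tvC_2 : tvChk 2 = true := by decide +kernel
theorem tvC_3 : tvChk 3 = true := by decide +kernel
theorem tvC_4 : tvChk 4 = true := by decide +kernel
theorem tvC_5 : tvChk 5 = true := by decide +kernel
theorem tvC_6 : tvChk 6 = true := by decide +kernel
theorem tvC_7 : tvChk 7 = true := by decide +kernel
theorem tvC_8 : tvChk 8 = true := by decide +kernel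
theorem tvC_9 : tvChk 9 = true := by decide +kernel
theorem tvC_10 : tvChk 10 = true := by decide +kernel

theorem tvC_all : ∀ k, k < 11 → tvChk k = true := by
  intro k hk
  interval_cases k
  · exact tvC_0
  · exact tvC_1
  · exact tvC_2
  · exact tvC_3
  · exact tvC_4
  · exact tvC_5
  · exact tvC_6
  · exact tvC_7
  · exact tvC_8
  · exact tvC_9
  · exact tvC_10

theorem tsC_0 : tsChk 0 = true := by decide +kernel
theorem tsC_1 : tsChk 1 = true := by decide +kernel
theorem tsC_2 : tsChk 2 = true := by decide +kernel
theorem tsC_3 : tsChk 3 = true := by decide +kernel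
theorem tsC_4 : tsChk 4 = true := by decide +kernel
theorem tsC_5 : tsChk 5 = true := by decide +kernel
theorem tsC_6 : tsChk 6 = true := by decide +kernel
theorem tsC_7 : tsChk 7 = true := by decide +kernel
theorem tsC_8 : tsChk 8 = true := by decide +kernel
theorem tsC_9 : tsChk 9 = true := by decide +kernel
theorem tsC_10 : tsChk 10 = true := by decide +kernel
theorem tsC_11 : tsChk 11 = true := by decide +kernel
theorem tsC_12 : tsChk 12 = true := by decide +kernel

theorem tsC_all : ∀ k, k < 13 → tsChk k = true := by
  intro k hk
  interval_cases k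
  · exact tsC_0
  · exact tsC_1
  · exact tsC_2
  · exact tsC_3
  · exact tsC_4
  · exact tsC_5
  · exact tsC_6
  · exact tsC_7
  · exact tsC_8
  · exact tsC_9
  · exact tsC_10
  · exact tsC_11
  · exact tsC_12

theorem twC_0 : twChk 0 = true := by decide +kernel
theorem twC_1 : twChk 1 = true := by decide +kernel
theorem twC_2 : twChk 2 = true := by decide +kernel
theorem twC_3 : twChk 3 = true := by decide +kernel
theorem twC_4 : twChk 4 = true := by decide +kernel
theorem twC_5 : twChk 5 = true := by decide +kernel
theorem twC_6 : twChk 6 = true := by decide +kernel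
theorem twC_7 : twChk 7 = true := by decide +kernel
theorem twC_8 : twChk 8 = true := by decide +kernel
theorem twC_9 : twChk 9 = true := by decide +kernel
theorem twC_10 : twChk 10 = true := by decide +kernel
theorem twC_11 : twChk 11 = true := by decide +kernel

theorem twC_all : ∀ k, k < 12 → twChk k = true := by
  intro k hk
  interval_cases k
  · exact twC_0
  · exact twC_1
  · exact twC_2
  · exact twC_3
  · exact twC_4
  · exact twC_5
  · exact twC_6
  · exact twC_7
  · exact twC_8
  · exact twC_9
  · exact twC_10
  · exact twC_11

theorem xmC_0 : xmChk 0 = true := by decide +kernel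
theorem xmC_1 : xmChk 1 = true := by decide +kernel
theorem xmC_2 : xmChk 2 = true := by decide +kernel
theorem xmC_3 : xmChk 3 = true := by decide +kernel
theorem xmC_4 : xmChk 4 = true := by decide +kernel
theorem xmC_5 : xmChk 5 = true := by decide +kernel
theorem xmC_6 : xmChk 6 = true := by decide +kernel
theorem xmC_7 : xmChk 7 = true := by decide +kernel
theorem xmC_8 : xmChk 8 = true := by decide +kernel
theorem xmC_9 : xmChk 9 = true := by decide +kernel
theorem xmC_10 : xmChk 10 = true := by decide +kernel
theorem xmC_11 : xmChk 11 = true := by decide +kernel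
theorem xmC_12 : xmChk 12 = true := by decide +kernel
theorem xmC_13 : xmChk 13 = true := by decide +kernel
theorem xmC_14 : xmChk 14 = true := by decide +kernel

theorem xmC_all : ∀ k, k < 15 → xmChk k = true := by
  intro k hk
  interval_cases k
  · exact xmC_0
  · exact xmC_1
  · exact xmC_2
  · exact xmC_3
  · exact xmC_4
  · exact xmC_5
  · exact xmC_6
  · exact xmC_7
  · exact xmC_8
  · exact xmC_9
  · exact xmC_10
  · exact xmC_11
  · exact xmC_12
  · exact xmC_13
  · exact xmC_14

theorem fmC_0 : fmChk 0 = true := by decide +kernel
theorem fmC_1 : fmChk 1 = true := by decide +kernel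
theorem fmC_2 : fmChk 2 = true := by decide +kernel
theorem fmC_3 : fmChk 3 = true := by decide +kernel
theorem fmC_4 : fmChk 4 = true := by decide +kernel
theorem fmC_5 : fmChk 5 = true := by decide +kernel
theorem fmC_6 : fmChk 6 = true := by decide +kernel
theorem fmC_7 : fmChk 7 = true := by decide +kernel
theorem fmC_8 : fmChk 8 = true := by decide +kernel
theorem fmC_9 : fmChk 9 = true := by decide +kernel
theorem fmC_10 : fmChk 10 = true := by decide +kernel
theorem fmC_11 : fmChk 11 = true := by decide +kernel
theorem fmC_12 : fmChk 12 = true := by decide +kernel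
theorem fmC_13 : fmChk 13 = true := by decide +kernel
theorem fmC_14 : fmChk 14 = true := by decide +kernel

theorem fmC_all : ∀ k, k < 15 → fmChk k = true := by
  intro k hk
  interval_cases k
  · exact fmC_0
  · exact fmC_1
  · exact fmC_2
  · exact fmC_3
  · exact fmC_4
  · exact fmC_5
  · exact fmC_6
  · exact fmC_7
  · exact fmC_8
  · exact fmC_9
  · exact fmC_10
  · exact fmC_11
  · exact fmC_12
  · exact fmC_13
  · exact fmC_14

theorem rmC_0 : rmChk 0 = true := by decide +kernel
theorem rmC_1 : rmChk 1 = true := by decide +kernel
theorem rmC_2 : rmChk 2 = true := by decide +kernel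
theorem rmC_3 : rmChk 3 = true := by decide +kernel
theorem rmC_4 : rmChk 4 = true := by decide +kernel
theorem rmC_5 : rmChk 5 = true := by decide +kernel
theorem rmC_6 : rmChk 6 = true := by decide +kernel
theorem rmC_7 : rmChk 7 = true := by decide +kernel
theorem rmC_8 : rmChk 8 = true := by decide +kernel
theorem rmC_9 : rmChk 9 = true := by decide +kernel
theorem rmC_10 : rmChk 10 = true := by decide +kernel
theorem rmC_11 : rmChk 11 = true := by decide +kernel
theorem rmC_12 : rmChk 12 = true := by decide +kernel
theorem rmC_13 : rmChk 13 = true := by decide +kernel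
theorem rmC_14 : rmChk 14 = true := by decide +kernel

theorem rmC_all : ∀ k, k < 15 → rmChk k = true := by
  intro k hk
  interval_cases k
  · exact rmC_0
  · exact rmC_1
  · exact rmC_2
  · exact rmC_3
  · exact rmC_4
  · exact rmC_5
  · exact rmC_6
  · exact rmC_7
  · exact rmC_8
  · exact rmC_9
  · exact rmC_10
  · exact rmC_11
  · exact rmC_12
  · exact rmC_13
  · exact rmC_14

theorem hmC_0 : hmChk 0 = true := by decide +kernel
theorem hmC_1 : hmChk 1 = true := by decide +kernel
theorem hmC_2 : hmChk 2 = true := by decide +kernel
theorem hmC_3 : hmChk 3 = true := by decide +kernel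
theorem hmC_4 : hmChk 4 = true := by decide +kernel
theorem hmC_5 : hmChk 5 = true := by decide +kernel
theorem hmC_6 : hmChk 6 = true := by decide +kernel
theorem hmC_7 : hmChk 7 = true := by decide +kernel
theorem hmC_8 : hmChk 8 = true := by decide +kernel
theorem hmC_9 : hmChk 9 = true := by decide +kernel
theorem hmC_10 : hmChk 10 = true := by decide +kernel
theorem hmC_11 : hmChk 11 = true := by decide +kernel
theorem hmC_12 : hmChk 12 = true := by decide +kernel
theorem hmC_13 : hmChk 13 = true := by decide +kernel
theorem hmC_14 : hmChk 14 = true := by decide +kernel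

theorem hmC_all : ∀ k, k < 15 → hmChk k = true := by
  intro k hk
  interval_cases k
  · exact hmC_0
  · exact hmC_1
  · exact hmC_2
  · exact hmC_3
  · exact hmC_4
  · exact hmC_5
  · exact hmC_6
  · exact hmC_7
  · exact hmC_8
  · exact hmC_9
  · exact hmC_10
  · exact hmC_11
  · exact hmC_12
  · exact hmC_13
  · exact hmC_14

theorem gbC : gbChk = true := by decide +kernel

end Vale.Agent.helper4.Q4
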