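import Vale.Agent.helper4.Q4TabLit

/-!
What the literal tables mean.
-/

set_option linter.unusedSectionVars false
set_option linter.unusedVariables false

namespace Vale.Agent.helper4.Q4

/-- The numerical key of a monomial. -/
def Mo.key (m : Mo) : ℕ := enc m.l m.j m.l' m.j' m.p m.q

/-- Numerical keys for a polynomial. -/
def toFN (F : Flat) : FN := F.map fun u => (u.1.key, u.2)

/-- Smallness of the exponents. -/
def smallF (F : Flat) : Bool :=
  F.all fun u => Nat.blt u.1.l 64 && Nat.blt u.1.j 64 && Nat.blt u.1.l' 64 && Nat.blt u.1.j' 64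
    && Nat.blt u.1.p 64 && Nat.blt u.1.q 64

lemma val_toFN {F : Flat} (h : smallF F = true) (v : V6) : FN.val (toFN F) v = Flat.val F v := by
  induction F with
  | nil => rfl
  | cons u F ih =>
    simp only [smallF, List.all_cons, Bool.and_eq_true, Nat.blt_eq] at h
    obtain ⟨⟨⟨⟨⟨⟨h1, h2⟩, h3⟩, h4⟩, h5⟩, h6⟩, h7⟩ := h
    have e : toFN (u :: F) = (u.1.key, u.2) :: toFN F := rfl
    rw [e, FN.val_cons, Flat.val_cons, ih h7]
    simp only [Mo.key, mon_enc h1 h2 h3 h4 h5 h6, Mo.val]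

lemma lit_val {F : Flat} {L : FN} (h1 : smallF F = true) (h2 : FN.beq (toFN F) L = true) (v : V6) :
    FN.val L v = Flat.val F v := by
  rw [← FN.val_of_beq h2, val_toFN h1]

/-- The check of a table entry. -/
def litOk (F : Flat) (L : FN) : Bool := smallF F && FN.beq (toFN F) L

lemma litOk_val {F : Flat} {L : FN} (h : litOk F L = true) (v : V6) : FN.val L v = Flat.val F v := by
  simp only [litOk, Bool.and_eq_true] at h
  exact lit_val h.1 h.2 v

noncomputable def tvChk (k : ℕ) : Bool := tvOk atomList k && litOk (TVF atomList k) (TVlit.getD k [])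
noncomputable def tsChk (k : ℕ) : Bool := tsOk atomList k && litOk (TSF atomList k) (TSlit.getD k [])
noncomputable def twChk (k : ℕ) : Bool := twOk atomList k && litOk (TWF atomList k) (TWlit.getD k [])

noncomputable def xmChk (k : ℕ) : Bool := Nat.ble k KM && litOk (Flat.mul fX (MP' k)) (XMlit.getD k [])
noncomputable def fmChk (k : ℕ) : Bool := Nat.ble k KM && litOk (Flat.mul FF (Flat.swap (MP' k))) (FMlit.getD k [])
noncomputable def rmChk (k : ℕ) : Bool := Nat.ble k KM && litOk (Flat.mul rF (MP' k)) (RMlit.getD k [])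

/-- The constant minus the polynomial `h`. -/
def oneHF : Flat := Flat.sub [((⟨0, 0, 0, 0, 0, 0⟩ : Mo), (dH : ℤ))] hF

/-- The constant minus the polynomial `rho`. -/
def oneRF : Flat := Flat.sub [((⟨0, 0, 0, 0, 0, 0⟩ : Mo), (dR : ℤ))] rF

noncomputable def hmChk (k : ℕ) : Bool := Nat.ble k KM && litOk (Flat.mul oneHF (Flat.swap (MP' k))) (HMlit.getD k [])

noncomputable def gbChk : Bool :=
  litOk (Flat.mul fX gB) XGlit && litOk (Flat.mul FF (Flat.swap gB)) FGlit &&
  litOk (Flat.mul gB oneRF) RGlit && litOk (Flat.mul hF (Flat.swap gB)) HGlit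

section sem

variable {c a : Fin 4 → ℝ} {v : V6}

lemma Rep.repC (h : Rep c a v) : RepC c v.x v.t v.e := ⟨h.h2, h.h3, h.h4⟩

lemma Rep.repA (h : Rep c a v) : RepC a v.swap.x v.swap.t v.swap.e := ⟨h.h2', h.h3', h.h4'⟩

theorem val_swap_MP {hc : ∑ l, a l = 0} (h : RepC a v.swap.x v.swap.t v.swap.e) {k : ℕ} (hk : k ≤ KM) :
    Flat.val (Flat.swap (MP' k)) v = (DM : ℝ) * mom a k := by
  rw [Flat.val_swap]
  exact MP'_val hc h hk

theorem TV_spec (hc : ∑ l, c l = 0) (ha : ∑ l, a l = 0) (hR : Rep c a v) (tvAll : ∀ k, k < 11 → tvChk k = true)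
    {k : ℕ} (hk : k < 11) :
    FN.val (TVlit.getD k []) v = DT * avgT a (fun b => Vp v.x v.X c b * sS c b ^ k) := by
  have h := tvAll k hk
  simp only [tvChk, Bool.and_eq_true] at h
  rw [litOk_val h.2, TVF_val (atomList_spec hc ha) hR h.1]

theorem TS_spec (hc : ∑ l, c l = 0) (ha : ∑ l, a l = 0) (hR : Rep c a v) (tsAll : ∀ k, k < 13 → tsChk k = true)
    {k : ℕ} (hk : k < 13) :
    FN.val (TSlit.getD k []) v = DT * avgT a (fun b => sS c b ^ k) := by
  have h := tsAll k hk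
  simp only [tsChk, Bool.and_eq_true] at h
  rw [litOk_val h.2, TSF_val (atomList_spec hc ha) hR h.1]

theorem TW_spec (hc : ∑ l, c l = 0) (ha : ∑ l, a l = 0) (hR : Rep c a v) (twAll : ∀ k, k < 12 → twChk k = true)
    {k : ℕ} (hk : k < 12) :
    FN.val (TWlit.getD k []) v = DT * avgT a (fun b => W3p v.x (v.x * v.t) v.X (v.X * v.T) c b * sS c b ^ k) := by
  have h := twAll k hk
  simp only [twChk, Bool.and_eq_true] at h
  rw [litOk_val h.2, TWF_val (atomList_spec hc ha) hR h.1]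

lemma val_fX' : Flat.val fX v = v.X := val_fX

theorem XM_spec (hc : ∑ l, c l = 0) (hR : Rep c a v) (all : ∀ k, k < 15 → xmChk k = true) {k : ℕ} (hk : k < 15) :
    FN.val (XMlit.getD k []) v = (DM : ℝ) * (v.X * mom c k) := by
  have h := all k hk
  simp only [xmChk, Bool.and_eq_true] at h
  rw [litOk_val h.2, Flat.val_mul, val_fX, MP'_val hc hR.repC (Nat.le_of_ble_eq_true h.1)]
  ring

theorem FM_spec (ha : ∑ l, a l = 0) (hR : Rep c a v) (all : ∀ k, k < 15 → fmChk k = true) {k : ℕ} (hk : k < 15) :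
    FN.val (FMlit.getD k []) v = (DM : ℝ) * ((dF : ℝ) * Fr v.x (v.x * v.t) (v.x * (v.x + v.e)) * mom a k) := by
  have h := all k hk
  simp only [fmChk, Bool.and_eq_true] at h
  rw [litOk_val h.2, Flat.val_mul, val_FF, val_swap_MP (hc := ha) hR.repA (Nat.le_of_ble_eq_true h.1)]
  ring

theorem RM_spec (hc : ∑ l, c l = 0) (hR : Rep c a v) (all : ∀ k, k < 15 → rmChk k = true) {k : ℕ} (hk : k < 15) :
    FN.val (RMlit.getD k []) v = (DM : ℝ) * ((dR : ℝ) * rr v.X * mom c k) := by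
  have h := all k hk
  simp only [rmChk, Bool.and_eq_true] at h
  rw [litOk_val h.2, Flat.val_mul, val_rF, MP'_val hc hR.repC (Nat.le_of_ble_eq_true h.1)]
  ring

lemma val_oneHF : Flat.val oneHF v = (dH : ℝ) * (1 - hr v.x) := by
  have h : (dH : ℝ) ≠ 0 := by norm_num [dH]
  simp only [oneHF, Flat.val_sub, val_hF, Flat.val_cons, Flat.val_nil, Mo.val]
  simp
  ring

lemma val_oneRF : Flat.val oneRF v = (dR : ℝ) * (1 - rr v.X) := by
  have h : (dR : ℝ) ≠ 0 := by norm_num [dR]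
  simp only [oneRF, Flat.val_sub, val_rF, Flat.val_cons, Flat.val_nil, Mo.val]
  simp
  ring

theorem HM_spec (ha : ∑ l, a l = 0) (hR : Rep c a v) (all : ∀ k, k < 15 → hmChk k = true) {k : ℕ} (hk : k < 15) :
    FN.val (HMlit.getD k []) v = (DM : ℝ) * ((dH : ℝ) * (1 - hr v.x) * mom a k) := by
  have h := all k hk
  simp only [hmChk, Bool.and_eq_true] at h
  rw [litOk_val h.2, Flat.val_mul, val_oneHF, val_swap_MP (hc := ha) hR.repA (Nat.le_of_ble_eq_true h.1)]
  ring

lemma val_gB_swap : Flat.val (Flat.swap gB) v = 3 * (aN : ℝ) * v.X - bN * (v.X * v.T) := by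
  rw [Flat.val_swap, val_gB]
  rfl

theorem GB_spec (h : gbChk = true) :
    FN.val XGlit v = v.X * (3 * (aN : ℝ) * v.x - bN * (v.x * v.t)) ∧
    FN.val FGlit v = (dF : ℝ) * Fr v.x (v.x * v.t) (v.x * (v.x + v.e)) * (3 * (aN : ℝ) * v.X - bN * (v.X * v.T)) ∧
    FN.val RGlit v = (3 * (aN : ℝ) * v.x - bN * (v.x * v.t)) * ((dR : ℝ) * (1 - rr v.X)) ∧
    FN.val HGlit v = (dH : ℝ) * hr v.x * (3 * (aN : ℝ) * v.X - bN * (v.X * v.T)) := by
  simp only [gbChk, Bool.and_eq_true] at h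
  obtain ⟨⟨⟨h1, h2⟩, h3⟩, h4⟩ := h
  refine ⟨?_, ?_, ?_, ?_⟩
  · rw [litOk_val h1, Flat.val_mul, val_fX, val_gB]
  · rw [litOk_val h2, Flat.val_mul, val_FF, val_gB_swap]
  · rw [litOk_val h3, Flat.val_mul, val_gB, val_oneRF]
  · rw [litOk_val h4, Flat.val_mul, val_hF, val_gB_swap]

end sem

end Vale.Agent.helper4.Q4
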