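import Vale.Agent.helper4.Q4Cell

/-!
Subdivision trees: cells on which the polynomial is tested, and cells excluded by the constraints on the
power sums of a message.
-/

set_option linter.unusedSectionVars false
set_option linter.unusedVariables false

namespace Vale.Agent.helper4.Q4

/-- The constraints on the normalised moments `x`, `t`, `e` of a message whose entries are at least `-μ`;
`τ` is the sign of the third moment and `t` its size. -/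
structure Dom (μ : ℝ) (τ : Bool) (x t e : ℝ) : Prop where
  hx : 0 < x
  ht : 0 ≤ t
  he : 0 ≤ e
  d1 : 3 * t ^ 2 ≤ 4 * x
  d2 : 4 * x * t ^ 2 ≤ 3 * e ^ 2
  d3 : 3 * e ≤ 4 * x
  d4 : x ≤ 3 * μ ^ 2
  d5 : 0 ≤ 3 * μ ^ 3 - 3 * μ * x + (if τ then x * t else -(x * t))
  d6 : 0 ≤ 3 * μ ^ 4 - 6 * μ ^ 2 * x + (if τ then 4 * μ * (x * t) else -(4 * μ * (x * t))) + 3 * x ^ 2 - 3 * x * e
  d7 : 0 ≤ 9 * x * e ^ 2 - 9 * e ^ 3 - 16 * x ^ 2 * t ^ 2 + 18 * x * e * t ^ 2 - 3 * x * t ^ 4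
  d8 : τ = false → 3 * t ≤ 2 * μ

/-- Fractions without reduction. -/
structure QQ where
  n : ℕ
  d : ℕ

namespace QQ

def add (a b : QQ) : QQ := ⟨Nat.add (Nat.mul a.n b.d) (Nat.mul b.n a.d), Nat.mul a.d b.d⟩

def mul (a b : QQ) : QQ := ⟨Nat.mul a.n b.n, Nat.mul a.d b.d⟩

def cst (k : ℕ) : QQ := ⟨k, 1⟩

def le (a b : QQ) : Bool := Nat.ble (Nat.mul a.n b.d) (Nat.mul b.n a.d)

def lt (a b : QQ) : Bool := Nat.blt (Nat.mul a.n b.d) (Nat.mul b.n a.d)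

noncomputable def val (a : QQ) : ℝ := (a.n : ℝ) / a.d

def Pos (a : QQ) : Prop := 0 < a.d

lemma pos_add {a b : QQ} (ha : a.Pos) (hb : b.Pos) : (add a b).Pos := Nat.mul_pos ha hb

lemma pos_mul {a b : QQ} (ha : a.Pos) (hb : b.Pos) : (mul a b).Pos := Nat.mul_pos ha hb

lemma pos_cst (k : ℕ) : (cst k).Pos := Nat.one_pos

lemma val_add {a b : QQ} (ha : a.Pos) (hb : b.Pos) : (add a b).val = a.val + b.val := by
  have h1 : (a.d : ℝ) ≠ 0 := by
    have : 0 < a.d := ha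
    positivity
  have h2 : (b.d : ℝ) ≠ 0 := by
    have : 0 < b.d := hb
    positivity
  simp only [val, add, Nat.add_eq, Nat.mul_eq]
  push_cast
  field_simp

lemma val_mul (a b : QQ) : (mul a b).val = a.val * b.val := by
  simp only [val, mul, Nat.mul_eq]
  push_cast
  rw [div_mul_div_comm]

lemma val_cst (k : ℕ) : (cst k).val = k := by
  simp [val, cst]

lemma val_nonneg (a : QQ) : 0 ≤ a.val := div_nonneg (Nat.cast_nonneg _) (Nat.cast_nonneg _)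

lemma le_sound {a b : QQ} (ha : a.Pos) (hb : b.Pos) (h : le a b = true) : a.val ≤ b.val := by
  have h1 : (0 : ℝ) < a.d := by
    have : 0 < a.d := ha
    positivity
  have h2 : (0 : ℝ) < b.d := by
    have : 0 < b.d := hb
    positivity
  have h3 : a.n * b.d ≤ b.n * a.d := Nat.le_of_ble_eq_true h
  have h4 : (a.n : ℝ) * b.d ≤ b.n * a.d := by exact_mod_cast h3
  unfold val
  rw [div_le_div_iff₀ h1 h2]
  exact h4

lemma lt_sound {a b : QQ} (ha : a.Pos) (hb : b.Pos) (h : lt a b = true) : a.val < b.val := by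
  have h1 : (0 : ℝ) < a.d := by
    have : 0 < a.d := ha
    positivity
  have h2 : (0 : ℝ) < b.d := by
    have : 0 < b.d := hb
    positivity
  have h3 : a.n * b.d < b.n * a.d := by simpa [lt, Nat.blt_eq] using h
  have h4 : (a.n : ℝ) * b.d < b.n * a.d := by exact_mod_cast h3
  unfold val
  rw [div_lt_div_iff₀ h1 h2]
  exact h4

end QQ

def Iv.lo (I : Iv) : QQ := ⟨I.l, I.D⟩

def Iv.hi (I : Iv) : QQ := ⟨I.h, I.D⟩

lemma Iv.lo_le {I : Iv} {v : ℝ} (hD : 0 < I.D) (h : I.mem v) : I.lo.val ≤ v := by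
  have : (0 : ℝ) < I.D := by exact_mod_cast hD
  simp only [QQ.val, Iv.lo]
  rw [div_le_iff₀ this]
  exact h.1

lemma Iv.lt_hi {I : Iv} {v : ℝ} (hD : 0 < I.D) (h : I.mem v) : v < I.hi.val := by
  have : (0 : ℝ) < I.D := by exact_mod_cast hD
  simp only [QQ.val, Iv.hi]
  rw [lt_div_iff₀ this]
  exact h.2

open QQ in
/-- Tests showing that a cell contains no admissible point. -/
def exclTest (μ : QQ) (τ : Bool) (idx : ℕ) (Cx Ct Ce : Iv) : Bool :=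
  match idx with
  | 0 => le (mul (cst 4) Cx.hi) (mul (cst 3) (mul Ct.lo Ct.lo))
  | 1 => le (mul (cst 3) (mul Ce.hi Ce.hi)) (mul (cst 4) (mul Cx.lo (mul Ct.lo Ct.lo)))
  | 2 => le (mul (cst 4) Cx.hi) (mul (cst 3) Ce.lo)
  | 3 => lt (mul (cst 3) (mul μ μ)) Cx.lo
  | 4 =>
    if τ then
      lt (add (mul (cst 3) (mul μ (mul μ μ))) (mul Cx.hi Ct.hi)) (mul (cst 3) (mul μ Cx.lo))
    else
      lt (mul (cst 3) (mul μ (mul μ μ))) (add (mul (cst 3) (mul μ Cx.lo)) (mul Cx.lo Ct.lo))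
  | 5 =>
    if τ then
      lt (add (add (mul (cst 3) (mul (mul μ μ) (mul μ μ))) (mul (mul (cst 4) μ) (mul Cx.hi Ct.hi)))
          (mul (cst 3) (mul Cx.hi Cx.hi)))
        (add (mul (mul (cst 6) (mul μ μ)) Cx.lo) (mul (cst 3) (mul Cx.lo Ce.lo)))
    else
      lt (add (mul (cst 3) (mul (mul μ μ) (mul μ μ))) (mul (cst 3) (mul Cx.hi Cx.hi)))
        (add (add (mul (mul (cst 6) (mul μ μ)) Cx.lo) (mul (cst 3) (mul Cx.lo Ce.lo)))
          (mul (mul (cst 4) μ) (mul Cx.lo Ct.lo)))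
  | 6 =>
    lt (add (mul (cst 9) (mul Cx.hi (mul Ce.hi Ce.hi)))
        (mul (cst 18) (mul Cx.hi (mul Ce.hi (mul Ct.hi Ct.hi)))))
      (add (add (mul (cst 9) (mul Ce.lo (mul Ce.lo Ce.lo)))
          (mul (cst 16) (mul (mul Cx.lo Cx.lo) (mul Ct.lo Ct.lo))))
        (mul (cst 3) (mul Cx.lo (mul (mul Ct.lo Ct.lo) (mul Ct.lo Ct.lo)))))
  | _ =>
    if τ then false else lt (mul (cst 2) μ) (mul (cst 3) Ct.lo)

lemma mul_mono {a a' b b' : ℝ} (h1 : a ≤ a') (h2 : b ≤ b') (h3 : 0 ≤ a) (h4 : 0 ≤ b) : a * b ≤ a' * b' :=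
  mul_le_mul h1 h2 h4 (h3.trans h1)

theorem exclTest_sound {μ : QQ} {τ : Bool} {idx : ℕ} {Cx Ct Ce : Iv} (hμ : μ.Pos) (h1 : 0 < Cx.D)
    (h2 : 0 < Ct.D) (h3 : 0 < Ce.D) (hT : exclTest μ τ idx Cx Ct Ce = true) {x t e : ℝ} (hx : Cx.mem x)
    (ht : Ct.mem t) (he : Ce.mem e) (hD : Dom μ.val τ x t e) : False := by
  obtain ⟨x0, t0, e0, d1, d2, d3, d4, d5, d6, d7, d8⟩ := hD
  have l1 := Iv.lo_le h1 hx
  have u1 := Iv.lt_hi h1 hx
  have l2 := Iv.lo_le h2 ht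
  have u2 := Iv.lt_hi h2 ht
  have l3 := Iv.lo_le h3 he
  have u3 := Iv.lt_hi h3 he
  have pxl : Cx.lo.Pos := h1
  have pxh : Cx.hi.Pos := h1
  have ptl : Ct.lo.Pos := h2
  have pth : Ct.hi.Pos := h2
  have pel : Ce.lo.Pos := h3
  have peh : Ce.hi.Pos := h3
  have nxl := Cx.lo.val_nonneg
  have nxh := Cx.hi.val_nonneg
  have ntl := Ct.lo.val_nonneg
  have nth := Ct.hi.val_nonneg
  have nel := Ce.lo.val_nonneg
  have neh := Ce.hi.val_nonneg
  have nμ := μ.val_nonneg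
  set xl := Cx.lo.val
  set xh := Cx.hi.val
  set tl := Ct.lo.val
  set th := Ct.hi.val
  set el := Ce.lo.val
  set eh := Ce.hi.val
  set m := μ.val
  have c4 := QQ.pos_cst 4
  have c3 := QQ.pos_cst 3
  have c6 := QQ.pos_cst 6
  have c9 := QQ.pos_cst 9
  have c16 := QQ.pos_cst 16
  have c18 := QQ.pos_cst 18
  have c2 := QQ.pos_cst 2
  have tt : t * t ≥ tl * tl := mul_mono l2 l2 ntl ntl
  have tu : t * t ≤ th * th := mul_mono u2.le u2.le t0 t0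
  have eu : e * e ≤ eh * eh := mul_mono u3.le u3.le e0 e0
  have xtl : xl * tl ≤ x * t := mul_mono l1 l2 nxl ntl
  have xtu : x * t ≤ xh * th := mul_mono u1.le u2.le x0.le t0
  match idx, hT with
  | 0, hT =>
    have h := QQ.le_sound (QQ.pos_mul c4 pxh) (QQ.pos_mul c3 (QQ.pos_mul ptl ptl)) hT
    simp only [QQ.val_mul, QQ.val_cst] at h
    push_cast at h
    linarith
  | 1, hT =>
    have h := QQ.le_sound (QQ.pos_mul c3 (QQ.pos_mul peh peh))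
      (QQ.pos_mul c4 (QQ.pos_mul pxl (QQ.pos_mul ptl ptl))) hT
    simp only [QQ.val_mul, QQ.val_cst] at h
    push_cast at h
    have h5 : e * e < eh * eh := mul_self_lt_mul_self e0 u3
    have h6 : xl * (tl * tl) ≤ x * (t * t) := mul_mono l1 tt nxl (mul_nonneg ntl ntl)
    linarith
  | 2, hT =>
    have h := QQ.le_sound (QQ.pos_mul c4 pxh) (QQ.pos_mul c3 pel) hT
    simp only [QQ.val_mul, QQ.val_cst] at h
    push_cast at h
    linarith
  | 3, hT =>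
    have h := QQ.lt_sound (QQ.pos_mul c3 (QQ.pos_mul hμ hμ)) pxl hT
    simp only [QQ.val_mul, QQ.val_cst] at h
    push_cast at h
    linarith
  | 4, hT =>
    simp only [exclTest] at hT
    cases τ with
    | true =>
      simp only [if_true] at hT d5
      have h := QQ.lt_sound (QQ.pos_add (QQ.pos_mul c3 (QQ.pos_mul hμ (QQ.pos_mul hμ hμ))) (QQ.pos_mul pxh pth))
        (QQ.pos_mul c3 (QQ.pos_mul hμ pxl)) hT
      rw [QQ.val_add (QQ.pos_mul c3 (QQ.pos_mul hμ (QQ.pos_mul hμ hμ))) (QQ.pos_mul pxh pth)] at h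
      simp only [QQ.val_mul, QQ.val_cst] at h
      push_cast at h
      have h7 : m * xl ≤ m * x := mul_le_mul_of_nonneg_left l1 nμ
      linarith
    | false =>
      simp only [Bool.false_eq_true, if_false] at hT d5
      have h := QQ.lt_sound (QQ.pos_mul c3 (QQ.pos_mul hμ (QQ.pos_mul hμ hμ)))
        (QQ.pos_add (QQ.pos_mul c3 (QQ.pos_mul hμ pxl)) (QQ.pos_mul pxl ptl)) hT
      rw [QQ.val_add (QQ.pos_mul c3 (QQ.pos_mul hμ pxl)) (QQ.pos_mul pxl ptl)] at h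
      simp only [QQ.val_mul, QQ.val_cst] at h
      push_cast at h
      have h7 : m * xl ≤ m * x := mul_le_mul_of_nonneg_left l1 nμ
      linarith
  | 5, hT =>
    simp only [exclTest] at hT
    have h7 : m ^ 2 * xl ≤ m ^ 2 * x := mul_le_mul_of_nonneg_left l1 (sq_nonneg m)
    have h8 : xl * el ≤ x * e := mul_mono l1 l3 nxl nel
    have h9 : x * x ≤ xh * xh := mul_mono u1.le u1.le x0.le x0.le
    cases τ with
    | true =>
      simp only [if_true] at hT d6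
      have p1 := QQ.pos_mul c3 (QQ.pos_mul (QQ.pos_mul hμ hμ) (QQ.pos_mul hμ hμ))
      have p2 := QQ.pos_mul (QQ.pos_mul c4 hμ) (QQ.pos_mul pxh pth)
      have p3 := QQ.pos_mul c3 (QQ.pos_mul pxh pxh)
      have p4 := QQ.pos_mul (QQ.pos_mul c6 (QQ.pos_mul hμ hμ)) pxl
      have p5 := QQ.pos_mul c3 (QQ.pos_mul pxl pel)
      have h := QQ.lt_sound (QQ.pos_add (QQ.pos_add p1 p2) p3) (QQ.pos_add p4 p5) hT
      rw [QQ.val_add (QQ.pos_add p1 p2) p3, QQ.val_add p1 p2, QQ.val_add p4 p5] at h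
      simp only [QQ.val_mul, QQ.val_cst] at h
      push_cast at h
      have h10 : m * (x * t) ≤ m * (xh * th) := mul_le_mul_of_nonneg_left xtu nμ
      linarith
    | false =>
      simp only [Bool.false_eq_true, if_false] at hT d6
      have p1 := QQ.pos_mul c3 (QQ.pos_mul (QQ.pos_mul hμ hμ) (QQ.pos_mul hμ hμ))
      have p3 := QQ.pos_mul c3 (QQ.pos_mul pxh pxh)
      have p4 := QQ.pos_mul (QQ.pos_mul c6 (QQ.pos_mul hμ hμ)) pxl
      have p5 := QQ.pos_mul c3 (QQ.pos_mul pxl pel)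
      have p6 := QQ.pos_mul (QQ.pos_mul c4 hμ) (QQ.pos_mul pxl ptl)
      have h := QQ.lt_sound (QQ.pos_add p1 p3) (QQ.pos_add (QQ.pos_add p4 p5) p6) hT
      rw [QQ.val_add p1 p3, QQ.val_add (QQ.pos_add p4 p5) p6, QQ.val_add p4 p5] at h
      simp only [QQ.val_mul, QQ.val_cst] at h
      push_cast at h
      have h10 : m * (xl * tl) ≤ m * (x * t) := mul_le_mul_of_nonneg_left xtl nμ
      linarith
  | 6, hT =>
    simp only [exclTest] at hT
    have p1 := QQ.pos_mul c9 (QQ.pos_mul pxh (QQ.pos_mul peh peh))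
    have p2 := QQ.pos_mul c18 (QQ.pos_mul pxh (QQ.pos_mul peh (QQ.pos_mul pth pth)))
    have p3 := QQ.pos_mul c9 (QQ.pos_mul pel (QQ.pos_mul pel pel))
    have p4 := QQ.pos_mul c16 (QQ.pos_mul (QQ.pos_mul pxl pxl) (QQ.pos_mul ptl ptl))
    have p5 := QQ.pos_mul c3 (QQ.pos_mul pxl (QQ.pos_mul (QQ.pos_mul ptl ptl) (QQ.pos_mul ptl ptl)))
    have h := QQ.lt_sound (QQ.pos_add p1 p2) (QQ.pos_add (QQ.pos_add p3 p4) p5) hT
    rw [QQ.val_add p1 p2, QQ.val_add (QQ.pos_add p3 p4) p5, QQ.val_add p3 p4] at h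
    simp only [QQ.val_mul, QQ.val_cst] at h
    push_cast at h
    have a1 : x * (e * e) ≤ xh * (eh * eh) := mul_mono u1.le eu x0.le (mul_nonneg e0 e0)
    have a2 : x * (e * (t * t)) ≤ xh * (eh * (th * th)) :=
      mul_mono u1.le (mul_mono u3.le tu e0 (mul_nonneg t0 t0)) x0.le (mul_nonneg e0 (mul_nonneg t0 t0))
    have a3 : el * (el * el) ≤ e * (e * e) :=
      mul_mono l3 (mul_mono l3 l3 nel nel) nel (mul_nonneg nel nel)
    have a4 : (xl * xl) * (tl * tl) ≤ (x * x) * (t * t) :=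
      mul_mono (mul_mono l1 l1 nxl nxl) tt (mul_nonneg nxl nxl) (mul_nonneg ntl ntl)
    have a5 : xl * ((tl * tl) * (tl * tl)) ≤ x * ((t * t) * (t * t)) :=
      mul_mono l1 (mul_mono tt tt (mul_nonneg ntl ntl) (mul_nonneg ntl ntl)) nxl
        (mul_nonneg (mul_nonneg ntl ntl) (mul_nonneg ntl ntl))
    linarith
  | k + 7, hT =>
    simp only [exclTest] at hT
    cases τ with
    | true => simp at hT
    | false =>
      simp only [Bool.false_eq_true, if_false] at hT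
      have h := QQ.lt_sound (QQ.pos_mul c2 hμ) (QQ.pos_mul c3 ptl) hT
      simp only [QQ.val_mul, QQ.val_cst] at h
      push_cast at h
      have := d8 rfl
      linarith

/-- Scale of the polynomials used to exclude cells. -/
def bigS : ℕ := 1099511627776

/-- The polynomials `-S * g - 1`, where `g` is one of the constraints on the moments, cleared of denominators. -/
def ruleTen (μ : QQ) (τ : Bool) : ℕ → Dg × Ten (List CE) × Ten (List CE)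
  | 0 => (⟨1,2,0,0,0,0⟩, [[[[[]]], [[[]]], [[[⟨0,0,Nat.mul 3 bigS⟩]]]]], [[[[[⟨1,0,Nat.mul 4 bigS⟩, ⟨0,0,1⟩]]], [[[]]], [[[]]]]])
  | 1 => (⟨1,2,2,0,0,0⟩, [[[[[]]], [[[]]], [[[⟨1,0,Nat.mul 4 bigS⟩]]]], [[[[]]], [[[]]], [[[]]]], [[[[]]], [[[]]], [[[]]]]], [[[[[⟨0,0,1⟩]]], [[[]]], [[[]]]], [[[[]]], [[[]]], [[[]]]], [[[[⟨0,0,Nat.mul 3 bigS⟩]]], [[[]]], [[[]]]]])
  | 2 => (⟨1,0,1,0,0,0⟩, [[[[[]]]], [[[[⟨0,0,Nat.mul 3 bigS⟩]]]]], [[[[[⟨1,0,Nat.mul 4 bigS⟩, ⟨0,0,1⟩]]]], [[[[]]]]])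
  | 3 => (⟨1,0,0,0,0,0⟩, [[[[[⟨1,0,Nat.mul bigS (Nat.pow μ.d 2)⟩]]]]], [[[[[⟨0,0,Nat.add (Nat.mul (Nat.mul 3 bigS) (Nat.pow μ.n 2)) 1⟩]]]]])
  | 4 => bif τ then (⟨1,1,0,0,0,0⟩, [[[[[⟨1,0,Nat.mul (Nat.mul (Nat.mul 3 bigS) μ.n) (Nat.pow μ.d 2)⟩]]], [[[]]]]], [[[[[⟨0,0,Nat.add (Nat.mul (Nat.mul 3 bigS) (Nat.pow μ.n 3)) 1⟩]]], [[[⟨1,0,Nat.mul bigS (Nat.pow μ.d 3)⟩]]]]])
      else (⟨1,1,0,0,0,0⟩, [[[[[⟨1,0,Nat.mul (Nat.mul (Nat.mul 3 bigS) μ.n) (Nat.pow μ.d 2)⟩]]], [[[⟨1,0,Nat.mul bigS (Nat.pow μ.d 3)⟩]]]]], [[[[[⟨0,0,Nat.add (Nat.mul (Nat.mul 3 bigS) (Nat.pow μ.n 3)) 1⟩]]], [[[]]]]])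
  | 5 => bif τ then (⟨2,1,1,0,0,0⟩, [[[[[⟨1,0,Nat.mul (Nat.mul (Nat.mul 6 bigS) (Nat.pow μ.n 2)) (Nat.pow μ.d 2)⟩]]], [[[]]]], [[[[⟨1,0,Nat.mul (Nat.mul 3 bigS) (Nat.pow μ.d 4)⟩]]], [[[]]]]], [[[[[⟨0,0,Nat.add (Nat.mul (Nat.mul 3 bigS) (Nat.pow μ.n 4)) 1⟩, ⟨2,0,Nat.mul (Nat.mul 3 bigS) (Nat.pow μ.d 4)⟩]]], [[[⟨1,0,Nat.mul (Nat.mul (Nat.mul 4 bigS) μ.n) (Nat.pow μ.d 3)⟩]]]], [[[[]]], [[[]]]]])
      else (⟨2,1,1,0,0,0⟩, [[[[[⟨1,0,Nat.mul (Nat.mul (Nat.mul 6 bigS) (Nat.pow μ.n 2)) (Nat.pow μ.d 2)⟩]]], [[[⟨1,0,Nat.mul (Nat.mul (Nat.mul 4 bigS) μ.n) (Nat.pow μ.d 3)⟩]]]], [[[[⟨1,0,Nat.mul (Nat.mul 3 bigS) (Nat.pow μ.d 4)⟩]]], [[[]]]]], [[[[[⟨0,0,Nat.add (Nat.mul (Nat.mul 3 bigS) (Nat.pow μ.n 4)) 1⟩, ⟨2,0,Nat.mul (Nat.mul 3 bigS) (Nat.pow μ.d 4)⟩]]], [[[]]]], [[[[]]], [[[]]]]])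
  | 6 => (⟨2,4,3,0,0,0⟩, [[[[[]]], [[[]]], [[[⟨2,0,Nat.mul 16 bigS⟩]]], [[[]]], [[[⟨1,0,Nat.mul 3 bigS⟩]]]], [[[[]]], [[[]]], [[[]]], [[[]]], [[[]]]], [[[[]]], [[[]]], [[[]]], [[[]]], [[[]]]], [[[[⟨0,0,Nat.mul 9 bigS⟩]]], [[[]]], [[[]]], [[[]]], [[[]]]]], [[[[[⟨0,0,1⟩]]], [[[]]], [[[]]], [[[]]], [[[]]]], [[[[]]], [[[]]], [[[⟨1,0,Nat.mul 18 bigS⟩]]], [[[]]], [[[]]]], [[[[⟨1,0,Nat.mul 9 bigS⟩]]], [[[]]], [[[]]], [[[]]], [[[]]]], [[[[]]], [[[]]], [[[]]], [[[]]], [[[]]]]])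
  | 7 => bif τ then (⟨0,0,0,0,0,0⟩, [[[[[]]]]], [[[[[⟨0,0,1⟩]]]]]) else (⟨0,1,0,0,0,0⟩, [[[[[]]], [[[⟨0,0,Nat.mul (Nat.mul 3 bigS) μ.d⟩]]]]], [[[[[⟨0,0,Nat.add (Nat.mul (Nat.mul 2 bigS) μ.n) 1⟩]]], [[[]]]]])
  | _ => (⟨0,0,0,0,0,0⟩, [[[[[]]]]], [[[[[⟨0,0,1⟩]]]]])


/-- The context for such a polynomial. -/
def ruleCtx (μ : QQ) (τ : Bool) (k : ℕ) : Ctx :=
  ⟨(ruleTen μ τ k).1, (ruleTen μ τ k).2.1, (ruleTen μ τ k).2.2, 500, 281474976710656, 281474976710656, 2, 2,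
    281474976710656, 281474976710656, 2, 2⟩

/-- The trivial interval. -/
def ivZ : Iv := ⟨0, 1, 1⟩

/-- The test excluding a cell by the values of one polynomial. -/
noncomputable def exclB (μ : QQ) (τ : Bool) (k : ℕ) (Cx Ct Ce : Iv) : Bool :=
  (ruleCtx μ τ k).boundOk && leafTest (ruleCtx μ τ k) Cx ivZ Ct Ce ivZ ivZ

lemma ivZ_mem : ivZ.mem 0 := by
  simp [ivZ, Iv.mem]

section ruleval

variable (μ : QQ) (x t e : ℝ)

lemma bigS_pos : (0 : ℝ) < (bigS : ℝ) := by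
  norm_num [bigS]

lemma rv0 (τ : Bool) : Rcell (ruleCtx μ τ 0) x t e 0 0 0 = -(bigS : ℝ) * (4 * x - 3 * t ^ 2) - 1 := by
  simp [Rcell, ruleCtx, ruleTen, cellV, ptR, evalC, evalW, evalA, numG, cpG, powL, powAux, dotG]
  ring

lemma rv1 (τ : Bool) : Rcell (ruleCtx μ τ 1) x t e 0 0 0 = -(bigS : ℝ) * (3 * e ^ 2 - 4 * x * t ^ 2) - 1 := by
  simp [Rcell, ruleCtx, ruleTen, cellV, ptR, evalC, evalW, evalA, numG, cpG, powL, powAux, dotG]
  ring

lemma rv2 (τ : Bool) : Rcell (ruleCtx μ τ 2) x t e 0 0 0 = -(bigS : ℝ) * (4 * x - 3 * e) - 1 := by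
  simp [Rcell, ruleCtx, ruleTen, cellV, ptR, evalC, evalW, evalA, numG, cpG, powL, powAux, dotG]
  ring

lemma rv3 (τ : Bool) : Rcell (ruleCtx μ τ 3) x t e 0 0 0
    = -(bigS : ℝ) * (3 * (μ.n : ℝ) ^ 2 - (μ.d : ℝ) ^ 2 * x) - 1 := by
  simp [Rcell, ruleCtx, ruleTen, cellV, ptR, evalC, evalW, evalA, numG, cpG, powL, powAux, dotG]
  ring

lemma rv4T : Rcell (ruleCtx μ true 4) x t e 0 0 0
    = -(bigS : ℝ) * (3 * (μ.n : ℝ) ^ 3 - 3 * (μ.n : ℝ) * (μ.d : ℝ) ^ 2 * x + (μ.d : ℝ) ^ 3 * (x * t)) - 1 := by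
  simp [Rcell, ruleCtx, ruleTen, cellV, ptR, evalC, evalW, evalA, numG, cpG, powL, powAux, dotG]
  ring

lemma rv4F : Rcell (ruleCtx μ false 4) x t e 0 0 0
    = -(bigS : ℝ) * (3 * (μ.n : ℝ) ^ 3 - 3 * (μ.n : ℝ) * (μ.d : ℝ) ^ 2 * x - (μ.d : ℝ) ^ 3 * (x * t)) - 1 := by
  simp [Rcell, ruleCtx, ruleTen, cellV, ptR, evalC, evalW, evalA, numG, cpG, powL, powAux, dotG]
  ring

lemma rv5T : Rcell (ruleCtx μ true 5) x t e 0 0 0
    = -(bigS : ℝ) * (3 * (μ.n : ℝ) ^ 4 - 6 * (μ.n : ℝ) ^ 2 * (μ.d : ℝ) ^ 2 * x + 4 * (μ.n : ℝ) * (μ.d : ℝ) ^ 3 * (x * t)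
        + 3 * (μ.d : ℝ) ^ 4 * x ^ 2 - 3 * (μ.d : ℝ) ^ 4 * (x * e)) - 1 := by
  simp [Rcell, ruleCtx, ruleTen, cellV, ptR, evalC, evalW, evalA, numG, cpG, powL, powAux, dotG]
  ring

lemma rv5F : Rcell (ruleCtx μ false 5) x t e 0 0 0
    = -(bigS : ℝ) * (3 * (μ.n : ℝ) ^ 4 - 6 * (μ.n : ℝ) ^ 2 * (μ.d : ℝ) ^ 2 * x - 4 * (μ.n : ℝ) * (μ.d : ℝ) ^ 3 * (x * t)
        + 3 * (μ.d : ℝ) ^ 4 * x ^ 2 - 3 * (μ.d : ℝ) ^ 4 * (x * e)) - 1 := by
  simp [Rcell, ruleCtx, ruleTen, cellV, ptR, evalC, evalW, evalA, numG, cpG, powL, powAux, dotG]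
  ring

lemma rv6 (τ : Bool) : Rcell (ruleCtx μ τ 6) x t e 0 0 0
    = -(bigS : ℝ) * (9 * x * e ^ 2 - 9 * e ^ 3 - 16 * x ^ 2 * t ^ 2 + 18 * x * e * t ^ 2 - 3 * x * t ^ 4) - 1 := by
  simp [Rcell, ruleCtx, ruleTen, cellV, ptR, evalC, evalW, evalA, numG, cpG, powL, powAux, dotG]
  ring

lemma rv7F : Rcell (ruleCtx μ false 7) x t e 0 0 0
    = -(bigS : ℝ) * (2 * (μ.n : ℝ) - 3 * (μ.d : ℝ) * t) - 1 := by
  simp [Rcell, ruleCtx, ruleTen, cellV, ptR, evalC, evalW, evalA, numG, cpG, powL, powAux, dotG]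
  ring

lemma rv7T : Rcell (ruleCtx μ true 7) x t e 0 0 0 = -1 := by
  simp [Rcell, ruleCtx, ruleTen, cellV, ptR, evalC, evalW, evalA, numG, cpG, powL, powAux, dotG]

lemma rvZ (τ : Bool) (k : ℕ) : Rcell (ruleCtx μ τ (k + 8)) x t e 0 0 0 = -1 := by
  simp [Rcell, ruleCtx, ruleTen, cellV, ptR, evalC, evalW, evalA, numG, cpG, powL, powAux, dotG]

end ruleval

theorem exclB_sound {μ : QQ} {τ : Bool} {k : ℕ} {Cx Ct Ce : Iv} (hμ : μ.Pos) (h1 : 0 < Cx.D)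
    (h2 : 0 < Ct.D) (h3 : 0 < Ce.D) (hT : exclB μ τ k Cx Ct Ce = true) {x t e : ℝ} (hx : Cx.mem x)
    (ht : Ct.mem t) (he : Ce.mem e) (hD : Dom μ.val τ x t e) : False := by
  simp only [exclB, Bool.and_eq_true] at hT
  obtain ⟨hb, hl⟩ := hT
  have hz : (0 : ℕ) < ivZ.D := by simp [ivZ]
  have key := leaf_sound hb h1 h2 h3 hz hz hz hl hx ht he ivZ_mem ivZ_mem ivZ_mem
  obtain ⟨x0, t0, e0, d1, d2, d3, d4, d5, d6, d7, d8⟩ := hD
  have hS := bigS_pos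
  have hd : (0 : ℝ) < (μ.d : ℝ) := by
    have : 0 < μ.d := hμ
    exact_mod_cast this
  have hn : (μ.n : ℝ) = μ.val * μ.d := by
    simp only [QQ.val]
    field_simp
  set m := μ.val with hm
  have fin : ∀ A : ℝ, 0 ≤ A → ¬ (0 ≤ -(bigS : ℝ) * A - 1) := by
    intro A hA h
    have := mul_nonneg hS.le hA
    linarith
  rcases k with _ | _ | _ | _ | _ | _ | _ | _ | k
  · have key' : 0 ≤ Rcell (ruleCtx μ τ 0) x t e 0 0 0 := key
    rw [rv0] at key'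
    exact fin _ (by linarith) key'
  · have key' : 0 ≤ Rcell (ruleCtx μ τ 1) x t e 0 0 0 := key
    rw [rv1] at key'
    exact fin _ (by linarith) key'
  · have key' : 0 ≤ Rcell (ruleCtx μ τ 2) x t e 0 0 0 := key
    rw [rv2] at key'
    exact fin _ (by linarith) key'
  · have key' : 0 ≤ Rcell (ruleCtx μ τ 3) x t e 0 0 0 := key
    rw [rv3, hn] at key'
    refine fin _ ?_ key'
    have e1 : 3 * (m * (μ.d : ℝ)) ^ 2 - (μ.d : ℝ) ^ 2 * x = (μ.d : ℝ) ^ 2 * (3 * m ^ 2 - x) := by ring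
    rw [e1]
    exact mul_nonneg (by positivity) (by linarith)
  · cases τ with
    | true =>
      have key' : 0 ≤ Rcell (ruleCtx μ true 4) x t e 0 0 0 := key
      rw [rv4T, hn] at key'
      refine fin _ ?_ key'
      simp only [if_true] at d5
      have e1 : 3 * (m * (μ.d : ℝ)) ^ 3 - 3 * (m * (μ.d : ℝ)) * (μ.d : ℝ) ^ 2 * x + (μ.d : ℝ) ^ 3 * (x * t)
          = (μ.d : ℝ) ^ 3 * (3 * m ^ 3 - 3 * m * x + x * t) := by ring
      rw [e1]
      exact mul_nonneg (by positivity) d5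
    | false =>
      have key' : 0 ≤ Rcell (ruleCtx μ false 4) x t e 0 0 0 := key
      rw [rv4F, hn] at key'
      refine fin _ ?_ key'
      simp only [Bool.false_eq_true, if_false] at d5
      have e1 : 3 * (m * (μ.d : ℝ)) ^ 3 - 3 * (m * (μ.d : ℝ)) * (μ.d : ℝ) ^ 2 * x - (μ.d : ℝ) ^ 3 * (x * t)
          = (μ.d : ℝ) ^ 3 * (3 * m ^ 3 - 3 * m * x + -(x * t)) := by ring
      rw [e1]
      exact mul_nonneg (by positivity) d5
  · cases τ with
    | true =>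
      have key' : 0 ≤ Rcell (ruleCtx μ true 5) x t e 0 0 0 := key
      rw [rv5T, hn] at key'
      refine fin _ ?_ key'
      simp only [if_true] at d6
      have e1 : 3 * (m * (μ.d : ℝ)) ^ 4 - 6 * (m * (μ.d : ℝ)) ^ 2 * (μ.d : ℝ) ^ 2 * x + 4 * (m * (μ.d : ℝ)) * (μ.d : ℝ) ^ 3 * (x * t)
          + 3 * (μ.d : ℝ) ^ 4 * x ^ 2 - 3 * (μ.d : ℝ) ^ 4 * (x * e)
          = (μ.d : ℝ) ^ 4 * (3 * m ^ 4 - 6 * m ^ 2 * x + 4 * m * (x * t) + 3 * x ^ 2 - 3 * x * e) := by ring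
      rw [e1]
      exact mul_nonneg (by positivity) d6
    | false =>
      have key' : 0 ≤ Rcell (ruleCtx μ false 5) x t e 0 0 0 := key
      rw [rv5F, hn] at key'
      refine fin _ ?_ key'
      simp only [Bool.false_eq_true, if_false] at d6
      have e1 : 3 * (m * (μ.d : ℝ)) ^ 4 - 6 * (m * (μ.d : ℝ)) ^ 2 * (μ.d : ℝ) ^ 2 * x - 4 * (m * (μ.d : ℝ)) * (μ.d : ℝ) ^ 3 * (x * t)
          + 3 * (μ.d : ℝ) ^ 4 * x ^ 2 - 3 * (μ.d : ℝ) ^ 4 * (x * e)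
          = (μ.d : ℝ) ^ 4 * (3 * m ^ 4 - 6 * m ^ 2 * x + -(4 * m * (x * t)) + 3 * x ^ 2 - 3 * x * e) := by ring
      rw [e1]
      exact mul_nonneg (by positivity) d6
  · have key' : 0 ≤ Rcell (ruleCtx μ τ 6) x t e 0 0 0 := key
    rw [rv6] at key'
    exact fin _ d7 key'
  · cases τ with
    | true =>
      have key' : 0 ≤ Rcell (ruleCtx μ true 7) x t e 0 0 0 := key
      rw [rv7T] at key'
      linarith
    | false =>
      have key' : 0 ≤ Rcell (ruleCtx μ false 7) x t e 0 0 0 := key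
      rw [rv7F, hn] at key'
      refine fin _ ?_ key'
      have h8 := d8 rfl
      have e1 : 2 * (m * (μ.d : ℝ)) - 3 * (μ.d : ℝ) * t = (μ.d : ℝ) * (2 * m - 3 * t) := by ring
      rw [e1]
      exact mul_nonneg hd.le (by linarith)
  · have key' : 0 ≤ Rcell (ruleCtx μ τ (k + 8)) x t e 0 0 0 := key
    rw [rvZ] at key'
    linarith

/-- The check of a subdivision of the six coordinates, reading its description from the digits of `code`. -/
noncomputable def tree (c : Ctx) (μ : QQ) (sc sa : Bool) : ℕ → Iv → Iv → Iv → Iv → Iv → Iv → ℕ → Option ℕ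
  | 0, _, _, _, _, _, _, _ => none
  | f + 1, Cx, CX, Ct, Ce, CT, CE', code =>
    match Nat.mod code 16 with
    | 0 => bif leafTest c Cx CX Ct Ce CT CE' then some (Nat.div code 16) else none
    | 1 =>
      bif exclTest (QQ.cst 1) sc (Nat.mod (Nat.div code 16) 16) Cx Ct Ce then
        some (Nat.div (Nat.div code 16) 16) else none
    | 2 =>
      bif exclTest μ sa (Nat.mod (Nat.div code 16) 16) CX CT CE' then
        some (Nat.div (Nat.div code 16) 16) else none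
    | 3 =>
      match tree c μ sc sa f Cx CX Ct.left Ce CT CE' (Nat.div code 16) with
      | none => none
      | some code' => tree c μ sc sa f Cx CX Ct.right Ce CT CE' code'
    | 4 =>
      match tree c μ sc sa f Cx CX Ct Ce.left CT CE' (Nat.div code 16) with
      | none => none
      | some code' => tree c μ sc sa f Cx CX Ct Ce.right CT CE' code'
    | 5 =>
      match tree c μ sc sa f Cx CX Ct Ce CT.left CE' (Nat.div code 16) with
      | none => none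
      | some code' => tree c μ sc sa f Cx CX Ct Ce CT.right CE' code'
    | 6 =>
      match tree c μ sc sa f Cx CX Ct Ce CT CE'.left (Nat.div code 16) with
      | none => none
      | some code' => tree c μ sc sa f Cx CX Ct Ce CT CE'.right code'
    | 7 =>
      match tree c μ sc sa f Cx.left CX Ct Ce CT CE' (Nat.div code 16) with
      | none => none
      | some code' => tree c μ sc sa f Cx.right CX Ct Ce CT CE' code'
    | 8 =>
      match tree c μ sc sa f Cx CX.left Ct Ce CT CE' (Nat.div code 16) with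
      | none => none
      | some code' => tree c μ sc sa f Cx CX.right Ct Ce CT CE' code'
    | 9 =>
      bif exclB (QQ.cst 1) sc (Nat.mod (Nat.div code 16) 16) Cx Ct Ce then
        some (Nat.div (Nat.div code 16) 16) else none
    | _ =>
      bif exclB μ sa (Nat.mod (Nat.div code 16) 16) CX CT CE' then
        some (Nat.div (Nat.div code 16) 16) else none

/-- The check for one chunk of a subdivision. -/
noncomputable def chunkOk (c : Ctx) (μ : QQ) (sc sa : Bool) (f : ℕ) (Cx CX Ct Ce CT CE' : Iv) (code : ℕ) : Bool :=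
  Nat.blt 0 Cx.D && Nat.blt 0 CX.D && Nat.blt 0 Ct.D && Nat.blt 0 Ce.D && Nat.blt 0 CT.D && Nat.blt 0 CE'.D &&
  Nat.blt 0 μ.d && c.boundOk && (tree c μ sc sa f Cx CX Ct Ce CT CE' code).isSome

/-- Positivity on the part of a product of cells where the constraints hold. -/
def Cover (c : Ctx) (μ : ℝ) (sc sa : Bool) (Cx CX Ct Ce CT CE' : Iv) : Prop :=
  ∀ x t e X T E : ℝ, Cx.mem x → Ct.mem t → Ce.mem e → CX.mem X → CT.mem T → CE'.mem E →
    Dom 1 sc x t e → Dom μ sa X T E → 0 ≤ Rcell c x t e X T E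

variable {c : Ctx} {μ : ℝ} {sc sa : Bool} {Cx CX Ct Ce CT CE' : Iv}

lemma Cover.split_t (h1 : Cover c μ sc sa Cx CX Ct.left Ce CT CE') (h2 : Cover c μ sc sa Cx CX Ct.right Ce CT CE') :
    Cover c μ sc sa Cx CX Ct Ce CT CE' := by
  intro x t e X T E m0 m1 m2 m3 m4 m5 d1 d2
  rcases Iv.mem_split m1 with h | h
  · exact h1 x t e X T E m0 h m2 m3 m4 m5 d1 d2
  · exact h2 x t e X T E m0 h m2 m3 m4 m5 d1 d2

lemma Cover.split_e (h1 : Cover c μ sc sa Cx CX Ct Ce.left CT CE') (h2 : Cover c μ sc sa Cx CX Ct Ce.right CT CE') :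
    Cover c μ sc sa Cx CX Ct Ce CT CE' := by
  intro x t e X T E m0 m1 m2 m3 m4 m5 d1 d2
  rcases Iv.mem_split m2 with h | h
  · exact h1 x t e X T E m0 m1 h m3 m4 m5 d1 d2
  · exact h2 x t e X T E m0 m1 h m3 m4 m5 d1 d2

lemma Cover.split_T (h1 : Cover c μ sc sa Cx CX Ct Ce CT.left CE') (h2 : Cover c μ sc sa Cx CX Ct Ce CT.right CE') :
    Cover c μ sc sa Cx CX Ct Ce CT CE' := by
  intro x t e X T E m0 m1 m2 m3 m4 m5 d1 d2
  rcases Iv.mem_split m4 with h | h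
  · exact h1 x t e X T E m0 m1 m2 m3 h m5 d1 d2
  · exact h2 x t e X T E m0 m1 m2 m3 h m5 d1 d2

lemma Cover.split_E (h1 : Cover c μ sc sa Cx CX Ct Ce CT CE'.left) (h2 : Cover c μ sc sa Cx CX Ct Ce CT CE'.right) :
    Cover c μ sc sa Cx CX Ct Ce CT CE' := by
  intro x t e X T E m0 m1 m2 m3 m4 m5 d1 d2
  rcases Iv.mem_split m5 with h | h
  · exact h1 x t e X T E m0 m1 m2 m3 m4 h d1 d2
  · exact h2 x t e X T E m0 m1 m2 m3 m4 h d1 d2

lemma Cover.split_x (h1 : Cover c μ sc sa Cx.left CX Ct Ce CT CE') (h2 : Cover c μ sc sa Cx.right CX Ct Ce CT CE') :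
    Cover c μ sc sa Cx CX Ct Ce CT CE' := by
  intro x t e X T E m0 m1 m2 m3 m4 m5 d1 d2
  rcases Iv.mem_split m0 with h | h
  · exact h1 x t e X T E h m1 m2 m3 m4 m5 d1 d2
  · exact h2 x t e X T E h m1 m2 m3 m4 m5 d1 d2

lemma Cover.split_X (h1 : Cover c μ sc sa Cx CX.left Ct Ce CT CE') (h2 : Cover c μ sc sa Cx CX.right Ct Ce CT CE') :
    Cover c μ sc sa Cx CX Ct Ce CT CE' := by
  intro x t e X T E m0 m1 m2 m3 m4 m5 d1 d2
  rcases Iv.mem_split m3 with h | h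
  · exact h1 x t e X T E m0 m1 m2 h m4 m5 d1 d2
  · exact h2 x t e X T E m0 m1 m2 h m4 m5 d1 d2

lemma Iv.left_D {I : Iv} (h : 0 < I.D) : 0 < I.left.D := by
  simp only [Iv.left]
  omega

lemma Iv.right_D {I : Iv} (h : 0 < I.D) : 0 < I.right.D := by
  simp only [Iv.right]
  omega

theorem tree_sound {μ' : QQ} (hμ : μ'.Pos) (hb : c.boundOk = true) (f : ℕ) :
    ∀ {Cx CX Ct Ce CT CE' : Iv} {code code' : ℕ}, 0 < Cx.D → 0 < CX.D → 0 < Ct.D → 0 < Ce.D → 0 < CT.D → 0 < CE'.D →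
      tree c μ' sc sa f Cx CX Ct Ce CT CE' code = some code' → Cover c μ'.val sc sa Cx CX Ct Ce CT CE' := by
  induction f with
  | zero =>
    intro Cx CX Ct Ce CT CE' code code' _ _ _ _ _ _ h
    simp [tree] at h
  | succ f ih =>
    intro Cx CX Ct Ce CT CE' code code' h0 h3 d1 d2 d4 d5 h
    rw [tree] at h
    split at h
    · -- a tested cell
      cases hl : leafTest c Cx CX Ct Ce CT CE' with
      | false => simp [hl] at h
      | true =>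
        intro x t e X T E m0 m1 m2 m3 m4 m5 _ _
        exact leaf_sound hb h0 d1 d2 h3 d4 d5 hl m0 m1 m2 m3 m4 m5
    · -- excluded by the constraints on the first message
      cases hl : exclTest (QQ.cst 1) sc (Nat.mod (Nat.div code 16) 16) Cx Ct Ce with
      | false => simp [hl] at h
      | true =>
        intro x t e X T E m0 m1 m2 m3 m4 m5 p1 p2
        exfalso
        refine exclTest_sound (QQ.pos_cst 1) h0 d1 d2 hl m0 m1 m2 ?_
        rw [QQ.val_cst]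
        simpa using p1
    · -- excluded by the constraints on the second message
      cases hl : exclTest μ' sa (Nat.mod (Nat.div code 16) 16) CX CT CE' with
      | false => simp [hl] at h
      | true =>
        intro x t e X T E m0 m1 m2 m3 m4 m5 p1 p2
        exact (exclTest_sound hμ h3 d4 d5 hl m3 m4 m5 p2).elim
    · split at h
      · simp at h
      · rename_i code'' h2
        exact Cover.split_t (ih h0 h3 (Iv.left_D d1) d2 d4 d5 h2) (ih h0 h3 (Iv.right_D d1) d2 d4 d5 h)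
    · split at h
      · simp at h
      · rename_i code'' h2
        exact Cover.split_e (ih h0 h3 d1 (Iv.left_D d2) d4 d5 h2) (ih h0 h3 d1 (Iv.right_D d2) d4 d5 h)
    · split at h
      · simp at h
      · rename_i code'' h2
        exact Cover.split_T (ih h0 h3 d1 d2 (Iv.left_D d4) d5 h2) (ih h0 h3 d1 d2 (Iv.right_D d4) d5 h)
    · split at h
      · simp at h
      · rename_i code'' h2
        exact Cover.split_E (ih h0 h3 d1 d2 d4 (Iv.left_D d5) h2) (ih h0 h3 d1 d2 d4 (Iv.right_D d5) h)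
    · split at h
      · simp at h
      · rename_i code'' h2
        exact Cover.split_x (ih (Iv.left_D h0) h3 d1 d2 d4 d5 h2) (ih (Iv.right_D h0) h3 d1 d2 d4 d5 h)
    · split at h
      · simp at h
      · rename_i code'' h2
        exact Cover.split_X (ih h0 (Iv.left_D h3) d1 d2 d4 d5 h2) (ih h0 (Iv.right_D h3) d1 d2 d4 d5 h)
    · cases hl : exclB (QQ.cst 1) sc (Nat.mod (Nat.div code 16) 16) Cx Ct Ce with
      | false => simp [hl] at h
      | true =>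
        intro x t e X T E m0 m1 m2 m3 m4 m5 p1 p2
        exfalso
        refine exclB_sound (QQ.pos_cst 1) h0 d1 d2 hl m0 m1 m2 ?_
        rw [QQ.val_cst]
        simpa using p1
    · cases hl : exclB μ' sa (Nat.mod (Nat.div code 16) 16) CX CT CE' with
      | false => simp [hl] at h
      | true =>
        intro x t e X T E m0 m1 m2 m3 m4 m5 p1 p2
        exact (exclB_sound hμ h3 d4 d5 hl m3 m4 m5 p2).elim

theorem chunk_sound {μ' : QQ} {f code : ℕ} (h : chunkOk c μ' sc sa f Cx CX Ct Ce CT CE' code = true) :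
    Cover c μ'.val sc sa Cx CX Ct Ce CT CE' := by
  simp only [chunkOk, Bool.and_eq_true, Nat.blt_eq, Option.isSome_iff_exists] at h
  obtain ⟨⟨⟨⟨⟨⟨⟨⟨d0, d3⟩, d1⟩, d2⟩, d4⟩, d5⟩, hμ⟩, hb⟩, code', ht⟩ := h
  exact tree_sound hμ hb f d0 d3 d1 d2 d4 d5 ht

end Vale.Agent.helper4.Q4
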