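import Vale.Agent.helper4.Q4R1T

/-!
Cells on which the polynomial dominates a multiple of one of the constraints on the moments of a message.
-/

set_option linter.unusedSectionVars false
set_option linter.unusedVariables false

namespace Vale.Agent.helper4.Q4

open MvPolynomial
open FN

/-- The constraints on the moments of the first message, cleared of denominators, as a difference of two tensors. -/
def ruleC (μ : QQ) (τ : Bool) : ℕ → Dg × Ten (List CE) × Ten (List CE)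
  | 0 => (⟨1,2,0,0,0,0⟩, [[[[[⟨1,0,4⟩]]], [[[]]], [[[]]]]], [[[[[]]], [[[]]], [[[⟨0,0,3⟩]]]]])
  | 1 => (⟨1,2,2,0,0,0⟩, [[[[[]]], [[[]]], [[[]]]], [[[[]]], [[[]]], [[[]]]], [[[[⟨0,0,3⟩]]], [[[]]], [[[]]]]], [[[[[]]], [[[]]], [[[⟨1,0,4⟩]]]], [[[[]]], [[[]]], [[[]]]], [[[[]]], [[[]]], [[[]]]]])
  | 2 => (⟨1,0,1,0,0,0⟩, [[[[[⟨1,0,4⟩]]]], [[[[]]]]], [[[[[]]]], [[[[⟨0,0,3⟩]]]]])
  | 3 => (⟨1,0,0,0,0,0⟩, [[[[[⟨0,0,(Nat.mul 3 (Nat.pow μ.n 2))⟩]]]]], [[[[[⟨1,0,(Nat.pow μ.d 2)⟩]]]]])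
  | 4 => bif τ then (⟨1,1,0,0,0,0⟩, [[[[[⟨0,0,(Nat.mul 3 (Nat.pow μ.n 3))⟩]]], [[[⟨1,0,(Nat.pow μ.d 3)⟩]]]]], [[[[[⟨1,0,(Nat.mul (Nat.mul 3 μ.n) (Nat.pow μ.d 2))⟩]]], [[[]]]]])
      else (⟨1,1,0,0,0,0⟩, [[[[[⟨0,0,(Nat.mul 3 (Nat.pow μ.n 3))⟩]]], [[[]]]]], [[[[[⟨1,0,(Nat.mul (Nat.mul 3 μ.n) (Nat.pow μ.d 2))⟩]]], [[[⟨1,0,(Nat.pow μ.d 3)⟩]]]]])
  | 5 => bif τ then (⟨2,1,1,0,0,0⟩, [[[[[⟨0,0,(Nat.mul 3 (Nat.pow μ.n 4))⟩, ⟨2,0,(Nat.mul 3 (Nat.pow μ.d 4))⟩]]], [[[⟨1,0,(Nat.mul (Nat.mul 4 μ.n) (Nat.pow μ.d 3))⟩]]]], [[[[]]], [[[]]]]], [[[[[⟨1,0,(Nat.mul (Nat.mul 6 (Nat.pow μ.n 2)) (Nat.pow μ.d 2))⟩]]], [[[]]]], [[[[⟨1,0,(Nat.mul 3 (Nat.pow μ.d 4))⟩]]], [[[]]]]])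
      else (⟨2,1,1,0,0,0⟩, [[[[[⟨0,0,(Nat.mul 3 (Nat.pow μ.n 4))⟩, ⟨2,0,(Nat.mul 3 (Nat.pow μ.d 4))⟩]]], [[[]]]], [[[[]]], [[[]]]]], [[[[[⟨1,0,(Nat.mul (Nat.mul 6 (Nat.pow μ.n 2)) (Nat.pow μ.d 2))⟩]]], [[[⟨1,0,(Nat.mul (Nat.mul 4 μ.n) (Nat.pow μ.d 3))⟩]]]], [[[[⟨1,0,(Nat.mul 3 (Nat.pow μ.d 4))⟩]]], [[[]]]]])
  | 6 => (⟨2,4,3,0,0,0⟩, [[[[[]]], [[[]]], [[[]]], [[[]]], [[[]]]], [[[[]]], [[[]]], [[[⟨1,0,18⟩]]], [[[]]], [[[]]]], [[[[⟨1,0,9⟩]]], [[[]]], [[[]]], [[[]]], [[[]]]], [[[[]]], [[[]]], [[[]]], [[[]]], [[[]]]]], [[[[[]]], [[[]]], [[[⟨2,0,16⟩]]], [[[]]], [[[⟨1,0,3⟩]]]], [[[[]]], [[[]]], [[[]]], [[[]]], [[[]]]], [[[[]]], [[[]]], [[[]]], [[[]]], [[[]]]], [[[[⟨0,0,9⟩]]], [[[]]], [[[]]], [[[]]], [[[]]]]])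
  | _ => (⟨0,0,0,0,0,0⟩, [[[[[]]]]], [[[[[]]]]])

def ruleA (μ : QQ) (τ : Bool) : ℕ → Dg × Ten (List CE) × Ten (List CE)
  | 0 => (⟨0,0,0,1,2,0⟩, [[[[[⟨0,1,4⟩], [], []]]]], [[[[[], [], [⟨0,0,3⟩]]]]])
  | 1 => (⟨0,0,0,1,2,2⟩, [[[[[], [], []], [[], [], []], [[⟨0,0,3⟩], [], []]]]], [[[[[], [], [⟨0,1,4⟩]], [[], [], []], [[], [], []]]]])
  | 2 => (⟨0,0,0,1,0,1⟩, [[[[[⟨0,1,4⟩]], [[]]]]], [[[[[]], [[⟨0,0,3⟩]]]]])
  | 3 => (⟨0,0,0,1,0,0⟩, [[[[[⟨0,0,(Nat.mul 3 (Nat.pow μ.n 2))⟩]]]]], [[[[[⟨0,1,(Nat.pow μ.d 2)⟩]]]]])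
  | 4 => bif τ then (⟨0,0,0,1,1,0⟩, [[[[[⟨0,0,(Nat.mul 3 (Nat.pow μ.n 3))⟩], [⟨0,1,(Nat.pow μ.d 3)⟩]]]]], [[[[[⟨0,1,(Nat.mul (Nat.mul 3 μ.n) (Nat.pow μ.d 2))⟩], []]]]])
      else (⟨0,0,0,1,1,0⟩, [[[[[⟨0,0,(Nat.mul 3 (Nat.pow μ.n 3))⟩], []]]]], [[[[[⟨0,1,(Nat.mul (Nat.mul 3 μ.n) (Nat.pow μ.d 2))⟩], [⟨0,1,(Nat.pow μ.d 3)⟩]]]]])
  | 5 => bif τ then (⟨0,0,0,2,1,1⟩, [[[[[⟨0,0,(Nat.mul 3 (Nat.pow μ.n 4))⟩, ⟨0,2,(Nat.mul 3 (Nat.pow μ.d 4))⟩], [⟨0,1,(Nat.mul (Nat.mul 4 μ.n) (Nat.pow μ.d 3))⟩]], [[], []]]]], [[[[[⟨0,1,(Nat.mul (Nat.mul 6 (Nat.pow μ.n 2)) (Nat.pow μ.d 2))⟩], []], [[⟨0,1,(Nat.mul 3 (Nat.pow μ.d 4))⟩], []]]]])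
      else (⟨0,0,0,2,1,1⟩, [[[[[⟨0,0,(Nat.mul 3 (Nat.pow μ.n 4))⟩, ⟨0,2,(Nat.mul 3 (Nat.pow μ.d 4))⟩], []], [[], []]]]], [[[[[⟨0,1,(Nat.mul (Nat.mul 6 (Nat.pow μ.n 2)) (Nat.pow μ.d 2))⟩], [⟨0,1,(Nat.mul (Nat.mul 4 μ.n) (Nat.pow μ.d 3))⟩]], [[⟨0,1,(Nat.mul 3 (Nat.pow μ.d 4))⟩], []]]]])
  | 6 => (⟨0,0,0,2,4,3⟩, [[[[[], [], [], [], []], [[], [], [⟨0,1,18⟩], [], []], [[⟨0,1,9⟩], [], [], [], []], [[], [], [], [], []]]]], [[[[[], [], [⟨0,2,16⟩], [], [⟨0,1,3⟩]], [[], [], [], [], []], [[], [], [], [], []], [[⟨0,0,9⟩], [], [], [], []]]]])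
  | _ => (⟨0,0,0,0,0,0⟩, [[[[[]]]]], [[[[[]]]]])


/-- The difference of the values of the two tensors of a rule. -/
noncomputable def RV (R : Dg × Ten (List CE) × Ten (List CE)) (x t e X T E : ℝ) : ℝ :=
  cellV R.1 R.2.1 (ptR x t e X T E) - cellV R.1 R.2.2 (ptR x t e X T E)

section ruleval

variable {μ : QQ} {x t e X T E : ℝ}

lemma vC0 (τ : Bool) : RV (ruleC μ τ 0) x t e X T E = 4 * x - 3 * t ^ 2 := by
  simp [RV, ruleC, cellV, ptR, evalC, evalW, evalA, numG, cpG, powL, powAux, dotG] <;> ring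

lemma vC1 (τ : Bool) : RV (ruleC μ τ 1) x t e X T E = 3 * e ^ 2 - 4 * x * t ^ 2 := by
  simp [RV, ruleC, cellV, ptR, evalC, evalW, evalA, numG, cpG, powL, powAux, dotG] <;> ring

lemma vC2 (τ : Bool) : RV (ruleC μ τ 2) x t e X T E = 4 * x - 3 * e := by
  simp [RV, ruleC, cellV, ptR, evalC, evalW, evalA, numG, cpG, powL, powAux, dotG] <;> ring

lemma vC3 (τ : Bool) : RV (ruleC μ τ 3) x t e X T E = 3 * (μ.n : ℝ) ^ 2 - (μ.d : ℝ) ^ 2 * x := by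
  simp [RV, ruleC, cellV, ptR, evalC, evalW, evalA, numG, cpG, powL, powAux, dotG] <;> ring

lemma vC4T : RV (ruleC μ true 4) x t e X T E = 3 * (μ.n : ℝ) ^ 3 - 3 * (μ.n : ℝ) * (μ.d : ℝ) ^ 2 * x + (μ.d : ℝ) ^ 3 * (x * t) := by
  simp [RV, ruleC, cellV, ptR, evalC, evalW, evalA, numG, cpG, powL, powAux, dotG] <;> ring

lemma vC4F : RV (ruleC μ false 4) x t e X T E = 3 * (μ.n : ℝ) ^ 3 - 3 * (μ.n : ℝ) * (μ.d : ℝ) ^ 2 * x - (μ.d : ℝ) ^ 3 * (x * t) := by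
  simp [RV, ruleC, cellV, ptR, evalC, evalW, evalA, numG, cpG, powL, powAux, dotG] <;> ring

lemma vC5T : RV (ruleC μ true 5) x t e X T E = 3 * (μ.n : ℝ) ^ 4 - 6 * (μ.n : ℝ) ^ 2 * (μ.d : ℝ) ^ 2 * x + 4 * (μ.n : ℝ) * (μ.d : ℝ) ^ 3 * (x * t) + 3 * (μ.d : ℝ) ^ 4 * x ^ 2 - 3 * (μ.d : ℝ) ^ 4 * (x * e) := by
  simp [RV, ruleC, cellV, ptR, evalC, evalW, evalA, numG, cpG, powL, powAux, dotG] <;> ring

lemma vC5F : RV (ruleC μ false 5) x t e X T E = 3 * (μ.n : ℝ) ^ 4 - 6 * (μ.n : ℝ) ^ 2 * (μ.d : ℝ) ^ 2 * x - 4 * (μ.n : ℝ) * (μ.d : ℝ) ^ 3 * (x * t) + 3 * (μ.d : ℝ) ^ 4 * x ^ 2 - 3 * (μ.d : ℝ) ^ 4 * (x * e) := by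
  simp [RV, ruleC, cellV, ptR, evalC, evalW, evalA, numG, cpG, powL, powAux, dotG] <;> ring

lemma vC6 (τ : Bool) : RV (ruleC μ τ 6) x t e X T E = 9 * x * e ^ 2 - 9 * e ^ 3 - 16 * x ^ 2 * t ^ 2 + 18 * x * e * t ^ 2 - 3 * x * t ^ 4 := by
  simp [RV, ruleC, cellV, ptR, evalC, evalW, evalA, numG, cpG, powL, powAux, dotG] <;> ring

lemma vCZ (τ : Bool) (k : ℕ) : RV (ruleC μ τ (k + 7)) x t e X T E = 0 := by
  simp [RV, ruleC, cellV, ptR, evalC, evalW, evalA, numG, cpG, powL, powAux, dotG]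

lemma vA0 (τ : Bool) : RV (ruleA μ τ 0) x t e X T E = 4 * X - 3 * T ^ 2 := by
  simp [RV, ruleA, cellV, ptR, evalC, evalW, evalA, numG, cpG, powL, powAux, dotG] <;> ring

lemma vA1 (τ : Bool) : RV (ruleA μ τ 1) x t e X T E = 3 * E ^ 2 - 4 * X * T ^ 2 := by
  simp [RV, ruleA, cellV, ptR, evalC, evalW, evalA, numG, cpG, powL, powAux, dotG] <;> ring

lemma vA2 (τ : Bool) : RV (ruleA μ τ 2) x t e X T E = 4 * X - 3 * E := by
  simp [RV, ruleA, cellV, ptR, evalC, evalW, evalA, numG, cpG, powL, powAux, dotG] <;> ring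

lemma vA3 (τ : Bool) : RV (ruleA μ τ 3) x t e X T E = 3 * (μ.n : ℝ) ^ 2 - (μ.d : ℝ) ^ 2 * X := by
  simp [RV, ruleA, cellV, ptR, evalC, evalW, evalA, numG, cpG, powL, powAux, dotG] <;> ring

lemma vA4T : RV (ruleA μ true 4) x t e X T E = 3 * (μ.n : ℝ) ^ 3 - 3 * (μ.n : ℝ) * (μ.d : ℝ) ^ 2 * X + (μ.d : ℝ) ^ 3 * (X * T) := by
  simp [RV, ruleA, cellV, ptR, evalC, evalW, evalA, numG, cpG, powL, powAux, dotG] <;> ring

lemma vA4F : RV (ruleA μ false 4) x t e X T E = 3 * (μ.n : ℝ) ^ 3 - 3 * (μ.n : ℝ) * (μ.d : ℝ) ^ 2 * X - (μ.d : ℝ) ^ 3 * (X * T) := by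
  simp [RV, ruleA, cellV, ptR, evalC, evalW, evalA, numG, cpG, powL, powAux, dotG] <;> ring

lemma vA5T : RV (ruleA μ true 5) x t e X T E = 3 * (μ.n : ℝ) ^ 4 - 6 * (μ.n : ℝ) ^ 2 * (μ.d : ℝ) ^ 2 * X + 4 * (μ.n : ℝ) * (μ.d : ℝ) ^ 3 * (X * T) + 3 * (μ.d : ℝ) ^ 4 * X ^ 2 - 3 * (μ.d : ℝ) ^ 4 * (X * E) := by
  simp [RV, ruleA, cellV, ptR, evalC, evalW, evalA, numG, cpG, powL, powAux, dotG] <;> ring

lemma vA5F : RV (ruleA μ false 5) x t e X T E = 3 * (μ.n : ℝ) ^ 4 - 6 * (μ.n : ℝ) ^ 2 * (μ.d : ℝ) ^ 2 * X - 4 * (μ.n : ℝ) * (μ.d : ℝ) ^ 3 * (X * T) + 3 * (μ.d : ℝ) ^ 4 * X ^ 2 - 3 * (μ.d : ℝ) ^ 4 * (X * E) := by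
  simp [RV, ruleA, cellV, ptR, evalC, evalW, evalA, numG, cpG, powL, powAux, dotG] <;> ring

lemma vA6 (τ : Bool) : RV (ruleA μ τ 6) x t e X T E = 9 * X * E ^ 2 - 9 * E ^ 3 - 16 * X ^ 2 * T ^ 2 + 18 * X * E * T ^ 2 - 3 * X * T ^ 4 := by
  simp [RV, ruleA, cellV, ptR, evalC, evalW, evalA, numG, cpG, powL, powAux, dotG] <;> ring

lemma vAZ (τ : Bool) (k : ℕ) : RV (ruleA μ τ (k + 7)) x t e X T E = 0 := by
  simp [RV, ruleA, cellV, ptR, evalC, evalW, evalA, numG, cpG, powL, powAux, dotG]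


end ruleval

theorem rvC_nonneg {μ : QQ} (hμ : μ.Pos) {τ : Bool} (k : ℕ) {x t e X T E : ℝ} (hD : Dom μ.val τ x t e) :
    0 ≤ RV (ruleC μ τ k) x t e X T E := by
  obtain ⟨x0, t0, e0, d1, d2, d3, d4, d5, d6, d7, d8⟩ := hD
  have hd : (0 : ℝ) < (μ.d : ℝ) := by
    have : 0 < μ.d := hμ
    exact_mod_cast this
  have hn : (μ.n : ℝ) = μ.val * μ.d := by
    simp only [QQ.val]
    field_simp
  set m := μ.val with hm
  rcases k with _ | _ | _ | _ | _ | _ | _ | k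
  · rw [show (0 : ℕ) = 0 from rfl, vC0]
    linarith
  · rw [vC1]
    linarith
  · rw [vC2]
    linarith
  · rw [vC3, hn]
    have e1 : 3 * (m * (μ.d : ℝ)) ^ 2 - (μ.d : ℝ) ^ 2 * x = (μ.d : ℝ) ^ 2 * (3 * m ^ 2 - x) := by ring
    rw [e1]
    exact mul_nonneg (by positivity) (by linarith)
  · cases τ with
    | true =>
      rw [vC4T, hn]
      simp only [if_true] at d5
      have e1 : 3 * (m * (μ.d : ℝ)) ^ 3 - 3 * (m * (μ.d : ℝ)) * (μ.d : ℝ) ^ 2 * x + (μ.d : ℝ) ^ 3 * (x * t)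
          = (μ.d : ℝ) ^ 3 * (3 * m ^ 3 - 3 * m * x + x * t) := by ring
      rw [e1]
      exact mul_nonneg (by positivity) d5
    | false =>
      rw [vC4F, hn]
      simp only [Bool.false_eq_true, if_false] at d5
      have e1 : 3 * (m * (μ.d : ℝ)) ^ 3 - 3 * (m * (μ.d : ℝ)) * (μ.d : ℝ) ^ 2 * x - (μ.d : ℝ) ^ 3 * (x * t)
          = (μ.d : ℝ) ^ 3 * (3 * m ^ 3 - 3 * m * x + -(x * t)) := by ring
      rw [e1]
      exact mul_nonneg (by positivity) d5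
  · cases τ with
    | true =>
      rw [vC5T, hn]
      simp only [if_true] at d6
      have e1 : 3 * (m * (μ.d : ℝ)) ^ 4 - 6 * (m * (μ.d : ℝ)) ^ 2 * (μ.d : ℝ) ^ 2 * x + 4 * (m * (μ.d : ℝ)) * (μ.d : ℝ) ^ 3 * (x * t) + 3 * (μ.d : ℝ) ^ 4 * x ^ 2 - 3 * (μ.d : ℝ) ^ 4 * (x * e)
          = (μ.d : ℝ) ^ 4 * (3 * m ^ 4 - 6 * m ^ 2 * x + 4 * m * (x * t) + 3 * x ^ 2 - 3 * x * e) := by ring
      rw [e1]
      exact mul_nonneg (by positivity) d6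
    | false =>
      rw [vC5F, hn]
      simp only [Bool.false_eq_true, if_false] at d6
      have e1 : 3 * (m * (μ.d : ℝ)) ^ 4 - 6 * (m * (μ.d : ℝ)) ^ 2 * (μ.d : ℝ) ^ 2 * x - 4 * (m * (μ.d : ℝ)) * (μ.d : ℝ) ^ 3 * (x * t) + 3 * (μ.d : ℝ) ^ 4 * x ^ 2 - 3 * (μ.d : ℝ) ^ 4 * (x * e)
          = (μ.d : ℝ) ^ 4 * (3 * m ^ 4 - 6 * m ^ 2 * x + -(4 * m * (x * t)) + 3 * x ^ 2 - 3 * x * e) := by ring
      rw [e1]
      exact mul_nonneg (by positivity) d6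
  · rw [vC6]
    exact d7
  · rw [vCZ]

theorem rvA_nonneg {μ : QQ} (hμ : μ.Pos) {τ : Bool} (k : ℕ) {x t e X T E : ℝ} (hD : Dom μ.val τ X T E) :
    0 ≤ RV (ruleA μ τ k) x t e X T E := by
  obtain ⟨x0, t0, e0, d1, d2, d3, d4, d5, d6, d7, d8⟩ := hD
  have hd : (0 : ℝ) < (μ.d : ℝ) := by
    have : 0 < μ.d := hμ
    exact_mod_cast this
  have hn : (μ.n : ℝ) = μ.val * μ.d := by
    simp only [QQ.val]
    field_simp
  set m := μ.val with hm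
  rcases k with _ | _ | _ | _ | _ | _ | _ | k
  · rw [show (0 : ℕ) = 0 from rfl, vA0]
    linarith
  · rw [vA1]
    linarith
  · rw [vA2]
    linarith
  · rw [vA3, hn]
    have e1 : 3 * (m * (μ.d : ℝ)) ^ 2 - (μ.d : ℝ) ^ 2 * X = (μ.d : ℝ) ^ 2 * (3 * m ^ 2 - X) := by ring
    rw [e1]
    exact mul_nonneg (by positivity) (by linarith)
  · cases τ with
    | true =>
      rw [vA4T, hn]
      simp only [if_true] at d5
      have e1 : 3 * (m * (μ.d : ℝ)) ^ 3 - 3 * (m * (μ.d : ℝ)) * (μ.d : ℝ) ^ 2 * X + (μ.d : ℝ) ^ 3 * (X * T)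
          = (μ.d : ℝ) ^ 3 * (3 * m ^ 3 - 3 * m * X + X * T) := by ring
      rw [e1]
      exact mul_nonneg (by positivity) d5
    | false =>
      rw [vA4F, hn]
      simp only [Bool.false_eq_true, if_false] at d5
      have e1 : 3 * (m * (μ.d : ℝ)) ^ 3 - 3 * (m * (μ.d : ℝ)) * (μ.d : ℝ) ^ 2 * X - (μ.d : ℝ) ^ 3 * (X * T)
          = (μ.d : ℝ) ^ 3 * (3 * m ^ 3 - 3 * m * X + -(X * T)) := by ring
      rw [e1]
      exact mul_nonneg (by positivity) d5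
  · cases τ with
    | true =>
      rw [vA5T, hn]
      simp only [if_true] at d6
      have e1 : 3 * (m * (μ.d : ℝ)) ^ 4 - 6 * (m * (μ.d : ℝ)) ^ 2 * (μ.d : ℝ) ^ 2 * X + 4 * (m * (μ.d : ℝ)) * (μ.d : ℝ) ^ 3 * (X * T) + 3 * (μ.d : ℝ) ^ 4 * X ^ 2 - 3 * (μ.d : ℝ) ^ 4 * (X * E)
          = (μ.d : ℝ) ^ 4 * (3 * m ^ 4 - 6 * m ^ 2 * X + 4 * m * (X * T) + 3 * X ^ 2 - 3 * X * E) := by ring
      rw [e1]
      exact mul_nonneg (by positivity) d6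
    | false =>
      rw [vA5F, hn]
      simp only [Bool.false_eq_true, if_false] at d6
      have e1 : 3 * (m * (μ.d : ℝ)) ^ 4 - 6 * (m * (μ.d : ℝ)) ^ 2 * (μ.d : ℝ) ^ 2 * X - 4 * (m * (μ.d : ℝ)) * (μ.d : ℝ) ^ 3 * (X * T) + 3 * (μ.d : ℝ) ^ 4 * X ^ 2 - 3 * (μ.d : ℝ) ^ 4 * (X * E)
          = (μ.d : ℝ) ^ 4 * (3 * m ^ 4 - 6 * m ^ 2 * X + -(4 * m * (X * T)) + 3 * X ^ 2 - 3 * X * E) := by ring
      rw [e1]
      exact mul_nonneg (by positivity) d6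
  · rw [vA6]
    exact d7
  · rw [vAZ]



lemma shapeC1 (μ : QQ) (τ : Bool) (k : ℕ) : shapeOk (ruleC μ τ k).1 (ruleC μ τ k).2.1 = true := by
  rcases k with _ | _ | _ | _ | _ | _ | _ | k
  · rfl
  · rfl
  · rfl
  · rfl
  · cases τ <;> rfl
  · cases τ <;> rfl
  · rfl
  · rfl

lemma shapeC2 (μ : QQ) (τ : Bool) (k : ℕ) : shapeOk (ruleC μ τ k).1 (ruleC μ τ k).2.2 = true := by
  rcases k with _ | _ | _ | _ | _ | _ | _ | k
  · rfl
  · rfl
  · rfl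
  · rfl
  · cases τ <;> rfl
  · cases τ <;> rfl
  · rfl
  · rfl

lemma shapeA1 (μ : QQ) (τ : Bool) (k : ℕ) : shapeOk (ruleA μ τ k).1 (ruleA μ τ k).2.1 = true := by
  rcases k with _ | _ | _ | _ | _ | _ | _ | k
  · rfl
  · rfl
  · rfl
  · rfl
  · cases τ <;> rfl
  · cases τ <;> rfl
  · rfl
  · rfl

lemma shapeA2 (μ : QQ) (τ : Bool) (k : ℕ) : shapeOk (ruleA μ τ k).1 (ruleA μ τ k).2.2 = true := by
  rcases k with _ | _ | _ | _ | _ | _ | _ | k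
  · rfl
  · rfl
  · rfl
  · rfl
  · cases τ <;> rfl
  · cases τ <;> rfl
  · rfl
  · rfl



/-- The value of a tensor at a real point does not depend on the degrees. -/
lemma cellV_indep {d d' : Dg} {C : Ten (List CE)} (h : shapeOk d C = true) (h' : shapeOk d' C = true)
    {x t e X T E : ℝ} (hx : 0 < x) (hX : 0 < X) :
    cellV d C (ptR x t e X T E) = cellV d' C (ptR x t e X T E) := by
  have a1 := cell_flat d C h ⟨x, t, e, X, T, E⟩
  have a2 := cell_flat d' C h' ⟨x, t, e, X, T, E⟩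
  have a3 := a1.trans a2.symm
  exact mul_left_cancel₀ (mul_pos hx hX).ne' a3

section leaf

/-- The bound on the size of the digits. -/
noncomputable def boundM (c : Ctx) (T1 T2 : Ten (List CE)) (s m : ℕ) : Bool :=
  Nat.blt (Nat.mul (Nat.add (Nat.mul s (sumT4 (numN c.d.nx c.d.nX c.Kxa c.Kxb c.KXa c.KXb T1)))
      (Nat.mul m (sumT4 (numN c.d.nx c.d.nX c.Kxa c.Kxb c.KXa c.KXb T2))))
    (Nat.mul (Nat.mul (Nat.mul (Nat.pow c.Kt c.d.nt) (Nat.pow c.Ke c.d.ne)) (Nat.pow c.KT c.d.nT)) (Nat.pow c.KE c.d.nE)))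
    (Nat.pow 2 (Nat.sub c.w 1))

/-- The test on a cell for `s * F - m * g`, where `g` is the difference of the tensors `gP` and `gN`. -/
noncomputable def leafM (c : Ctx) (gP gN : Ten (List CE)) (s m : ℕ) (Cx CX Ct Ce CT CE' : Iv) : Bool :=
  Nat.ble (Nat.add Cx.l Cx.h) c.Kxa && Nat.ble (Nat.mul 2 Cx.D) c.Kxb &&
  Nat.ble (Nat.add CX.l CX.h) c.KXa && Nat.ble (Nat.mul 2 CX.D) c.KXb &&
  Iv.bd Ct c.Kt && Iv.bd Ce c.Ke && Iv.bd CT c.KT && Iv.bd CE' c.KE &&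
  boundM c c.TP gN s m && boundM c c.TN gP s m &&
  leafDec (Nat.add (Nat.mul s (leafK c c.TP Cx CX Ct Ce CT CE')) (Nat.mul m (leafK c gN Cx CX Ct Ce CT CE')))
    (Nat.add (Nat.mul s (leafK c c.TN Cx CX Ct Ce CT CE')) (Nat.mul m (leafK c gP Cx CX Ct Ce CT CE')))
    (Nat.pow 2 (Nat.mul c.w c.d.total)) (maskF c.w c.d.total)

lemma cell_domM {c : Ctx} {gP gN : Ten (List CE)} {s m : ℕ} {Cx CX Ct Ce CT CE' : Iv} (hb : c.boundOk = true)
    (hg1 : fitTen c.d.nx c.d.nX gP = true) (hg2 : fitTen c.d.nx c.d.nX gN = true)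
    (hl : leafM c gP gN s m Cx CX Ct Ce CT CE' = true) (a : Fin 6 →₀ ℕ) :
    ((s : MP) * cellF c.d c.TN Cx Ct Ce CX CT CE' + (m : MP) * cellF c.d gP Cx Ct Ce CX CT CE').coeff a
      ≤ ((s : MP) * cellF c.d c.TP Cx Ct Ce CX CT CE' + (m : MP) * cellF c.d gN Cx Ct Ce CX CT CE').coeff a := by
  simp only [Ctx.boundOk, Bool.and_eq_true, Nat.blt_eq] at hb
  obtain ⟨⟨⟨⟨hw, hf1⟩, hf2⟩, _⟩, _⟩ := hb
  simp only [leafM, leafDec, Iv.bd, Bool.and_eq_true, Nat.blt_eq] at hl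
  obtain ⟨⟨⟨⟨⟨⟨⟨⟨⟨⟨q1, q2⟩, q3⟩, q4⟩, k1, k2⟩, k3, k4⟩, k5, k6⟩, k7, k8⟩, bP⟩, bQ⟩, ⟨h1, h2⟩, h3⟩ := hl
  have q1' : Nat.add Cx.l Cx.h ≤ c.Kxa := Nat.le_of_ble_eq_true q1
  have q2' : Nat.mul 2 Cx.D ≤ c.Kxb := Nat.le_of_ble_eq_true q2
  have q3' : Nat.add CX.l CX.h ≤ c.KXa := Nat.le_of_ble_eq_true q3
  have q4' : Nat.mul 2 CX.D ≤ c.KXb := Nat.le_of_ble_eq_true q4
  have hw' : 1 ≤ c.w := Nat.le_of_ble_eq_true hw
  have k1' := Nat.le_of_ble_eq_true k1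
  have k2' := Nat.le_of_ble_eq_true k2
  have k3' := Nat.le_of_ble_eq_true k3
  have k4' := Nat.le_of_ble_eq_true k4
  have k5' := Nat.le_of_ble_eq_true k5
  have k6' := Nat.le_of_ble_eq_true k6
  have k7' := Nat.le_of_ble_eq_true k7
  have k8' := Nat.le_of_ble_eq_true k8
  have h3' := Nat.eq_of_beq_eq_true h3
  have hM : ∀ (n : ℕ) (T : Ten (List CE)), fitTen c.d.nx c.d.nX T = true →
      DegLe c.d.nx c.d.nt c.d.ne c.d.nX c.d.nT c.d.nE ((n : MP) * cellF c.d T Cx Ct Ce CX CT CE') := by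
    intro n T hf
    simpa using (DegLe.natCast n).mul (cellF_deg c.d T Cx Ct Ce CX CT CE' hf)
  have hgP := (hM s c.TP hf1).add (hM m gN hg2)
  have hgQ := (hM s c.TN hf2).add (hM m gP hg1)
  have hinj := inj_radix hgP hgQ
  have hY : 2 ^ c.w = 2 * 2 ^ (c.w - 1) := by
    conv_lhs => rw [show c.w = (c.w - 1) + 1 by omega, pow_succ]
    ring
  have ones : ∀ T : Ten (List CE), aeval (fun _ => (1 : ℕ)) (cellF c.d T Cx Ct Ce CX CT CE')
      ≤ Nat.mul (sumT4 (numN c.d.nx c.d.nX c.Kxa c.Kxb c.KXa c.KXb T))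
        (Nat.mul (Nat.mul (Nat.mul (Nat.pow c.Kt c.d.nt) (Nat.pow c.Ke c.d.ne)) (Nat.pow c.KT c.d.nT)) (Nat.pow c.KE c.d.nE)) := by
    intro T
    rw [aeval_cellF]
    have e1 : ∀ I : Iv, I.A (1 : ℕ) = Nat.add I.l I.h := by
      intro I
      simp [Iv.A]
    have e2 : ∀ I : Iv, I.B (1 : ℕ) = Nat.mul 2 I.D := by
      intro I
      simp [Iv.B, Nat.mul_comm]
    have := cellV_ones_le (d := c.d) T (⟨Cx.A (1 : ℕ), Cx.B (1 : ℕ), Ct.A (1 : ℕ), Ct.B (1 : ℕ), Ce.A (1 : ℕ), Ce.B (1 : ℕ),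
        CX.A (1 : ℕ), CX.B (1 : ℕ), CT.A (1 : ℕ), CT.B (1 : ℕ), CE'.A (1 : ℕ), CE'.B (1 : ℕ)⟩ : Pt ℕ)
      (Kt := c.Kt) (Ke := c.Ke) (KT := c.KT) (KE := c.KE)
      (by simpa only [e1] using k1') (by simpa only [e2] using k2') (by simpa only [e1] using k3')
      (by simpa only [e2] using k4') (by simpa only [e1] using k5') (by simpa only [e2] using k6')
      (by simpa only [e1] using k7') (by simpa only [e2] using k8')
    refine this.trans (le_trans (le_of_eq ?_) (Nat.mul_le_mul_right _ (sumT4_numN_mono (nx := c.d.nx) (nX := c.d.nX)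
      (ax := Nat.add Cx.l Cx.h) (bx := Nat.mul 2 Cx.D) (aX := Nat.add CX.l CX.h) (bX := Nat.mul 2 CX.D) q1' q2' q3' q4' T)))
    have e3 : ∀ I : Iv, Nat.add I.l I.h = I.A (1 : ℕ) := fun I => (e1 I).symm
    have e4 : ∀ I : Iv, Nat.mul 2 I.D = I.B (1 : ℕ) := fun I => (e2 I).symm
    simp only [numN_eq, e3, e4]
    rfl
  have ones2 : ∀ T1 T2 : Ten (List CE), boundM c T1 T2 s m = true →
      aeval (fun _ => (1 : ℕ)) ((s : MP) * cellF c.d T1 Cx Ct Ce CX CT CE' + (m : MP) * cellF c.d T2 Cx Ct Ce CX CT CE')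
        < 2 ^ (c.w - 1) := by
    intro T1 T2 hb
    have hlt : Nat.mul (Nat.add (Nat.mul s (sumT4 (numN c.d.nx c.d.nX c.Kxa c.Kxb c.KXa c.KXb T1)))
        (Nat.mul m (sumT4 (numN c.d.nx c.d.nX c.Kxa c.Kxb c.KXa c.KXb T2))))
        (Nat.mul (Nat.mul (Nat.mul (Nat.pow c.Kt c.d.nt) (Nat.pow c.Ke c.d.ne)) (Nat.pow c.KT c.d.nT)) (Nat.pow c.KE c.d.nE))
        < Nat.pow 2 (Nat.sub c.w 1) := by
      simpa [boundM, Nat.blt_eq] using hb
    refine lt_of_le_of_lt ?_ hlt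
    simp only [map_add, map_mul, map_natCast, Nat.cast_id]
    have o1 := Nat.mul_le_mul_left s (ones T1)
    have o2 := Nat.mul_le_mul_left m (ones T2)
    have e : Nat.mul (Nat.add (Nat.mul s (sumT4 (numN c.d.nx c.d.nX c.Kxa c.Kxb c.KXa c.KXb T1)))
        (Nat.mul m (sumT4 (numN c.d.nx c.d.nX c.Kxa c.Kxb c.KXa c.KXb T2))))
        (Nat.mul (Nat.mul (Nat.mul (Nat.pow c.Kt c.d.nt) (Nat.pow c.Ke c.d.ne)) (Nat.pow c.KT c.d.nT)) (Nat.pow c.KE c.d.nE))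
        = s * Nat.mul (sumT4 (numN c.d.nx c.d.nX c.Kxa c.Kxb c.KXa c.KXb T1))
            (Nat.mul (Nat.mul (Nat.mul (Nat.pow c.Kt c.d.nt) (Nat.pow c.Ke c.d.ne)) (Nat.pow c.KT c.d.nT)) (Nat.pow c.KE c.d.nE))
          + m * Nat.mul (sumT4 (numN c.d.nx c.d.nX c.Kxa c.Kxb c.KXa c.KXb T2))
            (Nat.mul (Nat.mul (Nat.mul (Nat.pow c.Kt c.d.nt) (Nat.pow c.Ke c.d.ne)) (Nat.pow c.KT c.d.nT)) (Nat.pow c.KE c.d.nE)) := by
      simp only [Nat.mul_eq, Nat.add_eq]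
      ring
    rw [e]
    exact Nat.add_le_add o1 o2
  set NP := Nat.add (Nat.mul s (leafK c c.TP Cx CX Ct Ce CT CE')) (Nat.mul m (leafK c gN Cx CX Ct Ce CT CE')) with hNP
  set NQ := Nat.add (Nat.mul s (leafK c c.TN Cx CX Ct Ce CT CE')) (Nat.mul m (leafK c gP Cx CX Ct Ce CT CE')) with hNQ
  have hN : NP = NQ + (NP - NQ) := by
    have : NQ ≤ NP := Nat.le_of_ble_eq_true h1
    omega
  have hlt : NP - NQ < (2 ^ c.w) ^ c.d.total := by
    have e : (2 ^ c.w) ^ c.d.total = 2 ^ (c.w * c.d.total) := (pow_mul 2 c.w c.d.total).symm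
    rw [e]
    exact h2
  have hland : (NP - NQ) &&& maskN c.w c.d.total = 0 := by
    rw [← maskF_eq hw']
    exact h3'
  have hd := digits_of_land hw' hlt hland
  have val : ∀ T1 T2 : Ten (List CE), aeval (fun i => (2 ^ c.w) ^ c.d.rad i)
      ((s : MP) * cellF c.d T1 Cx Ct Ce CX CT CE' + (m : MP) * cellF c.d T2 Cx Ct Ce CX CT CE')
        = Nat.add (Nat.mul s (leafK c T1 Cx CX Ct Ce CT CE')) (Nat.mul m (leafK c T2 Cx CX Ct Ce CT CE')) := by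
    intro T1 T2
    simp only [map_add, map_mul, map_natCast, Nat.cast_id]
    rw [← leafK_eq, ← leafK_eq]
    rfl
  refine dom_of_digits (e := c.d.rad) hinj hY (ones2 _ _ bP) (ones2 _ _ bQ) ?_ hd a
  rw [val, val]
  exact hN

/-- The inequality on a cell from the test. -/
theorem leafM_sound {c : Ctx} {gP gN : Ten (List CE)} {s m : ℕ} {Cx CX Ct Ce CT CE' : Iv} (hb : c.boundOk = true)
    (hg1 : fitTen c.d.nx c.d.nX gP = true) (hg2 : fitTen c.d.nx c.d.nX gN = true)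
    (d0 : 0 < Cx.D) (d1 : 0 < Ct.D) (d2 : 0 < Ce.D) (d3 : 0 < CX.D) (d4 : 0 < CT.D) (d5 : 0 < CE'.D)
    (hl : leafM c gP gN s m Cx CX Ct Ce CT CE' = true) {x t e X T E : ℝ} (m0 : Cx.mem x) (m1 : Ct.mem t)
    (m2 : Ce.mem e) (m3 : CX.mem X) (m4 : CT.mem T) (m5 : CE'.mem E) :
    (m : ℝ) * (cellV c.d gP (ptR x t e X T E) - cellV c.d gN (ptR x t e X T E)) ≤ (s : ℝ) * Rcell c x t e X T E := by
  have hb' := hb
  simp only [Ctx.boundOk, Bool.and_eq_true] at hb'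
  obtain ⟨⟨⟨⟨_, hf1⟩, hf2⟩, _⟩, _⟩ := hb'
  obtain ⟨θ0, p0, a0, b0⟩ := Iv.theta d0 m0
  obtain ⟨θ1, p1, a1, b1⟩ := Iv.theta d1 m1
  obtain ⟨θ2, p2, a2, b2⟩ := Iv.theta d2 m2
  obtain ⟨θ3, p3, a3, b3⟩ := Iv.theta d3 m3
  obtain ⟨θ4, p4, a4, b4⟩ := Iv.theta d4 m4
  obtain ⟨θ5, p5, a5, b5⟩ := Iv.theta d5 m5
  set θ : Fin 6 → ℝ := ![θ0, θ1, θ2, θ3, θ4, θ5] with hθ
  have hpos : ∀ i, 0 ≤ θ i := by
    intro i
    fin_cases i <;> simp [*]
  have key := real_le_of_dom (cell_domM hb hg1 hg2 hl) θ hpos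
  simp only [map_add, map_mul, map_natCast] at key
  rw [aeval_cellF, aeval_cellF, aeval_cellF, aeval_cellF] at key
  have e0 : θ 0 = θ0 := rfl
  have e1 : θ 1 = θ1 := rfl
  have e2 : θ 2 = θ2 := rfl
  have e3 : θ 3 = θ3 := rfl
  have e4 : θ 4 = θ4 := rfl
  have e5 : θ 5 = θ5 := rfl
  simp only [e0, e1, e2, e3, e4, e5, a0, a1, a2, a3, a4, a5] at key
  rw [cell_scale c.d c.TN hf2, cell_scale c.d c.TP hf1, cell_scale c.d gP hg1, cell_scale c.d gN hg2] at key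
  have hC : 0 < Ct.B θ1 ^ c.d.nt * Ce.B θ2 ^ c.d.ne * (CE'.B θ5 ^ c.d.nE * (CT.B θ4 ^ c.d.nT * (Cx.B θ0 ^ c.d.nx * CX.B θ3 ^ c.d.nX))) := by
    positivity
  set C := Ct.B θ1 ^ c.d.nt * Ce.B θ2 ^ c.d.ne * (CE'.B θ5 ^ c.d.nE * (CT.B θ4 ^ c.d.nT * (Cx.B θ0 ^ c.d.nx * CX.B θ3 ^ c.d.nX))) with hCdef
  unfold Rcell
  have h' : ((s : ℝ) * cellV c.d c.TN (ptR x t e X T E) + (m : ℝ) * cellV c.d gP (ptR x t e X T E)) * C
      ≤ ((s : ℝ) * cellV c.d c.TP (ptR x t e X T E) + (m : ℝ) * cellV c.d gN (ptR x t e X T E)) * C := by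
    linarith
  have := le_of_mul_le_mul_right h' hC
  linarith

end leaf

section tree

variable {c : Ctx} {sc sa : Bool} {Cx CX Ct Ce CT CE' : Iv}

/-- The test using a constraint on the first message. -/
noncomputable def multC (c : Ctx) (sc : Bool) (k s m : ℕ) (Cx CX Ct Ce CT CE' : Iv) : Bool :=
  Nat.blt 0 s && shapeOk c.d (ruleC (QQ.cst 1) sc k).2.1 && shapeOk c.d (ruleC (QQ.cst 1) sc k).2.2 &&
  leafM c (ruleC (QQ.cst 1) sc k).2.1 (ruleC (QQ.cst 1) sc k).2.2 s m Cx CX Ct Ce CT CE'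

/-- The test using a constraint on the second message. -/
noncomputable def multA (c : Ctx) (μ : QQ) (sa : Bool) (k s m : ℕ) (Cx CX Ct Ce CT CE' : Iv) : Bool :=
  Nat.blt 0 s && shapeOk c.d (ruleA μ sa k).2.1 && shapeOk c.d (ruleA μ sa k).2.2 &&
  leafM c (ruleA μ sa k).2.1 (ruleA μ sa k).2.2 s m Cx CX Ct Ce CT CE'

lemma shape_fit {d : Dg} {C : Ten (List CE)} (hs : shapeOk d C = true) : fitTen d.nx d.nX C = true := by
  simp only [shapeOk, Bool.and_eq_true] at hs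
  exact hs.1.1.2

lemma Cover_of_le {c : Ctx} {μ : ℝ} {s : ℕ} (hs : 0 < s) {r a : ℝ} (h : (s : ℝ) * r ≥ a) (ha : 0 ≤ a) : 0 ≤ r := by
  have hs' : (0 : ℝ) < s := by exact_mod_cast hs
  by_contra hn
  push Not at hn
  have := mul_neg_of_pos_of_neg hs' hn
  linarith

theorem multC_sound {k s m : ℕ} {μ : ℝ} (hb : c.boundOk = true) (d0 : 0 < Cx.D) (d3 : 0 < CX.D) (d1 : 0 < Ct.D) (d2 : 0 < Ce.D)
    (d4 : 0 < CT.D) (d5 : 0 < CE'.D) (h : multC c sc k s m Cx CX Ct Ce CT CE' = true) :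
    Cover c μ sc sa Cx CX Ct Ce CT CE' := by
  intro x t e X T E m0 m1 m2 m3 m4 m5 p1 p2
  simp only [multC, Bool.and_eq_true, Nat.blt_eq] at h
  obtain ⟨⟨⟨hs, s1⟩, s2⟩, hl⟩ := h
  have key := leafM_sound hb (shape_fit s1) (shape_fit s2) d0 d1 d2 d3 d4 d5 hl m0 m1 m2 m3 m4 m5
  rw [cellV_indep s1 (shapeC1 _ _ _) p1.hx p2.hx, cellV_indep s2 (shapeC2 _ _ _) p1.hx p2.hx] at key
  have hD : Dom (QQ.cst 1).val sc x t e := by
    rw [QQ.val_cst]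
    simpa using p1
  have hr := rvC_nonneg (QQ.pos_cst 1) k (X := X) (T := T) (E := E) hD
  unfold RV at hr
  exact Cover_of_le (c := c) (μ := μ) hs key (mul_nonneg (Nat.cast_nonneg _) hr)

theorem multA_sound {k s m : ℕ} {μ' : QQ} (hμ : μ'.Pos) (hb : c.boundOk = true) (d0 : 0 < Cx.D) (d3 : 0 < CX.D) (d1 : 0 < Ct.D) (d2 : 0 < Ce.D)
    (d4 : 0 < CT.D) (d5 : 0 < CE'.D) (h : multA c μ' sa k s m Cx CX Ct Ce CT CE' = true) :
    Cover c μ'.val sc sa Cx CX Ct Ce CT CE' := by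
  intro x t e X T E m0 m1 m2 m3 m4 m5 p1 p2
  simp only [multA, Bool.and_eq_true, Nat.blt_eq] at h
  obtain ⟨⟨⟨hs, s1⟩, s2⟩, hl⟩ := h
  have key := leafM_sound hb (shape_fit s1) (shape_fit s2) d0 d1 d2 d3 d4 d5 hl m0 m1 m2 m3 m4 m5
  rw [cellV_indep s1 (shapeA1 _ _ _) p1.hx p2.hx, cellV_indep s2 (shapeA2 _ _ _) p1.hx p2.hx] at key
  have hr := rvA_nonneg hμ k (x := x) (t := t) (e := e) p2
  unfold RV at hr
  exact Cover_of_le (c := c) (μ := 0) hs key (mul_nonneg (Nat.cast_nonneg _) hr)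


section listleaf

/-- A constraint polynomial as a difference of two tensors, with a multiplier. -/
abbrev RU := Ten (List CE) × Ten (List CE) × ℕ

def ruP (g : RU) : Ten (List CE) := g.1

def ruN (g : RU) : Ten (List CE) := g.2.1

noncomputable def sumK (c : Ctx) (Cx CX Ct Ce CT CE' : Iv) (f : RU → Ten (List CE)) : List RU → ℕ
  | [] => 0
  | g :: L => Nat.add (Nat.mul g.2.2 (leafK c (f g) Cx CX Ct Ce CT CE')) (sumK c Cx CX Ct Ce CT CE' f L)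

def sumS (c : Ctx) (f : RU → Ten (List CE)) : List RU → ℕ
  | [] => 0
  | g :: L => Nat.add (Nat.mul g.2.2 (sumT4 (numN c.d.nx c.d.nX c.Kxa c.Kxb c.KXa c.KXb (f g)))) (sumS c f L)

noncomputable def polyL (c : Ctx) (Cx Ct Ce CX CT CE' : Iv) (f : RU → Ten (List CE)) : List RU → MP
  | [] => 0
  | g :: L => (g.2.2 : MP) * cellF c.d (f g) Cx Ct Ce CX CT CE' + polyL c Cx Ct Ce CX CT CE' f L

noncomputable def sumV (c : Ctx) (f : RU → Ten (List CE)) (v : Pt ℝ) : List RU → ℝ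
  | [] => 0
  | g :: L => (g.2.2 : ℝ) * cellV c.d (f g) v + sumV c f v L

/-- The bound on the size of the digits. -/
noncomputable def boundL (c : Ctx) (T1 : Ten (List CE)) (b s : ℕ) : Bool :=
  Nat.blt (Nat.mul (Nat.add (Nat.mul s (sumT4 (numN c.d.nx c.d.nX c.Kxa c.Kxb c.KXa c.KXb T1))) b)
    (Nat.mul (Nat.mul (Nat.mul (Nat.pow c.Kt c.d.nt) (Nat.pow c.Ke c.d.ne)) (Nat.pow c.KT c.d.nT)) (Nat.pow c.KE c.d.nE)))
    (Nat.pow 2 (Nat.sub c.w 1))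

/-- The test on a cell for `s * F` minus a combination of constraints. -/
noncomputable def leafL (c : Ctx) (L : List RU) (s : ℕ) (Cx CX Ct Ce CT CE' : Iv) : Bool :=
  Nat.ble (Nat.add Cx.l Cx.h) c.Kxa && Nat.ble (Nat.mul 2 Cx.D) c.Kxb &&
  Nat.ble (Nat.add CX.l CX.h) c.KXa && Nat.ble (Nat.mul 2 CX.D) c.KXb &&
  Iv.bd Ct c.Kt && Iv.bd Ce c.Ke && Iv.bd CT c.KT && Iv.bd CE' c.KE &&
  boundL c c.TP (sumS c ruN L) s && boundL c c.TN (sumS c ruP L) s &&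
  leafDec (Nat.add (Nat.mul s (leafK c c.TP Cx CX Ct Ce CT CE')) (sumK c Cx CX Ct Ce CT CE' ruN L))
    (Nat.add (Nat.mul s (leafK c c.TN Cx CX Ct Ce CT CE')) (sumK c Cx CX Ct Ce CT CE' ruP L))
    (Nat.pow 2 (Nat.mul c.w c.d.total)) (maskF c.w c.d.total)

lemma polyL_deg {c : Ctx} {Cx Ct Ce CX CT CE' : Iv} (f : RU → Ten (List CE)) (L : List RU)
    (h : ∀ g ∈ L, fitTen c.d.nx c.d.nX (f g) = true) :
    DegLe c.d.nx c.d.nt c.d.ne c.d.nX c.d.nT c.d.nE (polyL c Cx Ct Ce CX CT CE' f L) := by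
  induction L with
  | nil => exact DegLe.zero _ _ _ _ _ _
  | cons g L ih =>
    simp only [polyL]
    refine DegLe.add ?_ (ih fun g' hg' => h g' (List.mem_cons_of_mem _ hg'))
    simpa using (DegLe.natCast g.2.2).mul (cellF_deg c.d (f g) Cx Ct Ce CX CT CE' (h g List.mem_cons_self))

lemma polyL_val {c : Ctx} {Cx Ct Ce CX CT CE' : Iv} (f : RU → Ten (List CE)) (L : List RU) :
    aeval (fun i => (2 ^ c.w) ^ c.d.rad i) (polyL c Cx Ct Ce CX CT CE' f L) = sumK c Cx CX Ct Ce CT CE' f L := by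
  induction L with
  | nil => simp [polyL, sumK]
  | cons g L ih =>
    simp only [polyL, sumK, map_add, map_mul, map_natCast, Nat.cast_id]
    rw [ih, leafK_eq]
    rfl

lemma polyL_ones {c : Ctx} {Cx Ct Ce CX CT CE' : Iv} {KK : ℕ} (f : RU → Ten (List CE)) (L : List RU)
    (ones : ∀ T : Ten (List CE), aeval (fun _ => (1 : ℕ)) (cellF c.d T Cx Ct Ce CX CT CE')
      ≤ Nat.mul (sumT4 (numN c.d.nx c.d.nX c.Kxa c.Kxb c.KXa c.KXb T)) KK) :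
    aeval (fun _ => (1 : ℕ)) (polyL c Cx Ct Ce CX CT CE' f L) ≤ Nat.mul (sumS c f L) KK := by
  induction L with
  | nil => simp [polyL, sumS]
  | cons g L ih =>
    simp only [polyL, sumS, map_add, map_mul, map_natCast, Nat.cast_id]
    have o1 := Nat.mul_le_mul_left g.2.2 (ones (f g))
    have e : Nat.mul (Nat.add (Nat.mul g.2.2 (sumT4 (numN c.d.nx c.d.nX c.Kxa c.Kxb c.KXa c.KXb (f g)))) (sumS c f L)) KK
        = g.2.2 * Nat.mul (sumT4 (numN c.d.nx c.d.nX c.Kxa c.Kxb c.KXa c.KXb (f g))) KK + Nat.mul (sumS c f L) KK := by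
      simp only [Nat.mul_eq, Nat.add_eq]
      ring
    rw [e]
    exact Nat.add_le_add o1 ih

lemma polyL_real {c : Ctx} {Cx Ct Ce CX CT CE' : Iv} {θ : Fin 6 → ℝ} {v : Pt ℝ} {C : ℝ} (f : RU → Ten (List CE)) (L : List RU)
    (h : ∀ g ∈ L, aeval θ (cellF c.d (f g) Cx Ct Ce CX CT CE') = cellV c.d (f g) v * C) :
    aeval θ (polyL c Cx Ct Ce CX CT CE' f L) = sumV c f v L * C := by
  induction L with
  | nil => simp [polyL, sumV]
  | cons g L ih =>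
    simp only [polyL, sumV, map_add, map_mul, map_natCast]
    rw [ih fun g' hg' => h g' (List.mem_cons_of_mem _ hg'), h g List.mem_cons_self]
    ring

lemma cell_domL {c : Ctx} {L : List RU} {s : ℕ} {Cx CX Ct Ce CT CE' : Iv} (hb : c.boundOk = true)
    (hg1 : ∀ g ∈ L, fitTen c.d.nx c.d.nX (ruP g) = true) (hg2 : ∀ g ∈ L, fitTen c.d.nx c.d.nX (ruN g) = true)
    (hl : leafL c L s Cx CX Ct Ce CT CE' = true) (a : Fin 6 →₀ ℕ) :
    ((s : MP) * cellF c.d c.TN Cx Ct Ce CX CT CE' + polyL c Cx Ct Ce CX CT CE' ruP L).coeff a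
      ≤ ((s : MP) * cellF c.d c.TP Cx Ct Ce CX CT CE' + polyL c Cx Ct Ce CX CT CE' ruN L).coeff a := by
  simp only [Ctx.boundOk, Bool.and_eq_true, Nat.blt_eq] at hb
  obtain ⟨⟨⟨⟨hw, hf1⟩, hf2⟩, _⟩, _⟩ := hb
  simp only [leafL, leafDec, Iv.bd, Bool.and_eq_true, Nat.blt_eq] at hl
  obtain ⟨⟨⟨⟨⟨⟨⟨⟨⟨⟨q1, q2⟩, q3⟩, q4⟩, k1, k2⟩, k3, k4⟩, k5, k6⟩, k7, k8⟩, bP⟩, bQ⟩, ⟨h1, h2⟩, h3⟩ := hl
  have q1' : Nat.add Cx.l Cx.h ≤ c.Kxa := Nat.le_of_ble_eq_true q1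
  have q2' : Nat.mul 2 Cx.D ≤ c.Kxb := Nat.le_of_ble_eq_true q2
  have q3' : Nat.add CX.l CX.h ≤ c.KXa := Nat.le_of_ble_eq_true q3
  have q4' : Nat.mul 2 CX.D ≤ c.KXb := Nat.le_of_ble_eq_true q4
  have hw' : 1 ≤ c.w := Nat.le_of_ble_eq_true hw
  have k1' := Nat.le_of_ble_eq_true k1
  have k2' := Nat.le_of_ble_eq_true k2
  have k3' := Nat.le_of_ble_eq_true k3
  have k4' := Nat.le_of_ble_eq_true k4
  have k5' := Nat.le_of_ble_eq_true k5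
  have k6' := Nat.le_of_ble_eq_true k6
  have k7' := Nat.le_of_ble_eq_true k7
  have k8' := Nat.le_of_ble_eq_true k8
  have h3' := Nat.eq_of_beq_eq_true h3
  have hM : ∀ (n : ℕ) (T : Ten (List CE)), fitTen c.d.nx c.d.nX T = true →
      DegLe c.d.nx c.d.nt c.d.ne c.d.nX c.d.nT c.d.nE ((n : MP) * cellF c.d T Cx Ct Ce CX CT CE') := by
    intro n T hf
    simpa using (DegLe.natCast n).mul (cellF_deg c.d T Cx Ct Ce CX CT CE' hf)
  have hgP := (hM s c.TP hf1).add (polyL_deg (Cx := Cx) (Ct := Ct) (Ce := Ce) (CX := CX) (CT := CT) (CE' := CE') ruN L hg2)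
  have hgQ := (hM s c.TN hf2).add (polyL_deg (Cx := Cx) (Ct := Ct) (Ce := Ce) (CX := CX) (CT := CT) (CE' := CE') ruP L hg1)
  have hinj := inj_radix hgP hgQ
  have hY : 2 ^ c.w = 2 * 2 ^ (c.w - 1) := by
    conv_lhs => rw [show c.w = (c.w - 1) + 1 by omega, pow_succ]
    ring
  have ones : ∀ T : Ten (List CE), aeval (fun _ => (1 : ℕ)) (cellF c.d T Cx Ct Ce CX CT CE')
      ≤ Nat.mul (sumT4 (numN c.d.nx c.d.nX c.Kxa c.Kxb c.KXa c.KXb T))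
        (Nat.mul (Nat.mul (Nat.mul (Nat.pow c.Kt c.d.nt) (Nat.pow c.Ke c.d.ne)) (Nat.pow c.KT c.d.nT)) (Nat.pow c.KE c.d.nE)) := by
    intro T
    rw [aeval_cellF]
    have e1 : ∀ I : Iv, I.A (1 : ℕ) = Nat.add I.l I.h := by
      intro I
      simp [Iv.A]
    have e2 : ∀ I : Iv, I.B (1 : ℕ) = Nat.mul 2 I.D := by
      intro I
      simp [Iv.B, Nat.mul_comm]
    have := cellV_ones_le (d := c.d) T (⟨Cx.A (1 : ℕ), Cx.B (1 : ℕ), Ct.A (1 : ℕ), Ct.B (1 : ℕ), Ce.A (1 : ℕ), Ce.B (1 : ℕ),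
        CX.A (1 : ℕ), CX.B (1 : ℕ), CT.A (1 : ℕ), CT.B (1 : ℕ), CE'.A (1 : ℕ), CE'.B (1 : ℕ)⟩ : Pt ℕ)
      (Kt := c.Kt) (Ke := c.Ke) (KT := c.KT) (KE := c.KE)
      (by simpa only [e1] using k1') (by simpa only [e2] using k2') (by simpa only [e1] using k3')
      (by simpa only [e2] using k4') (by simpa only [e1] using k5') (by simpa only [e2] using k6')
      (by simpa only [e1] using k7') (by simpa only [e2] using k8')
    refine this.trans (le_trans (le_of_eq ?_) (Nat.mul_le_mul_right _ (sumT4_numN_mono (nx := c.d.nx) (nX := c.d.nX)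
      (ax := Nat.add Cx.l Cx.h) (bx := Nat.mul 2 Cx.D) (aX := Nat.add CX.l CX.h) (bX := Nat.mul 2 CX.D) q1' q2' q3' q4' T)))
    have e3 : ∀ I : Iv, Nat.add I.l I.h = I.A (1 : ℕ) := fun I => (e1 I).symm
    have e4 : ∀ I : Iv, Nat.mul 2 I.D = I.B (1 : ℕ) := fun I => (e2 I).symm
    simp only [numN_eq, e3, e4]
    rfl
  have ones2 : ∀ (T1 : Ten (List CE)) (f : RU → Ten (List CE)), boundL c T1 (sumS c f L) s = true →
      aeval (fun _ => (1 : ℕ)) ((s : MP) * cellF c.d T1 Cx Ct Ce CX CT CE' + polyL c Cx Ct Ce CX CT CE' f L)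
        < 2 ^ (c.w - 1) := by
    intro T1 f hb
    have hlt : Nat.mul (Nat.add (Nat.mul s (sumT4 (numN c.d.nx c.d.nX c.Kxa c.Kxb c.KXa c.KXb T1))) (sumS c f L))
        (Nat.mul (Nat.mul (Nat.mul (Nat.pow c.Kt c.d.nt) (Nat.pow c.Ke c.d.ne)) (Nat.pow c.KT c.d.nT)) (Nat.pow c.KE c.d.nE))
        < Nat.pow 2 (Nat.sub c.w 1) := by
      simpa [boundL, Nat.blt_eq] using hb
    refine lt_of_le_of_lt ?_ hlt
    simp only [map_add, map_mul, map_natCast, Nat.cast_id]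
    have o1 := Nat.mul_le_mul_left s (ones T1)
    have o2 := polyL_ones (Cx := Cx) (Ct := Ct) (Ce := Ce) (CX := CX) (CT := CT) (CE' := CE') f L ones
    have e : Nat.mul (Nat.add (Nat.mul s (sumT4 (numN c.d.nx c.d.nX c.Kxa c.Kxb c.KXa c.KXb T1))) (sumS c f L))
        (Nat.mul (Nat.mul (Nat.mul (Nat.pow c.Kt c.d.nt) (Nat.pow c.Ke c.d.ne)) (Nat.pow c.KT c.d.nT)) (Nat.pow c.KE c.d.nE))
        = s * Nat.mul (sumT4 (numN c.d.nx c.d.nX c.Kxa c.Kxb c.KXa c.KXb T1))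
            (Nat.mul (Nat.mul (Nat.mul (Nat.pow c.Kt c.d.nt) (Nat.pow c.Ke c.d.ne)) (Nat.pow c.KT c.d.nT)) (Nat.pow c.KE c.d.nE))
          + Nat.mul (sumS c f L)
            (Nat.mul (Nat.mul (Nat.mul (Nat.pow c.Kt c.d.nt) (Nat.pow c.Ke c.d.ne)) (Nat.pow c.KT c.d.nT)) (Nat.pow c.KE c.d.nE)) := by
      simp only [Nat.mul_eq, Nat.add_eq]
      ring
    rw [e]
    exact Nat.add_le_add o1 o2
  set NP := Nat.add (Nat.mul s (leafK c c.TP Cx CX Ct Ce CT CE')) (sumK c Cx CX Ct Ce CT CE' ruN L) with hNP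
  set NQ := Nat.add (Nat.mul s (leafK c c.TN Cx CX Ct Ce CT CE')) (sumK c Cx CX Ct Ce CT CE' ruP L) with hNQ
  have hN : NP = NQ + (NP - NQ) := by
    have : NQ ≤ NP := Nat.le_of_ble_eq_true h1
    omega
  have hlt : NP - NQ < (2 ^ c.w) ^ c.d.total := by
    have e : (2 ^ c.w) ^ c.d.total = 2 ^ (c.w * c.d.total) := (pow_mul 2 c.w c.d.total).symm
    rw [e]
    exact h2
  have hland : (NP - NQ) &&& maskN c.w c.d.total = 0 := by
    rw [← maskF_eq hw']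
    exact h3'
  have hd := digits_of_land hw' hlt hland
  have val : ∀ (T1 : Ten (List CE)) (f : RU → Ten (List CE)), aeval (fun i => (2 ^ c.w) ^ c.d.rad i)
      ((s : MP) * cellF c.d T1 Cx Ct Ce CX CT CE' + polyL c Cx Ct Ce CX CT CE' f L)
        = Nat.add (Nat.mul s (leafK c T1 Cx CX Ct Ce CT CE')) (sumK c Cx CX Ct Ce CT CE' f L) := by
    intro T1 f
    simp only [map_add, map_mul, map_natCast, Nat.cast_id]
    rw [polyL_val, leafK_eq]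
    rfl
  refine dom_of_digits (e := c.d.rad) hinj hY (ones2 _ _ bP) (ones2 _ _ bQ) ?_ hd a
  rw [val, val]
  exact hN

/-- The inequality on a cell from the test. -/
theorem leafL_sound {c : Ctx} {L : List RU} {s : ℕ} {Cx CX Ct Ce CT CE' : Iv} (hb : c.boundOk = true)
    (hg1 : ∀ g ∈ L, fitTen c.d.nx c.d.nX (ruP g) = true) (hg2 : ∀ g ∈ L, fitTen c.d.nx c.d.nX (ruN g) = true)
    (d0 : 0 < Cx.D) (d1 : 0 < Ct.D) (d2 : 0 < Ce.D) (d3 : 0 < CX.D) (d4 : 0 < CT.D) (d5 : 0 < CE'.D)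
    (hl : leafL c L s Cx CX Ct Ce CT CE' = true) {x t e X T E : ℝ} (m0 : Cx.mem x) (m1 : Ct.mem t)
    (m2 : Ce.mem e) (m3 : CX.mem X) (m4 : CT.mem T) (m5 : CE'.mem E) :
    sumV c ruP (ptR x t e X T E) L - sumV c ruN (ptR x t e X T E) L ≤ (s : ℝ) * Rcell c x t e X T E := by
  have hb' := hb
  simp only [Ctx.boundOk, Bool.and_eq_true] at hb'
  obtain ⟨⟨⟨⟨_, hf1⟩, hf2⟩, _⟩, _⟩ := hb'
  obtain ⟨θ0, p0, a0, b0⟩ := Iv.theta d0 m0
  obtain ⟨θ1, p1, a1, b1⟩ := Iv.theta d1 m1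
  obtain ⟨θ2, p2, a2, b2⟩ := Iv.theta d2 m2
  obtain ⟨θ3, p3, a3, b3⟩ := Iv.theta d3 m3
  obtain ⟨θ4, p4, a4, b4⟩ := Iv.theta d4 m4
  obtain ⟨θ5, p5, a5, b5⟩ := Iv.theta d5 m5
  set θ : Fin 6 → ℝ := ![θ0, θ1, θ2, θ3, θ4, θ5] with hθ
  have hpos : ∀ i, 0 ≤ θ i := by
    intro i
    fin_cases i <;> simp [*]
  have key := real_le_of_dom (cell_domL hb hg1 hg2 hl) θ hpos
  have e0 : θ 0 = θ0 := rfl
  have e1 : θ 1 = θ1 := rfl
  have e2 : θ 2 = θ2 := rfl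
  have e3 : θ 3 = θ3 := rfl
  have e4 : θ 4 = θ4 := rfl
  have e5 : θ 5 = θ5 := rfl
  have hC : 0 < Ct.B θ1 ^ c.d.nt * Ce.B θ2 ^ c.d.ne * (CE'.B θ5 ^ c.d.nE * (CT.B θ4 ^ c.d.nT * (Cx.B θ0 ^ c.d.nx * CX.B θ3 ^ c.d.nX))) := by
    positivity
  set C := Ct.B θ1 ^ c.d.nt * Ce.B θ2 ^ c.d.ne * (CE'.B θ5 ^ c.d.nE * (CT.B θ4 ^ c.d.nT * (Cx.B θ0 ^ c.d.nx * CX.B θ3 ^ c.d.nX))) with hCdef
  have hA : ∀ G : Ten (List CE), fitTen c.d.nx c.d.nX G = true →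
      aeval θ (cellF c.d G Cx Ct Ce CX CT CE') = cellV c.d G (ptR x t e X T E) * C := by
    intro G hf
    rw [aeval_cellF]
    simp only [e0, e1, e2, e3, e4, e5, a0, a1, a2, a3, a4, a5]
    exact cell_scale c.d G hf _ _ _ _ _ _ _ _ _ _ _ _
  simp only [map_add, map_mul, map_natCast] at key
  rw [hA _ hf1, hA _ hf2, polyL_real ruP L (fun g hg => hA _ (hg1 g hg)), polyL_real ruN L (fun g hg => hA _ (hg2 g hg))] at key
  unfold Rcell
  have h' : ((s : ℝ) * cellV c.d c.TN (ptR x t e X T E) + sumV c ruP (ptR x t e X T E) L) * C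
      ≤ ((s : ℝ) * cellV c.d c.TP (ptR x t e X T E) + sumV c ruN (ptR x t e X T E) L) * C := by
    linarith
  have := le_of_mul_le_mul_right h' hC
  linarith

/-- The validity of a combination of constraints. -/
def RuleOK (μ : ℝ) (sc sa : Bool) (g : RU) : Prop :=
  ∀ x t e X T E : ℝ, Dom 1 sc x t e → Dom μ sa X T E → ∀ d : Dg, shapeOk d g.1 = true → shapeOk d g.2.1 = true →
    0 ≤ cellV d g.1 (ptR x t e X T E) - cellV d g.2.1 (ptR x t e X T E)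

lemma ruleC_ok (μ : ℝ) (sc sa : Bool) (k m : ℕ) :
    RuleOK μ sc sa ((ruleC (QQ.cst 1) sc k).2.1, (ruleC (QQ.cst 1) sc k).2.2, m) := by
  intro x t e X T E p1 p2 d s1 s2
  simp only at s1 s2 ⊢
  rw [cellV_indep s1 (shapeC1 _ _ _) p1.hx p2.hx, cellV_indep s2 (shapeC2 _ _ _) p1.hx p2.hx]
  have hD : Dom (QQ.cst 1).val sc x t e := by
    rw [QQ.val_cst]
    simpa using p1
  have hr := rvC_nonneg (QQ.pos_cst 1) k (X := X) (T := T) (E := E) hD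
  unfold RV at hr
  exact hr

lemma ruleA_ok {μ' : QQ} (hμ : μ'.Pos) (sc sa : Bool) (k m : ℕ) :
    RuleOK μ'.val sc sa ((ruleA μ' sa k).2.1, (ruleA μ' sa k).2.2, m) := by
  intro x t e X T E p1 p2 d s1 s2
  simp only at s1 s2 ⊢
  rw [cellV_indep s1 (shapeA1 _ _ _) p1.hx p2.hx, cellV_indep s2 (shapeA2 _ _ _) p1.hx p2.hx]
  have hr := rvA_nonneg hμ k (x := x) (t := t) (e := e) p2
  unfold RV at hr
  exact hr

/-- A constraint, given by a digit, with its multiplier. -/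
def ruleOf (μ : QQ) (sc sa : Bool) (r m : ℕ) : RU :=
  bif Nat.blt r 7 then ((ruleC (QQ.cst 1) sc r).2.1, (ruleC (QQ.cst 1) sc r).2.2, m)
  else ((ruleA μ sa (Nat.sub r 7)).2.1, (ruleA μ sa (Nat.sub r 7)).2.2, m)

lemma ruleOf_ok {μ' : QQ} (hμ : μ'.Pos) (sc sa : Bool) (r m : ℕ) : RuleOK μ'.val sc sa (ruleOf μ' sc sa r m) := by
  unfold ruleOf
  cases Nat.blt r 7 with
  | true => exact ruleC_ok _ _ _ _ _
  | false => exact ruleA_ok hμ _ _ _ _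

/-- The constraints used at a cell, read from the code. -/
def readRules (μ : QQ) (sc sa : Bool) : ℕ → ℕ → List RU → List RU × ℕ
  | 0, code, acc => (acc, code)
  | n + 1, code, acc =>
    readRules μ sc sa n (Nat.div (Nat.div code 4096) (Nat.pow 16 (Nat.mod (Nat.div code 256) 16)))
      (ruleOf μ sc sa (Nat.mod code 16)
        (Nat.mul (Nat.mod (Nat.div code 4096) (Nat.pow 16 (Nat.mod (Nat.div code 256) 16)))
          (Nat.pow 16 (Nat.mod (Nat.div code 16) 16))) :: acc)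

lemma readRules_ok {μ' : QQ} (hμ : μ'.Pos) (sc sa : Bool) (n code : ℕ) (acc : List RU)
    (h : ∀ g ∈ acc, RuleOK μ'.val sc sa g) : ∀ g ∈ (readRules μ' sc sa n code acc).1, RuleOK μ'.val sc sa g := by
  induction n generalizing code acc with
  | zero => simpa [readRules] using h
  | succ n ih =>
    simp only [readRules]
    refine ih _ _ ?_
    intro g hg
    rcases List.mem_cons.mp hg with rfl | hg'
    · exact ruleOf_ok hμ _ _ _ _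
    · exact h g hg'

/-- The test using a combination of constraints. -/
noncomputable def testL (c : Ctx) (L : List RU) (s : ℕ) (Cx CX Ct Ce CT CE' : Iv) : Bool :=
  Nat.blt 0 s && L.all (fun g => shapeOk c.d g.1 && shapeOk c.d g.2.1) && leafL c L s Cx CX Ct Ce CT CE'

lemma sumV_le {c : Ctx} {v : Pt ℝ} (L : List RU)
    (h : ∀ g ∈ L, 0 ≤ cellV c.d g.1 v - cellV c.d g.2.1 v) : sumV c ruN v L ≤ sumV c ruP v L := by
  induction L with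
  | nil => simp [sumV]
  | cons g L ih =>
    simp only [sumV, ruP, ruN]
    have h1 := h g List.mem_cons_self
    have h2 := ih fun g' hg' => h g' (List.mem_cons_of_mem _ hg')
    have h3 := mul_nonneg (Nat.cast_nonneg (α := ℝ) g.2.2) h1
    linarith

theorem testL_sound {c : Ctx} {μ : ℝ} {sc sa : Bool} {L : List RU} {s : ℕ} {Cx CX Ct Ce CT CE' : Iv} (hb : c.boundOk = true)
    (d0 : 0 < Cx.D) (d3 : 0 < CX.D) (d1 : 0 < Ct.D) (d2 : 0 < Ce.D)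
    (d4 : 0 < CT.D) (d5 : 0 < CE'.D) (hL : ∀ g ∈ L, RuleOK μ sc sa g) (h : testL c L s Cx CX Ct Ce CT CE' = true) :
    Cover c μ sc sa Cx CX Ct Ce CT CE' := by
  intro x t e X T E m0 m1 m2 m3 m4 m5 p1 p2
  simp only [testL, Bool.and_eq_true, Nat.blt_eq, List.all_eq_true] at h
  obtain ⟨⟨hs, hall⟩, hl⟩ := h
  have key := leafL_sound hb (fun g hg => shape_fit (hall g hg).1) (fun g hg => shape_fit (hall g hg).2)
    d0 d1 d2 d3 d4 d5 hl m0 m1 m2 m3 m4 m5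
  have hle := sumV_le (c := c) (v := ptR x t e X T E) L
    (fun g hg => hL g hg x t e X T E p1 p2 c.d (hall g hg).1 (hall g hg).2)
  have hs' : (0 : ℝ) < s := by exact_mod_cast hs
  by_contra hn
  push Not at hn
  have := mul_neg_of_pos_of_neg hs' hn
  linarith

end listleaf

/-- The check of a subdivision, with the tests using constraints. -/
noncomputable def treeM (c : Ctx) (μ : QQ) (sc sa : Bool) : ℕ → Iv → Iv → Iv → Iv → Iv → Iv → ℕ → Option ℕ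
  | 0, _, _, _, _, _, _, _ => none
  | f + 1, Cx, CX, Ct, Ce, CT, CE', code =>
    match Nat.mod code 16 with
    | 0 => bif leafTest c Cx CX Ct Ce CT CE' then some (Nat.div code 16) else none
    | 1 =>
      bif exclTest (QQ.cst 1) sc (Nat.mod (Nat.div code 16) 16) Cx Ct Ce then
        some (Nat.div (Nat.div code 16) 16) else none
    | 2 =>
      bif exclTest μ sa (Nat.mod (Nat.div code 16) 16) CX CT CE' then
        some (Nat.div (Nat.div code 16) 16) else none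
    | 3 =>
      match treeM c μ sc sa f Cx CX Ct.left Ce CT CE' (Nat.div code 16) with
      | none => none
      | some code' => treeM c μ sc sa f Cx CX Ct.right Ce CT CE' code'
    | 4 =>
      match treeM c μ sc sa f Cx CX Ct Ce.left CT CE' (Nat.div code 16) with
      | none => none
      | some code' => treeM c μ sc sa f Cx CX Ct Ce.right CT CE' code'
    | 5 =>
      match treeM c μ sc sa f Cx CX Ct Ce CT.left CE' (Nat.div code 16) with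
      | none => none
      | some code' => treeM c μ sc sa f Cx CX Ct Ce CT.right CE' code'
    | 6 =>
      match treeM c μ sc sa f Cx CX Ct Ce CT CE'.left (Nat.div code 16) with
      | none => none
      | some code' => treeM c μ sc sa f Cx CX Ct Ce CT CE'.right code'
    | 7 =>
      match treeM c μ sc sa f Cx.left CX Ct Ce CT CE' (Nat.div code 16) with
      | none => none
      | some code' => treeM c μ sc sa f Cx.right CX Ct Ce CT CE' code'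
    | 8 =>
      match treeM c μ sc sa f Cx CX.left Ct Ce CT CE' (Nat.div code 16) with
      | none => none
      | some code' => treeM c μ sc sa f Cx CX.right Ct Ce CT CE' code'
    | 9 =>
      bif exclB (QQ.cst 1) sc (Nat.mod (Nat.div code 16) 16) Cx Ct Ce then
        some (Nat.div (Nat.div code 16) 16) else none
    | 10 =>
      bif exclB μ sa (Nat.mod (Nat.div code 16) 16) CX CT CE' then
        some (Nat.div (Nat.div code 16) 16) else none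
    | 11 =>
      bif multC c sc (Nat.mod (Nat.div code 16) 16) (Nat.pow 16 (Nat.mod (Nat.div code 256) 16))
          (Nat.mul (Nat.mod (Nat.div code 1048576) (Nat.pow 16 (Nat.mod (Nat.div code 65536) 16))) (Nat.pow 16 (Nat.mod (Nat.div code 4096) 16))) Cx CX Ct Ce CT CE' then
        some (Nat.div (Nat.div code 1048576) (Nat.pow 16 (Nat.mod (Nat.div code 65536) 16))) else none
    | 12 =>
      bif multA c μ sa (Nat.mod (Nat.div code 16) 16) (Nat.pow 16 (Nat.mod (Nat.div code 256) 16))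
          (Nat.mul (Nat.mod (Nat.div code 1048576) (Nat.pow 16 (Nat.mod (Nat.div code 65536) 16))) (Nat.pow 16 (Nat.mod (Nat.div code 4096) 16))) Cx CX Ct Ce CT CE' then
        some (Nat.div (Nat.div code 1048576) (Nat.pow 16 (Nat.mod (Nat.div code 65536) 16))) else none
    | 13 =>
      bif testL c (readRules μ sc sa (Nat.mod (Nat.div code 256) 16) (Nat.div code 4096) []).1
          (Nat.pow 16 (Nat.mod (Nat.div code 16) 16)) Cx CX Ct Ce CT CE' then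
        some (readRules μ sc sa (Nat.mod (Nat.div code 256) 16) (Nat.div code 4096) []).2 else none
    | _ => none

/-- The check for one chunk of a subdivision. -/
noncomputable def chunkOkM (c : Ctx) (μ : QQ) (sc sa : Bool) (f : ℕ) (Cx CX Ct Ce CT CE' : Iv) (code : ℕ) : Bool :=
  Nat.blt 0 Cx.D && Nat.blt 0 CX.D && Nat.blt 0 Ct.D && Nat.blt 0 Ce.D && Nat.blt 0 CT.D && Nat.blt 0 CE'.D &&
  Nat.blt 0 μ.d && c.boundOk && (treeM c μ sc sa f Cx CX Ct Ce CT CE' code).isSome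

theorem treeM_sound {μ' : QQ} (hμ : μ'.Pos) (hb : c.boundOk = true) (f : ℕ) :
    ∀ {Cx CX Ct Ce CT CE' : Iv} {code code' : ℕ}, 0 < Cx.D → 0 < CX.D → 0 < Ct.D → 0 < Ce.D → 0 < CT.D → 0 < CE'.D →
      treeM c μ' sc sa f Cx CX Ct Ce CT CE' code = some code' → Cover c μ'.val sc sa Cx CX Ct Ce CT CE' := by
  induction f with
  | zero =>
    intro Cx CX Ct Ce CT CE' code code' _ _ _ _ _ _ h
    simp [treeM] at h
  | succ f ih =>
    intro Cx CX Ct Ce CT CE' code code' h0 h3 d1 d2 d4 d5 h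
    rw [treeM] at h
    split at h
    · -- a tested cell
      cases hl : leafTest c Cx CX Ct Ce CT CE' with
      | false => simp [hl] at h
      | true =>
        intro x t e X T E m0 m1 m2 m3 m4 m5 _ _
        exact leaf_sound hb h0 d1 d2 h3 d4 d5 hl m0 m1 m2 m3 m4 m5
    · -- excluded by the constraints on the first message
      cases hl : exclTest (QQ.cst 1) sc (Nat.mod (Nat.div code 16) 16) Cx Ct Ce with
      | false => simp [hl] at h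
      | true =>
        intro x t e X T E m0 m1 m2 m3 m4 m5 p1 p2
        exfalso
        refine exclTest_sound (QQ.pos_cst 1) h0 d1 d2 hl m0 m1 m2 ?_
        rw [QQ.val_cst]
        simpa using p1
    · -- excluded by the constraints on the second message
      cases hl : exclTest μ' sa (Nat.mod (Nat.div code 16) 16) CX CT CE' with
      | false => simp [hl] at h
      | true =>
        intro x t e X T E m0 m1 m2 m3 m4 m5 p1 p2
        exact (exclTest_sound hμ h3 d4 d5 hl m3 m4 m5 p2).elim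
    · split at h
      · simp at h
      · rename_i code'' h2
        exact Cover.split_t (ih h0 h3 (Iv.left_D d1) d2 d4 d5 h2) (ih h0 h3 (Iv.right_D d1) d2 d4 d5 h)
    · split at h
      · simp at h
      · rename_i code'' h2
        exact Cover.split_e (ih h0 h3 d1 (Iv.left_D d2) d4 d5 h2) (ih h0 h3 d1 (Iv.right_D d2) d4 d5 h)
    · split at h
      · simp at h
      · rename_i code'' h2
        exact Cover.split_T (ih h0 h3 d1 d2 (Iv.left_D d4) d5 h2) (ih h0 h3 d1 d2 (Iv.right_D d4) d5 h)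
    · split at h
      · simp at h
      · rename_i code'' h2
        exact Cover.split_E (ih h0 h3 d1 d2 d4 (Iv.left_D d5) h2) (ih h0 h3 d1 d2 d4 (Iv.right_D d5) h)
    · split at h
      · simp at h
      · rename_i code'' h2
        exact Cover.split_x (ih (Iv.left_D h0) h3 d1 d2 d4 d5 h2) (ih (Iv.right_D h0) h3 d1 d2 d4 d5 h)
    · split at h
      · simp at h
      · rename_i code'' h2
        exact Cover.split_X (ih h0 (Iv.left_D h3) d1 d2 d4 d5 h2) (ih h0 (Iv.right_D h3) d1 d2 d4 d5 h)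
    · cases hl : exclB (QQ.cst 1) sc (Nat.mod (Nat.div code 16) 16) Cx Ct Ce with
      | false => simp [hl] at h
      | true =>
        intro x t e X T E m0 m1 m2 m3 m4 m5 p1 p2
        exfalso
        refine exclB_sound (QQ.pos_cst 1) h0 d1 d2 hl m0 m1 m2 ?_
        rw [QQ.val_cst]
        simpa using p1
    · cases hl : exclB μ' sa (Nat.mod (Nat.div code 16) 16) CX CT CE' with
      | false => simp [hl] at h
      | true =>
        intro x t e X T E m0 m1 m2 m3 m4 m5 p1 p2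
        exact (exclB_sound hμ h3 d4 d5 hl m3 m4 m5 p2).elim
    · cases hl : multC c sc (Nat.mod (Nat.div code 16) 16) (Nat.pow 16 (Nat.mod (Nat.div code 256) 16))
          (Nat.mul (Nat.mod (Nat.div code 1048576) (Nat.pow 16 (Nat.mod (Nat.div code 65536) 16))) (Nat.pow 16 (Nat.mod (Nat.div code 4096) 16))) Cx CX Ct Ce CT CE' with
      | false => rw [hl] at h; simp at h
      | true => exact multC_sound hb h0 h3 d1 d2 d4 d5 hl
    · cases hl : multA c μ' sa (Nat.mod (Nat.div code 16) 16) (Nat.pow 16 (Nat.mod (Nat.div code 256) 16))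
          (Nat.mul (Nat.mod (Nat.div code 1048576) (Nat.pow 16 (Nat.mod (Nat.div code 65536) 16))) (Nat.pow 16 (Nat.mod (Nat.div code 4096) 16))) Cx CX Ct Ce CT CE' with
      | false => rw [hl] at h; simp at h
      | true => exact multA_sound hμ hb h0 h3 d1 d2 d4 d5 hl
    · cases hl : testL c (readRules μ' sc sa (Nat.mod (Nat.div code 256) 16) (Nat.div code 4096) []).1
          (Nat.pow 16 (Nat.mod (Nat.div code 16) 16)) Cx CX Ct Ce CT CE' with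
      | false => rw [hl] at h; simp at h
      | true => exact testL_sound hb h0 h3 d1 d2 d4 d5 (readRules_ok hμ sc sa _ _ [] (by simp)) hl
    · simp at h

theorem chunkM_sound {μ' : QQ} {f code : ℕ} (h : chunkOkM c μ' sc sa f Cx CX Ct Ce CT CE' code = true) :
    Cover c μ'.val sc sa Cx CX Ct Ce CT CE' := by
  simp only [chunkOkM, Bool.and_eq_true, Nat.blt_eq, Option.isSome_iff_exists] at h
  obtain ⟨⟨⟨⟨⟨⟨⟨⟨d0, d3⟩, d1⟩, d2⟩, d4⟩, d5⟩, hμ⟩, hb⟩, code', ht⟩ := h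
  exact treeM_sound hμ hb f d0 d3 d1 d2 d4 d5 ht

end tree

lemma LitT.cov_of_chunkM {L : LitT} {μ' : QQ} {sc sa : Bool} {Cx CX Ct Ce CT CE' : Iv}
    {w Kxa Kxb KXa KXb Kt Ke KT KE f code : ℕ}
    (h : chunkOkM (L.ctx sc sa w Kxa Kxb KXa KXb Kt Ke KT KE) μ' sc sa f Cx CX Ct Ce CT CE' code = true) :
    L.Cov μ'.val sc sa Cx CX Ct Ce CT CE' := by
  intro x t e X T E m0 m1 m2 m3 m4 m5 d1 d2
  exact (chunkM_sound h) x t e X T E m0 m1 m2 m3 m4 m5 d1 d2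

end Vale.Agent.helper4.Q4
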